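import Crest.Agent.R225.Defs

/-!
# Row 225: Psi
One-dimensional Gaussian facts.  `rep t ∈ (0,1]`; integrals over the circle are integrals over `Ioc 0 1`
(`UnitAddCircle.integral_preimage`), so `∫ l * F (l * rep t) = ∫ x in 0..l, F x`.
* `psi_mass`: `∫_0^l (φ(x) + φ(x-l)) = ∫_{-l}^l φ`, tail `∫_l^∞ φ ≤ e^{-l²/2} ∫_0^∞ φ` (substitute `x = l + y`).
* `psi_log`: `u (log u)² ≤ 16 e^{-2} √u ≤ 3 √u` on `(0,1]` (from `-log v ≤ ...` with `v = u^{1/4}`),
  `√(a+b) ≤ √a + √b`, `∫_ℝ √φ = (2π)^{-1/4} √(4π) ≤ 3` (`integral_gaussian`).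
* `psi_act`: `2ab/(a+b) ≥ min a b`, restrict to `x ∈ [l/2, l/2 + 1/l]` where `min = φ(x) ≥ φ(l/2+1/l)`.
* `riemann`: monotonicity of `φ` on each half line (`AntitoneOn.integral_le_sum` or cell by cell).
-/

set_option autoImplicit false

open MeasureTheory ProbabilityTheory Matrix Filter Topology
open scoped ENNReal RealInnerProductSpace

noncomputable section

namespace Crest.Agent.R225

theorem Psi_ph_eq : ph = gaussianPDFReal 0 1 := by
  funext t
  simp [ph, gaussianPDFReal]

theorem Psi_c_le : (√(2 * Real.pi))⁻¹ ≤ 1 / 2 := by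
  rw [one_div]
  refine inv_anti₀ two_pos (Real.le_sqrt_of_sq_le ?_)
  linarith [Real.two_le_pi]

theorem Psi_le_c : 1 / 3 ≤ (√(2 * Real.pi))⁻¹ := by
  rw [one_div]
  refine inv_anti₀ (by positivity) (Real.sqrt_le_iff.2 ⟨by norm_num, ?_⟩)
  linarith [Real.pi_le_four]

theorem ph_pos (t : ℝ) : 0 < ph t := by
  unfold ph
  positivity

theorem ph_le_half (t : ℝ) : ph t ≤ 1 / 2 := by
  have h : Real.exp (-t ^ 2 / 2) ≤ 1 := Real.exp_le_one_iff.2 (by nlinarith [sq_nonneg t])
  calc ph t ≤ 1 / 2 * 1 := mul_le_mul Psi_c_le h (Real.exp_pos _).le (by norm_num)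
    _ = 1 / 2 := mul_one _

theorem ph_neg (t : ℝ) : ph (-t) = ph t := by simp [ph]

theorem ph_anti {s t : ℝ} (h : |s| ≤ |t|) : ph t ≤ ph s := by
  have h' : s ^ 2 ≤ t ^ 2 := sq_le_sq.2 h
  unfold ph
  gcongr

@[fun_prop] theorem continuous_ph : Continuous ph := by
  unfold ph
  fun_prop

theorem integrable_ph : Integrable ph := Psi_ph_eq ▸ integrable_gaussianPDFReal 0 1

theorem integral_ph : ∫ t, ph t = 1 := by
  rw [Psi_ph_eq]
  exact integral_gaussianPDFReal_eq_one 0 one_ne_zero

theorem Psi_tail {U x : ℝ} (hU : 0 ≤ U) (hx : U ≤ x) :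
    ph x ≤ Real.exp (-U ^ 2 / 2) * ph (x - U) := by
  unfold ph
  rw [mul_left_comm, ← Real.exp_add]
  gcongr
  nlinarith [mul_nonneg hU (sub_nonneg.2 hx)]

theorem integral_ph_Icc {U : ℝ} (hU : 0 ≤ U) :
    1 - 2 * Real.exp (-U ^ 2 / 2) ≤ ∫ t in Set.Icc (-U) U, ph t := by
  have h1 : Integrable fun x => ph (x - U) := integrable_ph.comp_sub_right U
  have h2 : Integrable fun x => ph (x + U) := integrable_ph.comp_add_right U
  have h3 : Integrable ((Set.Icc (-U) U).indicator ph) := integrable_ph.indicator measurableSet_Icc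
  have h4 : Integrable fun x => Real.exp (-U ^ 2 / 2) * (ph (x - U) + ph (x + U)) :=
    (h1.add h2).const_mul _
  have key : ∫ x, ph x ≤ ∫ x, ((Set.Icc (-U) U).indicator ph x +
      Real.exp (-U ^ 2 / 2) * (ph (x - U) + ph (x + U))) := by
    refine integral_mono integrable_ph (h3.add h4) fun x => ?_
    have e0 := Real.exp_pos (-U ^ 2 / 2)
    have p1 := mul_pos e0 (ph_pos (x - U))
    have p2 := mul_pos e0 (ph_pos (x + U))
    by_cases hx : x ∈ Set.Icc (-U) U
    · simp only [Set.indicator_of_mem hx]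
      linarith
    · simp only [Set.indicator_of_notMem hx]
      rw [Set.mem_Icc, not_and_or, not_le, not_le] at hx
      rcases hx with hx | hx
      · have := Psi_tail (x := -x) hU (by linarith)
        rw [ph_neg, show -x - U = -(x + U) by ring, ph_neg] at this
        linarith
      · have := Psi_tail hU hx.le
        linarith
  rw [integral_add h3 h4, integral_const_mul, integral_add h1 h2,
    integral_sub_right_eq_self ph U, integral_add_right_eq_self ph U, integral_ph,
    integral_indicator measurableSet_Icc] at key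
  linarith

theorem gz_pos {ι : Type} [Fintype ι] (v : ι → ℝ) : 0 < gz v :=
  Finset.prod_pos fun _ _ => ph_pos _

theorem gz_le_zero {ι : Type} [Fintype ι] (v : ι → ℝ) : gz v ≤ gz (0 : ι → ℝ) :=
  Finset.prod_le_prod (fun _ _ => (ph_pos _).le) fun _ _ => ph_anti (by simp)

theorem gz_sum {ι κ : Type} [Fintype ι] [Fintype κ] (v : ι ⊕ κ → ℝ) :
    gz v = gz (fun i => v (Sum.inl i)) * gz fun i => v (Sum.inr i) :=
  Fintype.prod_sum_type _

/-- small perturbations change the Gaussian weight little -/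
theorem gz_perturb {ι : Type} [Fintype ι] {v v' : ι → ℝ} {R δ : ℝ} (hv : ∀ i, |v i| ≤ R)
    (hd : ∀ i, |v' i - v i| ≤ δ) :
    Real.exp (-(Fintype.card ι * (R * δ + δ ^ 2 / 2))) * gz v ≤ gz v' := by
  have h : Real.exp (-(Fintype.card ι * (R * δ + δ ^ 2 / 2))) =
      ∏ _i : ι, Real.exp (-(R * δ + δ ^ 2 / 2)) := by
    rw [Finset.prod_const, Finset.card_univ, ← Real.exp_nat_mul, mul_neg]
  rw [h, gz, gz, ← Finset.prod_mul_distrib]
  refine Finset.prod_le_prod (fun i _ => (mul_pos (Real.exp_pos _) (ph_pos _)).le) fun i _ => ?_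
  unfold ph
  rw [mul_left_comm, ← Real.exp_add]
  gcongr
  have h1 : (v' i - v i) ^ 2 ≤ δ ^ 2 := by
    rw [← sq_abs]
    exact pow_le_pow_left₀ (abs_nonneg _) (hd i) 2
  have h2 : v i * (v' i - v i) ≤ R * δ := by
    refine (le_abs_self _).trans ?_
    rw [abs_mul]
    exact mul_le_mul (hv i) (hd i) (abs_nonneg _) ((abs_nonneg _).trans (hv i))
  nlinarith

theorem rep_mem (t : UnitAddCircle) : rep t ∈ Set.Ioc (0 : ℝ) 1 := by
  simpa [rep] using (AddCircle.equivIoc 1 0 t).2

@[simp] theorem coe_rep (t : UnitAddCircle) : ((rep t : ℝ) : UnitAddCircle) = t :=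
  AddCircle.coe_equivIoc

@[fun_prop] theorem measurable_rep : Measurable rep :=
  measurable_subtype_coe.comp (AddCircle.measurableEquivIoc 1 0).measurable

theorem exists_int_rep (x : ℝ) : ∃ b : ℤ, x = rep (x : UnitAddCircle) + b := by
  have h : ((x - rep (x : UnitAddCircle) : ℝ) : UnitAddCircle) = 0 := by
    rw [AddCircle.coe_sub, coe_rep, sub_self]
  obtain ⟨b, hb⟩ := (AddCircle.coe_eq_zero_iff _).1 h
  refine ⟨b, ?_⟩
  rw [zsmul_eq_mul, mul_one] at hb
  linarith

theorem Psi_rep_coe {x : ℝ} (hx : x ∈ Set.Ioc (0 : ℝ) 1) : rep (x : UnitAddCircle) = x :=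
  AddCircle.equivIoc_coe_of_mem (by simpa using hx)

theorem Psi_integrable_rep {F : ℝ → ℝ} (hF : Continuous F) : Integrable fun t => F (rep t) := by
  obtain ⟨C, hC⟩ := (isCompact_Icc (a := (0 : ℝ)) (b := 1)).exists_bound_of_continuousOn
    hF.continuousOn
  exact Integrable.of_bound (hF.measurable.comp measurable_rep).aestronglyMeasurable C
    (Eventually.of_forall fun t => hC _ (Set.Ioc_subset_Icc_self (rep_mem t)))

theorem Psi_integral_rep (F : ℝ → ℝ) (l : ℝ) :
    ∫ t, l * F (l * rep t) = ∫ x in (0 : ℝ)..l, F x := by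
  rw [← UnitAddCircle.intervalIntegral_preimage 0, zero_add,
    intervalIntegral.integral_congr_ae (g := fun x => l * F (l * x))
      (Eventually.of_forall fun x hx => by
        rw [Set.uIoc_of_le zero_le_one] at hx
        rw [Psi_rep_coe hx]),
    intervalIntegral.integral_const_mul, ← smul_eq_mul,
    intervalIntegral.smul_integral_comp_mul_left, mul_zero, mul_one]

theorem Psi_fold {G : ℝ → ℝ} (hG : Continuous G) {l : ℝ} (hl : 0 < l) :
    ∫ t, l * (G (l * rep t) + G (l * rep t - l)) = ∫ x in Set.Icc (-l) l, G x := by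
  have h1 : Continuous fun x => G (x - l) := by fun_prop
  rw [Psi_integral_rep (fun x => G x + G (x - l)) l,
    intervalIntegral.integral_add (hG.intervalIntegrable _ _) (h1.intervalIntegrable _ _),
    intervalIntegral.integral_comp_sub_right, zero_sub, sub_self, add_comm,
    intervalIntegral.integral_add_adjacent_intervals (hG.intervalIntegrable _ _)
      (hG.intervalIntegrable _ _), intervalIntegral.integral_of_le (by linarith),
    integral_Icc_eq_integral_Ioc]

theorem psi_pos (l : ℝ) (t : UnitAddCircle) : 0 < psi l t :=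
  add_pos (ph_pos _) (ph_pos _)

theorem psi_le_one (l : ℝ) (t : UnitAddCircle) : psi l t ≤ 1 := by
  unfold psi
  linarith [ph_le_half (l * rep t), ph_le_half (l * rep t - l)]

theorem measurable_psi (l : ℝ) : Measurable (psi l) := by
  have := continuous_ph.measurable
  unfold psi
  fun_prop

theorem measurable_pup (l : ℝ) : Measurable (pup l) := by
  have := continuous_ph.measurable
  have := measurable_psi l
  unfold pup
  fun_prop

theorem pup_mem (l : ℝ) (t : UnitAddCircle) : pup l t ∈ Set.Icc (0 : ℝ) 1 :=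
  ⟨div_nonneg (ph_pos _).le (psi_pos l t).le,
    (div_le_one (psi_pos l t)).2 (le_add_of_nonneg_left (ph_pos _).le)⟩

theorem psi_mul_pup (l : ℝ) (t : UnitAddCircle) : psi l t * pup l t = ph (l * rep t - l) :=
  mul_div_cancel₀ _ (psi_pos l t).ne'

theorem psi_mul_one_sub_pup (l : ℝ) (t : UnitAddCircle) :
    psi l t * (1 - pup l t) = ph (l * rep t) := by
  rw [mul_sub, psi_mul_pup, psi]
  ring

theorem psi_mass {l : ℝ} (hl : 0 < l) :
    1 - 2 * Real.exp (-l ^ 2 / 2) ≤ ∫ t, l * psi l t ∧ ∫ t, l * psi l t ≤ 1 := by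
  have h : ∫ t, l * psi l t = ∫ x in Set.Icc (-l) l, ph x := Psi_fold continuous_ph hl
  rw [h]
  refine ⟨integral_ph_Icc hl.le, ?_⟩
  rw [← integral_ph]
  exact setIntegral_le_integral integrable_ph (Eventually.of_forall fun x => (ph_pos x).le)

theorem Psi_mul_log_sq {u : ℝ} (h0 : 0 < u) (h1 : u ≤ 1) : u * Real.log u ^ 2 ≤ 4 * √u := by
  set c := √√√u with hc
  have hc0 : 0 < c := by positivity
  have hc1 : c ≤ 1 := Real.sqrt_le_one.2 (Real.sqrt_le_one.2 (Real.sqrt_le_one.2 h1))
  have e2 : c ^ 2 = √√u := Real.sq_sqrt (by positivity)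
  have e4 : c ^ 4 = √u := by
    rw [show c ^ 4 = (c ^ 2) ^ 2 by ring, e2, Real.sq_sqrt (by positivity)]
  have e8 : c ^ 8 = u := by
    rw [show c ^ 8 = (c ^ 4) ^ 2 by ring, e4, Real.sq_sqrt h0.le]
  have hl : Real.log u = 8 * Real.log c := by
    rw [← e8, Real.log_pow]; norm_num
  have a1 : Real.log c ≤ 0 := Real.log_nonpos hc0.le hc1
  have a2 : c - 1 ≤ c * Real.log c := by
    have := mul_le_mul_of_nonneg_left (Real.one_sub_inv_le_log_of_pos hc0) hc0.le
    rwa [mul_sub, mul_one, mul_inv_cancel₀ hc0.ne'] at this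
  have a3 : c * Real.log c ≤ 0 := mul_nonpos_of_nonneg_of_nonpos hc0.le a1
  have a4 : -(1 / 4) ≤ c * (c * Real.log c) := by nlinarith [sq_nonneg (c - 1 / 2)]
  have a5 : c * (c * Real.log c) ≤ 0 := mul_nonpos_of_nonneg_of_nonpos hc0.le a3
  have a6 : (c * (c * Real.log c)) ^ 2 ≤ 1 / 16 := by nlinarith
  rw [hl, ← e4]
  calc u * (8 * Real.log c) ^ 2 = 64 * c ^ 4 * (c * (c * Real.log c)) ^ 2 := by rw [← e8]; ring
    _ ≤ 64 * c ^ 4 * (1 / 16) := by gcongr
    _ = 4 * c ^ 4 := by ring

theorem Psi_ph_le_sq (x : ℝ) : ph x ≤ Real.exp (-(1 / 4) * x ^ 2) ^ 2 := by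
  rw [← Real.exp_nat_mul, show ((2 : ℕ) : ℝ) * (-(1 / 4) * x ^ 2) = -x ^ 2 / 2 by push_cast; ring]
  exact mul_le_of_le_one_left (Real.exp_pos _).le (Psi_c_le.trans (by norm_num))

theorem psi_log {l : ℝ} (hl : 0 < l) :
    Integrable (fun t => l * psi l t * Real.log (psi l t) ^ 2) ∧
      ∫ t, l * psi l t * Real.log (psi l t) ^ 2 ≤ 20 := by
  set G : ℝ → ℝ := fun x => Real.exp (-(1 / 4) * x ^ 2) with hG
  have hGc : Continuous G := by fun_prop
  have hI : Integrable fun t => 4 * (l * (G (l * rep t) + G (l * rep t - l))) :=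
    Psi_integrable_rep (F := fun x => 4 * (l * (G (l * x) + G (l * x - l)))) (by fun_prop)
  have hle : ∀ t, l * psi l t * Real.log (psi l t) ^ 2 ≤
      4 * (l * (G (l * rep t) + G (l * rep t - l))) := by
    intro t
    have h1 := Psi_mul_log_sq (psi_pos l t) (psi_le_one l t)
    have g1 : 0 < G (l * rep t) := Real.exp_pos _
    have g2 : 0 < G (l * rep t - l) := Real.exp_pos _
    have h2 : √(psi l t) ≤ G (l * rep t) + G (l * rep t - l) := by
      refine Real.sqrt_le_iff.2 ⟨by positivity, ?_⟩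
      have b1 : ph (l * rep t) ≤ G (l * rep t) ^ 2 := Psi_ph_le_sq _
      have b2 : ph (l * rep t - l) ≤ G (l * rep t - l) ^ 2 := Psi_ph_le_sq _
      unfold psi
      nlinarith [mul_pos g1 g2]
    calc _ = l * (psi l t * Real.log (psi l t) ^ 2) := by ring
      _ ≤ l * (4 * (G (l * rep t) + G (l * rep t - l))) :=
        mul_le_mul_of_nonneg_left (by linarith) hl.le
      _ = _ := by ring
  have hint : Integrable (fun t => l * psi l t * Real.log (psi l t) ^ 2) := by
    have := measurable_psi l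
    refine hI.mono' (Measurable.aestronglyMeasurable (by fun_prop))
      (Eventually.of_forall fun t => ?_)
    have := psi_pos l t
    rw [Real.norm_eq_abs, abs_of_nonneg (by positivity)]
    exact hle t
  refine ⟨hint, (integral_mono hint hI hle).trans ?_⟩
  rw [integral_const_mul, Psi_fold hGc hl]
  have h3 : ∫ x in Set.Icc (-l) l, G x ≤ ∫ x, G x :=
    setIntegral_le_integral (integrable_exp_neg_mul_sq (by norm_num))
      (Eventually.of_forall fun x => (Real.exp_pos _).le)
  have h4 : ∫ x, G x ≤ 5 := by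
    rw [hG, integral_gaussian]
    refine Real.sqrt_le_iff.2 ⟨by norm_num, ?_⟩
    linarith [Real.pi_le_four]
  linarith

theorem psi_act {l : ℝ} (hl : 2 ≤ l) :
    Real.exp (-l ^ 2 / 8) / (10 * l) ≤ ∫ t, l * psi l t * (2 * pup l t * (1 - pup l t)) := by
  have hl0 : 0 < l := by linarith
  set F : ℝ → ℝ := fun x => 2 * ph x * ph (x - l) / (ph x + ph (x - l)) with hF
  have hFc : Continuous F :=
    Continuous.div (by fun_prop) (by fun_prop) fun x => (add_pos (ph_pos _) (ph_pos _)).ne'
  have hF0 : ∀ x, 0 ≤ F x := fun x => by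
    have := ph_pos x
    have := ph_pos (x - l)
    positivity
  have h1 : ∀ t, l * psi l t * (2 * pup l t * (1 - pup l t)) = l * F (l * rep t) := by
    intro t
    calc _ = l * (2 * pup l t * (psi l t * (1 - pup l t))) := by ring
      _ = _ := by
        rw [psi_mul_one_sub_pup]
        simp only [hF, pup, psi]
        ring
  simp only [h1]
  rw [Psi_integral_rep]
  have hi : 1 / l ≤ 1 / 2 := one_div_le_one_div_of_le two_pos hl
  have hi0 : 0 < 1 / l := by positivity
  set m := ph (l / 2 + 1 / l) with hm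
  have h2 : ∫ x in (l / 2)..(l / 2 + 1 / l), F x ≤ ∫ x in (0 : ℝ)..l, F x :=
    intervalIntegral.integral_mono_interval (by linarith) (by linarith) (by linarith)
      (Eventually.of_forall hF0) (hFc.intervalIntegrable _ _)
  have h3 : ∫ _ in (l / 2)..(l / 2 + 1 / l), m ≤ ∫ x in (l / 2)..(l / 2 + 1 / l), F x := by
    refine intervalIntegral.integral_mono_on (by linarith) intervalIntegrable_const
      (hFc.intervalIntegrable _ _) fun x hx => ?_
    have a1 : m ≤ ph x := ph_anti (by
      rw [abs_of_nonneg (by linarith [hx.1]), abs_of_nonneg (by linarith)]; exact hx.2)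
    have a2 : m ≤ ph (x - l) := ph_anti (by
      rw [abs_of_nonpos (by linarith [hx.2]), abs_of_nonneg (by linarith)]; linarith [hx.1])
    have b1 := ph_pos x
    have b2 := ph_pos (x - l)
    rw [hF, le_div_iff₀ (add_pos b1 b2)]
    nlinarith [mul_nonneg b1.le (sub_nonneg.2 a2), mul_nonneg b2.le (sub_nonneg.2 a1)]
  rw [intervalIntegral.integral_const, add_sub_cancel_left, smul_eq_mul] at h3
  refine le_trans ?_ (h3.trans h2)
  have h4 : Real.exp (-l ^ 2 / 8) * (3 / 8) ≤ Real.exp (-(l / 2 + 1 / l) ^ 2 / 2) := by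
    have c1 : (3 : ℝ) / 8 ≤ Real.exp (-(5 / 8)) := by
      linarith [Real.add_one_le_exp (-(5 / 8))]
    refine (mul_le_mul_of_nonneg_left c1 (Real.exp_pos _).le).trans ?_
    rw [← Real.exp_add]
    refine Real.exp_le_exp.2 ?_
    have c2 : l * (1 / l) = 1 := by field_simp
    nlinarith
  have h5 : 1 / 3 * (Real.exp (-l ^ 2 / 8) * (3 / 8)) ≤ m :=
    mul_le_mul Psi_le_c h4 (by positivity) (by positivity)
  have h6 := Real.exp_pos (-l ^ 2 / 8)
  calc Real.exp (-l ^ 2 / 8) / (10 * l) = 1 / l * (Real.exp (-l ^ 2 / 8) / 10) := by field_simp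
    _ ≤ 1 / l * m := by gcongr; linarith

theorem Psi_riemann_half {η : ℝ} (hη : 0 < η) (n : ℕ) :
    ∫ x in (0 : ℝ)..(η * n), ph x ≤ ∑ j ∈ Finset.range n, η * ph (η * j) := by
  induction n with
  | zero => simp
  | succ n ih =>
    have hn : 0 ≤ η * n := by positivity
    have h1 : ∫ x in (η * n)..(η * (n + 1 : ℕ)), ph x ≤
        ∫ _ in (η * n)..(η * (n + 1 : ℕ)), ph (η * n) :=
      intervalIntegral.integral_mono_on (by push_cast; linarith)
        (continuous_ph.intervalIntegrable _ _) intervalIntegrable_const fun x hx =>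
          ph_anti (by rw [abs_of_nonneg hn, abs_of_nonneg (hn.trans hx.1)]; exact hx.1)
    rw [intervalIntegral.integral_const, smul_eq_mul,
      show η * (n + 1 : ℕ) - η * n = η by push_cast; ring] at h1
    rw [Finset.sum_range_succ, ← intervalIntegral.integral_add_adjacent_intervals (b := η * n)
      (continuous_ph.intervalIntegrable _ _) (continuous_ph.intervalIntegrable _ _)]
    linarith

theorem riemann {η U : ℝ} (hη : 0 < η) (hU : 0 ≤ U) :
    1 - 2 * Real.exp (-U ^ 2 / 2) - η ≤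
      ∑ j ∈ Finset.Icc (-⌊U / η⌋) ⌊U / η⌋, η * ph (η * j) := by
  obtain ⟨N, hN⟩ := Int.eq_ofNat_of_zero_le (Int.floor_nonneg.2 (div_nonneg hU hη.le))
  have hM : U ≤ η * (N + 1 : ℕ) := by
    have := (Int.lt_floor_add_one (U / η)).le
    rw [hN, div_le_iff₀ hη] at this
    push_cast at this ⊢
    linarith
  rw [hN, Finset.sum_Icc_of_even_eq_range (f := fun j : ℤ => η * ph (η * j))
    (fun j => by simp only [Int.cast_neg, mul_neg, ph_neg])]
  have h1 := Psi_riemann_half hη (N + 1)
  set M := η * (N + 1 : ℕ) with hMdef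
  have h2 : ∫ x in (-U)..U, ph x ≤ ∫ x in (-M)..M, ph x :=
    intervalIntegral.integral_mono_interval (by linarith) (by linarith) hM
      (Eventually.of_forall fun x => (ph_pos x).le) (continuous_ph.intervalIntegrable _ _)
  have h3 : ∫ x in (-M)..0, ph x = ∫ x in (0 : ℝ)..M, ph x := by
    have := intervalIntegral.integral_comp_neg (a := 0) (b := M) ph
    simp only [ph_neg, neg_zero] at this
    exact this.symm
  rw [← intervalIntegral.integral_add_adjacent_intervals (a := -M) (b := 0)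
      (continuous_ph.intervalIntegrable _ _) (continuous_ph.intervalIntegrable _ _), h3,
    intervalIntegral.integral_of_le (by linarith), ← integral_Icc_eq_integral_Ioc] at h2
  have h4 := (integral_ph_Icc hU).trans h2
  have h5 : η * ph 0 ≤ η :=
    mul_le_of_le_one_right hη.le ((ph_le_half _).trans (by norm_num))
  simp only [Int.cast_natCast, Int.cast_zero, mul_zero, two_smul]
  exact le_trans (by linarith) (sub_le_sub (add_le_add h1 h1) h5)

end Crest.Agent.R225
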