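import Crest.Agent.R225.Iso
import Crest.Agent.R225.Psi

/-!
# Row 225: LC
Lattice coverings: invariance, dilation, the trivial bound, and Rogers' lemma on the torus.

`LC.of_equiv`: choose `e : ι ≃ κ` (equal cardinalities), `E` the reindexing; use the matrix of `Φ⁻¹ ∘ g ∘ E`;
`vol (Φ '' K) = |det (E⁻¹ Φ)| vol K` (`Measure.addHaar_image_linearMap`, `volume_preserving_piCongrLeft`).
`LC.of_dilate`: the lattice `(1+t)⁻¹ g` (a translate of a covering is a covering).
`LC.trivial`: maximise `|det (v i - v₀)|` over `K^(n+1)`; with `U` the matrix of the `v i - v₀`, Cramer's rule gives `K ⊆ v₀ + U [-1,1]^n`, and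
`v₀ + U [0,1/n]^n ⊆ K` by convexity; take `g = n⁻¹ • U`.
`vol_pr_le`: cut `A` along the unit cubes `∏ Ioc (b i) (b i + 1)`, `measurePreserving_pi` of `UnitAddCircle.measurePreserving_mk`.
`vol_pr_smul`: with `A' = pr⁻¹ (pr '' A) ∩ ∏ Ioc 0 1`, `vol A' = vol (pr '' A)` and `pr '' (m • A) ⊆ pr '' (m • A')`.
`exists_not_mem`: the set `pr '' (w - m⁻¹ • B)` has measure `≥ m^(-N) vol (pr '' B)` (translation and reflection invariance), and
`pr '' B` is the complement of `hole g J` for `B = {x | g x ∈ J}`.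
-/

set_option autoImplicit false

open MeasureTheory ProbabilityTheory Matrix Filter Topology
open scoped ENNReal RealInnerProductSpace

set_option linter.unusedSectionVars false

noncomputable section

namespace Crest.Agent.R225

variable {ι κ : Type} [Fintype ι] [DecidableEq ι] [Fintype κ] [DecidableEq κ]

theorem LC.mono {K : Set (ι → ℝ)} {θ θ' : ℝ} (h : LC K θ) (hθ : θ ≤ θ') : LC K θ' := by
  obtain ⟨g, h1, h2, h3⟩ := h
  exact ⟨g, h1, h2, h3.trans (mul_le_mul_of_nonneg_right hθ (abs_nonneg _))⟩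

theorem LC.of_equiv {K : Set (ι → ℝ)} {θ : ℝ} (Φ : (ι → ℝ) ≃ₗ[ℝ] (κ → ℝ)) (h : LC (Φ '' K) θ) :
    LC K θ := by
  obtain ⟨g, h1, h2, h3⟩ := h
  have hc : Fintype.card ι = Fintype.card κ := by
    simpa using Φ.finrank_eq
  let e : ι ≃ κ := Fintype.equivOfCardEq hc
  let E : (ι → ℝ) ≃ₗ[ℝ] (κ → ℝ) := LinearEquiv.funCongrLeft ℝ ℝ e.symm
  let Ψ : (ι → ℝ) ≃ₗ[ℝ] (ι → ℝ) := Φ.trans E.symm
  let L : (ι → ℝ) →ₗ[ℝ] (ι → ℝ) := Φ.symm.toLinearMap ∘ₗ Matrix.toLin' g ∘ₗ E.toLinearMap
  have hL : Ψ.toLinearMap ∘ₗ L = E.symm.toLinearMap ∘ₗ Matrix.toLin' g ∘ₗ E.symm.symm.toLinearMap := by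
    ext x i
    simp [Ψ, L]
  have hdet : LinearMap.det Ψ.toLinearMap * LinearMap.det L = g.det := by
    rw [← LinearMap.det_comp, hL, LinearMap.det_conj, LinearMap.det_toLin']
  have hΨ : LinearMap.det Ψ.toLinearMap ≠ 0 := fun h0 => h1 (by rw [← hdet, h0, zero_mul])
  have hvol : volume (Φ '' K) = ENNReal.ofReal |LinearMap.det Ψ.toLinearMap| * volume K := by
    rw [← Measure.addHaar_image_linearMap]
    have hmp := volume_measurePreserving_piCongrLeft (fun _ : κ => ℝ) e
    rw [← hmp.measure_preimage_equiv]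
    congr 1
    ext x
    simp only [Set.mem_preimage, Set.mem_image]
    have hx : (MeasurableEquiv.piCongrLeft (fun _ : κ => ℝ) e) x = E x := by
      funext j
      obtain ⟨i, rfl⟩ := e.surjective j
      rw [MeasurableEquiv.piCongrLeft_apply_apply]
      simp [E]
    rw [hx]
    refine exists_congr fun k => and_congr_right fun _ => ?_
    change Φ k = E x ↔ E.symm (Φ k) = x
    rw [LinearEquiv.symm_apply_eq]
  refine ⟨LinearMap.toMatrix' L, ?_, fun x => ?_, ?_⟩
  · rw [LinearMap.det_toMatrix']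
    exact fun h0 => h1 (by rw [← hdet, h0, mul_zero])
  · obtain ⟨z, k, hk, hz⟩ := h2 (Φ x)
    refine ⟨z ∘ e, ?_⟩
    have hE : E (ci (z ∘ e)) = ci z := by
      funext j
      simp [E, ci]
    have : LinearMap.toMatrix' L *ᵥ ci (z ∘ e) = Φ.symm (g *ᵥ ci z) := by
      rw [LinearMap.toMatrix'_mulVec]
      simp [L, hE]
    rw [this]
    have hk' : k = x - Φ.symm (g *ᵥ ci z) := by
      apply Φ.injective
      rw [hz, map_sub, LinearEquiv.apply_symm_apply]
    rwa [← hk']
  · rw [LinearMap.det_toMatrix']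
    rw [Measure.real, hvol, ENNReal.toReal_mul, ENNReal.toReal_ofReal (abs_nonneg _), ← hdet,
      abs_mul, mul_left_comm] at h3
    exact le_of_mul_le_mul_left h3 (abs_pos.2 hΨ)

theorem LC.of_dilate {K : Set (ι → ℝ)} {θ t : ℝ} (ht : 0 ≤ t) (c : ι → ℝ) (g : Matrix ι ι ℝ)
    (hg : g.det ≠ 0) (hcov : ∀ x, ∃ z : ι → ℤ, ∃ k ∈ K, x - g *ᵥ ci z = (1 + t) • k - t • c)
    (hθ : volume.real K ≤ θ * |g.det|) : LC K (θ * (1 + t) ^ Fintype.card ι) := by
  have hp : 0 < 1 + t := by linarith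
  refine ⟨(1 + t)⁻¹ • g, ?_, fun x => ?_, ?_⟩
  · rw [Matrix.det_smul]
    exact mul_ne_zero (pow_ne_zero _ (inv_ne_zero hp.ne')) hg
  · obtain ⟨z, k, hk, hz⟩ := hcov ((1 + t) • x - t • c)
    refine ⟨z, ?_⟩
    have : x - ((1 + t)⁻¹ • g) *ᵥ ci z = k := by
      rw [Matrix.smul_mulVec]
      have h1 : g *ᵥ ci z = (1 + t) • x - (1 + t) • k := by
        rw [← sub_eq_zero] at hz ⊢
        rw [← neg_eq_zero, ← hz]
        abel
      rw [h1, smul_sub, smul_smul, smul_smul, inv_mul_cancel₀ hp.ne', one_smul, one_smul]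
      abel
    rwa [this]
  · rw [Matrix.det_smul, abs_mul, abs_of_pos (pow_pos (inv_pos.2 hp) _), inv_pow]
    refine hθ.trans (le_of_eq ?_)
    field_simp

theorem LC.trivial {n : ℕ} (hn : 1 ≤ n) {K : Set (Fin n → ℝ)} (h : Body K) :
    LC K ((2 * n) ^ n) := by
  obtain ⟨hK, hconv, x0, hx0⟩ := h
  have hnpos : (0 : ℝ) < n := by exact_mod_cast hn
  let mat : (Fin n → ℝ) × (Fin n → Fin n → ℝ) → Matrix (Fin n) (Fin n) ℝ :=
    fun p => Matrix.of fun j i => p.2 i j - p.1 j
  have hcont : Continuous fun p => |(mat p).det| := by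
    refine Continuous.abs (Continuous.matrix_det ?_)
    refine continuous_matrix fun j i => ?_
    simp only [mat, Matrix.of_apply]
    fun_prop
  have hC : IsCompact (K ×ˢ Set.pi Set.univ fun _ : Fin n => K) :=
    hK.prod (isCompact_univ_pi fun _ => hK)
  have hx0K : x0 ∈ K := interior_subset hx0
  obtain ⟨⟨v0, v⟩, ⟨hv0, hv⟩, hmax⟩ :=
    hC.exists_isMaxOn ⟨(x0, fun _ => x0), hx0K, fun _ _ => hx0K⟩ hcont.continuousOn
  have hv' : ∀ i, v i ∈ K := fun i => hv i (Set.mem_univ i)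
  set U := mat (v0, v) with hU
  have hUdet : U.det ≠ 0 := by
    obtain ⟨r, hr, hb⟩ := Metric.mem_nhds_iff.1 (mem_interior_iff_mem_nhds.1 hx0)
    have hmem : (x0, fun i => x0 + (r / 2) • (Pi.single i 1 : Fin n → ℝ)) ∈
        K ×ˢ Set.pi Set.univ fun _ : Fin n => K := by
      refine ⟨hx0K, fun i _ => hb ?_⟩
      rw [Metric.mem_ball, dist_eq_norm, add_sub_cancel_left, norm_smul, Pi.norm_single, norm_one,
        Real.norm_eq_abs, abs_of_pos (by linarith)]
      linarith
    have h1 := hmax hmem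
    have h2 : mat (x0, fun i => x0 + (r / 2) • (Pi.single i 1 : Fin n → ℝ)) = (r / 2) • 1 := by
      ext j i
      simp [mat, Pi.single_apply, Matrix.one_apply]
    simp only [Set.mem_ofPred_eq, h2, Matrix.det_smul, Matrix.det_one, mul_one] at h1
    have h3 : 0 < |(r / 2) ^ Fintype.card (Fin n)| := abs_pos.2 (pow_ne_zero _ (by linarith))
    exact abs_pos.1 (h3.trans_le h1)
  have hsub : K ⊆ (fun y => v0 + y) ''
      (Matrix.toLin' U '' Set.pi Set.univ fun _ : Fin n => Set.Icc (-1 : ℝ) 1) := by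
    intro k hk
    refine ⟨k - v0, ⟨U.det⁻¹ • Matrix.cramer U (k - v0), fun i _ => ?_, ?_⟩, by simp⟩
    · have hmem : (v0, Function.update v i k) ∈ K ×ˢ Set.pi Set.univ fun _ : Fin n => K := by
        refine ⟨hv0, fun j _ => ?_⟩
        by_cases hj : j = i
        · subst hj; simpa using hk
        · simpa [Function.update_of_ne hj] using hv' j
      have h1 := hmax hmem
      have h2 : mat (v0, Function.update v i k) = U.updateCol i (k - v0) := by
        ext a b
        by_cases hb : b = i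
        · subst hb; simp [mat]
        · simp [mat, hU, Matrix.updateCol_ne hb, Function.update_of_ne hb]
      simp only [Set.mem_ofPred_eq, h2] at h1
      rw [Set.mem_Icc, ← abs_le, Pi.smul_apply, Matrix.cramer_apply, smul_eq_mul, abs_mul, abs_inv,
        inv_mul_le_iff₀ (abs_pos.2 hUdet), mul_one]
      exact h1
    · rw [Matrix.toLin'_apply, Matrix.mulVec_smul, Matrix.mulVec_cramer, smul_smul,
        inv_mul_cancel₀ hUdet, one_smul]
  have hvol : volume K ≤ ENNReal.ofReal (|U.det| * 2 ^ n) := by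
    refine (measure_mono hsub).trans (le_of_eq ?_)
    rw [Set.image_add_left, measure_preimage_add, Measure.addHaar_image_linearMap,
      LinearMap.det_toLin', volume_pi_pi, ENNReal.ofReal_mul (abs_nonneg _)]
    congr 1
    simp only [Real.volume_Icc, Finset.prod_const, Finset.card_univ, Fintype.card_fin]
    rw [ENNReal.ofReal_pow (by norm_num)]
    norm_num
  have hgdet : ((n : ℝ)⁻¹ • U).det ≠ 0 := by
    rw [Matrix.det_smul]
    exact mul_ne_zero (pow_ne_zero _ (inv_ne_zero hnpos.ne')) hUdet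
  refine ⟨(n : ℝ)⁻¹ • U, hgdet, fun x => ?_, ?_⟩
  · set a := ((n : ℝ)⁻¹ • U)⁻¹ *ᵥ (x - v0) with ha
    have hga : ((n : ℝ)⁻¹ • U) *ᵥ a = x - v0 := by
      rw [ha, Matrix.mulVec_mulVec, Matrix.mul_nonsing_inv _ (Ne.isUnit hgdet), Matrix.one_mulVec]
    refine ⟨fun i => ⌊a i⌋, ?_⟩
    have h1 : x - ((n : ℝ)⁻¹ • U) *ᵥ ci (fun i => ⌊a i⌋)
        = ∑ i, (n : ℝ)⁻¹ • (v0 + Int.fract (a i) • (v i - v0)) := by
      have h2 : x = v0 + ((n : ℝ)⁻¹ • U) *ᵥ a := by rw [hga]; abel
      rw [h2, add_sub_assoc, ← Matrix.mulVec_sub]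
      funext j
      simp only [Pi.add_apply, Finset.sum_apply, Pi.smul_apply, Pi.sub_apply, smul_eq_mul,
        Matrix.mulVec, dotProduct, Matrix.smul_apply, hU, mat, Matrix.of_apply, ci, mul_add,
        Finset.sum_add_distrib, Finset.sum_const, Finset.card_univ, Fintype.card_fin, nsmul_eq_mul]
      congr 1
      · field_simp
      · refine Finset.sum_congr rfl fun i _ => ?_
        rw [Int.fract]
        ring
    rw [h1]
    refine hconv.sum_mem (fun _ _ => by positivity) ?_ fun i _ => ?_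
    · simp only [Finset.sum_const, Finset.card_univ, Fintype.card_fin, nsmul_eq_mul]
      field_simp
    · exact hconv.add_smul_sub_mem hv0 (hv' i) ⟨Int.fract_nonneg _, (Int.fract_lt_one _).le⟩
  · refine (ENNReal.toReal_le_of_le_ofReal (by positivity) hvol).trans (le_of_eq ?_)
    rw [Matrix.det_smul, abs_mul, abs_of_pos (pow_pos (inv_pos.2 hnpos) _), Fintype.card_fin,
      mul_pow, inv_pow]
    field_simp

theorem continuous_pr : Continuous (pr : (κ → ℝ) → TT κ) :=
  continuous_pi fun i => (AddCircle.continuous_mk' 1).comp (continuous_apply i)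
theorem pr_add (x y : κ → ℝ) : pr (x + y) = pr x + pr y := by
  funext i; simp [pr]
theorem pr_sub (x y : κ → ℝ) : pr (x - y) = pr x - pr y := by
  funext i; simp [pr]
theorem pr_zsmul (m : ℤ) (x : κ → ℝ) : pr ((m : ℝ) • x) = m • pr x := by
  funext i
  simp only [pr, Pi.smul_apply, smul_eq_mul]
  rw [← zsmul_eq_mul, AddCircle.coe_zsmul]
theorem pr_sum {I : Type} (s : Finset I) (x : I → κ → ℝ) : pr (∑ i ∈ s, x i) = ∑ i ∈ s, pr (x i) := by
  classical
  induction s using Finset.induction_on with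
  | empty => funext i; simp [pr]
  | insert a s ha ih => rw [Finset.sum_insert ha, Finset.sum_insert ha, pr_add, ih]
theorem pr_surjective : Function.Surjective (pr : (κ → ℝ) → TT κ) := by
  intro t
  choose x hx using fun i => QuotientAddGroup.mk_surjective (t i)
  exact ⟨x, funext hx⟩
theorem pr_eq_iff (x y : κ → ℝ) : pr x = pr y ↔ ∃ z : κ → ℤ, x = y + ci z := by
  constructor
  · intro h
    have : ∀ i, ∃ z : ℤ, x i = y i + z := by
      intro i
      have h1 : ((x i - y i : ℝ) : UnitAddCircle) = 0 := by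
        have := congrFun h i
        simp only [pr] at this
        rw [AddCircle.coe_sub, this, sub_self]
      obtain ⟨z, hz⟩ := (AddCircle.coe_eq_zero_iff 1).1 h1
      exact ⟨z, by rw [zsmul_eq_mul, mul_one] at hz; linarith⟩
    choose z hz using this
    exact ⟨z, funext hz⟩
  · rintro ⟨z, rfl⟩
    funext i
    have : ((z i : ℝ) : UnitAddCircle) = 0 := (AddCircle.coe_eq_zero_iff 1).2 ⟨z i, by simp⟩
    simp [pr, ci, this]

/-- unit cube -/
def lcCube (b : κ → ℤ) : Set (κ → ℝ) := Set.pi Set.univ fun i => Set.Ioc (b i : ℝ) (b i + 1)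

theorem lc_cube_meas (b : κ → ℤ) : MeasurableSet (lcCube b) :=
  MeasurableSet.univ_pi fun _ => measurableSet_Ioc

theorem lc_vol_eq (b : κ → ℤ) {T : Set (TT κ)} (hT : MeasurableSet T) :
    volume (pr ⁻¹' T ∩ lcCube b) = volume T := by
  have h1 : MeasurePreserving (pr : (κ → ℝ) → TT κ)
      (Measure.pi fun i => volume.restrict (Set.Ioc (b i : ℝ) (b i + 1))) volume :=
    measurePreserving_pi _ _ fun i => UnitAddCircle.measurePreserving_mk (b i : ℝ)
  rw [← h1.measure_preimage hT.nullMeasurableSet, ← Measure.restrict_pi_pi,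
    Measure.restrict_apply (continuous_pr.measurable hT)]
  rfl

theorem lc_injOn (b : κ → ℤ) : Set.InjOn (pr : (κ → ℝ) → TT κ) (lcCube b) := by
  intro x hx y hy h
  obtain ⟨z, rfl⟩ := (pr_eq_iff _ _).1 h
  funext i
  have h1 := hx i (Set.mem_univ i)
  have h2 := hy i (Set.mem_univ i)
  simp only [Set.mem_Ioc, Pi.add_apply, ci] at h1 h2 ⊢
  have h3 : (z i : ℝ) < 1 := by linarith [h1.2, h2.1]
  have h4 : (-1 : ℝ) < z i := by linarith [h1.1, h2.2]
  have h5 : z i < 1 := by exact_mod_cast h3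
  have h6 : -1 < z i := by exact_mod_cast h4
  have : z i = 0 := by omega
  simp [this]

theorem lc_mem_cube (x : κ → ℝ) : x ∈ lcCube fun i => ⌈x i⌉ - 1 := by
  intro i _
  push_cast
  exact ⟨by linarith [Int.ceil_lt_add_one (x i)], by linarith [Int.le_ceil (x i)]⟩

theorem lc_disjoint : Pairwise (Function.onFun Disjoint (lcCube : (κ → ℤ) → Set (κ → ℝ))) := by
  intro b b' hb
  refine Set.disjoint_left.2 fun x h1 h2 => hb (funext fun i => ?_)
  have k1 := h1 i (Set.mem_univ i)
  have k2 := h2 i (Set.mem_univ i)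
  have h3 : (b i : ℝ) < b' i + 1 := k1.1.trans_le k2.2
  have h4 : (b' i : ℝ) < b i + 1 := k2.1.trans_le k1.2
  have h5 : b i < b' i + 1 := by exact_mod_cast h3
  have h6 : b' i < b i + 1 := by exact_mod_cast h4
  omega

theorem vol_pr_le {A : Set (κ → ℝ)} (hA : MeasurableSet A) : volume (pr '' A) ≤ volume A := by
  have hAU : A = ⋃ b : κ → ℤ, A ∩ lcCube b := by
    rw [← Set.inter_iUnion]
    exact (Set.inter_eq_left.2 fun x _ => Set.mem_iUnion.2 ⟨_, lc_mem_cube x⟩).symm
  have h1 : ∀ b : κ → ℤ, volume (pr '' (A ∩ lcCube b)) = volume (A ∩ lcCube b) := by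
    intro b
    have hm : MeasurableSet (pr '' (A ∩ lcCube b)) :=
      (hA.inter (lc_cube_meas b)).image_of_continuousOn_injOn continuous_pr.continuousOn
        ((lc_injOn b).mono Set.inter_subset_right)
    rw [← lc_vol_eq b hm]
    congr 1
    ext x
    constructor
    · rintro ⟨⟨y, hy, hxy⟩, hx⟩
      rwa [← lc_injOn b hy.2 hx hxy]
    · intro hx
      exact ⟨⟨x, hx, rfl⟩, hx.2⟩
  calc volume (pr '' A) = volume (⋃ b : κ → ℤ, pr '' (A ∩ lcCube b)) := by
        rw [← Set.image_iUnion, ← hAU]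
    _ ≤ ∑' b : κ → ℤ, volume (pr '' (A ∩ lcCube b)) := measure_iUnion_le _
    _ = ∑' b : κ → ℤ, volume (A ∩ lcCube b) := tsum_congr h1
    _ = volume (⋃ b : κ → ℤ, A ∩ lcCube b) :=
        (measure_iUnion (fun b b' hb => (lc_disjoint hb).mono Set.inter_subset_right
          Set.inter_subset_right) fun b => hA.inter (lc_cube_meas b)).symm
    _ = volume A := by rw [← hAU]

open scoped Pointwise in
theorem vol_pr_smul {A : Set (κ → ℝ)} (hA : IsCompact A) (m : ℕ) :
    volume (pr '' ((fun x => (m : ℝ) • x) '' A)) ≤ (m : ℝ≥0∞) ^ Fintype.card κ * volume (pr '' A) := by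
  have hT : MeasurableSet (pr '' A) := (hA.image continuous_pr).measurableSet
  set A' := pr ⁻¹' (pr '' A) ∩ lcCube (0 : κ → ℤ) with hA'
  have hA'm : MeasurableSet A' := (continuous_pr.measurable hT).inter (lc_cube_meas 0)
  have hsub : pr '' ((fun x => (m : ℝ) • x) '' A) ⊆ pr '' ((m : ℝ) • A') := by
    rintro _ ⟨_, ⟨a, ha, rfl⟩, rfl⟩
    have hb := lc_mem_cube a
    have hpr : pr (a - ci fun i => ⌈a i⌉ - 1) = pr a :=
      ((pr_eq_iff _ _).2 ⟨fun i => ⌈a i⌉ - 1, by simp⟩).symm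
    refine ⟨(m : ℝ) • (a - ci fun i => ⌈a i⌉ - 1), ⟨_, ⟨⟨a, ha, hpr.symm⟩, fun i _ => ?_⟩, rfl⟩, ?_⟩
    · have := hb i (Set.mem_univ i)
      simp only [Set.mem_Ioc, Pi.sub_apply, ci, Pi.zero_apply, Int.cast_zero] at this ⊢
      constructor <;> linarith [this.1, this.2]
    · have h1 := pr_zsmul (m : ℤ) (a - ci fun i => ⌈a i⌉ - 1)
      have h2 := pr_zsmul (m : ℤ) a
      rw [Int.cast_natCast] at h1 h2
      rw [h1, h2, hpr]
  refine (measure_mono hsub).trans ((vol_pr_le (hA'm.const_smul₀ _)).trans (le_of_eq ?_))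
  rw [Measure.addHaar_smul, hA', lc_vol_eq 0 hT, Module.finrank_fintype_fun_eq_card,
    abs_of_nonneg (by positivity), ENNReal.ofReal_pow (by positivity), ENNReal.ofReal_natCast]

theorem lc_compact {g : Matrix κ κ ℝ} (hg : g.det ≠ 0) {J : Set (κ → ℝ)} (hJ : IsCompact J) :
    IsCompact {x | g *ᵥ x ∈ J} := by
  have : {x | g *ᵥ x ∈ J} = (fun y => g⁻¹ *ᵥ y) '' J := by
    ext x
    constructor
    · intro hx
      exact ⟨g *ᵥ x, hx, by
        simp only [Matrix.mulVec_mulVec, Matrix.nonsing_inv_mul _ (Ne.isUnit hg), Matrix.one_mulVec]⟩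
    · rintro ⟨y, hy, rfl⟩
      simpa only [Set.mem_ofPred_eq, Matrix.mulVec_mulVec, Matrix.mul_nonsing_inv _ (Ne.isUnit hg),
        Matrix.one_mulVec] using hy
  rw [this]
  exact hJ.image (continuous_const.matrix_mulVec continuous_id)

theorem lc_hole (g : Matrix κ κ ℝ) (J : Set (κ → ℝ)) : hole g J = (pr '' {x | g *ᵥ x ∈ J})ᶜ := by
  ext t
  simp only [hole, Set.mem_ofPred_eq, Set.mem_compl_iff, Set.mem_image, not_exists, not_and]
  exact forall_congr' fun x => imp_not_comm

theorem measurableSet_hole {g : Matrix κ κ ℝ} (hg : g.det ≠ 0) {J : Set (κ → ℝ)} (hJ : IsCompact J) :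
    MeasurableSet (hole g J) := by
  rw [lc_hole]
  exact ((lc_compact hg hJ).image continuous_pr).measurableSet.compl

/-- Rogers' lemma -/
theorem exists_not_mem {g : Matrix κ κ ℝ} (hg : g.det ≠ 0) {J : Set (κ → ℝ)} (hJ : IsCompact J)
    (hh : volume.real (hole g J) ≤ 1 / 2) {U : Set (TT κ)} {m : ℕ}
    (hm : 1 ≤ m) (hU : 2 * (m : ℝ) ^ Fintype.card κ * volume.real U < 1) (w : κ → ℝ) :
    ∃ x, g *ᵥ x ∈ J ∧ pr (w - (m : ℝ)⁻¹ • x) ∉ U := by
  by_contra hcon
  push Not at hcon
  have hm0 : (m : ℝ) ≠ 0 := by positivity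
  set B := {x | g *ᵥ x ∈ J} with hB
  have hBc : IsCompact B := lc_compact hg hJ
  have hAc : IsCompact ((fun x => (m : ℝ)⁻¹ • x) '' B) := hBc.image (by fun_prop)
  have h1 := vol_pr_smul hAc m
  have h2 : (fun x => (m : ℝ) • x) '' ((fun x => (m : ℝ)⁻¹ • x) '' B) = B := by
    rw [Set.image_image]
    simp [smul_smul, mul_inv_cancel₀ hm0]
  have h3 : volume (pr '' ((fun x => (m : ℝ)⁻¹ • x) '' B)) ≤ volume U := by
    have : (volume : Measure UnitAddCircle).IsNegInvariant :=
      Measure.IsAddHaarMeasure.isNegInvariant_of_regular _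
    have : (volume : Measure (TT κ)).IsNegInvariant := Measure.pi.isNegInvariant _
    rw [← ((Measure.measurePreserving_sub_left (volume : Measure (TT κ)) (pr w)).measure_preimage_emb
      (Homeomorph.subLeft (pr w)).measurableEmbedding U)]
    refine measure_mono ?_
    rintro _ ⟨_, ⟨x, hx, rfl⟩, rfl⟩
    rw [Set.mem_preimage, ← pr_sub]
    exact hcon x hx
  rw [h2] at h1
  have h4 : volume.real (pr '' B) ≤ (m : ℝ) ^ Fintype.card κ * volume.real U := by
    have h5 := h1.trans (mul_le_mul_right h3 _)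
    have h6 := ENNReal.toReal_mono (ENNReal.mul_ne_top (ENNReal.pow_ne_top (ENNReal.natCast_ne_top m))
      (measure_ne_top volume U)) h5
    simpa [Measure.real] using h6
  have h7 : volume.real (hole g J) = 1 - volume.real (pr '' B) := by
    rw [lc_hole, measureReal_compl (hBc.image continuous_pr).measurableSet, probReal_univ]
  linarith

end Crest.Agent.R225
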