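import Crest.Agent.R225.BaseCore
import Crest.Agent.R225.LC

/-!
# Row 225: Base
Hole probabilities for finitely many convex sets at once.

`base`: shrink `J a` by a homothety to volume exactly `v a` (`Measure.addHaar_image_homothety`), transport to `ℝ × (κ → ℝ)`, take `ε` good for all `a`.
For `α : TT κ` let `g α = [[D, D α̃], [0, ε 1]]`, `D = ε^(-N)`, `α̃ = rep ∘ α`, `det = 1`.  A torus point `t = (s, u)` is in `hole (g α) J` iff for
`ω = (s + ∑ α̃ i * rep (u i), α)` no `ev (lab w) ω` lies in `arc J ε (rep ∘ u) (lab w)` (a countable intersection, hence jointly measurable in `(α, t)`).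
Tonelli: `∫ vol (hole (g α) J) dα ≤ 4 exp (-v/2)`; choose `α` with `∑ a, vol (hole ..) / (4 exp (-v a/2)) ≤ |I|` (`exists_le_lintegral`).
-/

set_option autoImplicit false

open MeasureTheory ProbabilityTheory Matrix Filter Topology
open scoped ENNReal RealInnerProductSpace

noncomputable section

namespace Crest.Agent.R225

section aux

variable {κ : Type} [Fintype κ]

/-- glue a tuple and one more coordinate -/
def Base_opt {X : Type} (p : (κ → X) × X) : Option κ → X := fun o => o.elim p.2 p.1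

theorem Base_opt_mp {X : Type} [MeasureSpace X] [SigmaFinite (volume : Measure X)] :
    MeasurePreserving (Base_opt : (κ → X) × X → Option κ → X) (volume.prod volume) volume := by
  have h : (Base_opt : (κ → X) × X → Option κ → X) =
      (MeasurableEquiv.piOptionEquivProd fun _ : Option κ => X).symm := by
    funext p o
    cases o <;> rfl
  rw [h]
  exact ⟨MeasurableEquiv.measurable _, Measure.pi_map_piOptionEquivProd fun _ => volume⟩

theorem Base_shrink {J : Set (Option κ → ℝ)} (hJ : IsCompact J) (hc : Convex ℝ J) {v : ℝ}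
    (h0 : 0 ≤ v) (hv : v ≤ volume.real J) :
    ∃ J' ⊆ J, IsCompact J' ∧ Convex ℝ J' ∧ volume.real J' = v := by
  rcases h0.eq_or_lt with rfl | h0
  · exact ⟨∅, Set.empty_subset _, isCompact_empty, convex_empty, by simp⟩
  have hJ0 : 0 < volume.real J := h0.trans_le hv
  obtain ⟨c, hcJ⟩ : J.Nonempty := by
    by_contra h
    rw [Set.not_nonempty_iff_eq_empty.1 h] at hJ0
    simp at hJ0
  set d := Module.finrank ℝ (Option κ → ℝ) with hd
  have hd0 : d ≠ 0 := by simp [hd]
  have hq : 0 ≤ v / volume.real J := by positivity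
  set r := (v / volume.real J) ^ ((d : ℝ)⁻¹) with hr
  have hr0 : 0 ≤ r := by positivity
  have hr1 : r ≤ 1 := Real.rpow_le_one hq ((div_le_one hJ0).2 hv) (by positivity)
  refine ⟨AffineMap.homothety c r '' J, ?_, hJ.image (AffineMap.homothety_continuous _ _),
    hc.affine_image _, ?_⟩
  · rintro _ ⟨x, hx, rfl⟩
    rw [AffineMap.homothety_eq_lineMap]
    exact hc.lineMap_mem hcJ hx ⟨hr0, hr1⟩
  · rw [Measure.real, Measure.addHaar_image_homothety, ENNReal.toReal_mul, ← hd,
      Real.rpow_inv_natCast_pow hq hd0, abs_of_nonneg hq, ENNReal.toReal_ofReal hq]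
    exact div_mul_cancel₀ _ hJ0.ne'

variable [DecidableEq κ]

/-- the matrix `g α` -/
def Base_g (ε : ℝ) (α : TT κ) : Matrix (Option κ) (Option κ) ℝ
  | none, none => (ε ^ Fintype.card κ)⁻¹
  | none, some j => (ε ^ Fintype.card κ)⁻¹ * rep (α j)
  | some _, none => 0
  | some i, some j => if i = j then ε else 0

theorem Base_det {ε : ℝ} (hε : ε ≠ 0) (α : TT κ) : (Base_g ε α).det = 1 := by
  have h : Base_g ε α = (Matrix.fromBlocks (Matrix.diagonal fun _ : κ => ε) 0
      (Matrix.of fun (_ : PUnit.{1}) j => (ε ^ Fintype.card κ)⁻¹ * rep (α j))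
      (Matrix.of fun _ _ => (ε ^ Fintype.card κ)⁻¹)).submatrix (Equiv.optionEquivSumPUnit κ)
        (Equiv.optionEquivSumPUnit κ) := by
    ext i j
    cases i <;> cases j <;> simp [Base_g, Matrix.diagonal_apply]
  rw [h, Matrix.det_submatrix_equiv_self, Matrix.det_fromBlocks_zero₁₂]
  simp [hε]

theorem Base_mulVec (ε : ℝ) (α : TT κ) (x : Option κ → ℝ) : Base_g ε α *ᵥ x =
    Base_opt (fun i => ε * x (some i),
      (ε ^ Fintype.card κ)⁻¹ * (x none + ∑ i, rep (α i) * x (some i))) := by
  funext o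
  cases o <;>
    simp [Matrix.mulVec, dotProduct, Fintype.sum_option, Base_g, Base_opt, mul_add, Finset.mul_sum,
      mul_assoc]

theorem Base_meas (ε : ℝ) {J : Set (Option κ → ℝ)} (hJ : IsCompact J) :
    MeasurableSet {q : TT κ × TT (Option κ) | q.2 ∈ hole (Base_g ε q.1) J} := by
  have h : {q : TT κ × TT (Option κ) | q.2 ∈ hole (Base_g ε q.1) J} = ⋂ z : Option κ → ℤ,
      (fun q : TT κ × TT (Option κ) => Base_g ε q.1 *ᵥ ((fun o => rep (q.2 o)) + ci z)) ⁻¹' Jᶜ := by
    ext q
    have hq : pr (fun o => rep (q.2 o)) = q.2 := funext fun o => coe_rep _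
    simp only [hole, Set.mem_ofPred_eq, Set.mem_iInter, Set.mem_preimage, Set.mem_compl_iff]
    refine ⟨fun h z => h _ (((pr_eq_iff _ _).2 ⟨z, rfl⟩).trans hq), fun h x hx => ?_⟩
    obtain ⟨z, rfl⟩ := (pr_eq_iff _ _).1 (hx.trans hq.symm)
    exact h z
  rw [h]
  refine MeasurableSet.iInter fun z => hJ.measurableSet.compl.preimage ?_
  simp only [Base_mulVec]
  refine Base_opt_mp.measurable.comp ?_
  simp only [Pi.add_apply]
  fun_prop

/-- the shear -/
def Base_sh (α u : TT κ) : UnitAddCircle := ((∑ i, rep (α i) * rep (u i) : ℝ) : UnitAddCircle)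

omit [DecidableEq κ] in
theorem Base_mp : MeasurePreserving (fun q : TT κ × TT κ × UnitAddCircle =>
    (q.2.1, Base_opt (q.1, q.2.2 - Base_sh q.2.1 q.1))) (volume.prod (volume.prod volume))
    ((volume : Measure (TT κ)).prod (volume : Measure (TT (Option κ)))) := by
  have h1 : Measurable fun p : TT κ × TT κ => Base_sh p.2 p.1 :=
    AddCircle.measurable_mk'.comp (by fun_prop)
  have h2 : MeasurePreserving (fun p : (TT κ × TT κ) × UnitAddCircle =>
      (p.1.swap, p.2 - Base_sh p.1.2 p.1.1)) ((volume.prod volume).prod volume)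
      ((volume.prod volume).prod volume) :=
    MeasurePreserving.skew_product (f := Prod.swap) Measure.measurePreserving_swap
      (g := fun p s => s - Base_sh p.2 p.1) (measurable_snd.sub (h1.comp measurable_fst))
      (Eventually.of_forall fun p => map_sub_right_eq_self _ _)
  exact (((MeasurePreserving.id volume).prod Base_opt_mp).comp
    (measurePreserving_prodAssoc _ _ _)).comp
      (h2.comp (measurePreserving_prodAssoc volume volume volume).symm)

theorem Base_sub {ε : ℝ} (hε : ε ≠ 0) (J : Set (Option κ → ℝ)) (u α : TT κ) (s : UnitAddCircle)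
    (h : Base_opt (u, s - Base_sh α u) ∈ hole (Base_g ε α) J) (w : κ → ℤ) :
    ev (lab w) (Base_opt (α, s)) ∉
      arc {p : ℝ × (κ → ℝ) | Base_opt (p.2, p.1) ∈ J} ε (fun i => rep (u i)) (lab w) := by
  rintro ⟨τ, h1, h2⟩
  have h3 : s + ∑ i, w i • α i = ((τ * ε ^ Fintype.card κ : ℝ) : UnitAddCircle) := by
    rw [← h2]
    simp [ev, lab, Base_opt, Fintype.sum_option]
  refine h (Base_opt (fun i => rep (u i) + w i,
    τ * ε ^ Fintype.card κ - ∑ i, rep (α i) * (rep (u i) + w i))) ?_ ?_
  · funext o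
    cases o with
    | none =>
      have h4 : ((∑ i, rep (α i) * (w i : ℝ) : ℝ) : UnitAddCircle) = ∑ i, w i • α i := by
        rw [show ((∑ i, rep (α i) * (w i : ℝ) : ℝ) : UnitAddCircle) =
          QuotientAddGroup.mk' _ (∑ i, rep (α i) * (w i : ℝ)) from rfl, map_sum]
        refine Finset.sum_congr rfl fun i _ => ?_
        rw [mul_comm, ← zsmul_eq_mul, map_zsmul]
        exact congrArg _ (coe_rep _)
      simp only [pr, Base_opt, Option.elim, mul_add, Finset.sum_add_distrib, AddCircle.coe_sub,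
        AddCircle.coe_add, ← h3, h4, Base_sh]
      abel
    | some i => simp [pr, Base_opt]
  · rw [Base_mulVec]
    have h4 : (ε ^ Fintype.card κ)⁻¹ * (τ * ε ^ Fintype.card κ) = τ := by
      field_simp
    simp only [Base_opt, Option.elim, sub_add_cancel, h4]
    exact h1

theorem Base_avg {ε B : ℝ} (hε : ε ≠ 0) {J : Set (Option κ → ℝ)} (hJ : IsCompact J)
    (h : ∀ u : κ → ℝ, (∀ i, |u i| ≤ 1) → volume.real {ω : TT (Option κ) | ∀ w : κ → ℤ,
      ev (lab w) ω ∉ arc {p : ℝ × (κ → ℝ) | Base_opt (p.2, p.1) ∈ J} ε u (lab w)} ≤ B) :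
    ∫⁻ α, volume (hole (Base_g ε α) J) ≤ ENNReal.ofReal B := by
  have h1 := Measure.prod_apply (μ := (volume : Measure (TT κ)))
    (ν := (volume : Measure (TT (Option κ)))) (Base_meas ε hJ)
  refine h1.symm.trans_le ?_
  rw [← Base_mp.measure_preimage (Base_meas ε hJ).nullMeasurableSet,
    Measure.prod_apply (Base_mp.measurable (Base_meas ε hJ))]
  refine (lintegral_mono (g := fun _ => ENNReal.ofReal B) fun u => ?_).trans (by simp)
  refine (measure_mono ?_).trans ((Base_opt_mp.measure_preimage_le _).trans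
    ((ENNReal.ofReal_toReal (measure_ne_top _ _)).ge.trans (ENNReal.ofReal_le_ofReal
      (h (fun i => rep (u i)) fun i => ?_))))
  · exact fun q hq => Base_sub hε J u q.1 q.2 hq
  · exact abs_le.2 ⟨by linarith [(rep_mem (u i)).1], (rep_mem (u i)).2⟩

end aux

theorem base : ∃ c : ℝ, 0 < c ∧ ∃ N₀ : ℕ, ∀ (κ : Type) [Fintype κ] [DecidableEq κ],
    N₀ ≤ Fintype.card κ → ∀ (I : Type) [Fintype I] (J : I → Set (Option κ → ℝ)) (v : I → ℝ),
      (∀ a, IsCompact (J a) ∧ Convex ℝ (J a) ∧ 0 ≤ v a ∧ v a ≤ volume.real (J a) ∧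
        v a ≤ c * Fintype.card κ / Real.log (Fintype.card κ)) →
      ∃ g : Matrix (Option κ) (Option κ) ℝ, g.det = 1 ∧ ∀ a,
        volume.real (hole g (J a)) ≤ 4 * Fintype.card I * Real.exp (-v a / 2) := by
  obtain ⟨c, hc, N₀, h⟩ := base_core
  refine ⟨c, hc, N₀, fun κ _ _ hN I _ J v hJ => ?_⟩
  choose J' h1 h2 h3 h4 using fun a =>
    Base_shrink (hJ a).1 (hJ a).2.1 (hJ a).2.2.1 (hJ a).2.2.2.1
  have hvol : ∀ a, volume.real {p : ℝ × (κ → ℝ) | Base_opt (p.2, p.1) ∈ J' a} = v a := fun a => by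
    rw [← h4 a]
    exact congrArg ENNReal.toReal ((Base_opt_mp.comp Measure.measurePreserving_swap).measure_preimage
      (h2 a).measurableSet.nullMeasurableSet)
  have hev : ∀ a, ∀ᶠ ε in 𝓝[>] (0 : ℝ), ∀ u : κ → ℝ, (∀ i, |u i| ≤ 1) →
      volume.real {ω : TT (Option κ) | ∀ w : κ → ℤ, ev (lab w) ω ∉
        arc {p : ℝ × (κ → ℝ) | Base_opt (p.2, p.1) ∈ J' a} ε u (lab w)} ≤
          4 * Real.exp (-v a / 2) := fun a => by
    rw [← hvol a]
    refine h κ hN _ ?_ ?_ ((hvol a).trans_le (hJ a).2.2.2.2)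
    · have : {p : ℝ × (κ → ℝ) | Base_opt (p.2, p.1) ∈ J' a} =
          (fun x : Option κ → ℝ => (x none, fun i => x (some i))) '' J' a := by
        ext p
        refine ⟨fun hp => ⟨_, hp, rfl⟩, ?_⟩
        rintro ⟨x, hx, rfl⟩
        have : Base_opt (fun i => x (some i), x none) = x := funext fun o => by cases o <;> rfl
        exact Set.mem_ofPred_eq ▸ this.symm ▸ hx
      rw [this]
      exact (h2 a).image (by fun_prop)
    · intro p hp q hq s t hs ht hst
      have : Base_opt ((s • p + t • q).2, (s • p + t • q).1) =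
          s • Base_opt (p.2, p.1) + t • Base_opt (q.2, q.1) := funext fun o => by cases o <;> rfl
      exact Set.mem_ofPred_eq ▸ this.symm ▸ h3 a hp hq hs ht hst
  obtain ⟨ε, hε, hε0⟩ := ((eventually_all.2 hev).and self_mem_nhdsWithin).exists
  have hε1 : ε ≠ 0 := ne_of_gt hε0
  have hb : ∀ a, ENNReal.ofReal (4 * Real.exp (-v a / 2)) ≠ 0 := fun a => by
    rw [Ne, ENNReal.ofReal_eq_zero, not_le]
    positivity
  have hm : ∀ a, Measurable fun α : TT κ => volume (hole (Base_g ε α) (J' a)) := fun a =>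
    measurable_measure_prodMk_left (Base_meas ε (h2 a))
  obtain ⟨α, hα⟩ := exists_le_lintegral (μ := (volume : Measure (TT κ)))
    (f := fun α => ∑ a, volume (hole (Base_g ε α) (J' a)) / ENNReal.ofReal (4 * Real.exp (-v a / 2)))
    (Finset.measurable_fun_sum _ fun a _ => (hm a).div_const _).aemeasurable
  rw [lintegral_finsetSum _ fun a _ => (hm a).div_const _] at hα
  have hα' := hα.trans (Finset.sum_le_card_nsmul _ _ 1 fun a _ => by
    simp only [div_eq_mul_inv]
    rw [lintegral_mul_const _ (hm a), ← div_eq_mul_inv]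
    exact ENNReal.div_le_of_le_mul (by rw [one_mul]; exact Base_avg hε1 (h2 a) (hε a)))
  refine ⟨Base_g ε α, Base_det hε1 α, fun a => ?_⟩
  have h5 := (Finset.single_le_sum (f := fun a => volume (hole (Base_g ε α) (J' a)) /
    ENNReal.ofReal (4 * Real.exp (-v a / 2))) (fun _ _ => zero_le) (Finset.mem_univ a)).trans hα'
  rw [ENNReal.div_le_iff (hb a) ENNReal.ofReal_ne_top, Finset.card_univ, nsmul_one] at h5
  have hsub : hole (Base_g ε α) (J a) ⊆ hole (Base_g ε α) (J' a) :=
    fun t ht x hx hx' => ht x hx (h1 a hx')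
  refine ENNReal.toReal_le_of_le_ofReal (by positivity)
    ((measure_mono hsub).trans (h5.trans (le_of_eq ?_)))
  rw [← ENNReal.ofReal_natCast, ← ENNReal.ofReal_mul (by positivity)]
  congr 1
  ring

end Crest.Agent.R225
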