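import Crest.Agent.R225.Defs

/-!
# Row 225: U2b
Tensorisation of the `U²` inequality.

`HasU2.prod`: Tonelli, apply the inequality in the second factor to the sections, then in the first factor to
`F i x = (∫ f i (x, ·)^(4/3))^(3/4)`.  (Compare `Crest.Agent.Lib.PL.HasPL.prod`, `hasPL_pi`.)

`HasU2.pi_le`: `lmarginal` over the three coordinates `a, b, d` (the rest fixed), `f₁ = f₂ = f₃ = 1_A`, `f₄ = 1_A (· + rest)`.
-/

set_option autoImplicit false

open MeasureTheory ProbabilityTheory Matrix Filter Topology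
open scoped ENNReal RealInnerProductSpace

noncomputable section

namespace Crest.Agent.R225

theorem U2b_reorder {E F : Type} [MeasurableSpace E] [MeasurableSpace F]
    {μ : Measure E} {ν : Measure F} [SFinite μ] [SFinite ν]
    {Φ : E × F → E × F → E × F → ℝ≥0∞}
    (hΦ : Measurable fun p : (E × F) × (E × F) × (E × F) => Φ p.1 p.2.1 p.2.2) :
    ∫⁻ p, ∫⁻ q, ∫⁻ r, Φ p q r ∂μ.prod ν ∂μ.prod ν ∂μ.prod ν =
      ∫⁻ x, ∫⁻ y, ∫⁻ z, ∫⁻ x', ∫⁻ y', ∫⁻ z', Φ (x, x') (y, y') (z, z') ∂ν ∂ν ∂ν ∂μ ∂μ ∂μ := by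
  have key {G : Type} [MeasurableSpace G] {a b c : G → E × F} (ha : Measurable a)
      (hb : Measurable b) (hc : Measurable c) : Measurable fun g => Φ (a g) (b g) (c g) :=
    hΦ.comp (ha.prodMk (hb.prodMk hc))
  have m1 : Measurable fun p : (E × F) × (E × F) => ∫⁻ r, Φ p.1 p.2 r ∂μ.prod ν :=
    Measurable.lintegral_prod_right' (f := fun w : ((E × F) × (E × F)) × (E × F) => Φ w.1.1 w.1.2 w.2)
      (key measurable_fst.fst measurable_fst.snd measurable_snd)
  rw [lintegral_prod _ (Measurable.lintegral_prod_right'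
    (f := fun p : (E × F) × (E × F) => ∫⁻ r, Φ p.1 p.2 r ∂μ.prod ν) m1).aemeasurable]
  refine lintegral_congr fun x => ?_
  have e1 (x' : F) : ∫⁻ q, ∫⁻ r, Φ (x, x') q r ∂μ.prod ν ∂μ.prod ν =
      ∫⁻ y, ∫⁻ y', ∫⁻ r, Φ (x, x') (y, y') r ∂μ.prod ν ∂ν ∂μ :=
    lintegral_prod _ (m1.comp (measurable_prodMk_left (x := (x, x')))).aemeasurable
  simp_rw [e1]
  rw [lintegral_lintegral_swap]
  swap
  · refine (Measurable.lintegral_prod_right'
      (f := fun w : (F × E) × F => ∫⁻ r, Φ (x, w.1.1) (w.1.2, w.2) r ∂μ.prod ν) ?_).aemeasurable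
    exact m1.comp ((measurable_const.prodMk measurable_fst.fst).prodMk
      (measurable_fst.snd.prodMk measurable_snd))
  refine lintegral_congr fun y => ?_
  have e2 (x' y' : F) : ∫⁻ r, Φ (x, x') (y, y') r ∂μ.prod ν =
      ∫⁻ z, ∫⁻ z', Φ (x, x') (y, y') (z, z') ∂ν ∂μ :=
    lintegral_prod _ (key measurable_const measurable_const measurable_id).aemeasurable
  have m2 : Measurable fun w : (F × F) × E => ∫⁻ z', Φ (x, w.1.1) (y, w.1.2) (w.2, z') ∂ν :=
    Measurable.lintegral_prod_right'
      (f := fun w : ((F × F) × E) × F => Φ (x, w.1.1.1) (y, w.1.1.2) (w.1.2, w.2))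
      (key (measurable_const.prodMk measurable_fst.fst.fst)
        (measurable_const.prodMk measurable_fst.fst.snd) (measurable_fst.snd.prodMk measurable_snd))
  have e3 (x' : F) : ∫⁻ y', ∫⁻ z, ∫⁻ z', Φ (x, x') (y, y') (z, z') ∂ν ∂μ ∂ν =
      ∫⁻ z, ∫⁻ y', ∫⁻ z', Φ (x, x') (y, y') (z, z') ∂ν ∂ν ∂μ :=
    lintegral_lintegral_swap (m2.comp ((measurable_const.prodMk measurable_fst).prodMk
      measurable_snd)).aemeasurable
  simp_rw [e2, e3]
  rw [lintegral_lintegral_swap]
  refine (Measurable.lintegral_prod_right'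
    (f := fun w : (F × E) × F => ∫⁻ z', Φ (x, w.1.1) (y, w.2) (w.1.2, z') ∂ν) ?_).aemeasurable
  exact m2.comp ((measurable_fst.fst.prodMk measurable_snd).prodMk measurable_fst.snd)

theorem HasU2.prod {E F : Type} [AddCommGroup E] [MeasurableSpace E] [MeasurableAdd₂ E]
    [MeasurableSub₂ E] [AddCommGroup F] [MeasurableSpace F] [MeasurableAdd₂ F] [MeasurableSub₂ F]
    {μ : Measure E} {ν : Measure F} [SFinite μ] [SFinite ν] {c c' : ℝ≥0∞} (h : HasU2 μ c)
    (h' : HasU2 ν c') : HasU2 (μ.prod ν) (c * c') := by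
  intro f₁ f₂ f₃ f₄ m₁ m₂ m₃ m₄
  have mm : Measurable fun p : (E × F) × (E × F) × (E × F) => p.1 - p.2.1 + p.2.2 :=
    ((measurable_fst.fst.sub measurable_snd.fst.fst).add measurable_snd.snd.fst).prodMk
      ((measurable_fst.snd.sub measurable_snd.fst.snd).add measurable_snd.snd.snd)
  rw [U2b_reorder (Φ := fun x y z => f₁ x * f₂ y * f₃ z * f₄ (x - y + z))
    ((((m₁.comp measurable_fst).mul (m₂.comp measurable_snd.fst)).mul
      (m₃.comp measurable_snd.snd)).mul (m₄.comp mm))]
  set G : (E × F → ℝ≥0∞) → E → ℝ≥0∞ :=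
    fun f x => (∫⁻ x', f (x, x') ^ (4 / 3 : ℝ) ∂ν) ^ (3 / 4 : ℝ) with hG
  have mG {f : E × F → ℝ≥0∞} (hf : Measurable f) : Measurable (G f) :=
    (Measurable.lintegral_prod_right' (hf.pow_const (4 / 3 : ℝ))).pow_const _
  have eG {f : E × F → ℝ≥0∞} (hf : Measurable f) :
      ∫⁻ x, G f x ^ (4 / 3 : ℝ) ∂μ = ∫⁻ p, f p ^ (4 / 3 : ℝ) ∂μ.prod ν := by
    rw [lintegral_prod _ (hf.pow_const _).aemeasurable]
    refine lintegral_congr fun x => ?_
    simp only [hG]
    rw [← ENNReal.rpow_mul]
    norm_num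
  have step := h _ _ _ _ (mG m₁) (mG m₂) (mG m₃) (mG m₄)
  rw [eG m₁, eG m₂, eG m₃, eG m₄] at step
  have pt (x y z : E) : ∫⁻ x', ∫⁻ y', ∫⁻ z', f₁ (x, x') * f₂ (y, y') * f₃ (z, z') *
      f₄ ((x, x') - (y, y') + (z, z')) ∂ν ∂ν ∂ν ≤
      c' * (G f₁ x * G f₂ y * G f₃ z * G f₄ (x - y + z)) :=
    h' (fun x' => f₁ (x, x')) (fun y' => f₂ (y, y')) (fun z' => f₃ (z, z'))
      (fun w' => f₄ (x - y + z, w')) (m₁.comp measurable_prodMk_left)
      (m₂.comp measurable_prodMk_left) (m₃.comp measurable_prodMk_left)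
      (m₄.comp measurable_prodMk_left)
  refine (lintegral_mono fun x => lintegral_mono fun y => lintegral_mono fun z => pt x y z).trans ?_
  have M : Measurable fun p : (E × E) × E =>
      G f₁ p.1.1 * G f₂ p.1.2 * G f₃ p.2 * G f₄ (p.1.1 - p.1.2 + p.2) :=
    ((((mG m₁).comp measurable_fst.fst).mul ((mG m₂).comp measurable_fst.snd)).mul
      ((mG m₃).comp measurable_snd)).mul
      ((mG m₄).comp ((measurable_fst.fst.sub measurable_fst.snd).add measurable_snd))
  have M2 := M.lintegral_prod_right' (ν := μ)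
  have M3 := M2.lintegral_prod_right' (ν := μ)
  have e1 (x y : E) := lintegral_const_mul (μ := μ) c' (M.comp (measurable_prodMk_left (x := (x, y))))
  have e2 (x : E) := lintegral_const_mul (μ := μ) c' (M2.comp (measurable_prodMk_left (x := x)))
  have e3 := lintegral_const_mul (μ := μ) c' M3
  simp only [Function.comp_def] at e1 e2 e3
  simp_rw [e1, e2, e3]
  rw [mul_comm c c', mul_assoc]
  exact mul_le_mul_right step _

theorem U2b_equiv {E F : Type} [AddCommGroup E] [MeasurableSpace E] [AddCommGroup F]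
    [MeasurableSpace F] {μ : Measure E} {ν : Measure F} {c : ℝ≥0∞} (h : HasU2 μ c) (e : E ≃ᵐ F)
    (he : MeasurePreserving e μ ν) (hadd : ∀ x y z, e (x - y + z) = e x - e y + e z) :
    HasU2 ν c := by
  intro f₁ f₂ f₃ f₄ m₁ m₂ m₃ m₄
  have key := h _ _ _ _ (m₁.comp e.measurable) (m₂.comp e.measurable) (m₃.comp e.measurable)
    (m₄.comp e.measurable)
  simp only [Function.comp_def, hadd] at key
  have r (g : F → ℝ≥0∞) : ∫⁻ x, g x ∂ν = ∫⁻ x, g (e x) ∂μ :=
    (he.lintegral_comp_emb e.measurableEmbedding g).symm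
  simp_rw [r]
  exact key

theorem U2b_fin {c : ℝ≥0∞} (h : HasU2 (volume : Measure ℝ) c) (n : ℕ) :
    HasU2 (volume : Measure (Fin n → ℝ)) (c ^ n) := by
  induction n with
  | zero =>
    intro f₁ f₂ f₃ f₄ _ _ _ _
    have h1 : (volume : Measure (Fin 0 → ℝ)) Set.univ = 1 := by
      rw [volume_pi, Measure.pi_univ]
      simp
    simp only [lintegral_unique, h1, mul_one, pow_zero, one_mul, ← ENNReal.rpow_mul]
    norm_num
  | succ n ih =>
    have h1 := (volume_preserving_piFinSuccAbove (fun _ : Fin (n + 1) => ℝ) 0).symm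
    rw [pow_succ']
    refine U2b_equiv (h.prod ih) _ h1 ?_
    intro x y z
    apply (MeasurableEquiv.piFinSuccAbove (fun _ : Fin (n + 1) => ℝ) 0).injective
    rw [MeasurableEquiv.apply_symm_apply]
    ext <;> simp [MeasurableEquiv.piFinSuccAbove, Fin.tail]

theorem HasU2.pi {c : ℝ≥0∞} (h : HasU2 (volume : Measure ℝ) c) (κ : Type) [Fintype κ] :
    HasU2 (volume : Measure (κ → ℝ)) (c ^ Fintype.card κ) := by
  refine U2b_equiv (U2b_fin h (Fintype.card κ)) _
    (volume_measurePreserving_piCongrLeft (fun _ : κ => ℝ) (Fintype.equivFin κ).symm) ?_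
  intro x y z
  ext i
  simp [MeasurableEquiv.piCongrLeft, Equiv.piCongrLeft, Equiv.piCongrLeft']

theorem U2b_lmarginal_prod {E L : Type} [MeasurableSpace E] [DecidableEq L] (μ : Measure E)
    [SigmaFinite μ] {I : E → ℝ≥0∞} (hI : Measurable I) (s : Finset L) (C : ℝ≥0∞) (x : L → E) :
    lmarginal (fun _ : L => μ) s (fun x => C * ∏ l ∈ s, I (x l)) x =
      C * (∫⁻ t, I t ∂μ) ^ s.card := by
  induction s using Finset.induction generalizing C with
  | empty => simp
  | insert i s hi ih =>
    rw [lmarginal_insert' _ _ hi, Finset.card_insert_of_notMem hi, pow_succ', ← mul_assoc, ← ih]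
    · congr 1
      funext y
      have e (t : E) : C * ∏ l ∈ insert i s, I (Function.update y i t l) =
          (C * ∏ l ∈ s, I (y l)) * I t := by
        rw [Finset.prod_insert hi, Function.update_self, mul_assoc, mul_comm (I t)]
        congr 2
        refine Finset.prod_congr rfl fun l hl => ?_
        rw [Function.update_of_ne (by rintro rfl; exact hi hl)]
      simp_rw [e]
      rw [lintegral_const_mul _ hI]
      ring
    · exact (Finset.measurable_prod _ fun l _ => hI.comp (measurable_pi_apply l)).const_mul _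

theorem U2b_indicator {E : Type} [AddCommGroup E] [MeasurableSpace E] [MeasurableAdd₂ E]
    {μ : Measure E} [μ.IsAddRightInvariant] {c : ℝ≥0∞} (h : HasU2 μ c) {A : Set E}
    (hA : MeasurableSet A) (r : E) :
    ∫⁻ x, ∫⁻ y, ∫⁻ z, A.indicator 1 x * A.indicator 1 y * A.indicator 1 z *
      A.indicator 1 (x - y + z + r) ∂μ ∂μ ∂μ ≤ c * μ A ^ 3 := by
  have hI : Measurable (A.indicator (1 : E → ℝ≥0∞)) := measurable_one.indicator hA
  have key := h _ _ _ (fun w => A.indicator 1 (w + r)) hI hI hI (hI.comp (measurable_add_const r))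
  have e (t : E) : A.indicator (1 : E → ℝ≥0∞) t ^ (4 / 3 : ℝ) = A.indicator 1 t := by
    by_cases ht : t ∈ A
    · simp [Set.indicator_of_mem ht]
    · simp [Set.indicator_of_notMem ht]
  simp_rw [e] at key
  rw [lintegral_add_right_eq_self (A.indicator (1 : E → ℝ≥0∞)) r, lintegral_indicator_one hA] at key
  refine key.trans (le_of_eq ?_)
  congr 1
  rw [← ENNReal.rpow_natCast, show ((3 : ℕ) : ℝ) = (3 / 4 : ℝ) * (4 : ℕ) by norm_num,
    ENNReal.rpow_mul, ENNReal.rpow_natCast]
  ring

theorem HasU2.pi_le {κ L : Type} [Fintype κ] [Fintype L] [DecidableEq L] {c : ℝ≥0∞}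
    (h : HasU2 (volume : Measure (ℝ × (κ → ℝ))) c) (A : Set (ℝ × (κ → ℝ))) (hA : MeasurableSet A)
    (co : L → ℤ) {a b d : L} (hab : a ≠ b) (had : a ≠ d) (hbd : b ≠ d) (ha : co a = 1)
    (hb : co b = -1) (hd : co d = 1) :
    volume {x : L → ℝ × (κ → ℝ) | (∀ l, x l ∈ A) ∧ ∑ l, co l • x l ∈ A} ≤
      c * volume A ^ Fintype.card L := by
  set I : ℝ × (κ → ℝ) → ℝ≥0∞ := A.indicator 1 with hIdef
  have hI : Measurable I := measurable_one.indicator hA
  set s : Finset L := Finset.univ \ {a, b, d} with hs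
  have has : a ∉ s := by simp [hs]
  have hbs : b ∉ s := by simp [hs]
  have hds : d ∉ s := by simp [hs]
  have hdis : Disjoint s {a, b, d} := Finset.sdiff_disjoint
  have hun : s ∪ {a, b, d} = Finset.univ := Finset.sdiff_union_of_subset (Finset.subset_univ _)
  have hna : a ∉ ({b, d} : Finset L) := by simp [hab, had]
  have hnb : b ∉ ({d} : Finset L) := by simp [hbd]
  have hcard : Fintype.card L = 3 + s.card := by
    rw [← Finset.card_univ, ← hun, Finset.card_union_of_disjoint hdis,
      Finset.card_insert_of_notMem hna, Finset.card_insert_of_notMem hnb, Finset.card_singleton]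
    omega
  set rest : (L → ℝ × (κ → ℝ)) → ℝ × (κ → ℝ) := fun x => ∑ l ∈ s, co l • x l with hrest
  have mrest : Measurable rest :=
    Finset.measurable_sum _ fun l _ => (measurable_pi_apply l).const_smul (co l)
  have mP : Measurable fun x : L → ℝ × (κ → ℝ) => ∏ l ∈ s, I (x l) :=
    Finset.measurable_prod _ fun l _ => hI.comp (measurable_pi_apply l)
  set F : (L → ℝ × (κ → ℝ)) → ℝ≥0∞ := fun x =>
    (∏ l ∈ s, I (x l)) * (I (x a) * I (x b) * I (x d) * I (x a - x b + x d + rest x)) with hF
  have mF : Measurable F :=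
    mP.mul ((((hI.comp (measurable_pi_apply a)).mul (hI.comp (measurable_pi_apply b))).mul
      (hI.comp (measurable_pi_apply d))).mul (hI.comp
        ((((measurable_pi_apply a).sub (measurable_pi_apply b)).add (measurable_pi_apply d)).add mrest)))
  have h1 : volume {x : L → ℝ × (κ → ℝ) | (∀ l, x l ∈ A) ∧ ∑ l, co l • x l ∈ A} ≤ ∫⁻ x, F x := by
    refine le_trans ?_ (setLIntegral_le_lintegral
      {x : L → ℝ × (κ → ℝ) | (∀ l, x l ∈ A) ∧ ∑ l, co l • x l ∈ A} F)
    rw [← setLIntegral_one]
    have mS : MeasurableSet {x : L → ℝ × (κ → ℝ) | (∀ l, x l ∈ A) ∧ ∑ l, co l • x l ∈ A} := by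
      refine MeasurableSet.inter (s₁ := {x : L → ℝ × (κ → ℝ) | ∀ l, x l ∈ A}) ?_ ?_
      · rw [Set.ofPred_forall]
        exact MeasurableSet.iInter fun l => measurable_pi_apply l hA
      · exact (Finset.measurable_sum _ fun l _ => (measurable_pi_apply l).const_smul (co l)) hA
    refine setLIntegral_mono' mS fun x hx => le_of_eq ?_
    have e : x a - x b + x d + rest x = ∑ l, co l • x l := by
      rw [← hun, Finset.sum_union hdis, Finset.sum_insert hna, Finset.sum_insert hnb,
        Finset.sum_singleton, ha, hb, hd]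
      simp only [hrest, one_smul, neg_smul]
      abel
    have i (l : L) : I (x l) = 1 := by simp [hIdef, Set.indicator_of_mem (hx.1 l)]
    have i' : I (∑ l, co l • x l) = 1 := by simp only [hIdef, Set.indicator_of_mem hx.2, Pi.one_apply]
    simp only [hF, e, i, i', Finset.prod_const_one, mul_one]
  refine h1.trans ?_
  rw [volume_pi, lintegral_eq_lmarginal_univ 0, ← hun, lmarginal_union _ _ mF hdis]
  have h2 : lmarginal (fun _ : L => (volume : Measure (ℝ × (κ → ℝ)))) {a, b, d} F ≤
      fun x => (c * volume A ^ 3) * ∏ l ∈ s, I (x l) := by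
    intro x
    rw [lmarginal_insert _ mF hna]
    simp_rw [lmarginal_insert _ mF hnb, lmarginal_singleton]
    have e (p q r : ℝ × (κ → ℝ)) :
        F (Function.update (Function.update (Function.update x a p) b q) d r) =
          (∏ l ∈ s, I (x l)) * (I p * I q * I r * I (p - q + r + rest x)) := by
      have u (l : L) (hl : l ∈ s) :
          Function.update (Function.update (Function.update x a p) b q) d r l = x l := by
        rw [Function.update_of_ne (by rintro rfl; exact hds hl),
          Function.update_of_ne (by rintro rfl; exact hbs hl),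
          Function.update_of_ne (by rintro rfl; exact has hl)]
      have ua : Function.update (Function.update (Function.update x a p) b q) d r a = p := by
        rw [Function.update_of_ne had, Function.update_of_ne hab, Function.update_self]
      have ub : Function.update (Function.update (Function.update x a p) b q) d r b = q := by
        rw [Function.update_of_ne hbd, Function.update_self]
      simp only [hF, hrest, ua, ub, Function.update_self]
      rw [Finset.prod_congr rfl fun l hl => congrArg I (u l hl),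
        Finset.sum_congr rfl fun l hl => congrArg (fun t => co l • t) (u l hl)]
    have fin : ∏ l ∈ s, I (x l) ≠ ⊤ := by
      refine ENNReal.prod_ne_top fun l _ => ?_
      by_cases hl : x l ∈ A
      · simp [hIdef, Set.indicator_of_mem hl]
      · simp [hIdef, Set.indicator_of_notMem hl]
    simp_rw [e, lintegral_const_mul' _ _ fin]
    rw [mul_comm]
    have : (volume : Measure (ℝ × (κ → ℝ))).IsAddRightInvariant :=
      inferInstanceAs ((volume : Measure ℝ).prod (volume : Measure (κ → ℝ))).IsAddRightInvariant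
    exact mul_le_mul_left (U2b_indicator h hA (rest x)) _
  refine (lmarginal_mono h2 0).trans (le_of_eq ?_)
  rw [U2b_lmarginal_prod _ hI, hcard, pow_add, hIdef, lintegral_indicator_one hA, mul_assoc]

end Crest.Agent.R225
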