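import Crest.Agent.R225.Cells
import Crest.Agent.R225.U2b
import Crest.Agent.R225.LC

/-!
# Row 225: Occ1
See `Cells.lean` for the cells and fibres.

`occ_one` (all `|C l| ≤ 1`): from coordinate `none` of the relation `∑ C = 0`; injectivity excludes exactly two nonzero entries, so there are
two `+1` and two `-1`.  Drop `l₀`; with `co l = - C l₀ * C l` (`l ≠ l₀`) one has `z l₀ = ∑ co l • z l` and `∑ co = 1`.  By `mp_ev`, `ev_rel` the probability
is at most `ε^(|κ| j) vol {τ | ∀ l, τ l ∈ fib .., ∑ co l τ l ∈ fib J (ε(u + w l₀))}` (no wrap-around by `hw`); sum over the product cells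
(`measurePreserving_arrowProdEquivProdArrow`) and apply `HasU2.pi_le` to `cthickening η J`.
-/

set_option autoImplicit false
set_option linter.unusedSectionVars false

open MeasureTheory ProbabilityTheory Matrix Filter Topology
open scoped ENNReal RealInnerProductSpace

noncomputable section

namespace Crest.Agent.R225

variable {κ L : Type} [Fintype κ] [DecidableEq κ] [Fintype L] [DecidableEq L]
  {J : Set (ℝ × (κ → ℝ))} {ε η R₀ : ℝ} {u : κ → ℝ}

/-- the coefficients of `z l₀` in terms of the other labels -/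
def Occ1_co (C : L → ℤ) (l₀ : L) (l : {l // l ≠ l₀}) : ℤ := -C l₀ * C l

theorem Occ1_solve {M : Type} [AddCommGroup M] {C : L → ℤ} {l₀ : L} (h1 : C l₀ * C l₀ = 1)
    {v : L → M} (h : ∑ l, C l • v l = 0) :
    v l₀ = ∑ l : {l // l ≠ l₀}, Occ1_co C l₀ l • v l := by
  rw [Fintype.sum_eq_add_sum_subtype_ne _ l₀] at h
  have h2 := congrArg (fun x => (-C l₀) • x) h
  simp only [smul_add, smul_zero, Finset.smul_sum, smul_smul, neg_mul, h1, neg_smul,
    one_smul] at h2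
  rw [neg_add_eq_zero] at h2
  rw [h2]
  simp only [Occ1_co, neg_mul, neg_smul]

theorem Occ1_pattern {I : Type} [Fintype I] [DecidableEq I] (co : I → ℤ) (hc : ∀ l, |co l| ≤ 1)
    (hs : ∑ l, co l = 1) (hne : ∀ a, co a = 1 → ∃ b, b ≠ a ∧ co b ≠ 0) :
    ∃ a b d, a ≠ b ∧ a ≠ d ∧ b ≠ d ∧ co a = 1 ∧ co b = -1 ∧ co d = 1 := by
  have hc' := fun l => abs_le.1 (hc l)
  obtain ⟨a, ha⟩ : ∃ a, co a = 1 := by
    by_contra h
    have : ∑ l, co l ≤ 0 := Finset.sum_nonpos fun l _ => by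
      have h1 : co l ≠ 1 := fun e => h ⟨l, e⟩
      have := hc' l
      omega
    omega
  obtain ⟨e, hea, he⟩ := hne a ha
  have h0 : ∑ l ∈ Finset.univ.erase a, co l = 0 := by
    rw [← Finset.add_sum_erase _ _ (Finset.mem_univ a)] at hs
    omega
  have hem : e ∈ Finset.univ.erase a := Finset.mem_erase.2 ⟨hea, Finset.mem_univ _⟩
  obtain ⟨b, hb⟩ : ∃ b, co b = -1 := by
    by_contra h
    refine he ((Finset.sum_eq_zero_iff_of_nonneg fun l _ => ?_).1 h0 e hem)
    have h1 : co l ≠ -1 := fun e => h ⟨l, e⟩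
    have := hc' l
    omega
  obtain ⟨d, hda, hd⟩ : ∃ d, d ≠ a ∧ co d = 1 := by
    by_contra h
    refine he ((Finset.sum_eq_zero_iff_of_nonpos fun l hl => ?_).1 h0 e hem)
    have h1 : co l ≠ 1 := fun e => h ⟨l, (Finset.mem_erase.1 hl).1, e⟩
    have := hc' l
    omega
  refine ⟨a, b, d, ?_, hda.symm, ?_, ha, hb, hd⟩
  · rintro rfl; omega
  · rintro rfl; omega

theorem Occ1_none {R : ℕ} {z : Option κ → ℤ} (hz : z ∈ box κ R) : z none = 1 := by
  obtain ⟨w, -, rfl⟩ := Finset.mem_image.1 hz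
  rfl

/-- the base point of the cell of a label -/
def Occ1_c (ε : ℝ) (u : κ → ℝ) (z : Option κ → ℤ) : κ → ℝ := fun i => ε * (u i + z (some i))

/-- the admissible heights -/
def Occ1_B (J : Set (ℝ × (κ → ℝ))) (ε : ℝ) (u : κ → ℝ) (C : L → ℤ) (l₀ : L)
    (z : L → Option κ → ℤ) : Set ({l // l ≠ l₀} → ℝ) :=
  {τ | (∀ l, (τ l, Occ1_c ε u (z l)) ∈ J) ∧
    (∑ l, Occ1_co C l₀ l • τ l, Occ1_c ε u (z l₀)) ∈ J}

theorem Occ1_measB (hJ : IsCompact J) (ε : ℝ) (u : κ → ℝ) (C : L → ℤ) (l₀ : L)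
    (z : L → Option κ → ℤ) : MeasurableSet (Occ1_B J ε u C l₀ z) := by
  refine IsClosed.measurableSet ?_
  have h1 : ∀ l : {l // l ≠ l₀},
      IsClosed {τ : {l // l ≠ l₀} → ℝ | (τ l, Occ1_c ε u (z l)) ∈ J} := fun l =>
    hJ.isClosed.preimage (by fun_prop)
  have h2 : IsClosed {τ : {l // l ≠ l₀} → ℝ |
      (∑ l, Occ1_co C l₀ l • τ l, Occ1_c ε u (z l₀)) ∈ J} := hJ.isClosed.preimage (by fun_prop)
  have h3 := (isClosed_iInter h1).inter h2
  convert h3 using 1
  ext τ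
  simp [Occ1_B]

open Pointwise in
/-- the probability of one tuple -/
theorem Occ1_prob (hJ : IsCompact J) (hR : J ⊆ Metric.closedBall 0 R₀) (hε : 0 < ε)
    (hw : Fintype.card L * R₀ * ε ^ Fintype.card κ < 1) (u : κ → ℝ) {C : L → ℤ}
    (hC : ∀ l, |C l| ≤ 1) {l₀ : L} (h0 : C l₀ ≠ 0) (h1 : C l₀ * C l₀ = 1)
    {z : L → Option κ → ℤ} (hz : Rel C z) :
    volume {ω : TT (Option κ) | ∀ l, ev (z l) ω ∈ arc J ε u (z l)} ≤
      ENNReal.ofReal ((ε ^ Fintype.card κ) ^ Fintype.card {l // l ≠ l₀}) *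
        volume (Occ1_B J ε u C l₀ z) := by
  have hmp := mp_ev (fun l : {l // l ≠ l₀} => z l) (hz.2.2 l₀ h0)
  have hpos : 0 < ε ^ Fintype.card κ := pow_pos hε _
  have hm : MeasurableSet (ε ^ Fintype.card κ • Occ1_B J ε u C l₀ z) :=
    (Occ1_measB hJ ε u C l₀ z).const_smul₀ _
  have hs := Measure.addHaar_smul_of_nonneg (volume : Measure ({l // l ≠ l₀} → ℝ)) hpos.le
    (Occ1_B J ε u C l₀ z)
  rw [Module.finrank_fintype_fun_eq_card] at hs
  rw [← hs]
  refine le_trans (measure_mono fun ω hω => ?_)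
    ((hmp.measure_preimage_le _).trans (vol_pr_le hm))
  choose τ hτ hτ' using hω
  have hb : ∀ l, |τ l| ≤ R₀ := fun l => by
    have := mem_closedBall_zero_iff.1 (hR (hτ l))
    exact (norm_fst_le (τ l, fun i => ε * (u i + z l (some i)))).trans this
  have hrel := ev_rel hz.2.1 ω
  have h2 : ((∑ l, C l • (τ l * ε ^ Fintype.card κ) : ℝ) : UnitAddCircle) = 0 := by
    rw [← hrel]
    simp only [hτ']
    exact map_sum (QuotientAddGroup.mk' (AddSubgroup.zmultiples (1 : ℝ))) _ _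
  obtain ⟨m, hm'⟩ := (AddCircle.coe_eq_zero_iff _).1 h2
  have h3 : |∑ l, C l • (τ l * ε ^ Fintype.card κ)| < 1 := by
    refine lt_of_le_of_lt ((Finset.abs_sum_le_sum_abs _ _).trans ?_) hw
    rw [mul_assoc, ← nsmul_eq_mul, ← Finset.card_univ (α := L), ← Finset.sum_const]
    refine Finset.sum_le_sum fun l _ => ?_
    rw [zsmul_eq_mul, abs_mul, abs_mul, abs_of_pos hpos]
    have h4 : |(C l : ℝ)| ≤ 1 := by exact_mod_cast hC l
    exact (mul_le_of_le_one_left (by positivity) h4).trans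
      (mul_le_mul_of_nonneg_right (hb l) hpos.le)
  rw [← hm', zsmul_eq_mul, mul_one] at h3
  have h4 : m = 0 := by
    have : |m| < 1 := by exact_mod_cast h3
    exact Int.abs_lt_one_iff.1 this
  rw [h4, zero_smul] at hm'
  have h5 : ∑ l, C l • τ l = 0 := by
    have : (∑ l, C l • τ l) * ε ^ Fintype.card κ = 0 := by
      rw [hm', Finset.sum_mul]
      exact Finset.sum_congr rfl fun l _ => smul_mul_assoc _ _ _
    exact (mul_eq_zero.1 this).resolve_right hpos.ne'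
  refine ⟨ε ^ Fintype.card κ • fun l : {l // l ≠ l₀} => τ l,
    Set.smul_mem_smul_set ⟨fun l => hτ l, ?_⟩, ?_⟩
  · rw [← Occ1_solve h1 h5]
    exact hτ l₀
  · funext l
    change ((ε ^ Fintype.card κ * τ l : ℝ) : UnitAddCircle) = ev (z l) ω
    rw [hτ', mul_comm]

/-- the product cell over a tuple -/
def Occ1_D (J : Set (ℝ × (κ → ℝ))) (ε : ℝ) (u : κ → ℝ) (C : L → ℤ) (l₀ : L)
    (z : L → Option κ → ℤ) : Set ({l // l ≠ l₀} → ℝ × (κ → ℝ)) :=
  MeasurableEquiv.arrowProdEquivProdArrow ℝ (κ → ℝ) {l // l ≠ l₀} ⁻¹'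
    (Occ1_B J ε u C l₀ z ×ˢ Set.univ.pi fun l : {l // l ≠ l₀} => Set.univ.pi fun i =>
      Set.Ico (Occ1_c ε u (z l) i) (Occ1_c ε u (z l) i + ε))

theorem Occ1_mem_D {C : L → ℤ} {l₀ : L} {z : L → Option κ → ℤ}
    {x : {l // l ≠ l₀} → ℝ × (κ → ℝ)} : x ∈ Occ1_D J ε u C l₀ z ↔
      (fun l => (x l).1) ∈ Occ1_B J ε u C l₀ z ∧ ∀ l i, Occ1_c ε u (z l.1) i ≤ (x l).2 i ∧
        (x l).2 i < Occ1_c ε u (z l.1) i + ε := by
  simp only [Occ1_D, Set.mem_preimage, Set.mem_prod, Set.mem_pi, Set.mem_univ, true_implies,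
    Set.mem_Ico]
  rfl

theorem Occ1_measD (hJ : IsCompact J) (ε : ℝ) (u : κ → ℝ) (C : L → ℤ) (l₀ : L)
    (z : L → Option κ → ℤ) : MeasurableSet (Occ1_D J ε u C l₀ z) :=
  (MeasurableEquiv.measurable _) ((Occ1_measB hJ ε u C l₀ z).prod
    (MeasurableSet.univ_pi fun _ => MeasurableSet.univ_pi fun _ => measurableSet_Ico))

theorem Occ1_volD (hε : 0 < ε) (u : κ → ℝ) (C : L → ℤ) (l₀ : L) (z : L → Option κ → ℤ) :
    volume (Occ1_D J ε u C l₀ z) =
      ENNReal.ofReal ((ε ^ Fintype.card κ) ^ Fintype.card {l // l ≠ l₀}) *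
        volume (Occ1_B J ε u C l₀ z) := by
  rw [Occ1_D, (volume_measurePreserving_arrowProdEquivProdArrow ℝ (κ → ℝ)
    {l // l ≠ l₀}).measure_preimage_equiv, Measure.volume_eq_prod, Measure.prod_prod, volume_pi_pi,
    mul_comm]
  simp only [volume_pi_pi, Real.volume_Ico, add_sub_cancel_left, Finset.prod_const,
    Finset.card_univ]
  rw [ENNReal.ofReal_pow (pow_pos hε _).le, ENNReal.ofReal_pow hε.le]

theorem Occ1_D_subset (hε : 0 < ε) (hη : Fintype.card L * ε ≤ η) {C : L → ℤ}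
    (hC : ∀ l, |C l| ≤ 1) {l₀ : L} (h1 : C l₀ * C l₀ = 1) (hs : ∑ l, Occ1_co C l₀ l = 1)
    {z : L → Option κ → ℤ} (hz : Rel C z) :
    Occ1_D J ε u C l₀ z ⊆ {x | (∀ l, x l ∈ Metric.cthickening η J) ∧
      ∑ l, Occ1_co C l₀ l • x l ∈ Metric.cthickening η J} := by
  intro x hx
  obtain ⟨⟨hB1, hB2⟩, hx2⟩ := Occ1_mem_D.1 hx
  have hL : (1 : ℝ) ≤ Fintype.card L := by
    exact_mod_cast Fintype.card_pos_iff.2 ⟨l₀⟩
  have hd : ∀ l : {l // l ≠ l₀}, ‖(x l).2 - Occ1_c ε u (z l)‖ ≤ ε := fun l =>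
    (pi_norm_le_iff_of_nonneg hε.le).2 fun i => by
      rw [Pi.sub_apply, Real.norm_eq_abs, abs_le]
      constructor <;> linarith [(hx2 l i).1, (hx2 l i).2]
  refine ⟨fun l => Metric.mem_cthickening_of_dist_le _ _ _ _ (hB1 l) ?_,
    Metric.mem_cthickening_of_dist_le _ _ _ _ hB2 ?_⟩
  · rw [Prod.dist_eq, dist_self, dist_eq_norm]
    exact max_le (by nlinarith) ((hd l).trans (by nlinarith))
  · have e1 : Occ1_c ε u (z l₀) = ∑ l, Occ1_co C l₀ l • Occ1_c ε u (z l) := by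
      funext i
      have h2 := congrFun (Occ1_solve h1 hz.2.1) (some i)
      have h3 : ∑ l, (Occ1_co C l₀ l : ℝ) = 1 := by exact_mod_cast hs
      simp only [Finset.sum_apply, Pi.smul_apply, smul_eq_mul] at h2
      have h4 : (z l₀ (some i) : ℝ) = ∑ l, (Occ1_co C l₀ l : ℝ) * (z l.1 (some i) : ℝ) := by
        exact_mod_cast h2
      rw [Finset.sum_apply]
      have h5 : ∀ l : {l // l ≠ l₀}, (Occ1_co C l₀ l • Occ1_c ε u (z l)) i =
          Occ1_co C l₀ l * (ε * u i) + ε * ((Occ1_co C l₀ l : ℝ) * (z l.1 (some i) : ℝ)) := by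
        intro l
        rw [Pi.smul_apply, zsmul_eq_mul, Occ1_c]; ring
      simp only [h5]
      rw [Finset.sum_add_distrib, ← Finset.sum_mul, ← Finset.mul_sum, h3, ← h4, Occ1_c]
      ring
    rw [Prod.dist_eq, Prod.fst_sum, Prod.snd_sum]
    simp only [Prod.smul_fst, Prod.smul_snd, dist_self]
    refine max_le (by nlinarith) ?_
    rw [e1, dist_eq_norm, ← Finset.sum_sub_distrib]
    refine (norm_sum_le _ _).trans (le_trans ?_ hη)
    have h4 : (Fintype.card {l // l ≠ l₀} : ℝ) ≤ Fintype.card L := by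
      exact_mod_cast Fintype.card_subtype_le _
    refine le_trans ?_ (mul_le_mul_of_nonneg_right h4 hε.le)
    rw [← nsmul_eq_mul, ← Finset.card_univ, ← Finset.sum_const]
    refine Finset.sum_le_sum fun l _ => ?_
    rw [← smul_sub, norm_zsmul ℝ]
    have h5 : ‖(Occ1_co C l₀ l : ℝ)‖ ≤ 1 := by
      have : |Occ1_co C l₀ l| ≤ 1 := by
        rw [Occ1_co, abs_mul, abs_neg]
        exact mul_le_one₀ (hC _) (abs_nonneg _) (hC _)
      rw [Real.norm_eq_abs]
      exact_mod_cast this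
    exact (mul_le_of_le_one_left (norm_nonneg _) h5).trans (hd l)

theorem Occ1_D_inj (hε : 0 < ε) {C : L → ℤ} {l₀ : L} (h1 : C l₀ * C l₀ = 1)
    {z z' : L → Option κ → ℤ} (hz : Rel C z) (hz' : Rel C z') (hn : ∀ l, z l none = z' l none)
    {x : {l // l ≠ l₀} → ℝ × (κ → ℝ)} (hx : x ∈ Occ1_D J ε u C l₀ z)
    (hx' : x ∈ Occ1_D J ε u C l₀ z') : z = z' := by
  have h2 : ∀ l : {l // l ≠ l₀}, z l = z' l := by
    intro l
    funext o
    rcases o with _ | i
    · exact hn l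
    · obtain ⟨a1, a2⟩ := (Occ1_mem_D.1 hx).2 l i
      obtain ⟨b1, b2⟩ := (Occ1_mem_D.1 hx').2 l i
      simp only [Occ1_c] at a1 a2 b1 b2
      have c1 : (z l (some i) : ℝ) < z' l (some i) + 1 := by
        refine lt_of_mul_lt_mul_left ?_ hε.le
        linarith
      have c2 : (z' l (some i) : ℝ) < z l (some i) + 1 := by
        refine lt_of_mul_lt_mul_left ?_ hε.le
        linarith
      have d1 : z l (some i) < z' l (some i) + 1 := by exact_mod_cast c1
      have d2 : z' l (some i) < z l (some i) + 1 := by exact_mod_cast c2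
      omega
  funext l
  by_cases hl : l = l₀
  · rw [hl, Occ1_solve h1 hz.2.1, Occ1_solve h1 hz'.2.1]
    simp only [h2]
  · exact h2 ⟨l, hl⟩

theorem occ_one (hJ : IsCompact J) (hR : J ⊆ Metric.closedBall 0 R₀) (hε : 0 < ε)
    (hw : Fintype.card L * R₀ * ε ^ Fintype.card κ < 1) (hη : Fintype.card L * ε ≤ η) (u : κ → ℝ)
    (R : ℕ) {ρ : ℝ} (hρ : 0 ≤ ρ) (hU : HasU2 (volume : Measure (ℝ × (κ → ℝ))) (ENNReal.ofReal ρ))
    (C : L → ℤ) (hC : ∀ l, |C l| ≤ 1) {l₀ : L} (h0 : C l₀ ≠ 0) :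
    occ (box κ R) (arc J ε u) (Rel C) ≤
      ρ * volume.real (Metric.cthickening η J) ^ (Fintype.card L - 1) := by
  classical
  unfold occ
  set T := (Fintype.piFinset fun _ : L => box κ R).filter (Rel C) with hT
  have hT' : ∀ z ∈ T, (∀ l, z l none = 1) ∧ Rel C z := fun z hz =>
    ⟨fun l => Occ1_none (Fintype.mem_piFinset.1 (Finset.mem_filter.1 hz).1 l),
      (Finset.mem_filter.1 hz).2⟩
  rcases T.eq_empty_or_nonempty with he | ⟨z₀, hz₀⟩
  · rw [he, Finset.sum_empty]; positivity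
  have h1 : C l₀ * C l₀ = 1 := by
    have := abs_le.1 (hC l₀)
    have h2 : C l₀ = 1 ∨ C l₀ = -1 := by omega
    rcases h2 with h | h <;> simp [h]
  have hs : ∑ l, Occ1_co C l₀ l = 1 := by
    have := congrFun (Occ1_solve h1 (hT' z₀ hz₀).2.2.1) none
    simpa [(hT' z₀ hz₀).1] using this.symm
  obtain ⟨a, b, d, hab, had, hbd, ha, hb, hd⟩ := Occ1_pattern (Occ1_co C l₀)
    (fun l => by
      rw [Occ1_co, abs_mul, abs_neg]
      exact mul_le_one₀ (hC _) (abs_nonneg _) (hC _)) hs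
    (fun a ha => by
      by_contra h
      have h2 := Occ1_solve h1 (hT' z₀ hz₀).2.2.1
      rw [Finset.sum_eq_single a, ha, one_smul] at h2
      · exact a.2 ((hT' z₀ hz₀).2.1 h2).symm
      · intro b _ hba
        have : Occ1_co C l₀ b = 0 := by
          by_contra h3
          exact h ⟨b, hba, h3⟩
        rw [this, zero_smul]
      · simp)
  have hA : volume (Metric.cthickening η J) ≠ ⊤ := hJ.cthickening.measure_lt_top.ne
  have key : ∑ z ∈ T, volume {ω : TT (Option κ) | ∀ l, ev (z l) ω ∈ arc J ε u (z l)} ≤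
      ENNReal.ofReal ρ * volume (Metric.cthickening η J) ^ Fintype.card {l // l ≠ l₀} := by
    refine le_trans ?_ (hU.pi_le _ Metric.isClosed_cthickening.measurableSet (Occ1_co C l₀)
      hab had hbd ha hb hd)
    refine (Finset.sum_le_sum fun z hz =>
      (Occ1_prob hJ hR hε hw u hC h0 h1 (hT' z hz).2).trans (Occ1_volD hε u C l₀ z).ge).trans ?_
    rw [← measure_biUnion_finset ?_ fun z _ => Occ1_measD hJ ε u C l₀ z]
    · exact measure_mono (Set.iUnion₂_subset fun z hz =>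
        Occ1_D_subset hε hη hC h1 hs (hT' z hz).2)
    · intro z hz z' hz' hne
      exact Set.disjoint_left.2 fun x hx hx' => hne (Occ1_D_inj hε h1 (hT' z hz).2 (hT' z' hz').2
        (fun l => ((hT' z hz).1 l).trans ((hT' z' hz').1 l).symm) hx hx')
  have hc : Fintype.card {l // l ≠ l₀} = Fintype.card L - 1 := by
    simp [Fintype.card_subtype_compl]
  rw [hc] at key
  have h3 := ENNReal.toReal_mono (ENNReal.mul_ne_top ENNReal.ofReal_ne_top (ENNReal.pow_ne_top hA)) key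
  rwa [ENNReal.toReal_sum (fun z _ => measure_ne_top _ _), ENNReal.toReal_mul,
    ENNReal.toReal_ofReal hρ, ENNReal.toReal_pow] at h3

end Crest.Agent.R225
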