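import Crest.Agent.R225.Defs

/-!
# Row 225: Cong
Counting solutions of a congruence.

`exists_reps`: Bezout (`Finset.gcd_eq_sum_mul`) and reduction mod `M`.
`card_cong_le`: every `r : L' → ℤ` is congruent modulo `∑ ℤ v i` to a vector in `∑ [0,1) v i` (rational coordinates, floor), whose entries
are at most `card L' * R`; with `M` representatives of the different residues the map `(w, c) ↦ w + r c` is injective into the box of
size `(card L' + 1) R`.
-/

set_option autoImplicit false

open MeasureTheory ProbabilityTheory Matrix Filter Topology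
open scoped ENNReal RealInnerProductSpace

noncomputable section

namespace Crest.Agent.R225

variable {σ L : Type} [Fintype σ] [Fintype L]

/-- representatives of all residues of `r ↦ ∑ C l * r l` modulo `M` -/
theorem exists_reps (C : L → ℤ) {M : ℕ} (hM : 0 < M) (hC : Int.gcd (Finset.univ.gcd C) M = 1) :
    ∃ r : Fin M → L → ℤ, (∀ c l, 0 ≤ r c l ∧ r c l < M) ∧
      ∀ c c', (M : ℤ) ∣ ∑ l, C l * (r c l - r c' l) → c = c' := by
  obtain ⟨g, hg⟩ := Finset.gcd_eq_sum_mul Finset.univ C
  obtain ⟨a, b, hab⟩ := Int.isCoprime_iff_gcd_eq_one.2 hC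
  have hM' : (0 : ℤ) < M := by exact_mod_cast hM
  refine ⟨fun c l => ((c : ℕ) * (a * g l)) % M, fun c l =>
    ⟨Int.emod_nonneg _ hM'.ne', Int.emod_lt_of_pos _ hM'⟩, fun c c' h => ?_⟩
  have h1 : ((∑ l, C l * (((c : ℕ) * (a * g l)) % M - ((c' : ℕ) * (a * g l)) % M) : ℤ) : ZMod M) =
      0 := (ZMod.intCast_zmod_eq_zero_iff_dvd _ _).2 h
  have h2 : ((a * ∑ l, C l * g l + b * M : ℤ) : ZMod M) = 1 := by
    rw [← hg, hab, Int.cast_one]
  push_cast at h1 h2
  rw [ZMod.natCast_self, mul_zero, add_zero] at h2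
  have h3 : ((c : ℕ) : ZMod M) - ((c' : ℕ) : ZMod M) = 0 := by
    rw [← h1, ← mul_one (_ - _), ← h2, Finset.mul_sum, Finset.mul_sum]
    exact Finset.sum_congr rfl fun l _ => by ring
  have h4 := (ZMod.natCast_eq_natCast_iff' _ _ _).1 (sub_eq_zero.1 h3)
  rw [Nat.mod_eq_of_lt c.2, Nat.mod_eq_of_lt c'.2] at h4
  exact Fin.ext h4

/-- reduction modulo the lattice spanned by the `v o` -/
theorem cong_reduce {R : ℕ} (v : σ → L → ℤ)
    (hv : Submodule.span ℚ (Set.range fun o => cq (v o)) = ⊤) (hvR : ∀ o l, |v o l| ≤ R)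
    (r : L → ℤ) : ∃ k : σ → ℤ, ∀ l, |r l - ∑ o, k o * v o l| ≤ Fintype.card L * R := by
  classical
  obtain ⟨κ, a, ha, h1, h2⟩ := exists_linearIndependent' ℚ fun o => cq (v o)
  have : Finite κ := Finite.of_injective a ha
  have := Fintype.ofFinite κ
  have hκ : Fintype.card κ ≤ Fintype.card L := by
    simpa using h2.fintype_card_le_finrank
  obtain ⟨c, hc⟩ := (Submodule.mem_span_range_iff_exists_fun ℚ).1
    (h1.trans hv ▸ Submodule.mem_top (x := cq r))
  refine ⟨fun o => ∑ i, if a i = o then ⌊c i⌋ else 0, fun l => ?_⟩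
  have e1 : ∑ o, (∑ i, if a i = o then ⌊c i⌋ else 0) * v o l = ∑ i, ⌊c i⌋ * v (a i) l := by
    simp only [Finset.sum_mul, ite_mul, zero_mul]
    rw [Finset.sum_comm]
    simp
  have e2 : (r l : ℚ) = ∑ i, c i * v (a i) l := by
    have := congrFun hc l
    simpa [cq] using this.symm
  rw [e1]
  have e3 : |(r l : ℚ) - ∑ i, (⌊c i⌋ : ℚ) * v (a i) l| ≤ Fintype.card L * R := by
    rw [e2, ← Finset.sum_sub_distrib]
    refine (Finset.abs_sum_le_sum_abs _ _).trans
      ((Finset.sum_le_card_nsmul _ _ (R : ℚ) fun i _ => ?_).trans ?_)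
    · rw [← sub_mul, abs_mul, Int.self_sub_floor, abs_of_nonneg (Int.fract_nonneg _)]
      have h3 : |(v (a i) l : ℚ)| ≤ R := by exact_mod_cast hvR (a i) l
      exact (mul_le_of_le_one_left (abs_nonneg _) (Int.fract_lt_one _).le).trans h3
    · rw [Finset.card_univ, nsmul_eq_mul]
      exact mul_le_mul_of_nonneg_right (by exact_mod_cast hκ) (by positivity)
  exact_mod_cast e3

theorem card_cong_le [DecidableEq L] (C : L → ℤ) {M R : ℕ} (hM : 0 < M)
    (hC : Int.gcd (Finset.univ.gcd C) M = 1) (v : σ → L → ℤ)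
    (hv : Submodule.span ℚ (Set.range fun o => cq (v o)) = ⊤) (hvR : ∀ o l, |v o l| ≤ R)
    (hvC : ∀ o, (M : ℤ) ∣ ∑ l, C l * v o l) :
    M * ((Fintype.piFinset fun _ : L => Finset.Icc (-(R : ℤ)) R).filter
      fun w => (M : ℤ) ∣ ∑ l, C l * w l).card ≤ (2 * (Fintype.card L + 1) * R + 1) ^ Fintype.card L := by
  obtain ⟨r, -, hr⟩ := exists_reps C hM hC
  choose k hk using fun c => cong_reduce v hv hvR (r c)
  have hd : ∀ c, (M : ℤ) ∣ ∑ l, C l * ∑ o, k c o * v o l := fun c => by
    simp only [Finset.mul_sum]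
    rw [Finset.sum_comm]
    refine Finset.dvd_sum fun o _ => ?_
    simp only [mul_left_comm _ (k c o)]
    rw [← Finset.mul_sum]
    exact (hvC o).mul_left _
  have h := Finset.card_le_card_of_injOn (s := (Finset.univ : Finset (Fin M)) ×ˢ
      ((Fintype.piFinset fun _ : L => Finset.Icc (-(R : ℤ)) R).filter
        fun w => (M : ℤ) ∣ ∑ l, C l * w l))
    (t := Fintype.piFinset fun _ : L =>
      Finset.Icc (-((Fintype.card L + 1) * R : ℤ)) ((Fintype.card L + 1) * R))
    (fun p l => p.2 l + (r p.1 l - ∑ o, k p.1 o * v o l)) (fun p hp => ?_) fun p hp p' hp' e => ?_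
  · rw [Finset.card_product, Finset.card_univ, Fintype.card_fin, Fintype.card_piFinset,
      Finset.prod_const, Finset.card_univ, Int.card_Icc] at h
    refine h.trans (le_of_eq ?_)
    congr 1
    apply Nat.cast_injective (R := ℤ)
    rw [Int.toNat_of_nonneg (by
      have : (0 : ℤ) ≤ (Fintype.card L + 1) * R := by positivity
      linarith)]
    push_cast
    ring
  · rw [Finset.mem_coe, Finset.mem_product, Finset.mem_filter, Fintype.mem_piFinset] at hp
    rw [Finset.mem_coe, Fintype.mem_piFinset]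
    intro l
    have h1 := Finset.mem_Icc.1 (hp.2.1 l)
    have h2 := abs_le.1 (hk p.1 l)
    rw [Finset.mem_Icc]
    constructor <;> linarith [h1.1, h1.2, h2.1, h2.2]
  · rw [Finset.mem_coe, Finset.mem_product, Finset.mem_filter] at hp hp'
    have h1 : p.1 = p'.1 := by
      refine hr _ _ ?_
      have e1 : ∑ l, C l * (r p.1 l - r p'.1 l) = (∑ l, C l * p'.2 l - ∑ l, C l * p.2 l) +
          (∑ l, C l * ∑ o, k p.1 o * v o l - ∑ l, C l * ∑ o, k p'.1 o * v o l) := by
        rw [← Finset.sum_sub_distrib, ← Finset.sum_sub_distrib, ← Finset.sum_add_distrib]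
        refine Finset.sum_congr rfl fun l _ => ?_
        have := congrFun e l
        linear_combination C l * this
      rw [e1]
      exact (hp'.2.2.sub hp.2.2).add ((hd _).sub (hd _))
    refine Prod.ext h1 (funext fun l => ?_)
    have := congrFun e l
    simp only [h1] at this
    exact add_right_cancel this

end Crest.Agent.R225
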