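import Crest.Agent.R225.Defs

/-!
# Row 225: Occ2Aux
Arcs, fibres and cells: `vol (arc) ≤ ε^|κ| vol (fibre) ≤ vol (cthickening η J ∩ cell)`.
-/

set_option autoImplicit false

open MeasureTheory
open scoped ENNReal Pointwise

noncomputable section

namespace Crest.Agent.R225

/-- the projection to the circle does not increase the measure -/
theorem occ2_vol_coe_le (S : Set ℝ) {A : Set UnitAddCircle} (hA : MeasurableSet A)
    (h : ∀ t ∈ A, ∃ τ ∈ S, t = (τ : UnitAddCircle)) : volume A ≤ volume S := by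
  rw [AddCircle.add_projection_respects_measure (T := 1) 0 hA,
    (isAddFundamentalDomain_Ioc one_pos 0 volume).measure_eq_tsum S]
  refine le_trans (measure_mono fun x hx => ?_) (measure_iUnion_le _)
  obtain ⟨τ, h1, h2⟩ := h _ hx.1
  have h3 : -τ + x ∈ AddSubgroup.zmultiples (1 : ℝ) := QuotientAddGroup.eq.1 h2.symm
  refine Set.mem_iUnion.2 ⟨⟨_, h3⟩, ⟨τ, h1, ?_⟩, hx.2⟩
  show -τ + x + τ = x
  ring

variable {κ : Type} [Fintype κ] {J : Set (ℝ × (κ → ℝ))} {ε η : ℝ}

theorem occ2_arc_le_fib (hε : 0 < ε) (u : κ → ℝ) (z : Option κ → ℤ)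
    (hm : MeasurableSet (arc J ε u z)) :
    volume (arc J ε u z) ≤ ENNReal.ofReal (ε ^ Fintype.card κ) *
      volume {τ : ℝ | (τ, fun i => ε * (u i + z (some i))) ∈ J} := by
  have h0 : 0 < ε ^ Fintype.card κ := pow_pos hε _
  refine (occ2_vol_coe_le (ε ^ Fintype.card κ •
    {τ : ℝ | (τ, fun i => ε * (u i + z (some i))) ∈ J}) hm ?_).trans (le_of_eq ?_)
  · rintro t ⟨τ, h1, rfl⟩
    exact ⟨_, ⟨τ, h1, rfl⟩, by simp [mul_comm]⟩
  · rw [Measure.addHaar_smul, Module.finrank_self, pow_one, abs_of_pos h0]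

/-- the cell with label `v` -/
def occ2Cell (ε : ℝ) (u : κ → ℝ) (v : κ → ℤ) : Set (κ → ℝ) :=
  Set.pi Set.univ fun i => Set.Ico (ε * (u i + v i)) (ε * (u i + v i + 1))

theorem occ2_cell_meas (ε : ℝ) (u : κ → ℝ) (v : κ → ℤ) : MeasurableSet (occ2Cell ε u v) :=
  MeasurableSet.univ_pi fun _ => measurableSet_Ico

theorem occ2_cell_vol (hε : 0 < ε) (u : κ → ℝ) (v : κ → ℤ) :
    volume (occ2Cell ε u v) = ENNReal.ofReal (ε ^ Fintype.card κ) := by
  rw [occ2Cell, Real.volume_pi_Ico, ENNReal.ofReal_pow hε.le, ← Finset.card_univ,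
    ← Finset.prod_const]
  exact Finset.prod_congr rfl fun i _ => by congr 1; ring

omit [Fintype κ] in
theorem occ2_cell_disjoint (hε : 0 < ε) (u : κ → ℝ) {v v' : κ → ℤ} (h : v ≠ v') :
    Disjoint (occ2Cell ε u v) (occ2Cell ε u v') := by
  refine Set.disjoint_left.2 fun y h1 h2 => h (funext fun i => ?_)
  have a := h1 i trivial
  have b := h2 i trivial
  have c1 := lt_of_mul_lt_mul_left (a.1.trans_lt b.2) hε.le
  have c2 := lt_of_mul_lt_mul_left (b.1.trans_lt a.2) hε.le
  have d1 : v i < v' i + 1 := by exact_mod_cast (by linarith : (v i : ℝ) < v' i + 1)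
  have d2 : v' i < v i + 1 := by exact_mod_cast (by linarith : (v' i : ℝ) < v i + 1)
  omega

/-- an arc against a nearby cell -/
theorem occ2_arc_le_cell (hε : 0 < ε) (u : κ → ℝ) (z : Option κ → ℤ)
    (hm : MeasurableSet (arc J ε u z)) (v : κ → ℤ) {M : ℕ} (hv : ∀ i, |v i - z (some i)| ≤ M)
    (hη : (M + 1) * ε ≤ η) :
    volume (arc J ε u z) ≤ volume (Metric.cthickening η J ∩ Set.univ ×ˢ occ2Cell ε u v) := by
  refine (occ2_arc_le_fib hε u z hm).trans ?_
  rw [← occ2_cell_vol hε u v, mul_comm, ← Measure.prod_prod, ← Measure.volume_eq_prod]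
  refine measure_mono fun x hx => ⟨?_, trivial, hx.2⟩
  have hη0 : 0 ≤ η := le_trans (by positivity) hη
  refine Metric.mem_cthickening_of_dist_le x _ η J hx.1 ?_
  rw [Prod.dist_eq, dist_self]
  refine max_le hη0 ((dist_pi_le_iff hη0).2 fun i => ?_)
  have a := hx.2 i trivial
  have b : |(v i : ℝ) - z (some i)| ≤ M := by exact_mod_cast hv i
  have b1 := mul_le_mul_of_nonneg_left (abs_le.1 b).1 hε.le
  have b2 := mul_le_mul_of_nonneg_left (abs_le.1 b).2 hε.le
  rw [Real.dist_eq, abs_le]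
  constructor <;> nlinarith [a.1, a.2]

theorem occ2_sum_cell_le (hε : 0 < ε) (u : κ → ℝ) {K : Set (ℝ × (κ → ℝ))} (hK : IsCompact K)
    (V : Finset (κ → ℤ)) :
    ∑ v ∈ V, volume.real (K ∩ Set.univ ×ˢ occ2Cell ε u v) ≤ volume.real K := by
  rw [← measureReal_biUnion_finset _ _
    fun v _ => measure_ne_top_of_subset Set.inter_subset_left hK.measure_ne_top]
  · exact measureReal_mono (Set.iUnion₂_subset fun _ _ => Set.inter_subset_left) hK.measure_ne_top
  · intro v _ v' _ h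
    exact (Set.disjoint_prod.2 (Or.inr (occ2_cell_disjoint hε u h))).mono
      Set.inter_subset_right Set.inter_subset_right
  · exact fun v _ => hK.measurableSet.inter (MeasurableSet.univ.prod (occ2_cell_meas ε u v))

end Crest.Agent.R225
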