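import Crest.Agent.R225.Cells
import Crest.Agent.R225.Cong
import Crest.Agent.R225.Occ2Aux

/-!
# Row 225: Occ2
See `Cells.lean` for the cells and fibres.

`occ_two`: drop `l₀`, the probability is `≤ ∏ l ≠ l₀, p (z l)` (`prob_indep`), the remaining tuple satisfies `M ∣ ∑ C l * w l i` for each `i`;
shifting by the representatives `exists_reps` (one for each coordinate `i`) gives `M^|κ|` disjoint copies, each `p (z l)` is bounded by the cell
average of `fib (cthickening η J)` over the shifted cell.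
`occ_three`: drop `l₀`; the rows `o ↦ (z l o)_l` span `ℚ^(l ≠ l₀)` (row rank = column rank), so `card_cong_le` bounds the number of
possible rows; `p ≤ 2 R₀ ε^|κ|`.
-/

set_option autoImplicit false

open MeasureTheory ProbabilityTheory Matrix Filter Topology
open scoped ENNReal RealInnerProductSpace

noncomputable section

namespace Crest.Agent.R225

variable {κ L : Type} [Fintype κ] [DecidableEq κ] [Fintype L] [DecidableEq L]
  {J : Set (ℝ × (κ → ℝ))} {ε η R₀ : ℝ} {u : κ → ℝ}

theorem occ2_sum_le {α β : Type} {s : Finset α} {t : Finset β} (φ : α → β)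
    (f : β → ℝ) (hf : ∀ b, 0 ≤ f b) (h : ∀ a ∈ s, φ a ∈ t) (hi : Set.InjOn φ s) :
    ∑ a ∈ s, f (φ a) ≤ ∑ b ∈ t, f b := by
  classical
  rw [← Finset.sum_image hi]
  exact Finset.sum_le_sum_of_subset_of_nonneg (Finset.image_subset_iff.2 h) fun b _ _ => hf b

theorem occ2_card (l₀ : L) : Fintype.card {l // l ≠ l₀} = Fintype.card L - 1 := by
  simp [Fintype.card_subtype_compl]

theorem occ2_gcd (C : L → ℤ) (hC : Finset.univ.gcd C = 1) (l₀ : L) :
    Int.gcd (Finset.univ.gcd fun l : {l // l ≠ l₀} => C l) (C l₀).natAbs = 1 := by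
  have h : ((Int.gcd (Finset.univ.gcd fun l : {l // l ≠ l₀} => C l) (C l₀).natAbs : ℕ) : ℤ) ∣
      Finset.univ.gcd C := by
    refine Finset.dvd_gcd fun l _ => ?_
    by_cases hl : l = l₀
    · rw [hl]
      exact (Int.gcd_dvd_right _ _).trans (Int.natAbs_dvd.2 dvd_rfl)
    · exact (Int.gcd_dvd_left _ _).trans
        (Finset.gcd_dvd (f := fun l : {l // l ≠ l₀} => C l) (Finset.mem_univ ⟨l, hl⟩))
  rw [hC] at h
  exact Nat.dvd_one.1 (by exact_mod_cast h)

omit [DecidableEq L] in
theorem occ2_span {σ : Type} [Fintype σ] (z : L → σ → ℤ)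
    (hz : LinearIndependent ℚ fun l => cq (z l)) :
    Submodule.span ℚ (Set.range fun o => cq fun l => z l o) = ⊤ := by
  have h1 := LinearIndependent.rank_matrix (M := Matrix.of fun l => cq (z l)) hz
  rw [Matrix.rank_eq_finrank_span_cols] at h1
  refine Submodule.eq_top_of_finrank_eq (h1.trans ?_)
  simp

open Classical in
/-- the possible tuples after dropping `l₀` -/
def occ2W (κ : Type) [Fintype κ] [DecidableEq κ] (R : ℕ) (C : L → ℤ) (l₀ : L) :
    Finset ({l // l ≠ l₀} → κ → ℤ) :=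
  (Fintype.piFinset fun _ => Fintype.piFinset fun _ => Finset.Icc (-(R : ℤ)) R).filter fun w =>
    LinearIndependent ℚ (fun l => cq (lab (w l))) ∧
      ∀ o, (((C l₀).natAbs : ℕ) : ℤ) ∣ ∑ l : {l // l ≠ l₀}, C l * lab (w l) o

theorem occ2_mem {R : ℕ} {C : L → ℤ} {l₀ : L} {w : {l // l ≠ l₀} → κ → ℤ} :
    w ∈ occ2W κ R C l₀ ↔ (∀ l i, |w l i| ≤ R) ∧ LinearIndependent ℚ (fun l => cq (lab (w l))) ∧
      ∀ o, (((C l₀).natAbs : ℕ) : ℤ) ∣ ∑ l : {l // l ≠ l₀}, C l * lab (w l) o := by
  simp only [occ2W, Finset.mem_filter, Fintype.mem_piFinset, Finset.mem_Icc, abs_le]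

theorem occ2_drop (R : ℕ) (S : (Option κ → ℤ) → Set UnitAddCircle) (hS : ∀ z, MeasurableSet (S z))
    (C : L → ℤ) {l₀ : L} (h0 : C l₀ ≠ 0) :
    occ (box κ R) S (Rel C) ≤ ∑ w ∈ occ2W κ R C l₀, ∏ l, volume.real (S (lab (w l))) := by
  have hbox : ∀ z ∈ box κ R, lab (fun i => z (some i)) = z ∧ ∀ i, |z (some i)| ≤ R := by
    intro z hz
    obtain ⟨w, hw, rfl⟩ := Finset.mem_image.1 hz
    exact ⟨rfl, fun i => abs_le.2 (Finset.mem_Icc.1 (Fintype.mem_piFinset.1 hw i))⟩
  have hrel : ∀ z : L → Option κ → ℤ, Rel C z → ∀ o,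
      C l₀ * z l₀ o + ∑ l : {l // l ≠ l₀}, C l * z l o = 0 := by
    intro z hz o
    have := congrFun hz.2.1 o
    rw [Finset.sum_apply, Fintype.sum_eq_add_sum_subtype_ne _ l₀] at this
    exact this
  suffices H : ∀ A : Finset (L → Option κ → ℤ), (∀ z ∈ A, (∀ l, z l ∈ box κ R) ∧ Rel C z) →
      ∑ z ∈ A, volume.real {ω : TT (Option κ) | ∀ l, ev (z l) ω ∈ S (z l)} ≤
        ∑ w ∈ occ2W κ R C l₀, ∏ l, volume.real (S (lab (w l))) from
    H _ fun z hz => by
      classical
      rw [Finset.mem_filter, Fintype.mem_piFinset] at hz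
      exact hz
  intro A hA
  refine le_trans (Finset.sum_le_sum fun z hz => ?_)
    (occ2_sum_le (s := A) (fun z (l : {l // l ≠ l₀}) i => z l (some i))
      (fun w => ∏ l, volume.real (S (lab (w l))))
      (fun w => Finset.prod_nonneg fun _ _ => measureReal_nonneg) (fun z hz => ?_) ?_)
  · obtain ⟨h1, h2⟩ := hA z hz
    simp only [fun l => (hbox _ (h1 l)).1]
    rw [← prob_indep (fun l : {l // l ≠ l₀} => z l) (h2.2.2 l₀ h0) _ fun l => hS _]
    exact measureReal_mono fun ω h l => h l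
  · obtain ⟨h1, h2⟩ := hA z hz
    refine occ2_mem.2 ⟨fun l => (hbox _ (h1 l)).2, ?_⟩
    simp only [fun l => (hbox _ (h1 l)).1]
    refine ⟨h2.2.2 l₀ h0, fun o => Int.natAbs_dvd.2 ⟨-z l₀ o, ?_⟩⟩
    linear_combination hrel z h2 o
  · intro z hz z' hz' e
    obtain ⟨h1, h2⟩ := hA z hz
    obtain ⟨h1', h2'⟩ := hA z' hz'
    have e1 : ∀ l : {l // l ≠ l₀}, z l = z' l := fun l => by
      rw [← (hbox _ (h1 l)).1, ← (hbox _ (h1' l)).1]
      exact congrArg lab (congrFun e l)
    funext l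
    by_cases hl : l = l₀
    · funext o
      have a := hrel z h2 o
      simp only [e1] at a
      rw [hl]
      exact mul_left_cancel₀ h0 (by linear_combination a - hrel z' h2' o)
    · exact e1 ⟨l, hl⟩

theorem occ_two (hJ : IsCompact J) (hε : 0 < ε) (u : κ → ℝ) (R : ℕ) (C : L → ℤ)
    (hC : Finset.univ.gcd C = 1) {l₀ : L} (h0 : C l₀ ≠ 0) (hη : ((C l₀).natAbs + 1) * ε ≤ η) :
    occ (box κ R) (arc J ε u) (Rel C) ≤
      volume.real (Metric.cthickening η J) ^ (Fintype.card L - 1) /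
        ((C l₀).natAbs : ℝ) ^ Fintype.card κ := by
  have hM : 0 < (C l₀).natAbs := Int.natAbs_pos.2 h0
  obtain ⟨r, hr, hr'⟩ := exists_reps (fun l : {l // l ≠ l₀} => C l) hM (occ2_gcd C hC l₀)
  have hK : IsCompact (Metric.cthickening η J) := hJ.cthickening
  refine (occ2_drop R _ (measurableSet_arc hJ ε u) C h0).trans ?_
  rw [le_div_iff₀ (by positivity)]
  set W := occ2W κ R C l₀ with hW
  set q : (κ → ℤ) → ℝ := fun v =>
    volume.real (Metric.cthickening η J ∩ Set.univ ×ˢ occ2Cell ε u v) with hq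
  have hq0 : ∀ v, 0 ≤ q v := fun v => measureReal_nonneg
  set sh : (κ → Fin (C l₀).natAbs) × ({l // l ≠ l₀} → κ → ℤ) → {l // l ≠ l₀} → κ → ℤ :=
    fun x l i => x.2 l i + r (x.1 i) l with hsh
  set V : Finset (κ → ℤ) := Fintype.piFinset fun _ => Finset.Icc (-(R : ℤ)) (R + (C l₀).natAbs)
    with hV
  calc (∑ w ∈ W, ∏ l, volume.real (arc J ε u (lab (w l)))) * ((C l₀).natAbs : ℝ) ^ Fintype.card κ
      = ∑ x ∈ (Finset.univ : Finset (κ → Fin (C l₀).natAbs)) ×ˢ W,
          ∏ l, volume.real (arc J ε u (lab (x.2 l))) := by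
        rw [Finset.sum_product]
        simp [mul_comm]
    _ ≤ ∑ x ∈ (Finset.univ : Finset (κ → Fin (C l₀).natAbs)) ×ˢ W, ∏ l, q (sh x l) := by
        refine Finset.sum_le_sum fun x _ =>
          Finset.prod_le_prod (fun _ _ => measureReal_nonneg) fun l _ => ?_
        refine ENNReal.toReal_mono
          (measure_ne_top_of_subset Set.inter_subset_left hK.measure_ne_top) ?_
        refine occ2_arc_le_cell hε u _ (measurableSet_arc hJ ε u _) _ (fun i => ?_) hη
        have := hr (x.1 i) l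
        show |x.2 l i + r (x.1 i) l - x.2 l i| ≤ _
        rw [add_sub_cancel_left, abs_of_nonneg this.1]
        exact this.2.le
    _ ≤ ∑ v ∈ Fintype.piFinset fun _ : {l // l ≠ l₀} => V, ∏ l, q (v l) := by
        refine occ2_sum_le sh (fun v => ∏ l, q (v l))
          (fun v => Finset.prod_nonneg fun l _ => hq0 _) (fun x hx => ?_) ?_
        · have h1 := (occ2_mem.1 (Finset.mem_product.1 hx).2).1
          refine Fintype.mem_piFinset.2 fun l => Fintype.mem_piFinset.2 fun i => ?_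
          have h2 := abs_le.1 (h1 l i)
          have h3 := hr (x.1 i) l
          show x.2 l i + r (x.1 i) l ∈ _
          exact Finset.mem_Icc.2 ⟨by omega, by omega⟩
        · intro x hx x' hx' e
          have h1 := (occ2_mem.1 (Finset.mem_product.1 hx).2).2.2
          have h1' := (occ2_mem.1 (Finset.mem_product.1 hx').2).2.2
          have e1 : ∀ l i, x.2 l i + r (x.1 i) l = x'.2 l i + r (x'.1 i) l := fun l i =>
            congrFun (congrFun e l) i
          have e2 : x.1 = x'.1 := funext fun i => hr' _ _ (by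
            have h2 := dvd_sub (h1' (some i)) (h1 (some i))
            rw [← Finset.sum_sub_distrib] at h2
            refine h2.trans (dvd_of_eq (Finset.sum_congr rfl fun l _ => ?_))
            show C l * x'.2 l i - C l * x.2 l i = _
            linear_combination (-C l) * e1 l i)
          refine Prod.ext e2 (funext fun l => funext fun i => ?_)
          have := e1 l i
          rwa [e2, add_left_inj] at this
    _ = (∑ v ∈ V, q v) ^ (Fintype.card L - 1) := by
        rw [← Finset.prod_univ_sum (fun _ : {l // l ≠ l₀} => V) fun _ v => q v, Finset.prod_const,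
          Finset.card_univ, occ2_card]
    _ ≤ _ := pow_le_pow_left₀ (Finset.sum_nonneg fun v _ => hq0 v) (occ2_sum_cell_le hε u hK V) _

theorem occ_three (hJ : IsCompact J) (hR : J ⊆ Metric.closedBall 0 R₀) (hR0 : 0 ≤ R₀) (hε : 0 < ε)
    (u : κ → ℝ) {R : ℕ} (hR1 : 1 ≤ R) (C : L → ℤ) (hC : Finset.univ.gcd C = 1) {l₀ : L}
    (h0 : C l₀ ≠ 0) :
    occ (box κ R) (arc J ε u) (Rel C) ≤
      (2 * R₀ * ((2 * Fintype.card L * R + 1) * ε) ^ Fintype.card κ) ^ (Fintype.card L - 1) /
        ((C l₀).natAbs : ℝ) ^ Fintype.card κ := by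
  have hM : 0 < (C l₀).natAbs := Int.natAbs_pos.2 h0
  refine (occ2_drop R _ (measurableSet_arc hJ ε u) C h0).trans ?_
  rcases (occ2W κ R C l₀).eq_empty_or_nonempty with hW | ⟨w₀, hw₀⟩
  · rw [hW, Finset.sum_empty]
    positivity
  obtain ⟨a1, a2, a3⟩ := occ2_mem.1 hw₀
  have h1 := card_cong_le (fun l : {l // l ≠ l₀} => C l) (R := R) hM (occ2_gcd C hC l₀)
    (fun o l => lab (w₀ l) o) (occ2_span _ a2) (fun o l => by
      cases o with
      | none => exact (show |(1 : ℤ)| ≤ R by simpa using hR1)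
      | some i => exact a1 l i) a3
  set B := (Fintype.piFinset fun _ : {l // l ≠ l₀} => Finset.Icc (-(R : ℤ)) R).filter
    fun w => (((C l₀).natAbs : ℕ) : ℤ) ∣ ∑ l : {l // l ≠ l₀}, C l * w l with hB
  have h2 : (occ2W κ R C l₀).card ≤ B.card ^ Fintype.card κ := by
    rw [← Finset.card_univ, ← Finset.prod_const, ← Fintype.card_piFinset]
    refine Finset.card_le_card_of_injOn (fun w i l => w l i) (fun w hw => ?_) fun w _ w' _ e => ?_
    · obtain ⟨b1, -, b3⟩ := occ2_mem.1 hw
      refine Finset.mem_coe.2 (Fintype.mem_piFinset.2 fun i => Finset.mem_filter.2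
        ⟨Fintype.mem_piFinset.2 fun l => Finset.mem_Icc.2 (abs_le.1 (b1 l i)), b3 (some i)⟩)
    · exact funext fun l => funext fun i => congrFun (congrFun e i) l
  have hL : Fintype.card L - 1 + 1 = Fintype.card L :=
    Nat.sub_add_cancel (Fintype.card_pos_iff.2 ⟨l₀⟩)
  rw [occ2_card, hL] at h1
  have h3 : (occ2W κ R C l₀).card * (C l₀).natAbs ^ Fintype.card κ ≤
      ((2 * Fintype.card L * R + 1) ^ (Fintype.card L - 1)) ^ Fintype.card κ := by
    refine (Nat.mul_le_mul_right _ h2).trans ?_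
    rw [← mul_pow, mul_comm]
    exact Nat.pow_le_pow_left h1 _
  have h4 : (((occ2W κ R C l₀).card : ℝ)) * ((C l₀).natAbs : ℝ) ^ Fintype.card κ ≤
      ((2 * Fintype.card L * R + 1) ^ (Fintype.card L - 1)) ^ Fintype.card κ := by
    exact_mod_cast h3
  have h5 : ∑ w ∈ occ2W κ R C l₀, ∏ l, volume.real (arc J ε u (lab (w l))) ≤
      (occ2W κ R C l₀).card * (2 * R₀ * ε ^ Fintype.card κ) ^ (Fintype.card L - 1) := by
    rw [← nsmul_eq_mul]
    refine Finset.sum_le_card_nsmul _ _ _ fun w _ => ?_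
    refine (Finset.prod_le_prod (fun _ _ => measureReal_nonneg)
      fun l _ => arc_le hJ hR hR0 hε u _).trans (le_of_eq ?_)
    rw [Finset.prod_const, Finset.card_univ, occ2_card]
  rw [le_div_iff₀ (by positivity)]
  refine (mul_le_mul_of_nonneg_right h5 (by positivity)).trans ?_
  rw [mul_right_comm]
  refine (mul_le_mul_of_nonneg_right h4 (by positivity)).trans (le_of_eq ?_)
  rw [← pow_mul, mul_comm (Fintype.card L - 1), pow_mul, ← mul_pow, mul_pow _ ε]
  ring

end Crest.Agent.R225
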