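import Crest.Agent.R225.Defs

/-!
# Row 225: U2
The four-function `U²` inequality with a constant `ρ < 1` per dimension.

`exists_hasU2_real`.  If some `∫ f^(4/3)` is `0` the left side vanishes; if one is `⊤` (and none `0`) the right side is `⊤`.
Otherwise normalise: `G i = f i^(4/3)` are probability densities and the claim is `Λ = ∫∫∫ (G₁ G₂ G₃ G₄)^(3/4) ≤ ρ`.
Cauchy–Schwarz: `(G₁G₂G₃G₄)^(3/4) = (G₁ G₂ √(G₃G₄))^(1/2) (G₃ G₄ √(G₁G₂))^(1/2)`, so `Λ² ≤ T₁ T₂`,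
`T₁ = ∫∫ G₁(x) G₂(y) β₃₄(x - y)`, `β₃₄(u) = ∫ √(G₃(z) G₄(z+u)) dz ≤ 1`, and (change of variables `w = x - y + z`)
`T₂ = ∫∫ G₄(w) G₃(z) β₂₁(w - z)`, `β₂₁(u) = ∫ √(G₂(y) G₁(y+u)) dy`.
If `|F₃(t) - F₄(t+u)| ≥ 1/8` for some `t` (distribution functions) then, splitting at `t` and using Cauchy–Schwarz on both
pieces, `β₃₄(u) ≤ √(ab) + √((1-a)(1-b)) ≤ 1 - (a-b)²/2 ≤ 1 - 1/128`.  Let `L G = sInf {δ > 0 | ∃ t, G(t, t+δ] ≥ 1/4}` (positive, finite).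
The set `U₃₄` of the other `u` has diameter `≤ L G₃` (if `u' - u > L G₃` take `(t,t+δ]` of mass `≥ 1/4`, `δ ≤ u' - u`:
`F₃(t+δ) < F₄(t+δ+u) + 1/8 ≤ F₄(t+u') + 1/8 < F₃(t) + 1/4`), and an interval of length `≤ L G` has `G`-mass `≤ 1/2` (two halves).
So if `L G₃ ≤ L G₂` then `T₁ ≤ 1/2 + (1/2)(1 - 1/128)` (condition on `x`, the set of `y` with `x - y ∈ U₃₄` lies in an interval of
length `≤ L G₃`); otherwise `L G₂ ≤ L G₃` and symmetrically `T₂ ≤ 1 - 1/256` (condition on `w`).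

(Implementation: AM-GM instead of Cauchy–Schwarz, `Λ ≤ (T₁ + T₂)/2`; the scale `L G` is replaced by a direct comparison of two
lengths obtained from inner regularity, see `U2_span`, `U2_dich`, `U2_sum_le`.)
-/

set_option autoImplicit false

open MeasureTheory ProbabilityTheory Matrix Filter Topology
open scoped ENNReal RealInnerProductSpace

noncomputable section

namespace Crest.Agent.R225

/-- weighted AM-GM in `ℝ≥0∞` -/
theorem U2_amgm (p q : ℝ) (hp : 0 < p) (hq : 0 < q) (hpq : 1 ≤ 4 * p * q) (a b : ℝ≥0∞) :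
    a * b ≤ ENNReal.ofReal p * a ^ 2 + ENNReal.ofReal q * b ^ 2 := by
  by_cases ha : a = ⊤
  · subst ha
    have : ENNReal.ofReal p * (⊤ : ℝ≥0∞) ^ 2 = ⊤ := by
      rw [ENNReal.top_pow (by norm_num), ENNReal.mul_top (by simpa using hp)]
    rw [this]; simp
  by_cases hb : b = ⊤
  · subst hb
    have : ENNReal.ofReal q * (⊤ : ℝ≥0∞) ^ 2 = ⊤ := by
      rw [ENNReal.top_pow (by norm_num), ENNReal.mul_top (by simpa using hq)]
    rw [this]; simp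
  have ha0 : 0 ≤ a.toReal := ENNReal.toReal_nonneg
  have hb0 : 0 ≤ b.toReal := ENNReal.toReal_nonneg
  rw [← ENNReal.ofReal_toReal ha, ← ENNReal.ofReal_toReal hb]
  generalize a.toReal = x at *
  generalize b.toReal = y at *
  rw [← ENNReal.ofReal_mul ha0, ← ENNReal.ofReal_pow ha0, ← ENNReal.ofReal_pow hb0,
    ← ENNReal.ofReal_mul hp.le, ← ENNReal.ofReal_mul hq.le,
    ← ENNReal.ofReal_add (by positivity) (by positivity)]
  apply ENNReal.ofReal_le_ofReal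
  have h1 : 0 ≤ 4 * p * (p * x ^ 2 + q * y ^ 2 - x * y) := by
    nlinarith [sq_nonneg (2 * p * x - y), mul_nonneg (sub_nonneg.2 hpq) (sq_nonneg y)]
  have h2 := nonneg_of_mul_nonneg_right h1 (by positivity : 0 < 4 * p)
  linarith

/-- integrated weighted AM-GM -/
theorem U2_amgm_int (μ : Measure ℝ) (p q : ℝ) (hp : 0 < p) (hq : 0 < q) (hpq : 1 ≤ 4 * p * q)
    {s s' : ℝ → ℝ≥0∞} (hs : Measurable s) (hs' : Measurable s') :
    ∫⁻ z, s z * s' z ∂μ ≤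
      ENNReal.ofReal p * ∫⁻ z, s z ^ 2 ∂μ + ENNReal.ofReal q * ∫⁻ z, s' z ^ 2 ∂μ := by
  rw [← lintegral_const_mul _ (hs.pow_const 2), ← lintegral_const_mul _ (hs'.pow_const 2),
    ← lintegral_add_left ((hs.pow_const 2).const_mul _)]
  exact lintegral_mono fun z => U2_amgm p q hp hq hpq _ _

theorem U2_inner_le_one {s s' : ℝ → ℝ≥0∞} (hs : Measurable s) (hs' : Measurable s')
    (h1 : ∫⁻ z, s z ^ 2 = 1) (h1' : ∫⁻ z, s' z ^ 2 = 1) : ∫⁻ z, s z * s' z ≤ 1 := by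
  refine (U2_amgm_int volume (1 / 2) (1 / 2) (by norm_num) (by norm_num) (by norm_num) hs hs').trans ?_
  rw [h1, h1', mul_one, ← ENNReal.ofReal_add (by norm_num) (by norm_num)]
  norm_num

/-- large overlap forces the two laws to be close -/
theorem U2_close {s s' : ℝ → ℝ≥0∞} (hs : Measurable s) (hs' : Measurable s')
    (h1 : ∫⁻ z, s z ^ 2 = 1) (h1' : ∫⁻ z, s' z ^ 2 = 1) {A : Set ℝ} (hA : MeasurableSet A)
    (h : ENNReal.ofReal (255 / 256) < ∫⁻ z, s z * s' z) :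
    ∫⁻ z in A, s z ^ 2 ≤ (∫⁻ z in A, s' z ^ 2) + ENNReal.ofReal (1 / 8) := by
  by_contra hc
  push Not at hc
  have e1 := lintegral_add_compl (μ := volume) (fun z => s z ^ 2) hA
  have e2 := lintegral_add_compl (μ := volume) (fun z => s' z ^ 2) hA
  have e3 := lintegral_add_compl (μ := volume) (fun z => s z * s' z) hA
  have i1 := U2_amgm_int (volume.restrict A) (15 / 32) (8 / 15) (by norm_num) (by norm_num)
    (by norm_num) hs hs'
  have i2 := U2_amgm_int (volume.restrict Aᶜ) (17 / 32) (8 / 17) (by norm_num) (by norm_num)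
    (by norm_num) hs hs'
  rw [h1] at e1
  rw [h1'] at e2
  have h3 := h.trans_le (e3.symm.le.trans (add_le_add i1 i2))
  generalize ∫⁻ z in A, s z ^ 2 = a at *
  generalize ∫⁻ z in Aᶜ, s z ^ 2 = a' at *
  generalize ∫⁻ z in A, s' z ^ 2 = b at *
  generalize ∫⁻ z in Aᶜ, s' z ^ 2 = b' at *
  have ha : a ≠ ⊤ := ne_top_of_le_ne_top ENNReal.one_ne_top (e1 ▸ le_self_add)
  have ha' : a' ≠ ⊤ := ne_top_of_le_ne_top ENNReal.one_ne_top (e1 ▸ le_add_self)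
  have hb : b ≠ ⊤ := ne_top_of_le_ne_top ENNReal.one_ne_top (e2 ▸ le_self_add)
  have hb' : b' ≠ ⊤ := ne_top_of_le_ne_top ENNReal.one_ne_top (e2 ▸ le_add_self)
  lift a to NNReal using ha
  lift a' to NNReal using ha'
  lift b to NNReal using hb
  lift b' to NNReal using hb'
  have e1' : (a : ℝ) + a' = 1 := by exact_mod_cast e1
  have e2' : (b : ℝ) + b' = 1 := by exact_mod_cast e2
  simp only [← ENNReal.ofReal_coe_nnreal] at hc h3
  have p1 := a.2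
  have p2 := a'.2
  have p3 := b.2
  have p4 := b'.2
  simp only [NNReal.val_eq_coe] at p1 p2 p3 p4
  rw [← ENNReal.ofReal_add p3 (by norm_num), ENNReal.ofReal_lt_ofReal_iff_of_nonneg (by positivity)] at hc
  rw [← ENNReal.ofReal_mul (by norm_num), ← ENNReal.ofReal_mul (by norm_num),
    ← ENNReal.ofReal_mul (by norm_num), ← ENNReal.ofReal_mul (by norm_num),
    ← ENNReal.ofReal_add (by positivity) (by positivity),
    ← ENNReal.ofReal_add (by positivity) (by positivity),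
    ← ENNReal.ofReal_add (by positivity) (by positivity),
    ENNReal.ofReal_lt_ofReal_iff_of_nonneg (by norm_num)] at h3
  linarith

/-- correlation -/
def U2corr (b a : ℝ → ℝ≥0∞) (u : ℝ) : ℝ≥0∞ := ∫⁻ y, b y * a (y + u)

theorem U2corr_meas {b a : ℝ → ℝ≥0∞} (hb : Measurable b) (ha : Measurable a) :
    Measurable (U2corr b a) := by
  unfold U2corr
  refine Measurable.lintegral_prod_right' (f := fun p : ℝ × ℝ => b p.2 * a (p.2 + p.1)) ?_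
  exact (hb.comp measurable_snd).mul (ha.comp (measurable_snd.add measurable_fst))

theorem U2_shift_sq (s : ℝ → ℝ≥0∞) (u : ℝ) : ∫⁻ z, s (z + u) ^ 2 = ∫⁻ z, s z ^ 2 :=
  lintegral_add_right_eq_self (fun z => s z ^ 2) u

theorem U2corr_le_one {s s' : ℝ → ℝ≥0∞} (hs : Measurable s) (hs' : Measurable s')
    (h1 : ∫⁻ z, s z ^ 2 = 1) (h1' : ∫⁻ z, s' z ^ 2 = 1) (u : ℝ) : U2corr s s' u ≤ 1 :=
  U2_inner_le_one (s' := fun z => s' (z + u)) hs (hs'.comp (measurable_add_const u)) h1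
    ((U2_shift_sq s' u).trans h1')

theorem U2_shift_Iic (g : ℝ → ℝ≥0∞) (t u : ℝ) :
    ∫⁻ z in Set.Iic t, g (z + u) = ∫⁻ z in Set.Iic (t + u), g z := by
  rw [← lintegral_indicator measurableSet_Iic, ← lintegral_indicator measurableSet_Iic,
    ← lintegral_add_right_eq_self ((Set.Iic (t + u)).indicator g) u]
  refine lintegral_congr fun z => ?_
  by_cases hz : z ≤ t
  · rw [Set.indicator_of_mem (by simpa using hz), Set.indicator_of_mem (by simpa using hz)]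
  · rw [Set.indicator_of_notMem (by simpa using hz), Set.indicator_of_notMem (by simpa using hz)]

/-- two good shifts bound the mass of intervals -/
theorem U2_interval {s s' : ℝ → ℝ≥0∞} (hs : Measurable s) (hs' : Measurable s')
    (h1 : ∫⁻ z, s z ^ 2 = 1) (h1' : ∫⁻ z, s' z ^ 2 = 1) {u u' : ℝ} (huu : u ≤ u')
    (hu : ENNReal.ofReal (255 / 256) < U2corr s s' u)
    (hu' : ENNReal.ofReal (255 / 256) < U2corr s s' u') (t : ℝ) :
    ∫⁻ z in Set.Icc t (t + (u' - u)), s z ^ 2 ≤ ENNReal.ofReal (1 / 4) := by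
  have m (v : ℝ) : Measurable fun z => s' (z + v) := hs'.comp (measurable_add_const v)
  have n (v : ℝ) : ∫⁻ z, s' (z + v) ^ 2 = 1 := (U2_shift_sq s' v).trans h1'
  have a1 := U2_close hs (m u) h1 (n u) (measurableSet_Iic (a := t + (u' - u))) hu
  have hu2 : ENNReal.ofReal (255 / 256) < ∫⁻ z, s' (z + u') * s z := by
    simpa only [U2corr, mul_comm] using hu'
  have a2 := U2_close (m u') hs (n u') h1 (measurableSet_Iic (a := t)) hu2
  rw [U2_shift_Iic (fun z => s' z ^ 2)] at a1 a2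
  rw [show t + (u' - u) + u = t + u' by ring] at a1
  have a3 := a1.trans (add_le_add_left a2 _)
  have hsplit : Set.Iic (t + (u' - u)) = Set.Iic t ∪ Set.Ioc t (t + (u' - u)) :=
    (Set.Iic_union_Ioc_eq_Iic (by linarith)).symm
  rw [hsplit, lintegral_union measurableSet_Ioc (Set.Iic_disjoint_Ioc le_rfl), add_assoc] at a3
  have hfin : ∫⁻ z in Set.Iic t, s z ^ 2 ≠ ⊤ :=
    ne_top_of_le_ne_top ENNReal.one_ne_top (h1 ▸ setLIntegral_le_lintegral _ _)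
  have a4 := (ENNReal.add_le_add_iff_left hfin).1 a3
  rw [← ENNReal.ofReal_add (by norm_num) (by norm_num)] at a4
  rw [← setLIntegral_congr Ioc_ae_eq_Icc]
  refine a4.trans (le_of_eq ?_)
  norm_num

/-- integrate out the difference -/
theorem U2_diff {a b c : ℝ → ℝ≥0∞} (ha : Measurable a) (hb : Measurable b) (hc : Measurable c) :
    ∫⁻ x, ∫⁻ y, a x * b y * c (x - y) = ∫⁻ u, c u * U2corr b a u := by
  rw [lintegral_lintegral_swap]
  swap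
  · exact (((ha.comp measurable_fst).mul (hb.comp measurable_snd)).mul
      (hc.comp (measurable_fst.sub measurable_snd))).aemeasurable
  have e : ∀ y, ∫⁻ x, a x * b y * c (x - y) = ∫⁻ u, c u * (b y * a (y + u)) := by
    intro y
    rw [← lintegral_add_left_eq_self (fun x => a x * b y * c (x - y)) y]
    refine lintegral_congr fun u => ?_
    rw [add_sub_cancel_left]; ring
  simp_rw [e]
  rw [lintegral_lintegral_swap]
  swap
  · exact ((hc.comp measurable_snd).mul ((hb.comp measurable_fst).mul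
      (ha.comp (measurable_fst.add measurable_snd)))).aemeasurable
  refine lintegral_congr fun u => ?_
  unfold U2corr
  rw [lintegral_const_mul]
  exact hb.mul (ha.comp (measurable_add_const u))

/-- a set of large mass contains two points spanning an interval of large mass -/
theorem U2_span {g : ℝ → ℝ≥0∞} (h1 : ∫⁻ z, g z = 1) {S : Set ℝ} (hS : MeasurableSet S)
    {r : ℝ≥0∞} (h : r < ∫⁻ z in S, g z) :
    ∃ y ∈ S, ∃ y' ∈ S, y ≤ y' ∧ r < ∫⁻ z in Set.Icc y y', g z := by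
  have : IsFiniteMeasure (volume.withDensity g) :=
    isFiniteMeasure_withDensity (by rw [h1]; exact ENNReal.one_ne_top)
  rw [← withDensity_apply _ hS] at h
  obtain ⟨K, hKS, hK, hr⟩ := hS.exists_lt_isCompact h
  rcases K.eq_empty_or_nonempty with rfl | hne
  · simp at hr
  obtain ⟨y, hy⟩ := hK.exists_isLeast hne
  obtain ⟨y', hy'⟩ := hK.exists_isGreatest hne
  refine ⟨y, hKS hy.1, y', hKS hy'.1, hy.2 hy'.1, ?_⟩
  rw [← withDensity_apply _ measurableSet_Icc]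
  exact hr.trans_le (measure_mono fun z hz => ⟨hy.2 hz, hy'.2 hz⟩)

/-- the dichotomy -/
theorem U2_dich {s₁ s₂ s₃ s₄ : ℝ → ℝ≥0∞} (m₁ : Measurable s₁) (m₂ : Measurable s₂)
    (m₃ : Measurable s₃) (m₄ : Measurable s₄) (h₁ : ∫⁻ z, s₁ z ^ 2 = 1) (h₂ : ∫⁻ z, s₂ z ^ 2 = 1)
    (h₃ : ∫⁻ z, s₃ z ^ 2 = 1) (h₄ : ∫⁻ z, s₄ z ^ 2 = 1) :
    ∫⁻ x, ∫⁻ y, s₁ x ^ 2 * s₂ y ^ 2 * U2corr s₃ s₄ (x - y) ≤ ENNReal.ofReal (1021 / 1024) ∨
      ∃ d y : ℝ, ENNReal.ofReal (1 / 4) < ∫⁻ z in Set.Icc y (y + d), s₂ z ^ 2 ∧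
        ∀ t, ∫⁻ z in Set.Icc t (t + d), s₃ z ^ 2 ≤ ENNReal.ofReal (1 / 4) := by
  have mc := U2corr_meas m₃ m₄
  set S : ℝ → Set ℝ := fun x => {y | ENNReal.ofReal (255 / 256) < U2corr s₃ s₄ (x - y)} with hSdef
  have hS (x : ℝ) : MeasurableSet (S x) :=
    measurableSet_lt measurable_const (mc.comp (measurable_const.sub measurable_id))
  by_cases hx : ∃ x, ENNReal.ofReal (1 / 4) < ∫⁻ z in S x, s₂ z ^ 2
  · right
    obtain ⟨x, hx⟩ := hx
    obtain ⟨y, hy, y', hy', hyy, hr⟩ := U2_span h₂ (hS x) hx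
    refine ⟨y' - y, y, by rwa [add_sub_cancel], fun t => ?_⟩
    have := U2_interval m₃ m₄ h₃ h₄ (u := x - y') (u' := x - y) (by linarith) hy' hy t
    rwa [show x - y - (x - y') = y' - y by ring] at this
  left
  push Not at hx
  have key (x : ℝ) : ∫⁻ y, s₂ y ^ 2 * U2corr s₃ s₄ (x - y) ≤ ENNReal.ofReal (1021 / 1024) := by
    have pt (y : ℝ) : s₂ y ^ 2 * U2corr s₃ s₄ (x - y) ≤
        ENNReal.ofReal (255 / 256) * s₂ y ^ 2 +
          ENNReal.ofReal (1 / 256) * (S x).indicator (fun z => s₂ z ^ 2) y := by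
      by_cases hy : y ∈ S x
      · rw [Set.indicator_of_mem hy, ← add_mul,
          ← ENNReal.ofReal_add (by norm_num) (by norm_num), mul_comm]
        refine mul_le_mul_left ((U2corr_le_one m₃ m₄ h₃ h₄ _).trans (le_of_eq ?_)) _
        norm_num
      · rw [Set.indicator_of_notMem hy, mul_zero, add_zero, mul_comm]
        exact mul_le_mul_left (not_lt.1 hy) _
    refine (lintegral_mono pt).trans ?_
    rw [lintegral_add_left ((m₂.pow_const 2).const_mul _), lintegral_const_mul _ (m₂.pow_const 2),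
      lintegral_const_mul _ ((m₂.pow_const 2).indicator (hS x)), lintegral_indicator (hS x), h₂,
      mul_one]
    refine (add_le_add_right (mul_le_mul_right (hx x) _) _).trans (le_of_eq ?_)
    rw [← ENNReal.ofReal_mul (by norm_num), ← ENNReal.ofReal_add (by norm_num) (by norm_num)]
    norm_num
  calc ∫⁻ x, ∫⁻ y, s₁ x ^ 2 * s₂ y ^ 2 * U2corr s₃ s₄ (x - y)
      ≤ ∫⁻ x, ENNReal.ofReal (1021 / 1024) * s₁ x ^ 2 := by
        refine lintegral_mono fun x => ?_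
        simp_rw [mul_assoc]
        rw [lintegral_const_mul, mul_comm]
        · exact mul_le_mul_left (key x) _
        · exact (m₂.pow_const 2).mul (mc.comp (measurable_const.sub measurable_id))
    _ = _ := by rw [lintegral_const_mul _ (m₁.pow_const 2), h₁, mul_one]

theorem U2_T_le_one {s₁ s₂ s₃ s₄ : ℝ → ℝ≥0∞} (m₂ : Measurable s₂)
    (m₃ : Measurable s₃) (m₄ : Measurable s₄) (h₁ : ∫⁻ z, s₁ z ^ 2 = 1) (h₂ : ∫⁻ z, s₂ z ^ 2 = 1)
    (h₃ : ∫⁻ z, s₃ z ^ 2 = 1) (h₄ : ∫⁻ z, s₄ z ^ 2 = 1) :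
    ∫⁻ x, ∫⁻ y, s₁ x ^ 2 * s₂ y ^ 2 * U2corr s₃ s₄ (x - y) ≤ 1 := by
  calc ∫⁻ x, ∫⁻ y, s₁ x ^ 2 * s₂ y ^ 2 * U2corr s₃ s₄ (x - y)
      ≤ ∫⁻ x, ∫⁻ y, s₁ x ^ 2 * s₂ y ^ 2 := by
        refine lintegral_mono fun x => lintegral_mono fun y => ?_
        exact mul_le_of_le_one_right' (U2corr_le_one m₃ m₄ h₃ h₄ _)
    _ = 1 := by
        simp_rw [lintegral_const_mul _ (m₂.pow_const 2), h₂, mul_one, h₁]

/-- one of the two terms is small -/
theorem U2_sum_le {s₁ s₂ s₃ s₄ : ℝ → ℝ≥0∞} (m₁ : Measurable s₁) (m₂ : Measurable s₂)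
    (m₃ : Measurable s₃) (m₄ : Measurable s₄) (h₁ : ∫⁻ z, s₁ z ^ 2 = 1) (h₂ : ∫⁻ z, s₂ z ^ 2 = 1)
    (h₃ : ∫⁻ z, s₃ z ^ 2 = 1) (h₄ : ∫⁻ z, s₄ z ^ 2 = 1) :
    (∫⁻ x, ∫⁻ y, s₁ x ^ 2 * s₂ y ^ 2 * U2corr s₃ s₄ (x - y)) +
      (∫⁻ x, ∫⁻ y, s₄ x ^ 2 * s₃ y ^ 2 * U2corr s₂ s₁ (x - y)) ≤ ENNReal.ofReal (2045 / 1024) := by
  have e : ENNReal.ofReal (2045 / 1024) = ENNReal.ofReal (1021 / 1024) + 1 := by
    rw [← ENNReal.ofReal_one, ← ENNReal.ofReal_add (by norm_num) (by norm_num)]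
    norm_num
  rw [e]
  rcases U2_dich m₁ m₂ m₃ m₄ h₁ h₂ h₃ h₄ with hA | ⟨d, y, hA, hA'⟩
  · exact add_le_add hA (U2_T_le_one m₃ m₂ m₁ h₄ h₃ h₂ h₁)
  rcases U2_dich m₄ m₃ m₂ m₁ h₄ h₃ h₂ h₁ with hB | ⟨d', y', hB, hB'⟩
  · rw [add_comm (ENNReal.ofReal _)]
    exact add_le_add (U2_T_le_one m₂ m₃ m₄ h₁ h₂ h₃ h₄) hB
  exfalso
  rcases le_total d d' with h | h
  · exact (hA.trans_le ((lintegral_mono_set (Set.Icc_subset_Icc_right (by linarith))).trans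
      (hB' y))).false
  · exact (hB.trans_le ((lintegral_mono_set (Set.Icc_subset_Icc_right (by linarith))).trans
      (hA' y'))).false

/-- the normalised inequality -/
theorem U2_norm {h₁ h₂ h₃ h₄ : ℝ → ℝ≥0∞} (m₁ : Measurable h₁) (m₂ : Measurable h₂)
    (m₃ : Measurable h₃) (m₄ : Measurable h₄) (n₁ : ∫⁻ z, h₁ z ^ 4 = 1) (n₂ : ∫⁻ z, h₂ z ^ 4 = 1)
    (n₃ : ∫⁻ z, h₃ z ^ 4 = 1) (n₄ : ∫⁻ z, h₄ z ^ 4 = 1) :
    ∫⁻ x, ∫⁻ y, ∫⁻ z, h₁ x ^ 3 * h₂ y ^ 3 * h₃ z ^ 3 * h₄ (x - y + z) ^ 3 ≤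
      ENNReal.ofReal (2045 / 2048) := by
  have q (h : ℝ → ℝ≥0∞) (n : ∫⁻ z, h z ^ 4 = 1) : ∫⁻ z, (h z ^ 2) ^ 2 = 1 := by
    simp_rw [← pow_mul]; exact n
  have k₁ := m₁.pow_const 2
  have k₂ := m₂.pow_const 2
  have k₃ := m₃.pow_const 2
  have k₄ := m₄.pow_const 2
  have main := U2_sum_le k₁ k₂ k₃ k₄ (q _ n₁) (q _ n₂) (q _ n₃) (q _ n₄)
  have c1 := U2corr_meas k₃ k₄
  have c2 := U2corr_meas k₂ k₁
  have c3 := U2corr_meas (k₃.pow_const 2) (k₄.pow_const 2)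
  have e : ∫⁻ x, ∫⁻ y, (h₄ x ^ 2) ^ 2 * (h₃ y ^ 2) ^ 2 *
        U2corr (fun z => h₂ z ^ 2) (fun z => h₁ z ^ 2) (x - y) =
      ∫⁻ x, ∫⁻ y, h₁ x ^ 2 * h₂ y ^ 2 *
        U2corr (fun z => (h₃ z ^ 2) ^ 2) (fun z => (h₄ z ^ 2) ^ 2) (x - y) := by
    rw [U2_diff (k₄.pow_const 2) (k₃.pow_const 2) c2, U2_diff k₁ k₂ c3]
    exact lintegral_congr fun u => mul_comm _ _
  rw [e] at main
  have M1 : Measurable fun p : ℝ × ℝ => (h₁ p.1 ^ 2) ^ 2 * (h₂ p.2 ^ 2) ^ 2 *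
      U2corr (fun z => h₃ z ^ 2) (fun z => h₄ z ^ 2) (p.1 - p.2) :=
    (((k₁.pow_const 2).comp measurable_fst).mul ((k₂.pow_const 2).comp measurable_snd)).mul
      (c1.comp (measurable_fst.sub measurable_snd))
  have M2 : Measurable fun p : ℝ × ℝ => h₁ p.1 ^ 2 * h₂ p.2 ^ 2 *
      U2corr (fun z => (h₃ z ^ 2) ^ 2) (fun z => (h₄ z ^ 2) ^ 2) (p.1 - p.2) :=
    ((k₁.comp measurable_fst).mul (k₂.comp measurable_snd)).mul
      (c3.comp (measurable_fst.sub measurable_snd))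
  have pt (x y : ℝ) : ∫⁻ z, h₁ x ^ 3 * h₂ y ^ 3 * h₃ z ^ 3 * h₄ (x - y + z) ^ 3 ≤
      ENNReal.ofReal (1 / 2) * ((h₁ x ^ 2) ^ 2 * (h₂ y ^ 2) ^ 2 *
        U2corr (fun z => h₃ z ^ 2) (fun z => h₄ z ^ 2) (x - y) +
      h₁ x ^ 2 * h₂ y ^ 2 *
        U2corr (fun z => (h₃ z ^ 2) ^ 2) (fun z => (h₄ z ^ 2) ^ 2) (x - y)) := by
    have j₄ : Measurable fun z => h₄ (z + (x - y)) := m₄.comp (measurable_add_const _)
    have := U2_amgm_int volume (1 / 2) (1 / 2) (by norm_num) (by norm_num) (by norm_num)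
      (s := fun z => h₁ x ^ 2 * h₂ y ^ 2 * (h₃ z * h₄ (z + (x - y))))
      (s' := fun z => h₁ x * h₂ y * (h₃ z ^ 2 * h₄ (z + (x - y)) ^ 2))
      ((m₃.mul j₄).const_mul _) ((k₃.mul (j₄.pow_const 2)).const_mul _)
    refine (le_of_eq ?_).trans (this.trans (le_of_eq ?_))
    · refine lintegral_congr fun z => ?_
      rw [add_comm (x - y) z]; ring
    · rw [← mul_add]
      unfold U2corr
      congr 2
      · rw [← lintegral_const_mul]
        · refine lintegral_congr fun z => ?_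
          ring
        · exact k₃.mul (j₄.pow_const 2)
      · rw [← lintegral_const_mul]
        · refine lintegral_congr fun z => ?_
          ring
        · exact (k₃.pow_const 2).mul ((j₄.pow_const 2).pow_const 2)
  refine (lintegral_mono fun x => lintegral_mono fun y => pt x y).trans ?_
  have e2 (x : ℝ) := lintegral_const_mul (μ := volume) (ENNReal.ofReal (1 / 2))
    ((M1.add M2).comp (measurable_prodMk_left (x := x)))
  have e3 (x : ℝ) := lintegral_add_left (μ := volume) (M1.comp (measurable_prodMk_left (x := x)))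
    (fun y => h₁ x ^ 2 * h₂ y ^ 2 *
        U2corr (fun z => (h₃ z ^ 2) ^ 2) (fun z => (h₄ z ^ 2) ^ 2) (x - y))
  simp only [Function.comp_def, Pi.add_apply] at e2 e3
  simp_rw [e2, e3]
  rw [lintegral_const_mul' _ _ ENNReal.ofReal_ne_top, lintegral_add_left]
  · refine (mul_le_mul_right main _).trans (le_of_eq ?_)
    rw [← ENNReal.ofReal_mul (by norm_num)]
    norm_num
  · exact M1.lintegral_prod_right'

/-- normalisation -/
theorem U2_normalise {f : ℝ → ℝ≥0∞} (hf : Measurable f) (h0 : ∫⁻ x, f x ^ (4 / 3 : ℝ) ≠ 0)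
    (ht : ∫⁻ x, f x ^ (4 / 3 : ℝ) ≠ ⊤) :
    ∃ h : ℝ → ℝ≥0∞, Measurable h ∧ ∫⁻ x, h x ^ 4 = 1 ∧
      ∀ x, f x = (∫⁻ x, f x ^ (4 / 3 : ℝ)) ^ (3 / 4 : ℝ) * h x ^ 3 := by
  set N := ∫⁻ x, f x ^ (4 / 3 : ℝ) with hN
  refine ⟨fun x => N⁻¹ ^ (1 / 4 : ℝ) * f x ^ (1 / 3 : ℝ), (hf.pow_const _).const_mul _, ?_, fun x => ?_⟩
  · have e (x : ℝ) : (N⁻¹ ^ (1 / 4 : ℝ) * f x ^ (1 / 3 : ℝ)) ^ 4 = N⁻¹ * f x ^ (4 / 3 : ℝ) := by
      rw [mul_pow, ← ENNReal.rpow_natCast, ← ENNReal.rpow_natCast, ← ENNReal.rpow_mul,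
        ← ENNReal.rpow_mul]
      norm_num
    simp_rw [e]
    rw [lintegral_const_mul _ (hf.pow_const _), ← hN, ENNReal.inv_mul_cancel h0 ht]
  · rw [mul_pow, ← ENNReal.rpow_natCast, ← ENNReal.rpow_natCast, ← ENNReal.rpow_mul,
      ← ENNReal.rpow_mul, ← mul_assoc]
    norm_num
    rw [← ENNReal.mul_rpow_of_nonneg _ _ (by norm_num), ENNReal.mul_inv_cancel h0 ht,
      ENNReal.one_rpow, one_mul]

theorem U2_ae_zero {f : ℝ → ℝ≥0∞} (hf : Measurable f) (h0 : ∫⁻ x, f x ^ (4 / 3 : ℝ) = 0) :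
    ∀ᵐ x, f x = 0 := by
  have := (lintegral_eq_zero_iff (hf.pow_const _)).1 h0
  filter_upwards [this] with x hx
  have hx' : f x ^ (4 / 3 : ℝ) = 0 := hx
  rcases ENNReal.rpow_eq_zero_iff.1 hx' with h | h
  · exact h.1
  · exact absurd h.2 (by norm_num)

theorem exists_hasU2_real : ∃ ρ : ℝ, 0 < ρ ∧ ρ < 1 ∧ HasU2 (volume : Measure ℝ) (ENNReal.ofReal ρ) := by
  refine ⟨2045 / 2048, by norm_num, by norm_num, fun f₁ f₂ f₃ f₄ m₁ m₂ m₃ m₄ => ?_⟩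
  by_cases z₁ : ∫⁻ x, f₁ x ^ (4 / 3 : ℝ) = 0
  · refine (le_of_eq ?_).trans zero_le
    refine (lintegral_congr_ae ?_).trans lintegral_zero
    filter_upwards [U2_ae_zero m₁ z₁] with x hx
    simp [hx]
  by_cases z₂ : ∫⁻ x, f₂ x ^ (4 / 3 : ℝ) = 0
  · refine (le_of_eq ?_).trans zero_le
    refine (lintegral_congr fun x => ?_).trans lintegral_zero
    refine (lintegral_congr_ae ?_).trans lintegral_zero
    filter_upwards [U2_ae_zero m₂ z₂] with y hy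
    simp [hy]
  by_cases z₃ : ∫⁻ x, f₃ x ^ (4 / 3 : ℝ) = 0
  · refine (le_of_eq ?_).trans zero_le
    refine (lintegral_congr fun x => ?_).trans lintegral_zero
    refine (lintegral_congr fun y => ?_).trans lintegral_zero
    refine (lintegral_congr_ae ?_).trans lintegral_zero
    filter_upwards [U2_ae_zero m₃ z₃] with z hz
    simp [hz]
  by_cases z₄ : ∫⁻ x, f₄ x ^ (4 / 3 : ℝ) = 0
  · refine (le_of_eq ?_).trans zero_le
    refine (lintegral_congr fun x => ?_).trans lintegral_zero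
    refine (lintegral_congr fun y => ?_).trans lintegral_zero
    refine (lintegral_congr_ae ?_).trans lintegral_zero
    filter_upwards [(measurePreserving_add_left volume (x - y)).quasiMeasurePreserving.ae
      (U2_ae_zero m₄ z₄)] with z hz
    simp [hz]
  have nz {N : ℝ≥0∞} (h : N ≠ 0) : N ^ (3 / 4 : ℝ) ≠ 0 := by
    intro h'
    rcases ENNReal.rpow_eq_zero_iff.1 h' with h'' | h''
    · exact h h''.1
    · exact absurd h''.2 (by norm_num)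
  have nt {N : ℝ≥0∞} (h : N ^ (3 / 4 : ℝ) ≠ ⊤) : N ≠ ⊤ := by
    rintro rfl
    exact h (ENNReal.top_rpow_of_pos (by norm_num))
  by_cases hT : (∫⁻ x, f₁ x ^ (4 / 3 : ℝ)) ^ (3 / 4 : ℝ) * (∫⁻ x, f₂ x ^ (4 / 3 : ℝ)) ^ (3 / 4 : ℝ) *
      (∫⁻ x, f₃ x ^ (4 / 3 : ℝ)) ^ (3 / 4 : ℝ) * (∫⁻ x, f₄ x ^ (4 / 3 : ℝ)) ^ (3 / 4 : ℝ) = ⊤
  · rw [hT, ENNReal.mul_top (by norm_num)]
    exact le_top
  have y₁ := nz z₁
  have y₂ := nz z₂
  have y₃ := nz z₃
  have y₄ := nz z₄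
  have t₁ : ∫⁻ x, f₁ x ^ (4 / 3 : ℝ) ≠ ⊤ := nt fun h => hT (by simp [h, y₂, y₃, y₄])
  have t₂ : ∫⁻ x, f₂ x ^ (4 / 3 : ℝ) ≠ ⊤ := nt fun h => hT (by simp [h, y₁, y₃, y₄])
  have t₃ : ∫⁻ x, f₃ x ^ (4 / 3 : ℝ) ≠ ⊤ := nt fun h => hT (by simp [h, y₁, y₂, y₄])
  have t₄ : ∫⁻ x, f₄ x ^ (4 / 3 : ℝ) ≠ ⊤ := nt fun h => hT (by simp [h, y₁, y₂, y₃])
  obtain ⟨h₁, k₁, n₁, e₁⟩ := U2_normalise m₁ z₁ t₁
  obtain ⟨h₂, k₂, n₂, e₂⟩ := U2_normalise m₂ z₂ t₂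
  obtain ⟨h₃, k₃, n₃, e₃⟩ := U2_normalise m₃ z₃ t₃
  obtain ⟨h₄, k₄, n₄, e₄⟩ := U2_normalise m₄ z₄ t₄
  generalize (∫⁻ x, f₁ x ^ (4 / 3 : ℝ)) ^ (3 / 4 : ℝ) = c₁ at *
  generalize (∫⁻ x, f₂ x ^ (4 / 3 : ℝ)) ^ (3 / 4 : ℝ) = c₂ at *
  generalize (∫⁻ x, f₃ x ^ (4 / 3 : ℝ)) ^ (3 / 4 : ℝ) = c₃ at *
  generalize (∫⁻ x, f₄ x ^ (4 / 3 : ℝ)) ^ (3 / 4 : ℝ) = c₄ at *
  have e (x y z : ℝ) : f₁ x * f₂ y * f₃ z * f₄ (x - y + z) =
      (c₁ * c₂ * c₃ * c₄) * (h₁ x ^ 3 * h₂ y ^ 3 * h₃ z ^ 3 * h₄ (x - y + z) ^ 3) := by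
    rw [e₁ x, e₂ y, e₃ z, e₄ (x - y + z)]; ring
  simp_rw [e, lintegral_const_mul' _ _ hT]
  rw [mul_comm]
  exact mul_le_mul_left (U2_norm k₁ k₂ k₃ k₄ n₁ n₂ n₃ n₄) _

end Crest.Agent.R225
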