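import Crest.Agent.R225.Bonf
import Crest.Agent.R225.Occ1
import Crest.Agent.R225.Occ2
import Crest.Agent.R225.U2
import Crest.Agent.R225.Psi

/-!
# Row 225: BaseCore
The base range: hole probability `4 exp (-v/2)` for volumes `v ≤ c N / log N`.

`base_core`.  `v = 0` is trivial.  Let `N = |κ|`, `s = ⌈4 v⌉`, `J ⊆ closedBall 0 R₀`, `R = ⌈R₀/ε⌉ + 1`.  Fix `η` with
`vol (cthickening η J) ≤ 2v` (`tendsto_measure_cthickening_of_isCompact`); for small `ε`, `vol {x | closedBall x ε ⊆ J} ≥ v/2` (increasing union is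
`interior J`, `Convex.addHaar_frontier`).  In `bonf`: `v/2 ≤ V ≤ 2v`; `κ₀ = (2R+1)^(2s) 2 R₀ ε^N → 0` (`card_span_le`, `arc_le`, `2s < N`).
`occ Adm ≤ ∑ C, occ (Rel C)` over the finitely many primitive `C` that occur (`Adm.exists_rel`); group by the height `M = max |C l|`
(at most `(2M+1)^(j+1)` vectors): `M = 1`: `occ_one` with `ρ^(N+1)` (`HasU2.prod`, `HasU2.pi`); `2 ≤ M ≤ M₀`: `occ_two`, `(2M+1)^(j+1) / M^N ≤ 2^(-N/8) / M²`
for `j ≤ N/8`; `M > M₀`: `occ_three`, a tail of a convergent series with constants independent of `ε ≤ 1`, small for `M₀` large.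
With `j ≤ 4s ≤ 16 v + 4` and `v log N ≤ c N` the error is `≤ exp (-v/2)`.
-/

set_option autoImplicit false
set_option linter.unusedSectionVars false

open MeasureTheory ProbabilityTheory Matrix Filter Topology
open scoped ENNReal RealInnerProductSpace

noncomputable section

namespace Crest.Agent.R225

section aux

variable {L : Type} [Fintype L] [DecidableEq L]

/-- height of a relation -/
def BaseCore_ht (C : L → ℤ) : ℕ := Finset.univ.sup fun l => (C l).natAbs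

theorem BaseCore_le_ht (C : L → ℤ) (l : L) : (C l).natAbs ≤ BaseCore_ht C :=
  Finset.le_sup (f := fun l => (C l).natAbs) (Finset.mem_univ l)

theorem BaseCore_exists_ht [Nonempty L] {C : L → ℤ} (hC : Finset.univ.gcd C = 1) :
    ∃ l, C l ≠ 0 ∧ (C l).natAbs = BaseCore_ht C := by
  obtain ⟨l, -, hl⟩ := Finset.exists_mem_eq_sup Finset.univ Finset.univ_nonempty
    fun l => (C l).natAbs
  refine ⟨l, fun h0 => ?_, hl.symm⟩
  have h1 : ∀ l', C l' = 0 := fun l' => by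
    have := BaseCore_le_ht C l'
    rw [BaseCore_ht, hl, h0] at this
    simpa using this
  rw [Finset.gcd_eq_zero_iff.2 fun l' _ => h1 l'] at hC
  exact zero_ne_one hC

theorem BaseCore_count (𝒞 : Finset (L → ℤ)) (M : ℕ) :
    (𝒞.filter fun C => BaseCore_ht C ≤ M).card ≤ (2 * M + 1) ^ Fintype.card L := by
  have h : (𝒞.filter fun C => BaseCore_ht C ≤ M) ⊆
      Fintype.piFinset fun _ : L => Finset.Icc (-(M : ℤ)) M := by
    intro C hC
    refine Fintype.mem_piFinset.2 fun l => ?_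
    have := (BaseCore_le_ht C l).trans (Finset.mem_filter.1 hC).2
    rw [Finset.mem_Icc]
    omega
  refine (Finset.card_le_card h).trans (le_of_eq ?_)
  rw [Fintype.card_piFinset, Finset.prod_const, Finset.card_univ, Int.card_Icc]
  congr 1
  omega

theorem BaseCore_tail (𝒞 : Finset (L → ℤ)) {M₁ : ℕ} (hM : 1 ≤ M₁) (a : ℕ) :
    ∑ C ∈ 𝒞.filter (fun C => M₁ < BaseCore_ht C),
      1 / (BaseCore_ht C : ℝ) ^ (3 * Fintype.card L + 2 + a) ≤ 1 / ((M₁ + 1 : ℝ) ^ a * M₁) := by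
  set B := 𝒞.sup BaseCore_ht ⊔ M₁ with hB
  have hmap : ∀ C ∈ 𝒞.filter (fun C => M₁ < BaseCore_ht C), BaseCore_ht C ∈ Finset.Ioc M₁ B :=
    fun C hC => Finset.mem_Ioc.2 ⟨(Finset.mem_filter.1 hC).2,
      (Finset.le_sup (f := BaseCore_ht) (Finset.mem_filter.1 hC).1).trans le_sup_left⟩
  rw [← Finset.sum_fiberwise_of_maps_to hmap]
  have hM' : (0 : ℝ) < M₁ := by exact_mod_cast hM
  calc _ ≤ ∑ M ∈ Finset.Ioc M₁ B, 1 / (M₁ + 1 : ℝ) ^ a * ((M : ℝ) ^ 2)⁻¹ := by
        refine Finset.sum_le_sum fun M hM₂ => ?_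
        have h1 := (Finset.mem_Ioc.1 hM₂).1
        have h2 : (M₁ + 1 : ℝ) ≤ M := by exact_mod_cast h1
        have hM0 : (0 : ℝ) < M := by linarith
        rw [Finset.sum_congr rfl (g := fun _ => 1 / (M : ℝ) ^ (3 * Fintype.card L + 2 + a))
          (fun C hC => by rw [(Finset.mem_filter.1 hC).2]), Finset.sum_const, nsmul_eq_mul]
        have h3 : ((𝒞.filter fun C => M₁ < BaseCore_ht C).filter
            fun C => BaseCore_ht C = M).card ≤ (M ^ 3) ^ Fintype.card L := by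
          refine (Finset.card_le_card (fun C hC => ?_)).trans ((BaseCore_count 𝒞 M).trans
            (Nat.pow_le_pow_left ?_ _))
          · obtain ⟨h4, h5⟩ := Finset.mem_filter.1 hC
            exact Finset.mem_filter.2 ⟨(Finset.mem_filter.1 h4).1, h5.le⟩
          · have h4 : 2 ≤ M := by omega
            have h5 : 4 ≤ M * M := Nat.mul_le_mul h4 h4
            nlinarith
        calc _ ≤ ((M : ℝ) ^ 3) ^ Fintype.card L * (1 / (M : ℝ) ^ (3 * Fintype.card L + 2 + a)) := by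
              refine mul_le_mul_of_nonneg_right ?_ (by positivity)
              exact_mod_cast h3
          _ = 1 / (M : ℝ) ^ a * ((M : ℝ) ^ 2)⁻¹ := by
              rw [← pow_mul, pow_add, pow_add]
              field_simp
          _ ≤ _ := by gcongr
    _ ≤ 1 / (M₁ + 1 : ℝ) ^ a * (M₁ : ℝ)⁻¹ := by
        rw [← Finset.mul_sum]
        refine mul_le_mul_of_nonneg_left ?_ (by positivity)
        refine (sum_Ioc_inv_sq_le_sub (by omega) le_sup_right).trans ?_
        have : (0 : ℝ) ≤ (B : ℝ)⁻¹ := by positivity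
        linarith
    _ = _ := by field_simp

theorem BaseCore_occ_le {σ : Type} [Fintype σ] (Z : Finset (σ → ℤ))
    (S : (σ → ℤ) → Set UnitAddCircle) (j : ℕ) :
    ∃ 𝒞 : Finset (Option (Fin j) → ℤ), (∀ C ∈ 𝒞, Finset.univ.gcd C = 1) ∧
      occ Z S (Adm (j := j)) ≤ ∑ C ∈ 𝒞, occ Z S (Rel C) := by
  classical
  have h : ∀ z : Option (Fin j) → σ → ℤ, ∃ C : Option (Fin j) → ℤ,
      Adm z → Finset.univ.gcd C = 1 ∧ Rel C z := fun z => by
    by_cases hz : Adm z
    · obtain ⟨C, hC⟩ := hz.exists_rel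
      exact ⟨C, fun _ => hC⟩
    · exact ⟨0, fun h => absurd h hz⟩
  choose c hc using h
  refine ⟨((Fintype.piFinset fun _ : Option (Fin j) => Z).filter Adm).image c, fun C hC => ?_, ?_⟩
  · obtain ⟨z, hz, rfl⟩ := Finset.mem_image.1 hC
    exact (hc z (Finset.mem_filter.1 hz).2).1
  · unfold occ
    rw [← Finset.sum_fiberwise_of_maps_to (g := c) fun z hz => Finset.mem_image_of_mem c hz]
    refine Finset.sum_le_sum fun C _ => Finset.sum_le_sum_of_subset_of_nonneg (fun z hz => ?_)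
      fun _ _ _ => measureReal_nonneg
    obtain ⟨h1, rfl⟩ := Finset.mem_filter.1 hz
    obtain ⟨h2, h3⟩ := Finset.mem_filter.1 h1
    exact Finset.mem_filter.2 ⟨h2, (hc z h3).2⟩

variable {κ : Type} [Fintype κ] [DecidableEq κ] {J : Set (ℝ × (κ → ℝ))} {ε η R₀ : ℝ}

theorem BaseCore_adm (hJ : IsCompact J) (hR : J ⊆ Metric.closedBall 0 R₀) (hR0 : 0 ≤ R₀)
    (hε : 0 < ε) (u : κ → ℝ) {R : ℕ} (hR1 : 1 ≤ R) {ρ : ℝ} (hρ : 0 ≤ ρ)
    (hU : HasU2 (volume : Measure (ℝ × (κ → ℝ))) (ENNReal.ofReal ρ)) {j a M₀ : ℕ} (hM : 1 ≤ M₀)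
    (hN : Fintype.card κ = 3 * (j + 1) + 2 + a) (hw : (j + 1) * R₀ * ε ^ Fintype.card κ < 1)
    (hη1 : (j + 1) * ε ≤ η) (hη2 : (M₀ + 1) * ε ≤ η) :
    occ (box κ R) (arc J ε u) (Adm (j := j)) ≤
      3 ^ (j + 1) * (ρ * volume.real (Metric.cthickening η J) ^ j) +
        volume.real (Metric.cthickening η J) ^ j / 2 ^ a +
        (2 * R₀ * ((2 * (j + 1) * R + 1) * ε) ^ Fintype.card κ) ^ j / M₀ := by
  obtain ⟨𝒞, h𝒞, hle⟩ := BaseCore_occ_le (box κ R) (arc J ε u) j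
  have hL : Fintype.card (Option (Fin j)) = j + 1 := by simp
  set W := volume.real (Metric.cthickening η J) with hW
  have hW0 : 0 ≤ W := measureReal_nonneg
  set A := 2 * R₀ * ((2 * (j + 1) * R + 1) * ε) ^ Fintype.card κ with hA
  have hA0 : 0 ≤ A := by positivity
  have hpt : ∀ C ∈ 𝒞, occ (box κ R) (arc J ε u) (Rel C) ≤
      (if BaseCore_ht C ≤ 1 then ρ * W ^ j else 0) +
        (if 1 < BaseCore_ht C then W ^ j * (1 / (BaseCore_ht C : ℝ) ^ Fintype.card κ) else 0) +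
        (if M₀ < BaseCore_ht C then A ^ j * (1 / (BaseCore_ht C : ℝ) ^ Fintype.card κ) else 0) := by
    intro C hC
    obtain ⟨l₀, h0, hl⟩ := BaseCore_exists_ht (h𝒞 C hC)
    by_cases h1 : BaseCore_ht C ≤ 1
    · rw [if_pos h1, if_neg (by omega), if_neg (by omega), add_zero, add_zero]
      have := occ_one (η := η) hJ hR hε (L := Option (Fin j)) (by rw [hL]; exact_mod_cast hw)
        (by rw [hL]; exact_mod_cast hη1) u R hρ hU C (fun l => by
          have := (BaseCore_le_ht C l).trans h1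
          exact abs_le.2 ⟨by omega, by omega⟩) h0
      rwa [hL, Nat.add_sub_cancel] at this
    rw [if_neg h1, if_pos (by omega), zero_add]
    by_cases h2 : M₀ < BaseCore_ht C
    · rw [if_pos h2]
      have := occ_three hJ hR hR0 hε u hR1 C (h𝒞 C hC) h0
      rw [hL, Nat.add_sub_cancel, hl] at this
      push_cast at this
      rw [← hA, div_eq_mul_one_div] at this
      exact this.trans (le_add_of_nonneg_left (by positivity))
    · rw [if_neg h2, add_zero]
      have := occ_two (η := η) hJ hε u R C (h𝒞 C hC) h0 (by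
        refine le_trans (mul_le_mul_of_nonneg_right ?_ hε.le) hη2
        rw [hl]
        have : (BaseCore_ht C : ℝ) ≤ M₀ := by exact_mod_cast not_lt.1 h2
        linarith)
      rwa [hL, Nat.add_sub_cancel, hl, div_eq_mul_one_div] at this
  refine hle.trans ((Finset.sum_le_sum hpt).trans ?_)
  rw [Finset.sum_add_distrib, Finset.sum_add_distrib, ← Finset.sum_filter, ← Finset.sum_filter,
    ← Finset.sum_filter, Finset.sum_const, nsmul_eq_mul, ← Finset.mul_sum, ← Finset.mul_sum, hN]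
  have t1 := BaseCore_tail 𝒞 le_rfl a
  have t2 := BaseCore_tail 𝒞 hM a
  have t3 := BaseCore_count 𝒞 1
  rw [hL] at t1 t2 t3
  have hM' : (0 : ℝ) < M₀ := by exact_mod_cast hM
  refine add_le_add (add_le_add
    (mul_le_mul_of_nonneg_right ?_ (mul_nonneg hρ (pow_nonneg hW0 _))) ?_) ?_
  · exact_mod_cast t3
  · rw [div_eq_mul_one_div (W ^ j)]
    refine mul_le_mul_of_nonneg_left (t1.trans (le_of_eq ?_)) (by positivity)
    norm_num
  · rw [div_eq_mul_one_div (A ^ j)]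
    refine mul_le_mul_of_nonneg_left (t2.trans ?_) (by positivity)
    refine one_div_le_one_div_of_le hM' (le_mul_of_one_le_left hM'.le (one_le_pow₀ ?_))
    linarith

theorem BaseCore_kappa (hJ : IsCompact J) (hR : J ⊆ Metric.closedBall 0 R₀) (hR0 : 0 ≤ R₀)
    (hε : 0 < ε) (u : κ → ℝ) {R : ℕ} (hR1 : 1 ≤ R) (k : ℕ) (T : Finset (Option κ → ℤ))
    (hT : T.card ≤ k)
    {_ : DecidablePred fun z : Option κ → ℤ =>
      cq z ∈ Submodule.span ℚ (cq '' (T : Set (Option κ → ℤ)))} :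
    ∑ z ∈ (box κ R).filter (fun z => cq z ∈ Submodule.span ℚ (cq '' (T : Set (Option κ → ℤ)))),
      volume.real (arc J ε u z) ≤ (2 * R + 1) ^ k * (2 * R₀ * ε ^ Fintype.card κ) := by
  classical
  have h1 : Module.finrank ℚ (Submodule.span ℚ (cq '' (T : Set (Option κ → ℤ)))) ≤ k := by
    rw [← Finset.coe_image]
    exact (finrank_span_finset_le_card _).trans (Finset.card_image_le.trans hT)
  have h2 := card_span_le _ h1 (R := R) ((box κ R).filter
      (fun z => cq z ∈ Submodule.span ℚ (cq '' (T : Set (Option κ → ℤ))))) fun z hz => by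
    obtain ⟨h3, h4⟩ := Finset.mem_filter.1 hz
    refine ⟨h4, fun o => ?_⟩
    obtain ⟨w, hw, rfl⟩ := Finset.mem_image.1 h3
    rcases o with _ | i
    · simpa [lab] using hR1
    · have := Finset.mem_Icc.1 (Fintype.mem_piFinset.1 hw i)
      exact abs_le.2 this
  refine (Finset.sum_le_card_nsmul _ _ _ fun z _ => arc_le hJ hR hR0 hε u z).trans ?_
  rw [nsmul_eq_mul]
  refine mul_le_mul_of_nonneg_right ?_ (by positivity)
  exact_mod_cast h2

theorem BaseCore_outer (hJ : IsCompact J) (hv : 0 < volume.real J) :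
    ∃ η : ℝ, 0 < η ∧ volume.real (Metric.cthickening η J) ≤ 2 * volume.real J := by
  have h1 := tendsto_measure_cthickening_of_isCompact (μ := volume) hJ
  have h2 := (ENNReal.tendsto_toReal hJ.measure_lt_top.ne).comp h1
  have h3 := h2.eventually (gt_mem_nhds (show (volume J).toReal < 2 * volume.real J by
    change volume.real J < _
    linarith))
  obtain ⟨η, h4, h5⟩ := ((h3.filter_mono nhdsWithin_le_nhds).and self_mem_nhdsWithin
    (f := 𝓝[>] (0 : ℝ))).exists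
  exact ⟨η, h5, h4.le⟩

theorem BaseCore_inner (hJ : IsCompact J) (hc : Convex ℝ J) (hv : 0 < volume.real J) :
    ∀ᶠ ε in 𝓝[>] (0 : ℝ), volume.real J / 2 ≤ volume.real {x | Metric.closedBall x ε ⊆ J} := by
  have : (volume : Measure (ℝ × (κ → ℝ))).IsAddHaarMeasure :=
    inferInstanceAs ((volume : Measure ℝ).prod (volume : Measure (κ → ℝ))).IsAddHaarMeasure
  let A : ℝ → Set (ℝ × (κ → ℝ)) := fun ε => {x | Metric.closedBall x ε ⊆ J}
  have hanti : ∀ {ε ε'}, ε ≤ ε' → A ε' ⊆ A ε := fun h x hx =>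
    (Metric.closedBall_subset_closedBall h).trans hx
  have hsub : ∀ {ε}, 0 ≤ ε → A ε ⊆ J := fun h x hx => hx (Metric.mem_closedBall_self h)
  have hmono : Monotone fun n : ℕ => A (1 / ((n : ℝ) + 1)) := fun n m h =>
    hanti (Nat.one_div_le_one_div h)
  have h1 := tendsto_measure_iUnion_atTop (μ := volume) hmono
  have h2 : volume (⋃ n : ℕ, A (1 / ((n : ℝ) + 1))) = volume J := by
    refine le_antisymm (measure_mono (Set.iUnion_subset fun n => hsub (by positivity))) ?_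
    rw [← measure_interior_of_null_frontier (hc.addHaar_frontier volume)]
    refine measure_mono fun x hx => ?_
    obtain ⟨δ, hδ, h3⟩ := Metric.nhds_basis_closedBall.mem_iff.1 (mem_interior_iff_mem_nhds.1 hx)
    obtain ⟨n, hn⟩ := exists_nat_one_div_lt hδ
    exact Set.mem_iUnion.2 ⟨n, hanti hn.le h3⟩
  rw [h2] at h1
  have h3 := (ENNReal.tendsto_toReal hJ.measure_lt_top.ne).comp h1
  obtain ⟨n, hn⟩ := (h3.eventually (lt_mem_nhds (show volume.real J / 2 < (volume J).toReal by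
    change _ < volume.real J
    linarith))).exists
  filter_upwards [Ioo_mem_nhdsGT (show (0 : ℝ) < 1 / ((n : ℝ) + 1) by positivity)] with ε hε
  exact hn.le.trans (measureReal_mono (hanti hε.2.le)
    ((measure_mono (hsub hε.1.le)).trans_lt hJ.measure_lt_top).ne)

theorem BaseCore_num {ρ v : ℝ} {N s : ℕ} (hρ : 0 < ρ) (hv : 1 ≤ v) (hs : (s : ℝ) ≤ 5 * v)
    (hN : 1 ≤ Real.log N) (h1 : 1000 * v ≤ N) (h2 : 22 * (v * Real.log N) ≤ -Real.log ρ * N) :
    ((4 * s + 1 : ℕ) : ℝ) * (4 * (12 * v) ^ (4 * s) * ρ ^ N) ≤ Real.exp (-v / 2) / 2 := by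
  have hN0 : (0 : ℝ) < N := by linarith
  have e1 : (8 : ℝ) * (4 * s + 1 : ℕ) ≤ Real.exp (v * Real.log N) := by
    calc (8 : ℝ) * (4 * s + 1 : ℕ) ≤ N := by push_cast; linarith
      _ = Real.exp (Real.log N) := (Real.exp_log hN0).symm
      _ ≤ _ := Real.exp_le_exp.2 (by nlinarith)
  have e2 : (12 * v) ^ (4 * s) ≤ Real.exp (20 * (v * Real.log N)) := by
    calc (12 * v) ^ (4 * s) ≤ (N : ℝ) ^ (4 * s) := pow_le_pow_left₀ (by linarith) (by linarith) _
      _ = Real.exp (((4 * s : ℕ) : ℝ) * Real.log N) := by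
          rw [Real.exp_nat_mul, Real.exp_log hN0]
      _ ≤ _ := Real.exp_le_exp.2 (by push_cast; nlinarith)
  have e3 : ρ ^ N = Real.exp (N * Real.log ρ) := by rw [Real.exp_nat_mul, Real.exp_log hρ]
  have e4 : Real.exp (v * Real.log N) * Real.exp (20 * (v * Real.log N)) *
      Real.exp (N * Real.log ρ) ≤ Real.exp (-v / 2) := by
    rw [← Real.exp_add, ← Real.exp_add]
    exact Real.exp_le_exp.2 (by nlinarith)
  calc _ = (8 * ((4 * s + 1 : ℕ) : ℝ)) * (12 * v) ^ (4 * s) * ρ ^ N / 2 := by ring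
    _ ≤ Real.exp (v * Real.log N) * Real.exp (20 * (v * Real.log N)) *
      Real.exp (N * Real.log ρ) / 2 := by
        rw [e3]
        gcongr
    _ ≤ _ := by gcongr

end aux

set_option maxHeartbeats 1000000 in
theorem base_core : ∃ c : ℝ, 0 < c ∧ ∃ N₀ : ℕ, ∀ (κ : Type) [Fintype κ] [DecidableEq κ],
    N₀ ≤ Fintype.card κ → ∀ J : Set (ℝ × (κ → ℝ)), IsCompact J → Convex ℝ J →
      volume.real J ≤ c * Fintype.card κ / Real.log (Fintype.card κ) →
      ∀ᶠ ε in 𝓝[>] (0 : ℝ), ∀ u : κ → ℝ, (∀ i, |u i| ≤ 1) →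
        volume.real {ω : TT (Option κ) | ∀ w : κ → ℤ, ev (lab w) ω ∉ arc J ε u (lab w)} ≤
          4 * Real.exp (-volume.real J / 2) := by
  obtain ⟨ρ, hρ0, hρ1, hU⟩ := exists_hasU2_real
  set ρ' := max ρ (3 / 4) with hρ'
  have hρ'0 : 0 < ρ' := lt_max_of_lt_left hρ0
  have hρ'1 : ρ' < 1 := max_lt hρ1 (by norm_num)
  have hlam : 0 < -Real.log ρ' := neg_pos.2 (Real.log_neg hρ'0 hρ'1)
  refine ⟨min (1 / 1000) (-Real.log ρ' / 22), lt_min (by norm_num) (by positivity), 3,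
    fun κ _ _ hN J hJ hc hv => ?_⟩
  set N := Fintype.card κ with hNdef
  set v := volume.real J with hvdef
  by_cases hv1 : v ≤ 1
  · refine Eventually.of_forall fun ε u _ => measureReal_le_one.trans ?_
    have := Real.add_one_le_exp (-v / 2)
    linarith
  replace hv1 : 1 ≤ v := (not_le.1 hv1).le
  have hN3 : (3 : ℝ) ≤ N := by exact_mod_cast hN
  have hlog : 1 ≤ Real.log N := by
    rw [Real.le_log_iff_exp_le (by linarith)]
    exact Real.exp_one_lt_three.le.trans hN3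
  rw [le_div_iff₀ (by linarith)] at hv
  have hv2 : 1000 * v ≤ N := by
    have h1 : min (1 / 1000) (-Real.log ρ' / 22) * N ≤ 1 / 1000 * N :=
      mul_le_mul_of_nonneg_right (min_le_left _ _) (by positivity)
    nlinarith
  have hv3 : 22 * (v * Real.log N) ≤ -Real.log ρ' * N := by
    have h1 : min (1 / 1000) (-Real.log ρ' / 22) * N ≤ -Real.log ρ' / 22 * N :=
      mul_le_mul_of_nonneg_right (min_le_right _ _) (by positivity)
    linarith
  set s := ⌈4 * v⌉₊ with hsdef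
  have hs1 : 4 * v ≤ s := Nat.le_ceil _
  have hs2 : (s : ℝ) ≤ 5 * v := by
    have := Nat.ceil_lt_add_one (show 0 ≤ 4 * v by linarith)
    linarith
  have hsN : 200 * s ≤ N := by
    have : (200 * s : ℝ) ≤ N := by linarith
    exact_mod_cast this
  have hs0 : 4 ≤ s := by
    have : (4 : ℝ) ≤ s := by linarith
    exact_mod_cast this
  obtain ⟨R₀, hR0, hR⟩ := hJ.isBounded.subset_closedBall_lt 0 0
  obtain ⟨η, hη, hW⟩ := BaseCore_outer hJ (by linarith)
  have hU' : HasU2 (volume : Measure (ℝ × (κ → ℝ))) (ENNReal.ofReal (ρ ^ (N + 1))) := by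
    have := hU.prod (hU.pi κ)
    rwa [← pow_succ', ← ENNReal.ofReal_pow hρ0.le] at this
  set A₀ : ℝ := 2 * R₀ * (2 * (4 * s + 1) * (R₀ + 2) + 1) ^ N with hA₀
  have hA₀0 : 0 ≤ A₀ := by positivity
  obtain ⟨M₀, hM₀⟩ := exists_nat_gt
    (2 * (∑ j ∈ Finset.range (4 * s + 1), 2 ^ j * A₀ ^ j) / Real.exp (-v / 2))
  have hM₀' : (0 : ℝ) < M₀ := lt_of_le_of_lt (by positivity) hM₀
  have hM₁ : 1 ≤ M₀ := by exact_mod_cast hM₀'
  have lin : ∀ a b : ℝ, 0 < b → ∀ᶠ ε in 𝓝[>] (0 : ℝ), a * ε < b := fun a b hb => by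
    have h1 : Tendsto (fun ε : ℝ => a * ε) (𝓝 0) (𝓝 (a * 0)) :=
      (continuous_const.mul continuous_id).tendsto 0
    rw [mul_zero] at h1
    exact (h1.eventually (gt_mem_nhds hb)).filter_mono nhdsWithin_le_nhds
  have hexp : ∀ᶠ ε in 𝓝[>] (0 : ℝ), Real.exp (2 * v) *
      (Real.exp ((2 * R₀ + 5) ^ (2 * s) * (2 * R₀ * ε)) - 1) < Real.exp (-v / 2) := by
    have h1 : Continuous fun ε : ℝ => Real.exp (2 * v) *
      (Real.exp ((2 * R₀ + 5) ^ (2 * s) * (2 * R₀ * ε)) - 1) := by fun_prop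
    have h2 := h1.tendsto 0
    simp only [mul_zero, Real.exp_zero, sub_self] at h2
    exact (h2.eventually (gt_mem_nhds (Real.exp_pos _))).filter_mono nhdsWithin_le_nhds
  filter_upwards [Ioo_mem_nhdsGT (zero_lt_one (α := ℝ)), lin (4 * s + 1) η hη, lin (M₀ + 1) η hη,
    lin ((4 * s + 1) * R₀) 1 one_pos, BaseCore_inner hJ hc (by linarith), hexp]
    with ε hε h1 h2 h3 h4 h5 u hu
  obtain ⟨hε0, hε1⟩ := hε
  set R := ⌈R₀ / ε + 1⌉₊ with hRdef
  have hRR : R₀ / ε + 1 ≤ R := Nat.le_ceil _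
  have hR1 : 1 ≤ R := by
    have : (1 : ℝ) ≤ R := le_trans (le_add_of_nonneg_left (by positivity)) hRR
    exact_mod_cast this
  have hRε : R * ε ≤ R₀ + 2 := by
    have h6 := Nat.ceil_lt_add_one (show 0 ≤ R₀ / ε + 1 by positivity)
    have h7 : (R : ℝ) * ε ≤ (R₀ / ε + 1 + 1) * ε := mul_le_mul_of_nonneg_right h6.le hε0.le
    have h8 : (R₀ / ε + 1 + 1) * ε = R₀ + 2 * ε := by field_simp; ring
    linarith
  have hεN : ε ^ N ≤ ε := pow_le_of_le_one hε0.le hε1.le (by omega)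
  have hs0' : (4 : ℝ) ≤ s := by exact_mod_cast hs0
  have hB := bonf (box κ R) (arc J ε u) (measurableSet_arc hJ ε u) s
    (fun T _ hT => BaseCore_kappa hJ hR hR0.le hε0 u hR1 (2 * s) T hT)
  have hV1 : ∑ z ∈ box κ R, volume.real (arc J ε u z) ≤ 2 * v :=
    (sum_arc_le hJ hε0 (by nlinarith) u R).trans hW
  have hV2 : v / 2 ≤ ∑ z ∈ box κ R, volume.real (arc J ε u z) :=
    h4.trans (le_sum_arc hJ hR hε0 (by
      have : 2 * R₀ * ε ^ N ≤ (4 * s + 1) * R₀ * ε := by gcongr; linarith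
      linarith) hu hRR)
  set V := ∑ z ∈ box κ R, volume.real (arc J ε u z) with hVdef
  have hκ : (2 * R + 1 : ℝ) ^ (2 * s) * (2 * R₀ * ε ^ N) ≤
      (2 * R₀ + 5) ^ (2 * s) * (2 * R₀ * ε) := by
    obtain ⟨d, hd⟩ : ∃ d, N = 2 * s + 1 + d := ⟨N - (2 * s + 1), by omega⟩
    have h6 : ε ^ d ≤ 1 := pow_le_one₀ hε0.le hε1.le
    have h7 : (2 * R + 1 : ℝ) * ε ≤ 2 * R₀ + 5 := by linarith
    calc _ = ((2 * R + 1 : ℝ) * ε) ^ (2 * s) * (2 * R₀ * ε) * ε ^ d := by
          rw [hd, mul_pow]; ring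
      _ ≤ (2 * R₀ + 5) ^ (2 * s) * (2 * R₀ * ε) * 1 := by gcongr
      _ = _ := mul_one _
  have t1 : Real.exp (-V) ≤ Real.exp (-v / 2) := Real.exp_le_exp.2 (by linarith)
  have t2 : Real.exp (3 * V - 2 * s) ≤ Real.exp (-v / 2) := Real.exp_le_exp.2 (by linarith)
  have t3 : Real.exp V * (Real.exp ((2 * R + 1 : ℝ) ^ (2 * s) * (2 * R₀ * ε ^ N)) - 1) ≤
      Real.exp (-v / 2) := by
    refine le_trans (mul_le_mul (Real.exp_le_exp.2 hV1) (by gcongr) ?_ (Real.exp_pos _).le) h5.le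
    rw [sub_nonneg]
    exact Real.one_le_exp (by positivity)
  have t4 : ∑ j ∈ Finset.range (4 * s + 1), 2 ^ j * occ (box κ R) (arc J ε u) (Adm (j := j)) ≤
      ∑ j ∈ Finset.range (4 * s + 1),
        (4 * (12 * v) ^ (4 * s) * ρ' ^ N + 2 ^ j * A₀ ^ j / M₀) := by
    refine Finset.sum_le_sum fun j hj => ?_
    have hj' : j ≤ 4 * s := Nat.lt_succ_iff.1 (Finset.mem_range.1 hj)
    have hj'' : (j : ℝ) ≤ 4 * s := by exact_mod_cast hj'
    obtain ⟨a, ha⟩ : ∃ a, N = 3 * (j + 1) + 2 + a := ⟨N - (3 * (j + 1) + 2), by omega⟩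
    have h6 := BaseCore_adm hJ hR hR0.le hε0 u hR1 (by positivity) hU' hM₁ ha (η := η)
      (by
        have : (j + 1) * R₀ * ε ^ N ≤ (4 * s + 1) * R₀ * ε := by gcongr
        linarith)
      (by nlinarith) h2.le
    have hW0 : 0 ≤ volume.real (Metric.cthickening η J) := measureReal_nonneg
    set W := volume.real (Metric.cthickening η J) with hWdef
    have a1 : ρ ^ (N + 1) ≤ ρ' ^ N := by
      calc ρ ^ (N + 1) ≤ ρ ^ N := pow_le_pow_of_le_one hρ0.le hρ1.le (by omega)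
        _ ≤ _ := pow_le_pow_left₀ hρ0.le (le_max_left _ _) _
    have a2 : 1 / (2 : ℝ) ^ a ≤ ρ' ^ N := by
      calc 1 / (2 : ℝ) ^ a = (1 / 2) ^ a := by rw [_root_.one_div_pow]
        _ ≤ ((3 / 4) ^ 2) ^ a := pow_le_pow_left₀ (by norm_num) (by norm_num) _
        _ = (3 / 4) ^ (2 * a) := (pow_mul _ _ _).symm
        _ ≤ (3 / 4) ^ N := pow_le_pow_of_le_one (by norm_num) (by norm_num) (by omega)
        _ ≤ _ := pow_le_pow_left₀ (by norm_num) (le_max_right _ _) _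
    have a3 : (12 * v) ^ j ≤ (12 * v) ^ (4 * s) := pow_le_pow_right₀ (by linarith) hj'
    have a4 : (6 * W) ^ j ≤ (12 * v) ^ (4 * s) :=
      (pow_le_pow_left₀ (by positivity) (by linarith) _).trans a3
    have a5 : (2 * W) ^ j ≤ (12 * v) ^ (4 * s) :=
      (pow_le_pow_left₀ (by positivity) (by linarith) _).trans a3
    have a6 : 2 * R₀ * ((2 * (j + 1) * R + 1) * ε) ^ N ≤ A₀ := by
      rw [hA₀]
      refine mul_le_mul_of_nonneg_left (pow_le_pow_left₀ (by positivity) ?_ _) (by positivity)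
      have : 2 * (j + 1) * (R * ε) ≤ 2 * (4 * s + 1) * (R₀ + 2) := by gcongr
      linarith
    calc _ ≤ 2 ^ j * (3 ^ (j + 1) * (ρ ^ (N + 1) * W ^ j) + W ^ j / 2 ^ a +
          (2 * R₀ * ((2 * (j + 1) * R + 1) * ε) ^ N) ^ j / M₀) :=
          mul_le_mul_of_nonneg_left h6 (by positivity)
      _ = 3 * (6 * W) ^ j * ρ ^ (N + 1) + (2 * W) ^ j * (1 / 2 ^ a) +
          2 ^ j * (2 * R₀ * ((2 * (j + 1) * R + 1) * ε) ^ N) ^ j / M₀ := by
          have a7 : (6 * W) ^ j = 2 ^ j * 3 ^ j * W ^ j := by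
            rw [← mul_pow, ← mul_pow]; congr 1; ring
          rw [a7, mul_pow 2 W]
          generalize (2 * R₀ * ((2 * (j + 1) * R + 1) * ε) ^ N) ^ j = X
          ring
      _ ≤ 3 * (12 * v) ^ (4 * s) * ρ' ^ N + (12 * v) ^ (4 * s) * ρ' ^ N + 2 ^ j * A₀ ^ j / M₀ := by
          gcongr
      _ = _ := by ring
  rw [Finset.sum_add_distrib, Finset.sum_const, Finset.card_range, nsmul_eq_mul,
    ← Finset.sum_div] at t4
  have t5 := BaseCore_num hρ'0 hv1 hs2 hlog hv2 hv3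
  have t6 : (∑ j ∈ Finset.range (4 * s + 1), 2 ^ j * A₀ ^ j) / M₀ ≤ Real.exp (-v / 2) / 2 := by
    rw [div_lt_iff₀ (Real.exp_pos _)] at hM₀
    rw [div_le_iff₀ hM₀']
    linarith
  have hsub : {ω : TT (Option κ) | ∀ w : κ → ℤ, ev (lab w) ω ∉ arc J ε u (lab w)} ⊆
      {ω | ∀ z ∈ box κ R, ev z ω ∉ arc J ε u z} := fun ω hω z hz => by
    obtain ⟨w, -, rfl⟩ := Finset.mem_image.1 hz
    exact hω w
  exact (measureReal_mono hsub).trans (hB.trans (by linarith))

end Crest.Agent.R225
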