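import Crest.Agent.R225.Hash

/-!
# Row 225: Bern
Product Bernoulli measures with varying parameters: Harris inequality (`fkg` in `Mathlib/Combinatorics/SetFamily/FourFunctions.lean`
on the lattice `ι → Bool`; `bw p` is log-modular), resampling (the involution swapping the coordinates in `W` of two samples preserves
`bw p σ * bw p ω`), and the Janson-type inequality `janson`.

`Pb_add_le`: `E = {∀ x ∈ R not cut by τ, Hit (C x)}`; `E ∧ ⋀ q ∈ τ, Hit (S q)` implies `All R C'`; Harris.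
-/

set_option autoImplicit false

open MeasureTheory ProbabilityTheory Matrix Filter Topology
open scoped ENNReal RealInnerProductSpace

noncomputable section

namespace Crest.Agent.R225

variable {ι : Type} [Fintype ι] [DecidableEq ι] {p : ι → ℝ} {A B : (ι → Bool) → Prop}

theorem Pb_nonneg (hp : ∀ i, p i ∈ Set.Icc (0 : ℝ) 1) (A : (ι → Bool) → Prop) : 0 ≤ Pb p A := by
  unfold Pb
  refine Finset.sum_nonneg fun ω _ => ?_
  split_ifs
  · exact bw_nonneg hp ω
  · exact le_rfl

theorem Pb_mono (hp : ∀ i, p i ∈ Set.Icc (0 : ℝ) 1) (h : ∀ ω, A ω → B ω) : Pb p A ≤ Pb p B := by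
  unfold Pb
  refine Finset.sum_le_sum fun ω _ => ?_
  by_cases hA : A ω
  · simp [hA, h ω hA]
  · simp only [hA, if_false]
    split_ifs
    · exact bw_nonneg hp ω
    · exact le_rfl

theorem Pb_true (p : ι → ℝ) : Pb p (fun _ => True) = 1 := by
  unfold Pb
  simpa using sum_bw p

theorem Pb_le_one (hp : ∀ i, p i ∈ Set.Icc (0 : ℝ) 1) (A : (ι → Bool) → Prop) : Pb p A ≤ 1 := by
  rw [← Pb_true p]
  exact Pb_mono hp fun _ _ => trivial

theorem Pb_not (p : ι → ℝ) (A : (ι → Bool) → Prop) : Pb p (fun ω => ¬A ω) = 1 - Pb p A := by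
  rw [← sum_bw p]
  unfold Pb
  rw [← Finset.sum_sub_distrib]
  refine Finset.sum_congr rfl fun ω _ => ?_
  by_cases hA : A ω <;> simp [hA]

theorem Bern_Pb_congr (p : ι → ℝ) (h : ∀ ω, A ω ↔ B ω) : Pb p A = Pb p B := by
  have : A = B := funext fun ω => propext (h ω)
  rw [this]

theorem Bern_Pb_or_le (hp : ∀ i, p i ∈ Set.Icc (0 : ℝ) 1) (A B : (ι → Bool) → Prop) :
    Pb p (fun ω => A ω ∨ B ω) ≤ Pb p A + Pb p B := by
  unfold Pb
  rw [← Finset.sum_add_distrib]
  refine Finset.sum_le_sum fun ω _ => ?_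
  have := bw_nonneg hp ω
  by_cases hA : A ω <;> by_cases hB : B ω <;> simp [hA, hB, this]

theorem Bern_Pb_false (p : ι → ℝ) : Pb p (fun _ => False) = 0 := by
  unfold Pb
  simp

theorem Pb_exists_le (hp : ∀ i, p i ∈ Set.Icc (0 : ℝ) 1) {X : Type} (s : Finset X)
    (A : X → (ι → Bool) → Prop) : Pb p (fun ω => ∃ x ∈ s, A x ω) ≤ ∑ x ∈ s, Pb p (A x) := by
  classical
  induction s using Finset.induction_on with
  | empty =>
    rw [Finset.sum_empty, ← Bern_Pb_false p]
    exact Pb_mono hp fun ω h => by simp at h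
  | insert a s ha ih =>
    rw [Finset.sum_insert ha]
    calc Pb p (fun ω => ∃ x ∈ insert a s, A x ω)
        = Pb p (fun ω => A a ω ∨ ∃ x ∈ s, A x ω) := Bern_Pb_congr p fun ω => by simp
      _ ≤ Pb p (A a) + Pb p (fun ω => ∃ x ∈ s, A x ω) := Bern_Pb_or_le hp _ _
      _ ≤ _ := by gcongr

theorem exists_of_Pb_lt (hp : ∀ i, p i ∈ Set.Icc (0 : ℝ) 1) (h : Pb p B < Pb p A) :
    ∃ ω, A ω ∧ ¬B ω := by
  by_contra hne
  push Not at hne
  exact absurd (Pb_mono hp hne) (not_le.mpr h)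

theorem Pb_not_hit (p : ι → ℝ) (C : Finset ι) : Pb p (fun ω => ¬Hit C ω) = ∏ q ∈ C, (1 - p q) := by
  classical
  have h1 : ∀ ω : ι → Bool, (if ¬Hit C ω then bw p ω else 0) =
      ∏ i, (if ω i then (if i ∈ C then 0 else p i) else 1 - p i) := by
    intro ω
    by_cases h : Hit C ω
    · obtain ⟨q, hq, hω⟩ := h
      have hh : Hit C ω := ⟨q, hq, hω⟩
      simp only [hh, not_true_eq_false, if_false]
      exact (Finset.prod_eq_zero (Finset.mem_univ q) (by simp [hω, hq])).symm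
    · simp only [h, not_false_eq_true, if_true]
      unfold bw
      refine Finset.prod_congr rfl fun i _ => ?_
      by_cases hω : ω i = true
      · have : i ∉ C := fun hi => h ⟨i, hi, hω⟩
        simp [hω, this]
      · simp [hω]
  have h2 : Pb p (fun ω => ¬Hit C ω) =
      ∑ ω : ι → Bool, ∏ i, (if ω i then (if i ∈ C then 0 else p i) else 1 - p i) := by
    unfold Pb
    refine Finset.sum_congr rfl fun ω _ => ?_
    rw [← h1 ω]
    congr
  rw [h2]
  have h3 := Finset.prod_univ_sum (fun _ : ι => (Finset.univ : Finset Bool))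
    (fun i b => if b = true then (if i ∈ C then (0 : ℝ) else p i) else 1 - p i)
  rw [Fintype.piFinset_univ] at h3
  rw [← h3]
  have h4 : ∀ i : ι, (∑ b : Bool, if b = true then (if i ∈ C then (0 : ℝ) else p i) else 1 - p i) =
      if i ∈ C then 1 - p i else 1 := by
    intro i
    by_cases hi : i ∈ C <;> simp [hi]
  simp only [h4]
  rw [Finset.prod_ite_mem]
  simp

theorem Pb_hit (p : ι → ℝ) (C : Finset ι) : Pb p (Hit C) = 1 - ∏ q ∈ C, (1 - p q) := by
  rw [← Pb_not_hit, Pb_not]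
  ring

theorem up_hit (C : Finset ι) : Up (Hit C) := by
  rintro ω ω' h ⟨q, hq, hω⟩
  exact ⟨q, hq, h q hω⟩

theorem up_all {X : Type} (R : Finset X) (C : X → Finset ι) : Up (All R C) := by
  intro ω ω' h hA x hx
  exact up_hit (C x) ω ω' h (hA x hx)

omit [DecidableEq ι] in
theorem Bern_bw_mul (p : ι → ℝ) (a b : ι → Bool) :
    bw p a * bw p b = bw p (a ⊓ b) * bw p (a ⊔ b) := by
  unfold bw
  rw [← Finset.prod_mul_distrib, ← Finset.prod_mul_distrib]
  refine Finset.prod_congr rfl fun i _ => ?_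
  have key : ∀ x y : Bool, (if x = true then p i else 1 - p i) * (if y = true then p i else 1 - p i) =
      (if x ⊓ y = true then p i else 1 - p i) * (if x ⊔ y = true then p i else 1 - p i) := by
    intro x y
    cases x <;> cases y <;> simp [mul_comm]
  exact key (a i) (b i)

theorem harris (hp : ∀ i, p i ∈ Set.Icc (0 : ℝ) 1) (hA : Up A) (hB : Up B) :
    Pb p A * Pb p B ≤ Pb p fun ω => A ω ∧ B ω := by
  classical
  have hmono : ∀ {D : (ι → Bool) → Prop}, Up D →
      Monotone fun ω : ι → Bool => if D ω then (1 : ℝ) else 0 := by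
    intro D hD ω ω' hle
    by_cases h : D ω
    · have : D ω' := hD ω ω' (fun i hi => by
        have := hle i
        rw [hi] at this
        exact top_le_iff.mp this) h
      simp [h, this]
    · simp only [h, if_false]
      split_ifs <;> norm_num
  have hnn : ∀ D : (ι → Bool) → Prop, (0 : (ι → Bool) → ℝ) ≤ fun ω => if D ω then (1 : ℝ) else 0 := by
    intro D ω
    simp only [Pi.zero_apply]
    split_ifs <;> norm_num
  have key := fkg (μ := bw p) (f := fun ω : ι → Bool => if A ω then (1 : ℝ) else 0)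
    (g := fun ω : ι → Bool => if B ω then (1 : ℝ) else 0) (fun ω => bw_nonneg hp ω) (hnn A) (hnn B)
    (hmono hA) (hmono hB) (fun a b => (Bern_bw_mul p a b).le)
  rw [sum_bw, one_mul] at key
  have e1 : ∀ D : (ι → Bool) → Prop, Pb p D = ∑ ω, bw p ω * if D ω then (1 : ℝ) else 0 := by
    intro D
    unfold Pb
    refine Finset.sum_congr rfl fun ω _ => ?_
    by_cases h : D ω <;> simp [h]
  rw [e1 A, e1 B, e1]
  refine key.trans (le_of_eq (Finset.sum_congr rfl fun ω _ => ?_))
  by_cases h : A ω <;> by_cases h' : B ω <;> simp [h, h']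

theorem prod_le_all (hp : ∀ i, p i ∈ Set.Icc (0 : ℝ) 1) {X : Type} (R : Finset X) (C : X → Finset ι) :
    ∏ x ∈ R, Pb p (Hit (C x)) ≤ Pb p (All R C) := by
  classical
  induction R using Finset.induction_on with
  | empty =>
    rw [Finset.prod_empty, ← Pb_true p]
    exact Pb_mono hp fun ω _ x hx => by simp at hx
  | insert a s ha ih =>
    rw [Finset.prod_insert ha]
    calc Pb p (Hit (C a)) * ∏ x ∈ s, Pb p (Hit (C x)) ≤ Pb p (Hit (C a)) * Pb p (All s C) :=
          mul_le_mul_of_nonneg_left ih (Pb_nonneg hp _)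
      _ ≤ Pb p fun ω => Hit (C a) ω ∧ All s C ω := harris hp (up_hit _) (up_all _ _)
      _ ≤ _ := Pb_mono hp fun ω h x hx => by
          rcases Finset.mem_insert.mp hx with rfl | hx
          · exact h.1
          · exact h.2 x hx

/-- reverse Markov inequality -/
theorem Pb_ge_of_mean (hp : ∀ i, p i ∈ Set.Icc (0 : ℝ) 1) (f : (ι → Bool) → ℝ) {a b : ℝ} (hb : 0 < b)
    (ha0 : 0 ≤ a) (hf : ∀ ω, f ω ≤ b) (ha : a ≤ ∑ ω, bw p ω * f ω) :
    a / (2 * b) ≤ Pb p fun ω => a / 2 ≤ f ω := by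
  classical
  have h1 : ∑ ω, bw p ω * f ω ≤ a / 2 + b * Pb p fun ω => a / 2 ≤ f ω := by
    have e : a / 2 = ∑ ω, bw p ω * (a / 2) := by rw [← Finset.sum_mul, sum_bw, one_mul]
    unfold Pb
    rw [Finset.mul_sum]
    conv_rhs => rw [e]
    rw [← Finset.sum_add_distrib]
    refine Finset.sum_le_sum fun ω _ => ?_
    have hw := bw_nonneg hp ω
    rw [← e]
    by_cases h : a / 2 ≤ f ω
    · simp only [h, if_true]
      nlinarith [mul_le_mul_of_nonneg_left (hf ω) hw, mul_nonneg hw ha0]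
    · simp only [h, if_false]
      push Not at h
      nlinarith [mul_le_mul_of_nonneg_left h.le hw]
  rw [div_le_iff₀ (by positivity)]
  nlinarith

/-- adding the points of `τ` for free costs at most `B` per point -/
theorem Pb_add_le (hp : ∀ i, p i ∈ Set.Icc (0 : ℝ) 1) {X : Type} (R : Finset X) (C C' : X → Finset ι)
    {Bd : ℝ} (hB : 1 ≤ Bd) (hCC' : ∀ x ∈ R, C x ⊆ C' x) (τ : Finset ι)
    (hS : ∀ q ∈ τ, ∃ S : Finset ι, (∀ x ∈ R, q ∈ C x → S ⊆ C' x) ∧ 1 ≤ Bd * Pb p (Hit S)) :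
    Pb p (fun ω => All R C fun i => ω i || decide (i ∈ τ)) ≤ Bd ^ τ.card * Pb p (All R C') := by
  classical
  choose! S hS1 hS2 using hS
  set R' := R.filter fun x => Disjoint (C x) τ with hR'
  have h1 : Pb p (fun ω => All R C fun i => ω i || decide (i ∈ τ)) ≤ Pb p (All R' C) := by
    refine Pb_mono hp fun ω h x hx => ?_
    obtain ⟨hxR, hd⟩ := Finset.mem_filter.mp hx
    obtain ⟨q, hq, hω⟩ := h x hxR
    refine ⟨q, hq, ?_⟩
    have : q ∉ τ := Finset.disjoint_left.mp hd hq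
    simpa [this] using hω
  have h2 : Pb p (All R' C) * Pb p (All τ S) ≤ Pb p (All R C') := by
    refine (harris hp (up_all _ _) (up_all _ _)).trans (Pb_mono hp fun ω h x hx => ?_)
    by_cases hd : Disjoint (C x) τ
    · obtain ⟨q, hq, hω⟩ := h.1 x (Finset.mem_filter.mpr ⟨hx, hd⟩)
      exact ⟨q, hCC' x hx hq, hω⟩
    · obtain ⟨q, hq, hqτ⟩ := Finset.not_disjoint_iff.mp hd
      obtain ⟨r, hr, hω⟩ := h.2 q hqτ
      exact ⟨r, hS1 q hqτ x hx hq hr, hω⟩
  have h3 : 1 ≤ Bd ^ τ.card * Pb p (All τ S) := by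
    calc (1 : ℝ) = ∏ _q ∈ τ, (1 : ℝ) := by simp
      _ ≤ ∏ q ∈ τ, (Bd * Pb p (Hit (S q))) :=
          Finset.prod_le_prod (fun _ _ => zero_le_one) fun q hq => hS2 q hq
      _ = Bd ^ τ.card * ∏ q ∈ τ, Pb p (Hit (S q)) := by
          rw [Finset.prod_mul_distrib, Finset.prod_const]
      _ ≤ _ := mul_le_mul_of_nonneg_left (prod_le_all hp τ S) (by positivity)
  have h0 := Pb_nonneg hp (All R' C)
  have hB0 : 0 ≤ Bd ^ τ.card := by positivity
  calc _ ≤ Pb p (All R' C) := h1
    _ ≤ Pb p (All R' C) * (Bd ^ τ.card * Pb p (All τ S)) := le_mul_of_one_le_right h0 h3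
    _ = Bd ^ τ.card * (Pb p (All R' C) * Pb p (All τ S)) := by ring
    _ ≤ _ := mul_le_mul_of_nonneg_left h2 hB0

end Crest.Agent.R225
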