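import Crest.Agent.R225.Hash

/-!
# Row 225: Typ
`exists_typical`.  Let `c = ∫ l ψ`, `ν = (l ψ / c) vol` (a probability measure on the circle, `withDensity`), `X = - log ψ`,
`H = D * E_ν X`.  `E_ν X² ≤ 20 / c ≤ 40`, so `|E_ν X| ≤ 7` and, under `Measure.pi fun _ => ν`, Chebyshev with
`variance_sum_pi` gives `P(|∑ X - H| > Δ) ≤ 40 D / Δ²`.  By `sum_piH_sq` and `integral_fintype_prod_eq_prod`, for some `a`
`E ∑ s, (piH a P s - 1/|G|)² ≤ (1 - h₀)^D ≤ exp (-h₀ D)`; Markov at level `(ε/|G|)²`.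
`∫_R ∏ l ψ = c^D ν^D(R)`.

`exists_surv`: pointwise `surv ≥ ∑ j, om j Ψ1_R (t - j a) - ∑ j, ∑ j' ≠ j, om j Ψ1_R (t - j a) 1_R (t - j' a)`; integrate in
`t` (translation invariance) and in `a` (`a ↦ (j - j') • a` is measure preserving, `Measure.measurePreserving_zsmul`);
pick `a` above the mean (`exists_integral_le`), then `o` above the mean of `o ↦ ∑ g, surv (o + c g)`.
-/

set_option autoImplicit false

open MeasureTheory ProbabilityTheory Matrix Filter Topology
open scoped ENNReal RealInnerProductSpace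

noncomputable section

namespace Crest.Agent.R225

theorem Typ_wd_apply {E : Type} [MeasurableSpace E] {m : Measure E} {f : E → ℝ}
    (hf : Integrable f m) (h0 : ∀ x, 0 ≤ f x) {s : Set E} (hs : MeasurableSet s) :
    m.withDensity (fun x => ENNReal.ofReal (f x)) s = ENNReal.ofReal (∫ x in s, f x ∂m) := by
  rw [withDensity_apply _ hs, ofReal_integral_eq_lintegral_ofReal hf.integrableOn (ae_of_all _ h0)]

theorem Typ_pi_wd {κ E : Type} [Fintype κ] [MeasurableSpace E] {m : Measure E} [SigmaFinite m]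
    {f : E → ℝ} (hf : Integrable f m) (h0 : ∀ x, 0 ≤ f x) :
    Measure.pi (fun _ : κ => m.withDensity fun x => ENNReal.ofReal (f x)) =
      (Measure.pi fun _ : κ => m).withDensity fun t => ENNReal.ofReal (∏ i, f (t i)) := by
  have := isFiniteMeasure_withDensity_ofReal hf.2
  refine Measure.pi_eq fun s hs => ?_
  rw [Typ_wd_apply (Integrable.fintype_prod (f := fun _ => f) fun _ => hf)
    (fun t => Finset.prod_nonneg fun i _ => h0 _) (MeasurableSet.univ_pi hs),
    Measure.restrict_pi_pi, integral_fintype_prod_eq_prod (fun _ : κ => f),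
    ENNReal.ofReal_prod_of_nonneg fun i _ => integral_nonneg h0]
  exact Finset.prod_congr rfl fun i _ => (Typ_wd_apply hf h0 (hs i)).symm

theorem Typ_wd_integral {E : Type} [MeasurableSpace E] {m : Measure E} {f : E → ℝ}
    (hf : Measurable f) (h0 : ∀ x, 0 ≤ f x) (g : E → ℝ) :
    ∫ x, g x ∂(m.withDensity fun x => ENNReal.ofReal (f x)) = ∫ x, f x * g x ∂m := by
  rw [integral_withDensity_eq_integral_toReal_smul hf.ennreal_ofReal
    (ae_of_all _ fun _ => ENNReal.ofReal_lt_top)]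
  exact integral_congr_ae (ae_of_all _ fun x => by simp [ENNReal.toReal_ofReal (h0 x)])

theorem Typ_wd_integrable {E : Type} [MeasurableSpace E] {m : Measure E} {f : E → ℝ}
    (hf : Measurable f) (h0 : ∀ x, 0 ≤ f x) {g : E → ℝ} (hg : Integrable (fun x => f x * g x) m) :
    Integrable g (m.withDensity fun x => ENNReal.ofReal (f x)) := by
  rw [integrable_withDensity_iff_integrable_smul' hf.ennreal_ofReal
    (ae_of_all _ fun _ => ENNReal.ofReal_lt_top)]
  exact hg.congr (ae_of_all _ fun x => by simp [ENNReal.toReal_ofReal (h0 x)])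

theorem Typ_integrable {E : Type} [MeasurableSpace E] {m : Measure E} [IsFiniteMeasure m]
    {f : E → ℝ} (hf : Measurable f) {B : ℝ} (h0 : ∀ x, 0 ≤ f x) (h1 : ∀ x, f x ≤ B) :
    Integrable f m :=
  Integrable.of_bound hf.aestronglyMeasurable B (ae_of_all _ fun x => by
    rw [Real.norm_eq_abs, abs_of_nonneg (h0 x)]; exact h1 x)

theorem Typ_measurable_piH {κ G : Type} [Fintype κ] [DecidableEq κ] [AddCommGroup G]
    [DecidableEq G] {P : UnitAddCircle → ℝ} (hPm : Measurable P) (a : κ → G) (s : G) :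
    Measurable fun t : TT κ => piH a (fun i => P (t i)) s := by
  unfold piH bw
  refine Finset.measurable_sum _ fun e _ => ?_
  split_ifs
  · refine Finset.measurable_prod _ fun i _ => ?_
    split_ifs
    · exact hPm.comp (measurable_pi_apply i)
    · exact measurable_const.sub (hPm.comp (measurable_pi_apply i))
  · exact measurable_const

/-- the hash part: a good `a` for a product probability measure -/
theorem Typ_hash {κ G : Type} [Fintype κ] [DecidableEq κ] [AddCommGroup G] [Fintype G]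
    [DecidableEq G] (ν : Measure UnitAddCircle) [IsProbabilityMeasure ν] (P : UnitAddCircle → ℝ)
    (hPm : Measurable P) (hP : ∀ t, P t ∈ Set.Icc (0 : ℝ) 1) {h₀ ε : ℝ}
    (hh : h₀ ≤ ∫ t, 2 * P t * (1 - P t) ∂ν) (hε : 0 < ε) :
    ∃ (a : κ → G) (R : Set (TT κ)), MeasurableSet R ∧
      (∀ t ∉ R, ∀ s, |Fintype.card G * piH a (fun i => P (t i)) s - 1| ≤ ε) ∧
      (Measure.pi fun _ : κ => ν).real R ≤
        (Fintype.card G : ℝ) ^ 2 * Real.exp (-(h₀ * Fintype.card κ)) / ε ^ 2 := by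
  set μ := Measure.pi fun _ : κ => ν with hμ
  set F : (κ → G) → TT κ → ℝ :=
    fun a t => ∑ s, (piH a (fun i => P (t i)) s - 1 / Fintype.card G) ^ 2 with hF
  have hG : (0 : ℝ) < Fintype.card G := Nat.cast_pos.2 Fintype.card_pos
  have hFm : ∀ a, Measurable (F a) := fun a =>
    Finset.measurable_sum _ fun s _ => ((Typ_measurable_piH hPm a s).sub_const _).pow_const 2
  have hF0 : ∀ a t, 0 ≤ F a t := fun a t => Finset.sum_nonneg fun s _ => sq_nonneg _
  have hq0 : ∀ t, 0 ≤ 2 * P t * (1 - P t) := fun t =>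
    mul_nonneg (mul_nonneg zero_le_two (hP t).1) (sub_nonneg.2 (hP t).2)
  have hq1 : ∀ t, 2 * P t * (1 - P t) ≤ 1 := fun t => by nlinarith [sq_nonneg (2 * P t - 1)]
  have hqm : Measurable fun t => 2 * P t * (1 - P t) := by fun_prop
  have hqi : Integrable (fun t => 2 * P t * (1 - P t)) ν := Typ_integrable hqm hq0 hq1
  have hqi' : Integrable (fun t => 1 - 2 * P t * (1 - P t)) ν := (integrable_const _).sub hqi
  have hsum : ∀ t, ∑ a, F a t ≤
      (Fintype.card G : ℝ) ^ Fintype.card κ * ∏ i, (1 - 2 * P (t i) * (1 - P (t i))) :=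
    fun t => sum_piH_sq _ fun i => hP (t i)
  have hFi : ∀ a, Integrable (F a) μ := fun a =>
    Typ_integrable (hFm a) (B := (Fintype.card G : ℝ) ^ Fintype.card κ) (hF0 a) fun t => by
      refine (Finset.single_le_sum (f := fun a => F a t) (fun a _ => hF0 a t)
        (Finset.mem_univ a)).trans ((hsum t).trans ?_)
      refine mul_le_of_le_one_right (by positivity) ?_
      exact Finset.prod_le_one (fun i _ => sub_nonneg.2 (hq1 _)) fun i _ => by
        linarith [hq0 (t i)]
  have h1 : ∫ t, (1 - 2 * P t * (1 - P t)) ∂ν ≤ Real.exp (-h₀) := by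
    rw [integral_sub (integrable_const _) hqi]
    have := Real.add_one_le_exp (-h₀)
    simp only [integral_const, probReal_univ, smul_eq_mul, mul_one]
    linarith
  have h2 : ∑ a, ∫ t, F a t ∂μ ≤
      ∑ _a : κ → G, Real.exp (-(h₀ * Fintype.card κ)) := by
    rw [← integral_finsetSum _ fun a _ => hFi a]
    refine (integral_mono (integrable_finsetSum _ fun a _ => hFi a)
      ((Integrable.fintype_prod (f := fun _ t => 1 - 2 * P t * (1 - P t))
        fun _ => hqi').const_mul _) hsum).trans ?_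
    rw [integral_const_mul, integral_fintype_prod_eq_pow (fun t => 1 - 2 * P t * (1 - P t)),
      Finset.sum_const, Finset.card_univ, Fintype.card_fun, nsmul_eq_mul, Nat.cast_pow]
    refine mul_le_mul_of_nonneg_left ?_ (by positivity)
    rw [← neg_mul, mul_comm, Real.exp_nat_mul]
    exact pow_le_pow_left₀ (integral_nonneg fun t => sub_nonneg.2 (hq1 t)) h1 _
  obtain ⟨a, -, ha⟩ := Finset.exists_le_of_sum_le Finset.univ_nonempty h2
  refine ⟨a, {t | (ε / Fintype.card G) ^ 2 ≤ F a t}, measurableSet_le measurable_const (hFm a),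
    fun t ht s => ?_, ?_⟩
  · have h3 : (piH a (fun i => P (t i)) s - 1 / Fintype.card G) ^ 2 ≤ F a t :=
      Finset.single_le_sum
        (f := fun s => (piH a (fun i => P (t i)) s - 1 / (Fintype.card G : ℝ)) ^ 2)
        (fun s _ => sq_nonneg _) (Finset.mem_univ s)
    have h4 : F a t < (ε / Fintype.card G) ^ 2 := not_le.1 ht
    have h5 : |piH a (fun i => P (t i)) s - 1 / Fintype.card G| ≤ ε / Fintype.card G :=
      abs_le_of_sq_le_sq' (h3.trans h4.le) (by positivity) |> abs_le.2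
    have h6 : Fintype.card G * piH a (fun i => P (t i)) s - 1 =
        Fintype.card G * (piH a (fun i => P (t i)) s - 1 / Fintype.card G) := by
      field_simp
    rw [h6, abs_mul, abs_of_pos hG]
    rwa [le_div_iff₀' hG] at h5
  · have h3 := (mul_meas_ge_le_integral_of_nonneg (ae_of_all _ (hF0 a)) (hFi a)
      ((ε / Fintype.card G) ^ 2)).trans ha
    rw [le_div_iff₀ (by positivity)]
    generalize μ.real {t | (ε / Fintype.card G) ^ 2 ≤ F a t} = r at h3 ⊢
    rw [div_pow, div_mul_eq_mul_div, div_le_iff₀ (by positivity)] at h3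
    linarith

/-- the entropy part -/
theorem Typ_cheb {κ : Type} [Fintype κ] (ν : Measure UnitAddCircle) [IsProbabilityMeasure ν]
    (X : UnitAddCircle → ℝ) (hXm : Measurable X) (hXi : Integrable (fun t => X t ^ 2) ν)
    (hX : ∫ t, X t ^ 2 ∂ν ≤ 40) {Δ : ℝ} (hΔ : 0 < Δ) :
    ∃ (H : ℝ) (R : Set (TT κ)), H ≤ 7 * Fintype.card κ ∧ MeasurableSet R ∧
      (∀ t ∉ R, |∑ i, X (t i) - H| ≤ Δ) ∧
      (Measure.pi fun _ : κ => ν).real R ≤ 40 * Fintype.card κ / Δ ^ 2 := by
  set μ := Measure.pi fun _ : κ => ν with hμ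
  have hL : MemLp X 2 ν := (memLp_two_iff_integrable_sq hXm.aestronglyMeasurable).2 hXi
  have hv : Var[X; ν] ≤ 40 := (variance_le_expectation_sq hXm.aestronglyMeasurable).trans hX
  have hm : ∫ t, X t ∂ν ≤ 7 := by
    have h1 := variance_nonneg X ν
    rw [variance_eq_sub hL] at h1
    have h2 : ν[X ^ 2] ≤ 40 := hX
    nlinarith
  have hmp : ∀ i : κ, MeasurePreserving (fun t : TT κ => t i) μ ν := fun i =>
    measurePreserving_eval (fun _ : κ => ν) i
  have hLi : ∀ i : κ, MemLp (fun t : TT κ => X (t i)) 2 μ := fun i =>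
    hL.comp_measurePreserving (hmp i)
  set S : TT κ → ℝ := ∑ i, fun t => X (t i) with hS
  have hS' : ∀ t, S t = ∑ i, X (t i) := fun t => by simp [hS]
  have hSL : MemLp S 2 μ := memLp_finsetSum' _ fun i _ => hLi i
  have hSm : Measurable S := by
    rw [show S = fun t => ∑ i, X (t i) from funext hS']
    exact Finset.measurable_sum _ fun i _ => hXm.comp (measurable_pi_apply i)
  have hSv : Var[S; μ] ≤ 40 * Fintype.card κ := by
    rw [hS, hμ, variance_sum_pi (X := fun _ => X) fun _ => hL, Finset.sum_const, Finset.card_univ,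
      nsmul_eq_mul, mul_comm]
    exact mul_le_mul_of_nonneg_right hv (Nat.cast_nonneg _)
  have hSe : ∫ t, S t ∂μ ≤ 7 * (Fintype.card κ : ℝ) := by
    simp only [hS']
    rw [integral_finsetSum _ fun i _ => (hLi i).integrable one_le_two]
    have h1 : ∀ i : κ, ∫ t : TT κ, X (t i) ∂μ = ∫ t, X t ∂ν := fun i => by
      rw [← (hmp i).map_eq, integral_map (hmp i).measurable.aemeasurable
        hXm.aestronglyMeasurable]
    simp only [h1]
    rw [Finset.sum_const, Finset.card_univ, nsmul_eq_mul, mul_comm]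
    exact mul_le_mul_of_nonneg_right hm (Nat.cast_nonneg _)
  refine ⟨∫ t, S t ∂μ, {t | Δ ≤ |S t - ∫ t, S t ∂μ|}, hSe,
    measurableSet_le measurable_const (hSm.sub_const _).abs, fun t ht => ?_, ?_⟩
  · rw [← hS']
    exact (not_le.1 ht).le
  · refine ENNReal.toReal_le_of_le_ofReal (by positivity)
      ((meas_ge_le_variance_div_sq hSL hΔ).trans (ENNReal.ofReal_le_ofReal ?_))
    exact div_le_div_of_nonneg_right hSv (by positivity)

theorem exists_typical {κ G : Type} [Fintype κ] [DecidableEq κ] [AddCommGroup G] [Fintype G]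
    [DecidableEq G] (ψ P : UnitAddCircle → ℝ) (hψm : Measurable ψ) (hPm : Measurable P)
    (hψ0 : ∀ t, 0 < ψ t) (hψ1 : ∀ t, ψ t ≤ 1) (hP : ∀ t, P t ∈ Set.Icc (0 : ℝ) 1) {l h₀ Δ ε : ℝ}
    (hl : 0 < l) (hc : 1 / 2 ≤ ∫ t, l * ψ t) (hc1 : ∫ t, l * ψ t ≤ 1)
    (hi : Integrable fun t => l * ψ t * Real.log (ψ t) ^ 2)
    (hlog : ∫ t, l * ψ t * Real.log (ψ t) ^ 2 ≤ 20) (hh0 : 0 ≤ h₀)
    (hh : h₀ ≤ ∫ t, l * ψ t * (2 * P t * (1 - P t))) (hΔ : 0 < Δ) (hε : 0 < ε) :
    ∃ (H : ℝ) (a : κ → G) (R : Set (TT κ)), H ≤ 7 * Fintype.card κ ∧ MeasurableSet R ∧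
      (∀ t ∈ R, Real.exp (-H - Δ) ≤ ∏ i, ψ (t i) ∧ ∏ i, ψ (t i) ≤ Real.exp (-H + Δ) ∧
        ∀ s, |Fintype.card G * piH a (fun i => P (t i)) s - 1| ≤ ε) ∧
      (∫ t, l * ψ t) ^ Fintype.card κ * (1 - 40 * Fintype.card κ / Δ ^ 2 -
          (Fintype.card G : ℝ) ^ 2 * Real.exp (-(h₀ * Fintype.card κ)) / ε ^ 2) ≤
        ∫ t in R, ∏ i, l * ψ (t i) := by
  set c := ∫ t, l * ψ t with hcdef
  have hc0 : 0 < c := by linarith
  set ρ : UnitAddCircle → ℝ := fun t => c⁻¹ * (l * ψ t) with hρ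
  have hρm : Measurable ρ := by rw [hρ]; fun_prop
  have hlψ0 : ∀ t, 0 ≤ l * ψ t := fun t => (mul_pos hl (hψ0 t)).le
  have hρ0 : ∀ t, 0 ≤ ρ t := fun t => mul_nonneg (inv_pos.2 hc0).le (hlψ0 t)
  have hlψi : Integrable fun t => l * ψ t :=
    Typ_integrable (by fun_prop) (B := l) hlψ0 fun t => mul_le_of_le_one_right hl.le (hψ1 t)
  have hρi : Integrable ρ := hlψi.const_mul _
  set ν : Measure UnitAddCircle := volume.withDensity fun t => ENNReal.ofReal (ρ t) with hν
  have : IsProbabilityMeasure ν := ⟨by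
    rw [hν, Typ_wd_apply hρi hρ0 MeasurableSet.univ, Measure.restrict_univ, hρ,
      integral_const_mul, ← hcdef, inv_mul_cancel₀ hc0.ne', ENNReal.ofReal_one]⟩
  have hνi : ∀ g : UnitAddCircle → ℝ, ∫ t, g t ∂ν = c⁻¹ * ∫ t, l * ψ t * g t := fun g => by
    rw [hν, Typ_wd_integral hρm hρ0, ← integral_const_mul]
    exact integral_congr_ae (ae_of_all _ fun t => by simp only [hρ]; ring)
  have hci1 : 1 ≤ c⁻¹ := (one_le_inv₀ hc0).2 hc1
  have hci2 : c⁻¹ ≤ 2 := by rw [inv_le_comm₀ hc0 two_pos]; linarith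
  obtain ⟨a, R₂, hR₂m, hR₂, hR₂μ⟩ := Typ_hash (κ := κ) (G := G) ν P hPm hP (h₀ := h₀) (by
    rw [hνi]
    exact hh.trans (le_mul_of_one_le_left (hh0.trans hh) hci1)) hε
  obtain ⟨H, R₁, hH, hR₁m, hR₁, hR₁μ⟩ := Typ_cheb (κ := κ) ν (fun t => -Real.log (ψ t))
    (Real.measurable_log.comp hψm).neg
    (Typ_wd_integrable hρm hρ0 ((hi.const_mul c⁻¹).congr
      (ae_of_all _ fun t => by simp only [hρ]; ring)))
    (by
      rw [hνi]
      simp only [neg_sq]
      have h1 : 0 ≤ ∫ t, l * ψ t * Real.log (ψ t) ^ 2 :=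
        integral_nonneg fun t => mul_nonneg (hlψ0 t) (sq_nonneg _)
      nlinarith) hΔ
  have hRm : MeasurableSet (R₁ ∪ R₂)ᶜ := (hR₁m.union hR₂m).compl
  refine ⟨H, a, (R₁ ∪ R₂)ᶜ, hH, hRm, fun t ht => ?_, ?_⟩
  · have h1 := abs_le.1 (hR₁ t fun h => ht (Or.inl h))
    have h2 : ∏ i, ψ (t i) = Real.exp (-∑ i, -Real.log (ψ (t i))) := by
      rw [Finset.sum_neg_distrib, neg_neg, Real.exp_sum]
      exact Finset.prod_congr rfl fun i _ => (Real.exp_log (hψ0 _)).symm
    rw [h2]
    exact ⟨Real.exp_le_exp.2 (by linarith [h1.2]), Real.exp_le_exp.2 (by linarith [h1.1]),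
      hR₂ t fun h => ht (Or.inr h)⟩
  · have h1 : (Measure.pi fun _ : κ => ν).real (R₁ ∪ R₂)ᶜ =
        ∫ t in (R₁ ∪ R₂)ᶜ, ∏ i, ρ (t i) := by
      rw [hν, Typ_pi_wd hρi hρ0, measureReal_def,
        Typ_wd_apply (Integrable.fintype_prod (f := fun _ => ρ) fun _ => hρi)
          (fun t => Finset.prod_nonneg fun i _ => hρ0 _) hRm,
        ENNReal.toReal_ofReal
          (integral_nonneg fun t => Finset.prod_nonneg fun i _ => hρ0 _)]
      rfl
    have h2 : ∫ t in (R₁ ∪ R₂)ᶜ, ∏ i, l * ψ (t i) =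
        c ^ Fintype.card κ * ∫ t in (R₁ ∪ R₂)ᶜ, ∏ i, ρ (t i) := by
      rw [← integral_const_mul]
      refine integral_congr_ae (ae_of_all _ fun t => ?_)
      simp only [hρ]
      rw [Finset.prod_mul_distrib (f := fun _ => c⁻¹), Finset.prod_const, Finset.card_univ,
        ← mul_assoc, ← mul_pow, mul_inv_cancel₀ hc0.ne', one_pow, one_mul]
    rw [h2, ← h1, measureReal_compl (hR₁m.union hR₂m), probReal_univ]
    refine mul_le_mul_of_nonneg_left ?_ (by positivity)
    have h3 := measureReal_union_le (μ := Measure.pi fun _ : κ => ν) R₁ R₂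
    linarith

theorem Typ_mp {κ : Type} [Fintype κ] (u : TT κ) {j j' : ℤ} (h : j ≠ j') :
    MeasurePreserving (fun p : TT κ × TT κ => (p.2 + u - j • p.1, p.2 + u - j' • p.1))
      ((volume : Measure (TT κ)).prod volume) ((volume : Measure (TT κ)).prod volume) := by
  have h1 : MeasurePreserving (fun p : TT κ × TT κ => (id p.1, p.2 + (u - j • p.1)))
      ((volume : Measure (TT κ)).prod volume) ((volume : Measure (TT κ)).prod volume) :=
    MeasurePreserving.skew_product (g := fun a o : TT κ => o + (u - j • a))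
      (MeasurePreserving.id _) (Continuous.measurable (by fun_prop))
      (ae_of_all _ fun a => (measurePreserving_add_right _ _).map_eq)
  have h2 : MeasurePreserving (fun p : TT κ × TT κ => (id p.1, p.1 + (j - j') • p.2))
      ((volume : Measure (TT κ)).prod volume) ((volume : Measure (TT κ)).prod volume) :=
    MeasurePreserving.skew_product (g := fun x a : TT κ => x + (j - j') • a)
      (MeasurePreserving.id _) (Continuous.measurable (by fun_prop))
      (ae_of_all _ fun x => ((measurePreserving_add_left _ x).comp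
        (Measure.measurePreserving_zsmul _ (sub_ne_zero.2 h))).map_eq)
  have h3 := h2.comp (Measure.measurePreserving_swap.comp h1)
  convert h3 using 1
  funext p
  simp only [Function.comp, Prod.swap, id, sub_smul]
  congr 1 <;> abel

theorem Typ_pair {κ : Type} [Fintype κ] (u : TT κ) {j j' : ℤ} (h : j ≠ j') {f g : TT κ → ℝ}
    (hf : Measurable f) (hg : Measurable g) :
    ∫ p : TT κ × TT κ, f (p.2 + u - j • p.1) * g (p.2 + u - j' • p.1)
      ∂((volume : Measure (TT κ)).prod volume) = (∫ t, f t) * ∫ t, g t := by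
  have h1 := integral_map (μ := (volume : Measure (TT κ)).prod volume)
    (f := fun z : TT κ × TT κ => f z.1 * g z.2) (Typ_mp u h).measurable.aemeasurable
    ((hf.comp measurable_fst).mul (hg.comp measurable_snd)).aestronglyMeasurable
  rw [(Typ_mp u h).map_eq, integral_prod_mul] at h1
  exact h1.symm

theorem Typ_surv_ge {κ : Type} (J : Finset ℤ) (om : ℤ → ℝ) (hom : ∀ j, 0 ≤ om j) (Ψ : TT κ → ℝ)
    (hΨ0 : ∀ t, 0 ≤ Ψ t) (R : Set (TT κ)) (a t : TT κ) :
    ∑ j ∈ J, om j * (R.indicator Ψ (t - j • a) * 1 -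
      ∑ j' ∈ J.erase j, R.indicator Ψ (t - j • a) * R.indicator 1 (t - j' • a)) ≤
      surv J om Ψ R a t := by
  unfold surv
  refine Finset.sum_le_sum fun j _ => ?_
  have h0 : 0 ≤ R.indicator Ψ (t - j • a) := Set.indicator_nonneg (fun x _ => hΨ0 x) _
  have h1 : ∀ j' : ℤ, 0 ≤ R.indicator Ψ (t - j • a) * R.indicator (1 : TT κ → ℝ) (t - j' • a) :=
    fun j' => mul_nonneg h0 (Set.indicator_nonneg (fun x _ => zero_le_one) _)
  split_ifs with hc
  · refine mul_le_mul_of_nonneg_left ?_ (hom j)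
    have := Finset.sum_nonneg (s := J.erase j) fun j' _ => h1 j'
    linarith
  · push Not at hc
    obtain ⟨j', hj', hne, hR⟩ := hc
    refine mul_nonpos_of_nonneg_of_nonpos (hom j) ?_
    have h2 := Finset.single_le_sum (s := J.erase j) (fun j' _ => h1 j')
      (Finset.mem_erase.2 ⟨hne, hj'⟩)
    rw [Set.indicator_of_mem hR, Pi.one_apply] at h2
    linarith

theorem exists_surv {κ G₀ : Type} [Fintype κ] [Fintype G₀] (J : Finset ℤ) (om : ℤ → ℝ)
    (hom : ∀ j, 0 ≤ om j) (Ψ : TT κ → ℝ) (hΨm : Measurable Ψ) (hΨ0 : ∀ t, 0 ≤ Ψ t) {B : ℝ}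
    (hΨB : ∀ t, Ψ t ≤ B) (R : Set (TT κ)) (hR : MeasurableSet R) (c : G₀ → TT κ) :
    ∃ a o : TT κ, (∑ j ∈ J, om j) * (∫ t in R, Ψ t) * (1 - J.card * volume.real R) *
      Fintype.card G₀ ≤ ∑ g, surv J om Ψ R a (o + c g) := by
  set μ := (volume : Measure (TT κ)).prod (volume : Measure (TT κ)) with hμ
  set f := R.indicator Ψ with hf
  have hfm : Measurable f := hΨm.indicator hR
  have hf0 : ∀ t, 0 ≤ f t := Set.indicator_nonneg fun x _ => hΨ0 x
  have hfB : ∀ t, f t ≤ B := fun t => (Set.indicator_le_self' (fun x _ => hΨ0 x) t).trans (hΨB t)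
  have hM0 : 0 ≤ ∫ t, f t := integral_nonneg hf0
  have hint : ∀ (g : TT κ → ℝ), Measurable g → (∀ t, 0 ≤ g t) → (∀ t, g t ≤ 1) →
      ∀ (u : TT κ) (j j' : ℤ), Integrable
        (fun p : TT κ × TT κ => f (p.2 + u - j • p.1) * g (p.2 + u - j' • p.1)) μ :=
    fun g hg h0 h1 u j j' => Typ_integrable (B := B)
      ((hfm.comp (Continuous.measurable (by fun_prop))).mul
        (hg.comp (Continuous.measurable (by fun_prop))))
      (fun p => mul_nonneg (hf0 _) (h0 _))
      fun p => (mul_le_of_le_one_right (hf0 _) (h1 _)).trans (hfB _)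
  have hi1 := hint (fun _ => 1) measurable_const (fun _ => zero_le_one) fun _ => le_rfl
  have hi2 := hint (R.indicator 1) (measurable_one.indicator hR)
    (Set.indicator_nonneg fun x _ => zero_le_one)
    fun t => Set.indicator_le_self' (fun x _ => zero_le_one) t
  set T : TT κ → ℤ → TT κ × TT κ → ℝ := fun u j p => f (p.2 + u - j • p.1) * 1 -
    ∑ j' ∈ J.erase j, f (p.2 + u - j • p.1) * R.indicator 1 (p.2 + u - j' • p.1) with hT
  have hTi : ∀ u j, Integrable (T u j) μ := fun u j =>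
    (hi1 u j 0).sub (integrable_finsetSum _ fun j' _ => hi2 u j j')
  have hTe : ∀ u j, (∫ t, f t) * (1 - J.card * volume.real R) ≤ ∫ p, T u j p ∂μ := fun u j => by
    simp only [hT]
    rw [integral_sub (hi1 u j 0) (integrable_finsetSum _ fun j' _ => hi2 u j j'),
      integral_finsetSum _ fun j' _ => hi2 u j j']
    have e1 := Typ_pair u (j := j) (j' := j + 1) (by omega) hfm (g := fun _ => 1) measurable_const
    have e2 : ∀ j' ∈ J.erase j, ∫ p : TT κ × TT κ, f (p.2 + u - j • p.1) *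
        R.indicator 1 (p.2 + u - j' • p.1) ∂μ = (∫ t, f t) * volume.real R := fun j' hj' => by
      rw [Typ_pair u (Finset.ne_of_mem_erase hj').symm hfm (measurable_one.indicator hR),
        integral_indicator_one hR]
    rw [e1, Finset.sum_congr rfl e2, Finset.sum_const, nsmul_eq_mul]
    simp only [integral_const, probReal_univ, smul_eq_mul, mul_one]
    have h1 : ((J.erase j).card : ℝ) ≤ J.card := Nat.cast_le.2 Finset.card_erase_le
    have h2 : 0 ≤ (∫ t, f t) * volume.real R := mul_nonneg hM0 measureReal_nonneg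
    nlinarith
  have hΦi : ∀ g, Integrable (fun p => ∑ j ∈ J, om j * T (c g) j p) μ := fun g =>
    integrable_finsetSum _ fun j _ => (hTi _ j).const_mul _
  obtain ⟨p, hp⟩ := exists_integral_le (integrable_finsetSum Finset.univ fun g _ => hΦi g)
  refine ⟨p.1, p.2, le_trans ?_ (hp.trans (Finset.sum_le_sum fun g _ =>
    Typ_surv_ge J om hom Ψ hΨ0 R p.1 (p.2 + c g)))⟩
  rw [integral_finsetSum _ fun g _ => hΦi g, mul_comm, ← nsmul_eq_mul, ← Finset.card_univ,
    ← Finset.sum_const]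
  refine Finset.sum_le_sum fun g _ => ?_
  rw [integral_finsetSum _ fun j _ => (hTi _ j).const_mul _, mul_assoc, Finset.sum_mul,
    ← integral_indicator hR]
  refine Finset.sum_le_sum fun j _ => ?_
  rw [integral_const_mul]
  exact mul_le_mul_of_nonneg_left (hTe _ j) (hom j)

/-- `surv` is zero or a single term -/
theorem surv_cases {κ : Type} (J : Finset ℤ) (om : ℤ → ℝ) (Ψ : TT κ → ℝ) (R : Set (TT κ))
    (a t : TT κ) :
    surv J om Ψ R a t = 0 ∨ ∃ j ∈ J, t - j • a ∈ R ∧ surv J om Ψ R a t = om j * Ψ (t - j • a) := by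
  unfold surv
  by_cases h : ∃ j ∈ J, t - j • a ∈ R ∧ ∀ j' ∈ J, j' ≠ j → t - j' • a ∉ R
  · obtain ⟨j, hj, hR, hc⟩ := h
    refine Or.inr ⟨j, hj, hR, ?_⟩
    rw [Finset.sum_eq_single_of_mem j hj, if_pos hc, Set.indicator_of_mem hR]
    intro j' _ hne
    exact if_neg fun h' => h' j hj hne.symm hR
  · refine Or.inl (Finset.sum_eq_zero fun j hj => ?_)
    split_ifs with hc
    · rw [Set.indicator_of_notMem fun hR => h ⟨j, hj, hR, hc⟩, mul_zero]
    · rfl

end Crest.Agent.R225
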