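import Crest.Agent.R225.TwoLevel
import Crest.Agent.R225.Typ

/-!
# Row 225: Blk1
One block.  Coordinates `Unit ⊕ Fin D`; lattice basis `A = fromBlocks (η) 0 (l ã) (l • 1)` where `ã i = rep (a i)`, so
`A (j, b) = (η j, l (j ã + b))` and `det A = η l^D`.

`str_surv`: at the point `(0, l x)`, `t = pr x`.  If `surv = 0` use `Str.zero`.  Otherwise (`surv_cases`) with `t' = t - j • a ∈ R` and
integers `b` with `x - j ã = rep t' + b` (`exists_int_rep`) take the cube `{(j, b + e)}` (`twoLevel_cube`, `TwoLevel.sigma` over the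
singleton), weights `surv * bw (pup (t' i)) e`.  The displacement is `(-η j, l rep t' - l e)`, the Gaussian weight is
exactly this weight (`psi_mul_pup`, `psi_mul_one_sub_pup`), the class masses are `surv * piH a' _ (s - ∑ b i • a' i)`,
and each weight is at most its class mass `≤ 2 surv / |G'|`.
-/

set_option autoImplicit false

open MeasureTheory ProbabilityTheory Matrix Filter Topology
open scoped ENNReal RealInnerProductSpace

noncomputable section

namespace Crest.Agent.R225

/-- the lattice basis of one block -/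
def blkA (D : ℕ) (η l : ℝ) (a : TT (Fin D)) : Matrix (Unit ⊕ Fin D) (Unit ⊕ Fin D) ℝ :=
  Matrix.fromBlocks (fun _ _ => η) 0 (fun i _ => l * rep (a i)) (l • (1 : Matrix (Fin D) (Fin D) ℝ))

/-- the hash map of one block -/
def blkH {D : ℕ} {G : Type} [AddCommGroup G] (a' : Fin D → G) : (Unit ⊕ Fin D → ℤ) →+ G where
  toFun z := ∑ i, z (Sum.inr i) • a' i
  map_zero' := by simp
  map_add' := by intro x y; simp [add_smul, Finset.sum_add_distrib]

theorem det_blkA (D : ℕ) (η l : ℝ) (a : TT (Fin D)) : (blkA D η l a).det = η * l ^ D := by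
  rw [blkA, Matrix.det_fromBlocks_zero₁₂, Matrix.det_unique, Matrix.det_smul, Matrix.det_one]
  simp

theorem Blk1_bw_nonneg {ι : Type} [Fintype ι] {p : ι → ℝ} (hp : ∀ i, p i ∈ Set.Icc (0 : ℝ) 1)
    (e : ι → Bool) : 0 ≤ bw p e :=
  Finset.prod_nonneg fun i _ => by
    split_ifs
    exacts [(hp i).1, sub_nonneg.2 (hp i).2]

theorem str_surv {D : ℕ} {G : Type} [AddCommGroup G] [Fintype G] [DecidableEq G] (a' : Fin D → G)
    {η l U ε B : ℝ} (hη : 0 < η) (hl : 0 < l) (hε : 0 ≤ ε) (hε1 : ε ≤ 1) (J : Finset ℤ)
    (hJ : ∀ j ∈ J, |η * j| ≤ U) (R : Set (TT (Fin D)))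
    (hR : ∀ t ∈ R, ∀ s, |Fintype.card G * piH a' (fun i => pup l (t i)) s - 1| ≤ ε)
    (a : TT (Fin D)) (x : Fin D → ℝ)
    (hB : surv J (fun j => η * ph (η * j)) (fun t => ∏ i, l * psi l (t i)) R a (pr x) ≤ B) :
    Str (blkA D η l a) (blkH a') (max U l) (2 * B / Fintype.card G)
      ((1 - ε) * surv J (fun j => η * ph (η * j)) (fun t => ∏ i, l * psi l (t i)) R a (pr x))
      (Sum.elim (fun _ => 0) fun i => l * x i) := by
  set σ := surv J (fun j => η * ph (η * j)) (fun t => ∏ i, l * psi l (t i)) R a (pr x) with hσ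
  rcases surv_cases J (fun j => η * ph (η * j)) (fun t => ∏ i, l * psi l (t i)) R a (pr x) with
    h0 | ⟨j, hj, htR, hs⟩
  · exact Str.zero (by rw [hσ, h0, mul_zero])
  rw [← hσ] at hs
  set t : TT (Fin D) := pr x - j • a with ht
  have hb : ∀ i, ∃ b : ℤ, x i - j * rep (a i) = rep (t i) + b := fun i => by
    have e : ((x i - j * rep (a i) : ℝ) : UnitAddCircle) = t i := by
      rw [AddCircle.coe_sub, ← zsmul_eq_mul, AddCircle.coe_zsmul, coe_rep]
      rfl
    rw [← e]
    exact exists_int_rep _
  choose b hb using hb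
  set P : Fin D → ℝ := fun i => pup l (t i) with hP
  have hσ0 : 0 ≤ σ := by
    rw [hs]
    exact mul_nonneg (mul_pos hη (ph_pos _)).le
      (Finset.prod_nonneg fun i _ => (mul_pos hl (psi_pos _ _)).le)
  have hbw : ∀ e, 0 ≤ bw P e := fun e => Blk1_bw_nonneg (fun i => pup_mem l (t i)) e
  set Z : (Fin D → Bool) → (Unit ⊕ Fin D → ℤ) :=
    fun e => Sum.elim (fun _ => j) fun i => b i + if e i then 1 else 0 with hZ
  set dec : (Unit ⊕ Fin D → ℤ) → (Fin D → Bool) := fun z i => decide (z (Sum.inr i) = b i + 1)
    with hdec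
  have hdZ : ∀ e, dec (Z e) = e := fun e => by
    funext i
    cases h : e i <;> simp [hdec, hZ, h]
  have hZi : Function.Injective Z := Function.LeftInverse.injective hdZ
  have hG : (0 : ℝ) < Fintype.card G := Nat.cast_pos.2 Fintype.card_pos
  set c : G := ∑ i, b i • a' i with hc
  have hH : ∀ e, blkH a' (Z e) = c + ∑ i, if e i then a' i else 0 := fun e => by
    rw [hc, ← Finset.sum_add_distrib]
    change ∑ i, Z e (Sum.inr i) • a' i = _
    refine Finset.sum_congr rfl fun i _ => ?_
    cases h : e i <;> simp [hZ, h, add_smul]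
  have hdisp1 : ∀ e u, ((Sum.elim (fun _ => 0) fun i => l * x i : Unit ⊕ Fin D → ℝ) -
      blkA D η l a *ᵥ ci (Z e)) (Sum.inl u) = -(η * j) := fun e u => by
    simp [blkA, Matrix.mulVec, dotProduct, ci, hZ]
  have hdisp2 : ∀ e i, ((Sum.elim (fun _ => 0) fun i => l * x i : Unit ⊕ Fin D → ℝ) -
      blkA D η l a *ᵥ ci (Z e)) (Sum.inr i) = l * rep (t i) - if e i then l else 0 := fun e i => by
    have h1 : (blkA D η l a *ᵥ ci (Z e)) (Sum.inr i) =
        l * rep (a i) * j + l * (b i + if e i then 1 else 0) := by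
      simp [blkA, Matrix.mulVec, dotProduct, ci, hZ, Matrix.one_apply]
    have h2 : x i = j * rep (a i) + (rep (t i) + b i) := by linarith [hb i]
    rw [Pi.sub_apply, h1, Sum.elim_inr, h2]
    cases e i <;> simp <;> ring
  have hmass : ∀ s : G, ∑ z ∈ (Finset.univ.image Z).filter (fun z => blkH a' z = s),
      σ * bw P (dec z) = σ * piH a' P (s - c) := fun s => by
    rw [Finset.filter_image, Finset.sum_image fun u _ v _ huv => hZi huv, piH, Finset.mul_sum,
      Finset.sum_filter]
    refine Finset.sum_congr rfl fun e _ => ?_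
    rw [hdZ, hH]
    simp only [eq_sub_iff_add_eq', mul_ite, mul_zero]
  refine ⟨Finset.univ.image Z, fun z => σ * bw P (dec z), ?_, ?_, fun z hz => ?_, fun s => ?_⟩
  · have := TwoLevel_elim (fun _ : Unit => j) (twoLevel_cube b)
    rwa [Finset.image_image] at this
  · refine Finset.card_image_le.trans ?_
    simp only [Finset.card_univ, Fintype.card_fun, Fintype.card_bool, Fintype.card_fin,
      Fintype.card_sum, Fintype.card_unique]
    exact Nat.pow_le_pow_right (by norm_num) (by omega)
  · obtain ⟨e, -, rfl⟩ := Finset.mem_image.1 hz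
    simp only [hdZ]
    refine ⟨mul_nonneg hσ0 (hbw e), ?_, le_of_eq ?_, fun k => ?_⟩
    · have h1 : bw P e ≤ piH a' P (∑ i, if e i then a' i else 0) := by
        have := Finset.single_le_sum (s := Finset.univ)
          (f := fun e' : Fin D → Bool => if (∑ i, if e' i then a' i else 0) =
            (∑ i, if e i then a' i else 0) then bw P e' else 0)
          (fun e' _ => by split_ifs; exacts [hbw e', le_rfl]) (Finset.mem_univ e)
        simpa [piH] using this
      have h2 := (abs_le.1 (hR t htR (∑ i, if e i then a' i else 0))).2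
      have h3 : Fintype.card G * bw P e ≤ 2 := by
        have := mul_le_mul_of_nonneg_left h1 hG.le
        linarith
      rw [le_div_iff₀ hG]
      calc σ * bw P e * Fintype.card G = σ * (Fintype.card G * bw P e) := by ring
        _ ≤ σ * 2 := mul_le_mul_of_nonneg_left h3 hσ0
        _ ≤ 2 * B := by linarith
    · rw [det_blkA, abs_of_pos (by positivity), gz_sum, hs]
      simp only [hdisp1, hdisp2, gz, ph_neg, Finset.univ_unique, Finset.prod_singleton, bw]
      have : (∏ i, l * psi l (t i)) * ∏ i, (if e i then P i else 1 - P i) =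
          l ^ D * ∏ i, ph (l * rep (t i) - if e i then l else 0) := by
        rw [← Finset.prod_mul_distrib, show l ^ D = ∏ _i : Fin D, l by simp,
          ← Finset.prod_mul_distrib]
        refine Finset.prod_congr rfl fun i _ => ?_
        cases e i
        · simp only [Bool.false_eq_true, if_false, sub_zero, hP]
          rw [mul_assoc, psi_mul_one_sub_pup]
        · simp only [if_true, hP]
          rw [mul_assoc, psi_mul_pup]
      rw [mul_assoc, this]
      ring
    · rcases k with u | i
      · rw [hdisp1, abs_neg]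
        exact (hJ j hj).trans (le_max_left _ _)
      · rw [hdisp2]
        refine le_trans ?_ (le_max_right _ _)
        obtain ⟨r0, r1⟩ := rep_mem (t i)
        have h1 := mul_pos hl r0
        have h2 := mul_le_of_le_one_right hl.le r1
        rw [abs_le]
        split_ifs <;> constructor <;> linarith
  · rw [hmass]
    have h2 := (abs_le.1 (hR t htR (s - c))).1
    calc (1 - ε) * σ ≤ (Fintype.card G * piH a' P (s - c)) * σ :=
          mul_le_mul_of_nonneg_right (by linarith) hσ0
      _ = _ := by ring

end Crest.Agent.R225
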