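import Crest.Agent.R225.Hash

/-!
# Row 225: Unif
Uniformisation by linear shifts.

`exists_unif`.  Phase 1: average over all linear maps `V₁ : (Fin r₁ → F_p) → (Fin D → F_p)` (matrices): for `t ≠ t'`
`V₁ (t - t')` is uniform, so the variance in `g` of `f₁ g = avg_t f (g + V₁ t)` is at most `B² / p^r₁` for some `V₁`;
Chebyshev: the set `F₀ = {f₁ < μ - ε}` has density `β₀ ≤ B²/(ε² p^r₁)`, so `p² β₀ ≤ 1/2`.
Phase 2 (induction on `r₂`): given `F` of density `β` there is `v` such that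
`F' = {g | ∃ t ≠ t' ∈ F_p, g + t • v ∈ F ∧ g + t' • v ∈ F}` has density `≤ p² β²`; off `F'` the average over `t` of a
nonnegative function that is `≥ c` off `F` is `≥ (1 - 1/p) c`.  So `p² β_j ≤ 2^(-2^j)`, and `F_(r₂) = ∅`.
Bernoulli: `(1 - 1/p)^r₂ ≥ 1 - r₂/p`.
-/

set_option autoImplicit false

open MeasureTheory ProbabilityTheory Matrix Filter Topology
open scoped ENNReal RealInnerProductSpace

noncomputable section

namespace Crest.Agent.R225

section unif
variable {K G : Type} [Field K] [Fintype K] [DecidableEq K] [AddCommGroup G] [Module K G] [Fintype G]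
  [DecidableEq G]

/-- evaluation of a family of vectors at a coefficient vector, as a homomorphism in the vectors -/
def Unif_ev {n : ℕ} (t : Fin n → K) : (Fin n → G) →+ G where
  toFun M := ∑ i, t i • M i
  map_zero' := by simp
  map_add' a b := by simp [Finset.sum_add_distrib]

/-- the same, as a homomorphism in the coefficients -/
def Unif_lin {n : ℕ} (M : Fin n → G) : (Fin n → K) →+ G where
  toFun t := ∑ i, t i • M i
  map_zero' := by simp
  map_add' a b := by simp [add_smul, Finset.sum_add_distrib]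

omit [Fintype K] [DecidableEq K] [Fintype G] [DecidableEq G] in
theorem Unif_ev_surj {n : ℕ} {t : Fin n → K} (ht : t ≠ 0) :
    Function.Surjective (Unif_ev t : (Fin n → G) →+ G) := by
  obtain ⟨i, hi⟩ := Function.ne_iff.mp ht
  intro g
  refine ⟨Pi.single i ((t i)⁻¹ • g), ?_⟩
  change ∑ j, t j • (Pi.single i ((t i)⁻¹ • g) : Fin n → G) j = g
  rw [Finset.sum_eq_single i]
  · have hi' : t i ≠ 0 := hi
    simp [smul_smul, hi']
  · intro j _ hj
    simp [Pi.single_eq_of_ne hj]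
  · simp

omit [DecidableEq G] in
/-- phase 1: small variance for some linear map -/
theorem Unif_var (n : ℕ) (h : G → ℝ) (h0 : ∑ g, h g = 0) :
    ∃ V : (Fin n → K) →+ G, ∑ g, (∑ t, h (g + V t)) ^ 2 ≤ Fintype.card (Fin n → K) * ∑ g, h g ^ 2 := by
  have hG : (0 : ℝ) < Fintype.card G := by exact_mod_cast Fintype.card_pos
  have key : ∀ t t' : Fin n → K, ∑ M : Fin n → G, ∑ g, h (g + Unif_lin M t) * h (g + Unif_lin M t') =
      if t = t' then (Fintype.card (Fin n → G) : ℝ) * ∑ g, h g ^ 2 else 0 := by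
    intro t t'
    have e1 : ∀ M : Fin n → G, ∑ g, h (g + Unif_lin M t) * h (g + Unif_lin M t') =
        ∑ g, h g * h (g + Unif_ev (t' - t) M) := by
      intro M
      rw [← Equiv.sum_comp (Equiv.addRight (Unif_lin M t)) fun g => h g * h (g + Unif_ev (t' - t) M)]
      refine Finset.sum_congr rfl fun g _ => ?_
      have : Unif_lin M t + Unif_ev (t' - t) M = Unif_lin M t' := by
        change ∑ i, t i • M i + ∑ i, (t' - t) i • M i = ∑ i, t' i • M i
        rw [← Finset.sum_add_distrib]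
        refine Finset.sum_congr rfl fun i _ => ?_
        simp [sub_smul]
      simp only [Equiv.coe_addRight, add_assoc, this]
    simp only [e1]
    split_ifs with htt
    · subst htt
      have : ∀ M : Fin n → G, Unif_ev (t - t) M = 0 := fun M => by
        change ∑ i, (t - t) i • M i = 0
        simp
      simp only [this]
      simp [sq]
    · rw [Finset.sum_comm]
      refine Finset.sum_eq_zero fun g _ => ?_
      rw [← Finset.mul_sum]
      have hk := Hash_sum_comp (Unif_ev (t' - t) : (Fin n → G) →+ G)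
        (Unif_ev_surj (sub_ne_zero.mpr (Ne.symm htt))) fun s => h (g + s)
      rw [Equiv.sum_comp (Equiv.addLeft g) h |>.trans h0 |> fun e => (by simpa using e :
        ∑ s, h (g + s) = 0), mul_zero] at hk
      rw [(mul_eq_zero.mp hk).resolve_left hG.ne', mul_zero]
  have tot : ∑ M : Fin n → G, ∑ g, (∑ t : Fin n → K, h (g + Unif_lin M t)) ^ 2 =
      ∑ _M : Fin n → G, Fintype.card (Fin n → K) * ∑ g, h g ^ 2 := by
    calc ∑ M : Fin n → G, ∑ g, (∑ t : Fin n → K, h (g + Unif_lin M t)) ^ 2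
        = ∑ M : Fin n → G, ∑ g, ∑ t : Fin n → K, ∑ t' : Fin n → K,
            h (g + Unif_lin M t) * h (g + Unif_lin M t') := by
          simp only [sq, Finset.sum_mul_sum]
      _ = ∑ M : Fin n → G, ∑ t : Fin n → K, ∑ t' : Fin n → K, ∑ g,
            h (g + Unif_lin M t) * h (g + Unif_lin M t') := by
          refine Finset.sum_congr rfl fun M _ => ?_
          rw [Finset.sum_comm]
          exact Finset.sum_congr rfl fun t _ => Finset.sum_comm
      _ = ∑ t : Fin n → K, ∑ t' : Fin n → K, ∑ M : Fin n → G, ∑ g,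
            h (g + Unif_lin M t) * h (g + Unif_lin M t') := by
          rw [Finset.sum_comm]
          exact Finset.sum_congr rfl fun t _ => Finset.sum_comm
      _ = _ := by
          simp only [key, Finset.sum_ite_eq, Finset.mem_univ, if_true, Finset.sum_const,
            Finset.card_univ, nsmul_eq_mul]
          ring
  obtain ⟨M, -, hM⟩ := Finset.exists_le_of_sum_le Finset.univ_nonempty tot.le
  exact ⟨Unif_lin M, hM⟩

/-- phase 2: one more direction squares the density of the bad set -/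
theorem Unif_step (F : Finset G) :
    ∃ (v : G) (F' : Finset G), (Fintype.card G : ℝ) * F'.card ≤ (Fintype.card K : ℝ) ^ 2 * F.card ^ 2 ∧
      ∀ g ∉ F', ∀ t t' : K, g + t • v ∈ F → g + t' • v ∈ F → t = t' := by
  classical
  set bad : G → Finset G := fun v =>
    Finset.univ.filter fun g => ∃ t t' : K, t ≠ t' ∧ g + t • v ∈ F ∧ g + t' • v ∈ F with hbad
  set ind : G → ℝ := fun g => if g ∈ F then 1 else 0 with hind
  have hind0 : ∀ g, 0 ≤ ind g := fun g => by
    simp only [hind]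
    split_ifs <;> norm_num
  have hsum : ∑ g, ind g = F.card := by simp [hind]
  have h1 : ∀ v, ((bad v).card : ℝ) ≤
      ∑ t : K, ∑ t' : K, ∑ g, if t = t' then 0 else ind (g + t • v) * ind (g + t' • v) := by
    intro v
    have e : (∑ t : K, ∑ t' : K, ∑ g, if t = t' then 0 else ind (g + t • v) * ind (g + t' • v)) =
        ∑ g, ∑ t : K, ∑ t' : K, if t = t' then 0 else ind (g + t • v) * ind (g + t' • v) := by
      rw [Finset.sum_comm (s := (Finset.univ : Finset G))]
      exact Finset.sum_congr rfl fun t _ => Finset.sum_comm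
    have hnn : ∀ (g : G) (t t' : K),
        0 ≤ if t = t' then 0 else ind (g + t • v) * ind (g + t' • v) := fun g t t' => by
      split_ifs
      · exact le_rfl
      · exact mul_nonneg (hind0 _) (hind0 _)
    rw [e, hbad]
    simp only [Finset.card_filter, Nat.cast_sum, Nat.cast_ite, Nat.cast_one, Nat.cast_zero]
    refine Finset.sum_le_sum fun g _ => ?_
    split_ifs with hg
    · obtain ⟨t, t', htt, h1, h2⟩ := hg
      calc (1 : ℝ) = if t = t' then 0 else ind (g + t • v) * ind (g + t' • v) := by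
            simp [htt, hind, h1, h2]
        _ ≤ ∑ t'' : K, if t = t'' then 0 else ind (g + t • v) * ind (g + t'' • v) :=
            Finset.single_le_sum (f := fun t'' : K =>
              if t = t'' then 0 else ind (g + t • v) * ind (g + t'' • v))
              (fun t'' _ => hnn g t t'') (Finset.mem_univ t')
        _ ≤ _ := Finset.single_le_sum (f := fun s : K => ∑ t'' : K,
              if s = t'' then 0 else ind (g + s • v) * ind (g + t'' • v))
              (fun s _ => Finset.sum_nonneg fun t'' _ => hnn g s t'') (Finset.mem_univ t)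
    · exact Finset.sum_nonneg fun t _ => Finset.sum_nonneg fun t' _ => hnn g t t'
  have h2 : ∀ t t' : K, (∑ v : G, ∑ g, if t = t' then 0 else ind (g + t • v) * ind (g + t' • v)) ≤
      (F.card : ℝ) ^ 2 := by
    intro t t'
    split_ifs with htt
    · simp
    · have e1 : ∀ v : G, ∑ g, ind (g + t • v) * ind (g + t' • v) =
          ∑ g, ind g * ind (g + (t' - t) • v) := by
        intro v
        rw [← Equiv.sum_comp (Equiv.addRight (t • v)) fun g => ind g * ind (g + (t' - t) • v)]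
        refine Finset.sum_congr rfl fun g _ => ?_
        simp [sub_smul, add_assoc]
      simp only [e1]
      rw [Finset.sum_comm]
      have e2 : ∀ g : G, ∑ v : G, ind (g + (t' - t) • v) = F.card := by
        intro g
        rw [← hsum]
        have hne : t' - t ≠ 0 := sub_ne_zero.mpr (Ne.symm htt)
        exact Equiv.sum_comp ((MulAction.toPerm (Units.mk0 _ hne)).trans (Equiv.addLeft g)) ind
      simp only [← Finset.mul_sum, e2]
      rw [← Finset.sum_mul, hsum, sq]
  have tot : ∑ v : G, (Fintype.card G : ℝ) * (bad v).card ≤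
      ∑ _v : G, (Fintype.card K : ℝ) ^ 2 * F.card ^ 2 := by
    rw [← Finset.mul_sum]
    simp only [Finset.sum_const, Finset.card_univ, nsmul_eq_mul]
    refine mul_le_mul_of_nonneg_left ?_ (Nat.cast_nonneg _)
    calc ∑ v : G, ((bad v).card : ℝ)
        ≤ ∑ v : G, ∑ t : K, ∑ t' : K, ∑ g,
            if t = t' then 0 else ind (g + t • v) * ind (g + t' • v) :=
          Finset.sum_le_sum fun v _ => h1 v
      _ = ∑ t : K, ∑ t' : K, ∑ v : G, ∑ g,
            if t = t' then 0 else ind (g + t • v) * ind (g + t' • v) := by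
          rw [Finset.sum_comm]
          exact Finset.sum_congr rfl fun t _ => Finset.sum_comm
      _ ≤ ∑ _t : K, ∑ _t' : K, (F.card : ℝ) ^ 2 :=
          Finset.sum_le_sum fun t _ => Finset.sum_le_sum fun t' _ => h2 t t'
      _ = _ := by
          simp only [Finset.sum_const, Finset.card_univ, nsmul_eq_mul]
          ring
  obtain ⟨v, -, hv⟩ := Finset.exists_le_of_sum_le Finset.univ_nonempty tot
  refine ⟨v, bad v, hv, fun g hg t t' h1 h2 => ?_⟩
  by_contra htt
  exact hg (Finset.mem_filter.mpr ⟨Finset.mem_univ _, t, t', htt, h1, h2⟩)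

/-- adding a direction -/
def Unif_cons {n : ℕ} (v : G) (V : (Fin n → K) →+ G) : (Fin (n + 1) → K) →+ G where
  toFun t := t 0 • v + V (Fin.tail t)
  map_zero' := by
    have : Fin.tail (0 : Fin (n + 1) → K) = 0 := rfl
    simp [this]
  map_add' a b := by
    have : Fin.tail (a + b) = Fin.tail a + Fin.tail b := rfl
    rw [this, map_add, Pi.add_apply, add_smul]
    abel

omit [DecidableEq K] [Fintype G] [DecidableEq G] in
theorem Unif_sum_cons {n : ℕ} (v : G) (V : (Fin n → K) →+ G) (f : G → ℝ) (g : G) :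
    ∑ t, f (g + Unif_cons v V t) = ∑ a : K, ∑ t, f (g + a • v + V t) := by
  rw [← Equiv.sum_comp (Fin.consEquiv fun _ : Fin (n + 1) => K), Fintype.sum_prod_type]
  refine Finset.sum_congr rfl fun a _ => Finset.sum_congr rfl fun t _ => ?_
  change f (g + (a • v + V t)) = _
  rw [add_assoc]

/-- phase 2, iterated -/
theorem Unif_iter (n : ℕ) (f : G → ℝ) (hf0 : ∀ g, 0 ≤ f g) {c : ℝ} (hc : 0 ≤ c)
    (V₀ : (Fin n → K) →+ G) (F₀ : Finset G)
    (hF₀ : (Fintype.card K : ℝ) ^ 2 * F₀.card ≤ Fintype.card G * (1 / 2))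
    (hV₀ : ∀ g ∉ F₀, c ≤ ∑ t, f (g + V₀ t)) (k : ℕ) :
    ∃ (V : (Fin (n + k) → K) →+ G) (F : Finset G),
      (Fintype.card K : ℝ) ^ 2 * F.card ≤ Fintype.card G * (1 / 2) ^ 2 ^ k ∧
      ∀ g ∉ F, ((Fintype.card K : ℝ) - 1) ^ k * c ≤ ∑ t, f (g + V t) := by
  have hG : (0 : ℝ) < Fintype.card G := by exact_mod_cast Fintype.card_pos
  have hK : (1 : ℝ) ≤ Fintype.card K := by exact_mod_cast Fintype.card_pos
  induction k with
  | zero => exact ⟨V₀, F₀, by simpa using hF₀, by simpa using hV₀⟩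
  | succ k ih =>
    obtain ⟨V, F, hF, hV⟩ := ih
    obtain ⟨v, F', hF', hv⟩ := Unif_step (K := K) F
    refine ⟨Unif_cons v V, F', ?_, fun g hg => ?_⟩
    · have h1 : ((Fintype.card K : ℝ) ^ 2 * F.card) ^ 2 ≤ (Fintype.card G * (1 / 2) ^ 2 ^ k) ^ 2 :=
        pow_le_pow_left₀ (by positivity) hF 2
      have h2 : (Fintype.card G : ℝ) * ((Fintype.card K : ℝ) ^ 2 * F'.card) ≤
          Fintype.card G * (Fintype.card G * (1 / 2) ^ 2 ^ (k + 1)) := by
        calc (Fintype.card G : ℝ) * ((Fintype.card K : ℝ) ^ 2 * F'.card)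
            = (Fintype.card K : ℝ) ^ 2 * (Fintype.card G * F'.card) := by ring
          _ ≤ (Fintype.card K : ℝ) ^ 2 * ((Fintype.card K : ℝ) ^ 2 * F.card ^ 2) :=
              mul_le_mul_of_nonneg_left hF' (by positivity)
          _ = ((Fintype.card K : ℝ) ^ 2 * F.card) ^ 2 := by ring
          _ ≤ _ := h1
          _ = _ := by rw [pow_succ 2 k, pow_mul]; ring
      exact le_of_mul_le_mul_left h2 hG
    · refine le_trans ?_ (Unif_sum_cons v V f g).ge
      set c' := ((Fintype.card K : ℝ) - 1) ^ k * c with hc'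
      have hc'0 : 0 ≤ c' := mul_nonneg (pow_nonneg (by linarith) _) hc
      have hnn : ∀ a : K, 0 ≤ ∑ t, f (g + a • v + V t) := fun a =>
        Finset.sum_nonneg fun t _ => hf0 _
      obtain ⟨a₀, ha₀⟩ : ∃ a₀ : K, ∀ a, a ≠ a₀ → g + a • v ∉ F := by
        by_cases hex : ∃ a : K, g + a • v ∈ F
        · obtain ⟨a₀, ha₀⟩ := hex
          exact ⟨a₀, fun a ha hF => ha (hv g hg a a₀ hF ha₀)⟩
        · exact ⟨0, fun a _ hF => hex ⟨a, hF⟩⟩
      calc ((Fintype.card K : ℝ) - 1) ^ (k + 1) * c = ∑ _a ∈ Finset.univ.erase a₀, c' := by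
            rw [Finset.sum_const, Finset.card_erase_of_mem (Finset.mem_univ _), nsmul_eq_mul,
              Finset.card_univ, Nat.cast_sub Fintype.card_pos, hc']
            push_cast
            ring
        _ ≤ ∑ a ∈ Finset.univ.erase a₀, ∑ t, f (g + a • v + V t) :=
            Finset.sum_le_sum fun a ha => hV _ (ha₀ a (Finset.ne_of_mem_erase ha))
        _ ≤ _ := Finset.sum_le_sum_of_subset_of_nonneg (Finset.erase_subset _ _)
            fun a _ _ => hnn a

end unif

theorem exists_unif (p : ℕ) [Fact p.Prime] (D r₁ r₂ : ℕ) (f : (Fin D → ZMod p) → ℝ) {B μ ε : ℝ}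
    (hf0 : ∀ g, 0 ≤ f g) (hfB : ∀ g, f g ≤ B) (hμ : μ * (p : ℝ) ^ D ≤ ∑ g, f g) (hε : 0 < ε)
    (hεμ : ε ≤ μ) (h1 : 2 * (p : ℝ) ^ 2 * B ^ 2 ≤ ε ^ 2 * (p : ℝ) ^ r₁) (h2 : p ^ D < 2 ^ 2 ^ r₂) :
    ∃ V : (Fin (r₁ + r₂) → ZMod p) →+ (Fin D → ZMod p), ∀ g,
      (1 - r₂ / (p : ℝ)) * (μ - ε) * (p : ℝ) ^ (r₁ + r₂) ≤ ∑ t, f (g + V t) := by
  classical
  have hp1 : (1 : ℝ) ≤ p := by exact_mod_cast (Fact.out : p.Prime).one_lt.le
  have hp0 : (0 : ℝ) < p := by linarith
  have hcG : (Fintype.card (Fin D → ZMod p) : ℝ) = (p : ℝ) ^ D := by simp [ZMod.card]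
  have hcT : (Fintype.card (Fin r₁ → ZMod p) : ℝ) = (p : ℝ) ^ r₁ := by simp [ZMod.card]
  have hcK : (Fintype.card (ZMod p) : ℝ) = p := by simp [ZMod.card]
  have hG : (0 : ℝ) < (p : ℝ) ^ D := by positivity
  have hT : (0 : ℝ) < (p : ℝ) ^ r₁ := by positivity
  set m : ℝ := (∑ g, f g) / (p : ℝ) ^ D with hm
  have hμm : μ ≤ m := by rw [hm, le_div_iff₀ hG]; exact hμ
  have hsum : ∑ g, f g = m * (p : ℝ) ^ D := by rw [hm]; field_simp
  have h0 : ∑ g, (f g - m) = 0 := by
    rw [Finset.sum_sub_distrib, hsum]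
    simp only [Finset.sum_const, Finset.card_univ, nsmul_eq_mul, hcG]
    ring
  have hsq : ∑ g, (f g - m) ^ 2 ≤ (p : ℝ) ^ D * B ^ 2 := by
    have e : ∀ g, (f g - m) ^ 2 = f g ^ 2 - 2 * m * f g + m ^ 2 := fun g => by ring
    simp only [e]
    rw [Finset.sum_add_distrib, Finset.sum_sub_distrib, ← Finset.mul_sum, hsum]
    simp only [Finset.sum_const, Finset.card_univ, nsmul_eq_mul, hcG]
    have : ∑ g, f g ^ 2 ≤ ∑ _g : Fin D → ZMod p, B ^ 2 :=
      Finset.sum_le_sum fun g _ => pow_le_pow_left₀ (hf0 g) (hfB g) 2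
    simp only [Finset.sum_const, Finset.card_univ, nsmul_eq_mul, hcG] at this
    nlinarith [mul_nonneg hG.le (sq_nonneg m)]
  obtain ⟨V₀, hV₀⟩ := Unif_var (K := ZMod p) r₁ (fun g => f g - m) h0
  rw [hcT] at hV₀
  set F₀ : Finset (Fin D → ZMod p) :=
    Finset.univ.filter fun g => ∑ t, f (g + V₀ t) < (μ - ε) * (p : ℝ) ^ r₁ with hF₀
  have hcheb : (F₀.card : ℝ) * (ε * (p : ℝ) ^ r₁) ^ 2 ≤ (p : ℝ) ^ r₁ * ((p : ℝ) ^ D * B ^ 2) := by
    calc (F₀.card : ℝ) * (ε * (p : ℝ) ^ r₁) ^ 2 = ∑ _g ∈ F₀, (ε * (p : ℝ) ^ r₁) ^ 2 := by simp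
      _ ≤ ∑ g ∈ F₀, (∑ t, (f (g + V₀ t) - m)) ^ 2 := by
          refine Finset.sum_le_sum fun g hg => ?_
          have hg' := (Finset.mem_filter.mp hg).2
          rw [Finset.sum_sub_distrib]
          simp only [Finset.sum_const, Finset.card_univ, nsmul_eq_mul, hcT]
          have h3 : ε * (p : ℝ) ^ r₁ ≤ (p : ℝ) ^ r₁ * m - ∑ t, f (g + V₀ t) := by
            nlinarith [mul_le_mul_of_nonneg_left hμm hT.le]
          calc (ε * (p : ℝ) ^ r₁) ^ 2 ≤ ((p : ℝ) ^ r₁ * m - ∑ t, f (g + V₀ t)) ^ 2 :=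
                pow_le_pow_left₀ (by positivity) h3 2
            _ = _ := by ring
      _ ≤ ∑ g, (∑ t, (f (g + V₀ t) - m)) ^ 2 :=
          Finset.sum_le_sum_of_subset_of_nonneg (Finset.subset_univ _) fun g _ _ => sq_nonneg _
      _ ≤ _ := hV₀.trans (mul_le_mul_of_nonneg_left hsq hT.le)
  have hF₀' : (Fintype.card (ZMod p) : ℝ) ^ 2 * F₀.card ≤
      Fintype.card (Fin D → ZMod p) * (1 / 2) := by
    rw [hcK, hcG]
    have hpos : 0 < (ε * (p : ℝ) ^ r₁) ^ 2 := by positivity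
    refine le_of_mul_le_mul_right ?_ hpos
    calc (p : ℝ) ^ 2 * F₀.card * (ε * (p : ℝ) ^ r₁) ^ 2
        = (p : ℝ) ^ 2 * (F₀.card * (ε * (p : ℝ) ^ r₁) ^ 2) := by ring
      _ ≤ (p : ℝ) ^ 2 * ((p : ℝ) ^ r₁ * ((p : ℝ) ^ D * B ^ 2)) :=
          mul_le_mul_of_nonneg_left hcheb (by positivity)
      _ = (p : ℝ) ^ r₁ * (p : ℝ) ^ D * (1 / 2) * (2 * (p : ℝ) ^ 2 * B ^ 2) := by ring
      _ ≤ (p : ℝ) ^ r₁ * (p : ℝ) ^ D * (1 / 2) * (ε ^ 2 * (p : ℝ) ^ r₁) :=
          mul_le_mul_of_nonneg_left h1 (by positivity)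
      _ = _ := by ring
  have hc : 0 ≤ (μ - ε) * (p : ℝ) ^ r₁ := mul_nonneg (by linarith) hT.le
  obtain ⟨V, F, hF, hV⟩ := Unif_iter r₁ f hf0 hc V₀ F₀ hF₀'
    (fun g hg => by
      by_contra hlt
      exact hg (Finset.mem_filter.mpr ⟨Finset.mem_univ _, not_le.mp hlt⟩)) r₂
  rw [hcK] at hF hV
  rw [hcG] at hF
  have hFe : F = ∅ := by
    have h3 : (p : ℝ) ^ D * (1 / 2) ^ 2 ^ r₂ < 1 := by
      have h2' : (p : ℝ) ^ D < 2 ^ 2 ^ r₂ := by exact_mod_cast h2
      rw [one_div, inv_pow, ← div_eq_mul_inv, div_lt_one (by positivity)]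
      exact h2'
    have h4 : (F.card : ℝ) < 1 := by
      have : (F.card : ℝ) ≤ (p : ℝ) ^ 2 * F.card :=
        le_mul_of_one_le_left (Nat.cast_nonneg _) (one_le_pow₀ hp1)
      linarith
    have h5 : F.card < 1 := by exact_mod_cast h4
    exact Finset.card_eq_zero.mp (by omega)
  refine ⟨V, fun g => le_trans ?_ (hV g (by simp [hFe]))⟩
  have hb : 1 - r₂ / (p : ℝ) ≤ (1 - 1 / (p : ℝ)) ^ r₂ := by
    have := one_add_mul_le_pow (a := -(1 / (p : ℝ))) (by
      have : 1 / (p : ℝ) ≤ 1 := by rw [div_le_one hp0]; exact hp1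
      linarith) r₂
    calc 1 - r₂ / (p : ℝ) = 1 + r₂ * -(1 / (p : ℝ)) := by ring
      _ ≤ _ := this
      _ = _ := by ring
  have e : ((p : ℝ) - 1) ^ r₂ = (1 - 1 / (p : ℝ)) ^ r₂ * (p : ℝ) ^ r₂ := by
    rw [← mul_pow]
    congr 1
    field_simp
  rw [e, pow_add]
  calc (1 - r₂ / (p : ℝ)) * (μ - ε) * ((p : ℝ) ^ r₁ * (p : ℝ) ^ r₂)
      = (1 - r₂ / (p : ℝ)) * ((p : ℝ) ^ r₂ * ((μ - ε) * (p : ℝ) ^ r₁)) := by ring
    _ ≤ (1 - 1 / (p : ℝ)) ^ r₂ * ((p : ℝ) ^ r₂ * ((μ - ε) * (p : ℝ) ^ r₁)) :=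
        mul_le_mul_of_nonneg_right hb (mul_nonneg (by positivity) hc)
    _ = _ := by ring

end Crest.Agent.R225
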