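import Crest.Agent.R225.Blk1
import Crest.Agent.R225.Unif

/-!
# Row 225: Block
One block (see `Blk1.lean` for the coordinates).

`block_core`: `exists_typical` with `ψ = psi l`, `P = pup l`, `h₀ = exp (-l²/8)/(10 l)`; `κ₀ = exp (H+Δ)/l^D ≥ vol R`;
`η = 4 U κ₀ / ε ≤ l/p`; `J = Icc (-⌊U/η⌋) ⌊U/η⌋`, `om j = η ph (η j)`, `Ψ t = ∏ l psi`; `exists_surv` with `G₀ = Fin D → ZMod p`,
`c g = pr (fun i => (g i).val / p)` (additive); the mean is `≥ 1 - 5ε` (`riemann`, `psi_mass`, `J.card κ₀ ≤ ε`), `surv ≤ 4 U e^{2Δ}/ε`;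
`exists_unif` with `μ = 1 - 5ε`; `sh s = (0, l (V s i).val / p)`.  Given `y`, subtract a lattice vector `A (j₀, 0)` to make
`0 ≤ y (inl ()) < η`, write `y (inr i) / l = rep (o i) + k i / p + small` with integers `k i`, `g = k mod p`, and use
`Str.translate`, `Str.perturb` (`δ = l/p`, `e = ε`), `ζ s = exp (-ε) (1 - ε) surv (o + c (g + V s))`.
-/

set_option autoImplicit false

open MeasureTheory ProbabilityTheory Matrix Filter Topology
open scoped ENNReal RealInnerProductSpace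

noncomputable section

namespace Crest.Agent.R225

theorem block_mulVec (D : ℕ) (η l : ℝ) (a : TT (Fin D)) (z : Unit ⊕ Fin D → ℤ) :
    blkA D η l a *ᵥ ci z = Sum.elim (fun _ => η * z (Sum.inl ()))
      fun i => l * (rep (a i) * z (Sum.inl ()) + z (Sum.inr i)) := by
  funext i
  rcases i with i | i
  · simp [blkA, mulVec, dotProduct, ci]
  · simp [blkA, mulVec, dotProduct, ci, Matrix.one_apply]
    ring

theorem block_coe_add_int (x : ℝ) (n : ℤ) : ((x + n : ℝ) : UnitAddCircle) = x := by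
  have h : ((n : ℝ) : UnitAddCircle) = 0 := (AddCircle.coe_eq_zero_iff 1).2 ⟨n, by simp⟩
  rw [AddCircle.coe_add, h, add_zero]

theorem block_val (p : ℕ) [Fact p.Prime] (k : ℤ) (v : ZMod p) :
    ∃ n : ℤ, (k : ℝ) / p + (v.val : ℝ) / p = (((k : ZMod p) + v).val : ℝ) / p + n := by
  have h1 : (((((k : ZMod p) + v).val : ℕ) : ℤ) : ZMod p) = ((k + v.val : ℤ) : ZMod p) := by
    push_cast
    simp
  obtain ⟨n, hn⟩ := ((ZMod.intCast_eq_intCast_iff _ _ _).1 h1).dvd
  have hp : (p : ℝ) ≠ 0 := Nat.cast_ne_zero.2 (Fact.out : p.Prime).ne_zero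
  refine ⟨n, ?_⟩
  have h2 : ((k : ℝ) + v.val - ((k : ZMod p) + v).val) = p * n := by exact_mod_cast hn
  field_simp
  linarith

theorem block_vol {D : ℕ} {l c : ℝ} (hl : 0 < l) {R : Set (TT (Fin D))} (hR : MeasurableSet R)
    (h : ∀ t ∈ R, c ≤ ∏ i, psi l (t i)) : l ^ D * c * volume.real R ≤ 1 := by
  have hm : Measurable fun t : TT (Fin D) => ∏ i, l * psi l (t i) :=
    Finset.measurable_prod _ fun i _ =>
      ((measurable_psi l).comp (measurable_pi_apply i)).const_mul l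
  have h0 : ∀ t : TT (Fin D), 0 ≤ ∏ i, l * psi l (t i) := fun t =>
    Finset.prod_nonneg fun i _ => (mul_pos hl (psi_pos l _)).le
  have hi : Integrable fun t : TT (Fin D) => ∏ i, l * psi l (t i) := by
    refine Integrable.of_bound hm.aestronglyMeasurable (∏ _i : Fin D, l) (ae_of_all _ fun t => ?_)
    rw [Real.norm_of_nonneg (h0 t)]
    exact Finset.prod_le_prod (fun i _ => (mul_pos hl (psi_pos l _)).le) fun i _ =>
      mul_le_of_le_one_right hl.le (psi_le_one l _)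
  refine (setIntegral_ge_of_const_le_real hR (measure_ne_top _ _) (fun t ht => ?_)
    hi.integrableOn).trans ((setIntegral_le_integral hi (ae_of_all _ h0)).trans ?_)
  · rw [Finset.prod_mul_distrib, Finset.prod_const, Finset.card_univ, Fintype.card_fin]
    exact mul_le_mul_of_nonneg_left (h t ht) (by positivity)
  · rw [integral_fintype_prod_volume_eq_pow (fun t => l * psi l t)]
    exact pow_le_one₀ (integral_nonneg fun t => (mul_pos hl (psi_pos l _)).le) (psi_mass hl).2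

theorem block_mean (D : ℕ) (G G₀ : Type) [AddCommGroup G] [Fintype G] [DecidableEq G] [Fintype G₀]
    {l U Δ ε δ : ℝ} (hl : 2 ≤ l) (hε : 0 < ε) (hε1 : ε ≤ 1 / 10) (hΔ : 0 < Δ)
    (hU : 1 ≤ U) (hD : 1 ≤ D) (h2 : 2 * D * Real.exp (-l ^ 2 / 2) ≤ ε) (h3 : 40 * D ≤ ε * Δ ^ 2)
    (h4 : (Fintype.card G : ℝ) ^ 2 * Real.exp (-(Real.exp (-l ^ 2 / 8) / (10 * l) * D)) ≤ ε ^ 3)
    (h5 : 4 * Real.exp (-U ^ 2 / 2) ≤ ε)
    (h6 : 4 * U * Real.exp (7 * D + Δ) / (ε * l ^ D) ≤ δ) (h7 : δ ≤ ε / 2) (c : G₀ → TT (Fin D)) :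
    ∃ (η : ℝ) (J : Finset ℤ) (a' : Fin D → G) (R : Set (TT (Fin D))) (a o : TT (Fin D)),
      0 < η ∧ η ≤ δ ∧ (∀ j ∈ J, |η * j| ≤ U) ∧
      (∀ t ∈ R, ∀ s, |Fintype.card G * piH a' (fun i => pup l (t i)) s - 1| ≤ ε) ∧
      (∀ t, 0 ≤ surv J (fun j => η * ph (η * j)) (fun t => ∏ i, l * psi l (t i)) R a t ∧
        surv J (fun j => η * ph (η * j)) (fun t => ∏ i, l * psi l (t i)) R a t ≤
          4 * U * Real.exp (2 * Δ) / ε) ∧
      (1 - 5 * ε) * Fintype.card G₀ ≤
        ∑ g, surv J (fun j => η * ph (η * j)) (fun t => ∏ i, l * psi l (t i)) R a (o + c g) := by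
  have hl0 : 0 < l := by linarith
  have hU0 : 0 < U := by linarith
  have hD' : (1 : ℝ) ≤ D := by exact_mod_cast hD
  have hx := Real.exp_pos (-l ^ 2 / 2)
  obtain ⟨hc0, hc1⟩ := psi_mass hl0
  have hx1 : 2 * Real.exp (-l ^ 2 / 2) ≤ 1 / 10 := by nlinarith
  obtain ⟨H, a', R, hH, hRm, hR, hM⟩ := exists_typical (κ := Fin D) (G := G) (psi l) (pup l)
    (measurable_psi l) (measurable_pup l) (psi_pos l) (psi_le_one l) (pup_mem l) hl0 (by linarith)
    hc1 (psi_log hl0).1 (psi_log hl0).2 (by positivity) (psi_act hl) hΔ hε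
  rw [Fintype.card_fin] at hH hM
  have hlD : 0 < l ^ D := by positivity
  obtain ⟨κ₀, hκ⟩ : ∃ κ₀, κ₀ = Real.exp (H + Δ) / l ^ D := ⟨_, rfl⟩
  have hκ0 : 0 < κ₀ := by rw [hκ]; positivity
  obtain ⟨η, hη⟩ : ∃ η, η = 4 * U * κ₀ / ε := ⟨_, rfl⟩
  have hη0 : 0 < η := by rw [hη]; positivity
  have hηδ : η ≤ δ := by
    refine le_trans ?_ h6
    rw [hη, hκ, ← mul_div_assoc, div_div, mul_comm (l ^ D)]
    gcongr
  have hvol : volume.real R ≤ κ₀ := by
    have h1 := block_vol hl0 hRm fun t ht => (hR t ht).1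
    rw [hκ, le_div_iff₀ hlD]
    have h2 : Real.exp (-H - Δ) * Real.exp (H + Δ) = 1 := by
      rw [← Real.exp_add]
      simp
    have h3 := mul_le_mul_of_nonneg_right h1 (Real.exp_pos (H + Δ)).le
    calc volume.real R * l ^ D
        = volume.real R * l ^ D * (Real.exp (-H - Δ) * Real.exp (H + Δ)) := by rw [h2, mul_one]
      _ ≤ _ := by linarith
  have hΨ0 : ∀ t : TT (Fin D), 0 ≤ ∏ i, l * psi l (t i) := fun t =>
    Finset.prod_nonneg fun i _ => (mul_pos hl0 (psi_pos l _)).le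
  have hom : ∀ j : ℤ, 0 ≤ η * ph (η * j) := fun j => (mul_pos hη0 (ph_pos _)).le
  obtain ⟨a, o, hao⟩ := exists_surv (Finset.Icc (-⌊U / η⌋) ⌊U / η⌋) (fun j => η * ph (η * j)) hom
    (fun t : TT (Fin D) => ∏ i, l * psi l (t i))
    (Finset.measurable_prod _ fun i _ =>
      ((measurable_psi l).comp (measurable_pi_apply i)).const_mul l) hΨ0 (B := ∏ _i : Fin D, l)
    (fun t => Finset.prod_le_prod (fun i _ => (mul_pos hl0 (psi_pos l _)).le) fun i _ =>
      mul_le_of_le_one_right hl0.le (psi_le_one l _)) R hRm c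
  have hfl : ((⌊U / η⌋ : ℤ) : ℝ) ≤ U / η := Int.floor_le _
  refine ⟨η, _, a', R, a, o, hη0, hηδ, fun j hj => ?_, fun t ht => (hR t ht).2.2, fun t => ?_,
    le_trans (mul_le_mul_of_nonneg_right ?_ (Nat.cast_nonneg _)) hao⟩
  · have h1 : |(j : ℝ)| ≤ (⌊U / η⌋ : ℤ) := by exact_mod_cast abs_le.2 (Finset.mem_Icc.1 hj)
    rw [abs_mul, abs_of_pos hη0, mul_comm]
    exact (le_div_iff₀ hη0).1 (h1.trans hfl)
  · rcases surv_cases (Finset.Icc (-⌊U / η⌋) ⌊U / η⌋) (fun j => η * ph (η * j))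
      (fun t : TT (Fin D) => ∏ i, l * psi l (t i)) R a t with h | ⟨j, -, hj, h⟩
    · rw [h]
      exact ⟨le_rfl, by positivity⟩
    · rw [h]
      refine ⟨mul_nonneg (hom j) (hΨ0 _), ?_⟩
      have h1 : η * ph (η * j) ≤ η :=
        mul_le_of_le_one_right hη0.le ((ph_le_half _).trans (by norm_num))
      have h2 : ∏ i, l * psi l ((t - j • a) i) ≤ l ^ D * Real.exp (-H + Δ) := by
        rw [Finset.prod_mul_distrib, Finset.prod_const, Finset.card_univ, Fintype.card_fin]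
        exact mul_le_mul_of_nonneg_left (hR _ hj).2.1 hlD.le
      refine (mul_le_mul h1 h2 (hΨ0 _) hη0.le).trans (le_of_eq ?_)
      rw [hη, hκ, show 2 * Δ = H + Δ + (-H + Δ) by ring, Real.exp_add (H + Δ)]
      field_simp
  · have a1 : 1 - ε ≤ ∑ j ∈ Finset.Icc (-⌊U / η⌋) ⌊U / η⌋, η * ph (η * j) := by
      have := riemann hη0 hU0.le
      linarith
    have a2 : 1 - ε ≤ (∫ t, l * psi l t) ^ D := by
      have h1 := one_add_mul_le_pow (a := -(2 * Real.exp (-l ^ 2 / 2))) (by linarith) D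
      refine le_trans (by linarith) (h1.trans (pow_le_pow_left₀ (by linarith) (by linarith) D))
    have a3 : 1 - 2 * ε ≤ 1 - 40 * D / Δ ^ 2 - (Fintype.card G : ℝ) ^ 2 *
        Real.exp (-(Real.exp (-l ^ 2 / 8) / (10 * l) * D)) / ε ^ 2 := by
      have h1 : 40 * D / Δ ^ 2 ≤ ε := (div_le_iff₀ (by positivity)).2 h3
      have h2 : (Fintype.card G : ℝ) ^ 2 *
          Real.exp (-(Real.exp (-l ^ 2 / 8) / (10 * l) * D)) / ε ^ 2 ≤ ε :=
        (div_le_iff₀ (by positivity)).2 (h4.trans (le_of_eq (by ring)))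
      linarith
    have a4 : 1 - 3 * ε ≤ ∫ t in R, ∏ i, l * psi l (t i) := by
      refine le_trans ?_ ((mul_le_mul a2 a3 (by linarith) (by linarith)).trans hM)
      nlinarith
    have a5 : 1 - ε ≤ 1 - (Finset.Icc (-⌊U / η⌋) ⌊U / η⌋).card * volume.real R := by
      have h0 : 0 ≤ ⌊U / η⌋ := Int.floor_nonneg.2 (by positivity)
      have h1 : ((Finset.Icc (-⌊U / η⌋) ⌊U / η⌋).card : ℝ) = 2 * (⌊U / η⌋ : ℤ) + 1 := by
        have h2 := Int.card_Icc_of_le (-⌊U / η⌋) ⌊U / η⌋ (by omega)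
        have h3 : (((Finset.Icc (-⌊U / η⌋) ⌊U / η⌋).card : ℤ) : ℝ) = _ := congrArg Int.cast h2
        push_cast at h3
        linarith
      have h2 : U / η * κ₀ = ε / 4 := by
        rw [hη]
        field_simp
      have h3 : κ₀ ≤ ε / 2 := by
        have h4 : η * ε = 4 * U * κ₀ := by
          rw [hη]
          field_simp
        nlinarith
      have h4 := mul_le_mul (show ((Finset.Icc (-⌊U / η⌋) ⌊U / η⌋).card : ℝ) ≤ 2 * (U / η) + 1 by
        linarith) hvol measureReal_nonneg (by positivity)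
      linarith
    refine le_trans ?_ (mul_le_mul (mul_le_mul a1 a4 (by linarith) (by linarith)) a5 (by linarith)
      (mul_nonneg (by linarith) (by linarith)))
    nlinarith [mul_pos hε hε]

theorem block_core (D p r₁ r₂ : ℕ) [Fact p.Prime] (G : Type) [AddCommGroup G] [Fintype G]
    [DecidableEq G] {l U Δ ε R wm : ℝ} (hl : 2 ≤ l) (hε : 0 < ε) (hε1 : ε ≤ 1 / 10) (hΔ : 0 < Δ)
    (hU : 1 ≤ U) (hD : 1 ≤ D) (h2 : 2 * D * Real.exp (-l ^ 2 / 2) ≤ ε) (h3 : 40 * D ≤ ε * Δ ^ 2)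
    (h4 : (Fintype.card G : ℝ) ^ 2 * Real.exp (-(Real.exp (-l ^ 2 / 8) / (10 * l) * D)) ≤ ε ^ 3)
    (h5 : 4 * Real.exp (-U ^ 2 / 2) ≤ ε)
    (h6 : 4 * U * Real.exp (7 * D + Δ) / (ε * l ^ D) ≤ l / p)
    (h7 : 2 * (D + 1) * R * (l / p) ≤ ε) (h8 : U + 1 ≤ R) (h8' : l + 1 ≤ R)
    (h9 : 2 * (p : ℝ) ^ 2 * (4 * U * Real.exp (2 * Δ) / ε) ^ 2 ≤ ε ^ 2 * (p : ℝ) ^ r₁)
    (h10 : p ^ D < 2 ^ 2 ^ r₂) (h11 : (r₂ : ℝ) ≤ ε * p)
    (h12 : 2 * (4 * U * Real.exp (2 * Δ) / ε) ≤ wm * Fintype.card G) :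
    ∃ (A : Matrix (Unit ⊕ Fin D) (Unit ⊕ Fin D) ℝ)
      (sh : (Fin (r₁ + r₂) → ZMod p) → Unit ⊕ Fin D → ℝ) (h : (Unit ⊕ Fin D → ℤ) →+ G),
      Blk A sh h R wm (9 * ε) := by
  have hp : (0 : ℝ) < p := Nat.cast_pos.2 (Fact.out : p.Prime).pos
  have hl0 : 0 < l := by linarith
  have hD' : (1 : ℝ) ≤ D := by exact_mod_cast hD
  obtain ⟨δ, hδ⟩ : ∃ δ, δ = l / p := ⟨_, rfl⟩
  have hδ0 : 0 < δ := by rw [hδ]; positivity
  rw [← hδ] at h6 h7
  have hRδ : 4 * (R * δ) ≤ ε := by nlinarith [mul_pos (show 0 < R by linarith) hδ0]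
  have hδε : δ ≤ ε / 2 := by nlinarith
  obtain ⟨η, J, a', Rs, a, o, hη0, hηδ, hJ, hRs, hB, hμ⟩ := block_mean D G (Fin D → ZMod p) hl hε
    hε1 hΔ hU hD h2 h3 h4 h5 h6 hδε fun g => pr fun i => ((g i).val : ℝ) / p
  rw [Fintype.card_fun, ZMod.card, Fintype.card_fin, Nat.cast_pow] at hμ
  obtain ⟨V, hV⟩ := exists_unif p D r₁ r₂ _ (fun g => (hB _).1) (fun g => (hB _).2) hμ hε
    (by linarith) h9 h10
  refine ⟨blkA D η l a, fun s => Sum.elim (fun _ => 0) fun i => l * ((V s i).val / p), blkH a',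
    ?_, fun i j => ?_, fun s i => ?_, fun s s' => ?_, fun y => ?_⟩
  · rw [det_blkA]
    positivity
  · rcases i with i | i <;> rcases j with j | j
    · simp only [blkA, fromBlocks_apply₁₁, abs_of_pos hη0]
      linarith
    · simp only [blkA, fromBlocks_apply₁₂, Matrix.zero_apply, abs_zero]
      linarith
    · have h1 := rep_mem (a i)
      simp only [blkA, fromBlocks_apply₂₁, abs_of_pos (mul_pos hl0 h1.1)]
      nlinarith [h1.2]
    · simp only [blkA, fromBlocks_apply₂₂, Matrix.smul_apply, Matrix.one_apply, smul_eq_mul]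
      split_ifs
      · rw [mul_one, abs_of_pos hl0]
        linarith
      · rw [mul_zero, abs_zero]
        linarith
  · rcases i with i | i
    · simp only [Sum.elim_inl, abs_zero]
      linarith
    · have h1 : ((V s i).val : ℝ) / p ≤ 1 :=
        (div_le_one hp).2 (by exact_mod_cast (ZMod.val_lt _).le)
      simp only [Sum.elim_inr]
      rw [abs_of_nonneg (by positivity)]
      nlinarith
  · choose n hn using fun i => block_val p (V s i).val (V s' i)
    refine ⟨Sum.elim (fun _ => 0) fun i => -n i, ?_⟩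
    rw [block_mulVec]
    funext i
    rcases i with i | i
    · simp
    · have h1 := hn i
      simp only [Int.cast_natCast, ZMod.natCast_zmod_val] at h1
      simp only [Pi.add_apply, Sum.elim_inr, Sum.elim_inl, map_add, Int.cast_zero, Int.cast_neg]
      linear_combination (-l) * h1
  · obtain ⟨j₀, hj₀⟩ : ∃ j₀ : ℤ, j₀ = ⌊y (Sum.inl ()) / η⌋ := ⟨_, rfl⟩
    obtain ⟨k, hk⟩ : ∃ k : Fin D → ℤ,
        k = fun i => ⌊(y (Sum.inr i) / l - rep (a i) * j₀ - rep (o i)) * p⌋ := ⟨_, rfl⟩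
    have he := Real.add_one_le_exp (-ε)
    refine ⟨fun s => Real.exp (-ε) * ((1 - ε) * surv J (fun j => η * ph (η * j))
      (fun t => ∏ i, l * psi l (t i)) Rs a
        (o + pr fun i => ((((fun i => (k i : ZMod p)) + V s) i).val : ℝ) / p)), fun s => ⟨?_, ?_⟩, ?_⟩
    · exact mul_nonneg (Real.exp_pos _).le (mul_nonneg (by linarith) (hB _).1)
    · have e1 : (pr fun i => rep (o i) + ((k i : ℝ) / p + ((V s i).val : ℝ) / p)) =
          o + pr fun i => ((((fun i => (k i : ZMod p)) + V s) i).val : ℝ) / p := by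
        funext i
        obtain ⟨n, hn⟩ := block_val p (k i) (V s i)
        simp only [pr, Pi.add_apply]
        rw [hn, ← add_assoc, block_coe_add_int, AddCircle.coe_add, coe_rep]
      have hS := str_surv a' hη0 hl0 hε.le (by linarith) J hJ Rs hRs a
        (fun i => rep (o i) + ((k i : ℝ) / p + ((V s i).val : ℝ) / p)) (hB _).2
      rw [e1] at hS
      have hm : max U l + 1 ≤ R := by
        rw [← max_add_add_right]
        exact max_le h8 h8'
      have hS' := hS.perturb (y' := y + (Sum.elim (fun _ => 0) fun i => l * ((V s i).val / p)) -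
        blkA D η l a *ᵥ ci (Sum.elim (fun _ => j₀) fun _ => 0)) (δ := δ) (e := ε) ?_ ?_ hε.le
      · have h1 := hS'.translate (Sum.elim (fun _ => j₀) fun _ => 0)
        rw [sub_add_cancel] at h1
        refine h1.mono (by linarith) ?_ le_rfl
        exact (div_le_iff₀ (Nat.cast_pos.2 Fintype.card_pos)).2 h12
      · intro i
        rw [block_mulVec]
        rcases i with i | i
        · have b1 := Int.floor_le (y (Sum.inl ()) / η)
          have b2 := Int.lt_floor_add_one (y (Sum.inl ()) / η)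
          rw [← hj₀] at b1 b2
          rw [le_div_iff₀ hη0] at b1
          rw [div_lt_iff₀ hη0] at b2
          simp only [Pi.add_apply, Pi.sub_apply, Sum.elim_inl]
          rw [abs_le]
          constructor <;> linarith
        · have b1 := Int.floor_le ((y (Sum.inr i) / l - rep (a i) * j₀ - rep (o i)) * p)
          have b2 := Int.lt_floor_add_one ((y (Sum.inr i) / l - rep (a i) * j₀ - rep (o i)) * p)
          rw [← congrFun hk i] at b1 b2
          simp only [Pi.add_apply, Pi.sub_apply, Sum.elim_inl, Sum.elim_inr, Int.cast_zero]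
          have b3 : y (Sum.inr i) + l * (((V s i).val : ℝ) / p) - l * (rep (a i) * j₀ + 0) -
              l * (rep (o i) + ((k i : ℝ) / p + ((V s i).val : ℝ) / p)) =
              δ * ((y (Sum.inr i) / l - rep (a i) * j₀ - rep (o i)) * p - k i) := by
            rw [hδ]
            field_simp
            ring
          rw [b3, abs_of_nonneg (mul_nonneg hδ0.le (by linarith))]
          exact mul_le_of_le_one_right hδ0.le (by linarith)
      · rw [Fintype.card_sum, Fintype.card_unit, Fintype.card_fin]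
        push_cast
        have b1 : max U l * δ + δ ^ 2 / 2 ≤ R * δ := by nlinarith
        nlinarith [mul_pos (show 0 < R by linarith) hδ0]
    · rw [← Finset.mul_sum, ← Finset.mul_sum, Fintype.card_fun, ZMod.card, Fintype.card_fin,
        Nat.cast_pow]
      have b1 : 1 - ε ≤ 1 - r₂ / (p : ℝ) := by
        have := (div_le_iff₀ hp).2 h11
        linarith
      have b2 := hV fun i => (k i : ZMod p)
      have b3 : (1 - ε) * (1 - 5 * ε - ε) * (p : ℝ) ^ (r₁ + r₂) ≤ _ :=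
        le_trans (mul_le_mul_of_nonneg_right (mul_le_mul_of_nonneg_right b1 (by linarith))
          (by positivity)) b2
      have b4 : 1 - 9 * ε ≤ (1 - ε) * ((1 - ε) * ((1 - ε) * (1 - 5 * ε - ε))) := by
        nlinarith [mul_pos hε hε, mul_pos hε (mul_pos hε hε)]
      calc (1 - 9 * ε) * (p : ℝ) ^ (r₁ + r₂)
          ≤ (1 - ε) * ((1 - ε) * ((1 - ε) * (1 - 5 * ε - ε))) * (p : ℝ) ^ (r₁ + r₂) :=
            mul_le_mul_of_nonneg_right b4 (by positivity)
        _ = (1 - ε) * ((1 - ε) * ((1 - ε) * (1 - 5 * ε - ε) * (p : ℝ) ^ (r₁ + r₂))) := by ring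
        _ ≤ _ := mul_le_mul (by linarith) (mul_le_mul_of_nonneg_left b3 (by linarith))
            (mul_nonneg (by linarith) (mul_nonneg (mul_nonneg (by linarith) (by linarith))
              (by positivity))) (Real.exp_pos _).le

end Crest.Agent.R225
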