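import Crest.Agent.R225.Block

/-!
# Row 225: BlockEv
Parameters of the blocks.

`block_ev`: `block_core` with `D = x^16`, `l = √(48 log x)` (so `exp (-l²/2) = x^(-24)`, `exp (-l²/8) = x^(-6)`), `U = x - 1`,
`R = x`, `ε = 1/x²`, `Δ = 7 x^9`, a prime `x^20 < p ≤ 2 x^20` (`Nat.exists_prime_lt_and_le_two_mul`), `r₂ = x`, `r₁` least with
`h9`.  With `B x = 4 (x-1) x² exp (14 x^9)` the size `N x = p^(r₁ + r₂)` satisfies `(B x)² ≤ N x ≤ exp (30 x^9)` eventually.
All hypotheses hold for large `x` (`l → ∞`, `l / x → 0`, `l ≥ e^9` eventually).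
-/

set_option autoImplicit false

open MeasureTheory ProbabilityTheory Matrix Filter Topology
open scoped ENNReal RealInnerProductSpace

noncomputable section

namespace Crest.Agent.R225

theorem blockEv_pow_le (c k : ℕ) {x : ℝ} (hx : 1 ≤ x) :
    (c : ℝ) * x ^ k ≤ Real.exp ((c + k) * x) := by
  have h1 : ∀ t : ℝ, t ≤ Real.exp t := fun t => by linarith [Real.add_one_le_exp t]
  rw [add_mul, Real.exp_add, Real.exp_nat_mul x k]
  refine mul_le_mul ((h1 c).trans (Real.exp_le_exp.2 ?_))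
    (pow_le_pow_left₀ (by linarith) (h1 x) k) (by positivity) (by positivity)
  exact le_mul_of_one_le_right (Nat.cast_nonneg c) hx

theorem blockEv_params (x : ℕ) : ∃ p r : ℕ, 2 ≤ x → p.Prime ∧ x ^ 20 < p ∧ p ≤ 2 * x ^ 20 ∧
    Real.exp (29 * (x : ℝ) ^ 9) ≤ (p : ℝ) ^ r ∧ (p : ℝ) ^ (r + x) ≤ Real.exp (30 * (x : ℝ) ^ 9) := by
  by_cases hx : 2 ≤ x
  swap
  · exact ⟨0, 0, fun h => absurd h hx⟩
  obtain ⟨p, hp, h1, h2⟩ := Nat.exists_prime_lt_and_le_two_mul (x ^ 20) (by positivity)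
  have hp1 : (1 : ℝ) < p := by exact_mod_cast hp.one_lt
  have hx2 : (2 : ℝ) ≤ x := by exact_mod_cast hx
  obtain ⟨n, h3, h4⟩ := exists_nat_pow_near
    (Real.one_le_exp (by positivity : 0 ≤ 29 * (x : ℝ) ^ 9)) hp1
  refine ⟨p, n + 1, fun _ => ⟨hp, h1, h2, h4.le, ?_⟩⟩
  have h5 : (p : ℝ) ≤ Real.exp (22 * x) := by
    have h6 : (p : ℝ) ≤ 2 * (x : ℝ) ^ 20 := by exact_mod_cast h2
    have := blockEv_pow_le 2 20 (by linarith : (1 : ℝ) ≤ x)
    norm_num at this
    linarith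
  have h6 : ((x + 1 : ℕ) : ℝ) * (22 * x) ≤ (x : ℝ) ^ 9 := by
    have h7 : (2 : ℝ) ^ 7 ≤ (x : ℝ) ^ 7 := pow_le_pow_left₀ (by norm_num) hx2 7
    have h8 : (x : ℝ) ^ 9 = x ^ 7 * (x * x) := by ring
    push_cast
    rw [h8]
    nlinarith [mul_le_mul_of_nonneg_right h7 (by positivity : (0 : ℝ) ≤ x * x)]
  calc (p : ℝ) ^ (n + 1 + x) = p ^ n * p ^ (x + 1) := by ring
    _ ≤ Real.exp (29 * (x : ℝ) ^ 9) * Real.exp (22 * x) ^ (x + 1) :=
        mul_le_mul h3 (pow_le_pow_left₀ (by positivity) h5 _) (by positivity) (by positivity)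
    _ ≤ _ := by
        rw [← Real.exp_nat_mul, ← Real.exp_add]
        exact Real.exp_le_exp.2 (by linarith)

theorem block_ev : ∃ N : ℕ → ℕ, ∀ᶠ x : ℕ in atTop,
    ∃ (G : Type) (_ : AddCommGroup G) (_ : Fintype G) (_ : DecidableEq G), Fintype.card G = N x ∧
      ∀ (G' : Type) [AddCommGroup G'] [Fintype G'] [DecidableEq G'], Fintype.card G' = N (x + 1) →
        ∃ (A : Matrix (Unit ⊕ Fin (x ^ 16)) (Unit ⊕ Fin (x ^ 16)) ℝ)
          (sh : G → Unit ⊕ Fin (x ^ 16) → ℝ) (h : (Unit ⊕ Fin (x ^ 16) → ℤ) →+ G'),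
          Blk A sh h x (Real.exp (-x)) (9 / (x : ℝ) ^ 2) := by
  choose p r hpr using blockEv_params
  refine ⟨fun x => p x ^ (r x + x), ?_⟩
  have e1 : ∀ᶠ x : ℕ in atTop, Real.exp 18 ≤ Real.log x :=
    (Real.tendsto_log_atTop.comp tendsto_natCast_atTop_atTop).eventually_ge_atTop _
  have e2 : ∀ᶠ x : ℕ in atTop, (x : ℝ) ^ 18 / 2 ^ x < 1 :=
    (tendsto_pow_const_div_const_pow_of_one_lt 18 one_lt_two).eventually (gt_mem_nhds one_pos)
  filter_upwards [e1, e2, eventually_ge_atTop (48 * 10 ^ 12)] with x h1 h2 h3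
  obtain ⟨hp, hp1, hp2, hp3, -⟩ := hpr x (by omega)
  obtain ⟨hq, -, -, hq3, hq4⟩ := hpr (x + 1) (by omega)
  have := Fact.mk hp
  refine ⟨Fin (r x + x) → ZMod (p x), inferInstance, inferInstance, inferInstance, by simp,
    fun G' _ _ _ hG' => ?_⟩
  have hX : (48 * 10 ^ 12 : ℝ) ≤ x := by exact_mod_cast h3
  have hX1 : (1 : ℝ) ≤ x := by linarith
  have hX0 : (0 : ℝ) < x := by linarith
  have hlog : 0 ≤ Real.log x := Real.log_nonneg hX1
  obtain ⟨l, hl⟩ : ∃ l, l = √(48 * Real.log x) := ⟨_, rfl⟩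
  have hl2 : l ^ 2 = 48 * Real.log x := by rw [hl, Real.sq_sqrt (by positivity)]
  have hl0 : 0 ≤ l := by rw [hl]; positivity
  have hl9 : Real.exp 9 ≤ l := by
    refine (pow_le_pow_iff_left₀ (n := 2) (by positivity) hl0 two_ne_zero).1 ?_
    rw [← Real.exp_nat_mul, hl2]
    norm_num
    linarith
  have hl10 : 10 ≤ l := by linarith [Real.add_one_le_exp 9]
  have hlx : 10 ^ 6 * l ≤ x := by
    refine (pow_le_pow_iff_left₀ (n := 2) (by positivity) hX0.le two_ne_zero).1 ?_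
    have := Real.log_le_self hX0.le
    rw [mul_pow, hl2]
    nlinarith
  have hexp : ∀ k : ℕ, Real.exp (-(k * Real.log x)) = ((x : ℝ) ^ k)⁻¹ := fun k => by
    rw [Real.exp_neg, Real.exp_nat_mul, Real.exp_log hX0]
  have hP1 : (x : ℝ) ^ 20 < p x := by exact_mod_cast hp1
  have hP2 : (p x : ℝ) ≤ 2 * (x : ℝ) ^ 20 := by exact_mod_cast hp2
  have hP0 : (0 : ℝ) < p x := lt_trans (by positivity) hP1
  have hpow : ∀ {a b : ℕ}, a ≤ b → (x : ℝ) ^ a ≤ x ^ b := fun h => pow_le_pow_right₀ hX1 h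
  have hpow' : ∀ (a : ℕ) {c : ℝ}, c ≤ 10 ^ 6 → c * (x : ℝ) ^ a ≤ x ^ (a + 1) := fun a c hc => by
    rw [pow_succ']
    exact mul_le_mul_of_nonneg_right (by linarith) (by positivity)
  have hcard : (Fintype.card G' : ℝ) = (p (x + 1) : ℝ) ^ (r (x + 1) + (x + 1)) := by
    rw [hG']
    push_cast
    rfl
  have hB : 4 * ((x : ℝ) - 1) * Real.exp (2 * (7 * (x : ℝ) ^ 9)) / (1 / (x : ℝ) ^ 2) ≤
      4 * (x : ℝ) ^ 3 * Real.exp (14 * (x : ℝ) ^ 9) := by
    rw [div_div_eq_mul_div, div_one, show 2 * (7 * (x : ℝ) ^ 9) = 14 * (x : ℝ) ^ 9 by ring]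
    have : 0 ≤ (x : ℝ) ^ 2 * Real.exp (14 * (x : ℝ) ^ 9) := by positivity
    nlinarith
  have hB0 : 0 ≤ 4 * ((x : ℝ) - 1) * Real.exp (2 * (7 * (x : ℝ) ^ 9)) / (1 / (x : ℝ) ^ 2) := by
    have : 0 ≤ (x : ℝ) - 1 := by linarith
    positivity
  have hx9 : 1000 * (x : ℝ) ≤ x ^ 9 := by
    have h4 := hpow' 1 (c := 1000) (by norm_num)
    have h5 := hpow (a := 1 + 1) (b := 9) (by norm_num)
    rw [pow_one] at h4
    linarith
  have key := block_core (x ^ 16) (p x) (r x) x G' (l := l) (U := x - 1) (Δ := 7 * (x : ℝ) ^ 9)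
    (ε := 1 / (x : ℝ) ^ 2) (R := x) (wm := Real.exp (-x)) (by linarith) (by positivity)
    (one_div_le_one_div_of_le (by norm_num) (by nlinarith)) (by positivity) (by linarith)
    (Nat.one_le_pow _ _ (by omega)) ?_ ?_ ?_ ?_ ?_ ?_ (by linarith) (by linarith) ?_ ?_ ?_ ?_
  · rwa [mul_one_div] at key
  · -- h2
    have e : -l ^ 2 / 2 = -((24 : ℕ) * Real.log x) := by rw [hl2]; push_cast; ring
    rw [e, hexp, ← div_eq_mul_inv, div_le_div_iff₀ (by positivity) (by positivity)]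
    have h4 := hpow' 18 (c := 2) (by norm_num)
    have h5 := hpow (a := 18 + 1) (b := 24) (by norm_num)
    push_cast
    calc 2 * (x : ℝ) ^ 16 * x ^ 2 = 2 * x ^ 18 := by ring
      _ ≤ _ := by linarith
  · -- h3
    have e : 1 / (x : ℝ) ^ 2 * (7 * (x : ℝ) ^ 9) ^ 2 = 49 * (x : ℝ) ^ 16 := by field_simp; norm_num
    rw [e]
    push_cast
    have : (0 : ℝ) ≤ x ^ 16 := by positivity
    linarith
  · -- h4
    have e : -l ^ 2 / 8 = -((6 : ℕ) * Real.log x) := by rw [hl2]; push_cast; ring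
    have e' : (1 / (x : ℝ) ^ 2) ^ 3 = Real.exp (-((6 : ℕ) * Real.log x)) := by
      rw [hexp]
      field_simp
    have h4 : (Fintype.card G' : ℝ) ^ 2 ≤ Real.exp (60 * ((x : ℝ) + 1) ^ 9) := by
      rw [hcard]
      refine (pow_le_pow_left₀ (by positivity) hq4 2).trans (le_of_eq ?_)
      rw [← Real.exp_nat_mul]
      push_cast
      ring_nf
    rw [e, e', hexp 6]
    nth_rewrite 2 [← hexp 6]
    refine (mul_le_mul_of_nonneg_right h4 (by positivity)).trans ?_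
    rw [← Real.exp_add]
    refine Real.exp_le_exp.2 ?_
    have h5 : 10 ^ 5 * (x : ℝ) ^ 9 ≤ ((x : ℝ) ^ 6)⁻¹ / (10 * l) * ((x ^ 16 : ℕ) : ℝ) := by
      have e'' : ((x : ℝ) ^ 6)⁻¹ / (10 * l) * ((x ^ 16 : ℕ) : ℝ) = x ^ 9 * x / (10 * l) := by
        push_cast
        field_simp
      rw [e'', le_div_iff₀ (by positivity)]
      have := mul_le_mul_of_nonneg_left hlx (by positivity : (0 : ℝ) ≤ x ^ 9)
      linarith
    have h6 : ((x : ℝ) + 1) ^ 9 ≤ (2 * x) ^ 9 := pow_le_pow_left₀ (by positivity) (by linarith) 9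
    have h7 := Real.log_le_self hX0.le
    rw [mul_pow] at h6
    push_cast at h5 ⊢
    linarith
  · -- h5
    have h4 := blockEv_pow_le 4 2 hX1
    have h5 : Real.exp (((4 : ℕ) + (2 : ℕ)) * (x : ℝ)) ≤ Real.exp (((x : ℝ) - 1) ^ 2 / 2) :=
      Real.exp_le_exp.2 (by push_cast; nlinarith)
    rw [neg_div, Real.exp_neg, ← div_eq_mul_inv, div_le_div_iff₀ (by positivity) (by positivity)]
    rw [one_mul]
    exact_mod_cast h4.trans h5
  · -- h6
    have h4 : Real.exp (9 * ((x ^ 16 : ℕ) : ℝ)) ≤ l ^ x ^ 16 := by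
      rw [mul_comm, Real.exp_nat_mul]
      exact pow_le_pow_left₀ (by positivity) hl9 _
    have h5 := blockEv_pow_le 8 23 hX1
    have h6 := hpow' 9 (c := 8) (by norm_num)
    have h7 := hpow (a := 9 + 1) (b := 16) (by norm_num)
    rw [div_le_div_iff₀ (by positivity) hP0]
    have h8 : 4 * ((x : ℝ) - 1) * p x * x ^ 2 ≤ 8 * (x : ℝ) ^ 23 := by
      calc 4 * ((x : ℝ) - 1) * p x * x ^ 2 ≤ 4 * x * (2 * (x : ℝ) ^ 20) * x ^ 2 :=
            mul_le_mul_of_nonneg_right (mul_le_mul (by linarith) hP2 hP0.le (by positivity))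
              (by positivity)
        _ = _ := by ring
    have h9 : 8 * (x : ℝ) ^ 23 * Real.exp (7 * ((x ^ 16 : ℕ) : ℝ) + 7 * (x : ℝ) ^ 9) ≤
        l ^ x ^ 16 := by
      refine le_trans ?_ h4
      refine (mul_le_mul_of_nonneg_right h5 (by positivity)).trans ?_
      rw [← Real.exp_add]
      refine Real.exp_le_exp.2 ?_
      push_cast
      linarith
    calc 4 * ((x : ℝ) - 1) * Real.exp (7 * ((x ^ 16 : ℕ) : ℝ) + 7 * (x : ℝ) ^ 9) * p x
        = 4 * ((x : ℝ) - 1) * p x * x ^ 2 *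
            Real.exp (7 * ((x ^ 16 : ℕ) : ℝ) + 7 * (x : ℝ) ^ 9) * (1 / (x : ℝ) ^ 2) := by
          field_simp
      _ ≤ l ^ x ^ 16 * (1 / (x : ℝ) ^ 2) :=
          mul_le_mul_of_nonneg_right ((mul_le_mul_of_nonneg_right h8 (by positivity)).trans h9)
            (by positivity)
      _ ≤ l * (1 / (x : ℝ) ^ 2 * l ^ x ^ 16) := by
          rw [mul_comm]
          exact le_mul_of_one_le_left (by positivity) (by linarith)
  · -- h7
    rw [← mul_div_assoc, div_le_div_iff₀ hP0 (by positivity)]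
    have h4 : (1 : ℝ) ≤ x ^ 16 := one_le_pow₀ hX1
    push_cast
    calc 2 * ((x : ℝ) ^ 16 + 1) * x * l * x ^ 2 = ((x : ℝ) ^ 16 + 1) * (2 * l) * x ^ 3 := by ring
      _ ≤ (2 * (x : ℝ) ^ 16) * (x / 2) * x ^ 3 :=
          mul_le_mul_of_nonneg_right (mul_le_mul (by linarith) (by linarith) (by positivity)
            (by positivity)) (by positivity)
      _ = x ^ 20 := by ring
      _ ≤ _ := by linarith
  · -- h9
    have h4 := blockEv_pow_le 128 50 hX1
    rw [_root_.one_div_pow, one_div_mul_eq_div, le_div_iff₀ (by positivity)]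
    refine le_trans ?_ hp3
    calc _ ≤ 2 * (2 * (x : ℝ) ^ 20) ^ 2 * (4 * (x : ℝ) ^ 3 * Real.exp (14 * (x : ℝ) ^ 9)) ^ 2 *
          ((x : ℝ) ^ 2) ^ 2 := by gcongr
      _ = 128 * (x : ℝ) ^ 50 * Real.exp (14 * (x : ℝ) ^ 9) ^ 2 := by ring
      _ ≤ _ := by
          refine (mul_le_mul_of_nonneg_right h4 (by positivity)).trans ?_
          rw [← Real.exp_nat_mul, ← Real.exp_add]
          refine Real.exp_le_exp.2 ?_
          push_cast
          linarith
  · -- h10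
    have h4 : x ^ 18 < 2 ^ x := by
      rw [div_lt_one (by positivity)] at h2
      exact_mod_cast h2
    have h5 : p x ≤ 2 ^ (1 + x * 20) := by
      rw [pow_add, pow_mul, pow_one]
      exact hp2.trans (Nat.mul_le_mul_left _ (Nat.pow_le_pow_left Nat.lt_two_pow_self.le _))
    refine (Nat.pow_le_pow_left h5 _).trans_lt ?_
    rw [← pow_mul]
    refine Nat.pow_lt_pow_right one_lt_two (lt_of_le_of_lt ?_ h4)
    rw [show x ^ 18 = x * x * x ^ 16 by ring]
    exact Nat.mul_le_mul_right _ (by nlinarith)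
  · -- h11
    rw [one_div_mul_eq_div, le_div_iff₀ (by positivity)]
    have := hpow (a := 3) (b := 20) (by norm_num)
    calc (x : ℝ) * x ^ 2 = x ^ 3 := by ring
      _ ≤ _ := by linarith
  · -- h12
    have h4 := blockEv_pow_le 8 3 hX1
    have h5 : Real.exp (29 * (x : ℝ) ^ 9) ≤ Fintype.card G' := by
      have hq1 : (1 : ℝ) ≤ p (x + 1) := by exact_mod_cast hq.one_le
      rw [hcard]
      refine le_trans (Real.exp_le_exp.2 ?_) (hq3.trans (pow_le_pow_right₀ hq1 (by omega)))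
      push_cast
      exact mul_le_mul_of_nonneg_left (pow_le_pow_left₀ hX0.le (by linarith) 9) (by norm_num)
    refine le_trans ?_ (mul_le_mul_of_nonneg_left h5 (by positivity))
    calc _ ≤ 8 * (x : ℝ) ^ 3 * Real.exp (14 * (x : ℝ) ^ 9) := by linarith
      _ ≤ _ := by
          refine (mul_le_mul_of_nonneg_right h4 (by positivity)).trans ?_
          rw [← Real.exp_add, ← Real.exp_add]
          refine Real.exp_le_exp.2 ?_
          push_cast
          linarith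

end Crest.Agent.R225
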