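import Crest.Agent.R225.Level1

/-!
# Row 225: BodyVol
The random body.  `body_vol`: `∑ ω, bw p ω * vol (body ω) = ∫ z in closedBall 0 1, Pb p (z ∈ body ω)` and `Pb p (z ∈ body ω) = exp (-(∑ q ∈ C z, ν q)/Qt L) ≥ exp (-40)`,
`C z = {q | L < |⟪pts q, z⟫|}` (`Pb_not_hit_pq`, `Disc.upper` with `{g | L - 1/L < |⟪g, z⟫|}`, `gauss_inner_gt` for `z` and `-z`, `Qt_sub_le`); `Pb_ge_of_mean`.
-/

set_option autoImplicit false

open MeasureTheory ProbabilityTheory Matrix Filter Topology
open scoped ENNReal RealInnerProductSpace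

noncomputable section

namespace Crest.Agent.R225

variable {n : ℕ} {I : Type} [Fintype I] [DecidableEq I] {pts : I → Eu n} {ν : I → ℝ} {L : ℝ}

omit [Fintype I] [DecidableEq I] in
theorem BodyVol_subset (pts : I → Eu n) (L : ℝ) (ω : I → Bool) :
    body pts L ω ⊆ Metric.closedBall (0 : Eu n) 1 := fun z hz => by
  simpa using hz.1

omit [Fintype I] [DecidableEq I] in
theorem isCompact_body (pts : I → Eu n) (L : ℝ) (ω : I → Bool) : IsCompact (body pts L ω) := by
  refine (isCompact_closedBall (0 : Eu n) 1).of_isClosed_subset ?_ (BodyVol_subset pts L ω)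
  have : body pts L ω = {z | ‖z‖ ≤ 1} ∩ ⋂ q, ⋂ _ : ω q = true, {z | |⟪pts q, z⟫| ≤ L} := by
    ext z
    simp [body]
  rw [this]
  refine (isClosed_le continuous_norm continuous_const).inter
    (isClosed_iInter fun q => isClosed_iInter fun _ => isClosed_le ?_ continuous_const)
  fun_prop

omit [Fintype I] [DecidableEq I] in
theorem convex_body (pts : I → Eu n) (L : ℝ) (ω : I → Bool) : Convex ℝ (body pts L ω) := by
  intro x hx y hy a b ha hb hab
  refine ⟨?_, fun q hq => ?_⟩
  · have := convex_closedBall (0 : Eu n) 1 (BodyVol_subset pts L ω hx) (BodyVol_subset pts L ω hy)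
      ha hb hab
    simpa using this
  · rw [inner_add_right, inner_smul_right, inner_smul_right]
    have h1 := hx.2 q hq
    have h2 := hy.2 q hq
    calc |a * ⟪pts q, x⟫ + b * ⟪pts q, y⟫| ≤ |a * ⟪pts q, x⟫| + |b * ⟪pts q, y⟫| := abs_add_le _ _
      _ = a * |⟪pts q, x⟫| + b * |⟪pts q, y⟫| := by
          rw [abs_mul, abs_mul, abs_of_nonneg ha, abs_of_nonneg hb]
      _ ≤ a * L + b * L := by gcongr
      _ = L := by rw [← add_mul, hab, one_mul]

omit [Fintype I] [DecidableEq I] in
theorem neg_mem_body {ω : I → Bool} {z : Eu n} (h : z ∈ body pts L ω) : -z ∈ body pts L ω := by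
  refine ⟨by simpa using h.1, fun q hq => ?_⟩
  rw [inner_neg_right, abs_neg]
  exact h.2 q hq

theorem BodyVol_point {h : ℝ} (hD : Disc n h pts ν) (hL : 2 ≤ L) (hh : L * h ≤ 1) {z : Eu n}
    (hz : ‖z‖ ≤ 1) : Real.exp (-40) ≤ Pb (pq L ν) fun ω => z ∈ body pts L ω := by
  classical
  have hL0 : 0 < L := by linarith
  set C : Finset I := Finset.univ.filter fun q => L < |⟪pts q, z⟫| with hC
  have e : Pb (pq L ν) (fun ω => z ∈ body pts L ω) = Pb (pq L ν) fun ω => ¬Hit C ω := by
    refine Bern_Pb_congr _ fun ω => ?_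
    simp only [body, Set.mem_ofPred_eq, hz, true_and, Hit, hC, Finset.mem_filter, Finset.mem_univ,
      not_exists, not_and]
    constructor
    · intro H q hq hω
      exact absurd (H q hω) (not_le.mpr hq)
    · intro H q hω
      by_contra hlt
      exact H q (not_le.mp hlt) hω
  rw [e, Pb_not_hit_pq, Real.exp_le_exp, neg_le_neg_iff, div_le_iff₀ (Qt_pos L)]
  have ht : 0 ≤ L - 1 / L := by
    have : 1 / L ≤ 1 / 2 := one_div_le_one_div_of_le (by norm_num) hL
    linarith
  set S₁ : Set (Eu n) := {g | L - 1 / L < ⟪g, z⟫} with hS₁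
  set S₂ : Set (Eu n) := {g | L - 1 / L < ⟪g, -z⟫} with hS₂
  have hm₁ : MeasurableSet S₁ := (isOpen_lt continuous_const (by fun_prop)).measurableSet
  have hm₂ : MeasurableSet S₂ := (isOpen_lt continuous_const (by fun_prop)).measurableSet
  have hup := hD.upper (S₁ ∪ S₂) C (hm₁.union hm₂) fun q hq g hg => by
    have hq' : L < |⟪pts q, z⟫| := (Finset.mem_filter.mp hq).2
    have hh' : h ≤ 1 / L := by
      rw [le_div_iff₀ hL0]
      linarith
    have h1 : |⟪pts q - g, z⟫| ≤ 1 / L :=
      calc |⟪pts q - g, z⟫| ≤ ‖pts q - g‖ * ‖z‖ := abs_real_inner_le_norm _ _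
        _ ≤ ‖pts q - g‖ * 1 := mul_le_mul_of_nonneg_left hz (norm_nonneg _)
        _ ≤ 1 / L := by linarith
    rw [inner_sub_left, abs_le] at h1
    simp only [hS₁, hS₂, Set.mem_union, Set.mem_ofPred_eq, inner_neg_right]
    rcases lt_abs.mp hq' with h2 | h2
    · left
      linarith [h1.2]
    · right
      linarith [h1.1]
  have g1 := gauss_inner_gt (z := z) ht one_pos hz
  have g2 := gauss_inner_gt (z := -z) ht one_pos (by simpa using hz)
  rw [div_one] at g1 g2
  have g3 := Qt_sub_le hL
  have g4 : (stdGaussian (Eu n)).real (S₁ ∪ S₂) ≤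
      (stdGaussian (Eu n)).real S₁ + (stdGaussian (Eu n)).real S₂ := measureReal_union_le _ _
  linarith

theorem body_vol {h : ℝ} (hD : Disc n h pts ν) (hL : 2 ≤ L) (hh : L * h ≤ 1) :
    Real.exp (-40) / 2 ≤ Pb (pq L ν) fun ω =>
      Real.exp (-40) * volume.real (Metric.closedBall (0 : Eu n) 1) / 2 ≤
        volume.real (body pts L ω) := by
  classical
  set B := Metric.closedBall (0 : Eu n) 1 with hB
  have hBfin : volume B ≠ ⊤ := (isCompact_closedBall _ _).measure_lt_top.ne
  have hBpos : 0 < volume.real B :=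
    ENNReal.toReal_pos (Metric.measure_closedBall_pos _ _ one_pos).ne' hBfin
  have hp := pq_mem hD.nonneg L
  have hmeas : ∀ ω, MeasurableSet (body pts L ω) := fun ω => (isCompact_body pts L ω).measurableSet
  have hint : ∀ ω, IntegrableOn (fun z => bw (pq L ν) ω * (body pts L ω).indicator (1 : Eu n → ℝ) z)
      B volume := fun ω => by
    have h1 : IntegrableOn (1 : Eu n → ℝ) B volume := integrableOn_const hBfin
    exact (Integrable.indicator h1 (hmeas ω)).const_mul _
  have h1 : ∀ ω, bw (pq L ν) ω * volume.real (body pts L ω) =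
      ∫ z in B, bw (pq L ν) ω * (body pts L ω).indicator (1 : Eu n → ℝ) z := by
    intro ω
    rw [integral_const_mul, integral_indicator_one (hmeas ω), measureReal_restrict_apply (hmeas ω),
      Set.inter_eq_left.mpr (BodyVol_subset pts L ω)]
  have key : Real.exp (-40) * volume.real B ≤ ∑ ω, bw (pq L ν) ω * volume.real (body pts L ω) := by
    simp only [h1]
    rw [← integral_finsetSum _ fun ω _ => hint ω]
    have h2 : ∫ _z in B, Real.exp (-40) = Real.exp (-40) * volume.real B := by
      simp [mul_comm]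
    rw [← h2]
    refine setIntegral_mono_on (integrableOn_const hBfin) (integrable_finsetSum _ fun ω _ => hint ω)
      Metric.isClosed_closedBall.measurableSet fun z hz => ?_
    refine (BodyVol_point hD hL hh (by simpa [hB] using hz)).trans (le_of_eq ?_)
    unfold Pb
    refine Finset.sum_congr rfl fun ω _ => ?_
    by_cases hω : z ∈ body pts L ω <;> simp [hω]
  have := Pb_ge_of_mean hp (fun ω => volume.real (body pts L ω)) hBpos (by positivity)
    (fun ω => measureReal_mono (BodyVol_subset pts L ω) hBfin) key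
  refine le_trans (le_of_eq ?_) this
  field_simp

end Crest.Agent.R225
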