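import Crest.Agent.R225.Indep

/-!
# Row 225: Bonf
Bonferroni over independent tuples.  Let `O ω = {z ∈ Z | ev z ω ∈ S z}`, `p z = vol (S z)`,
`Ψ ω = ∑ T ⊆ O ω, |T| ≤ 2s, T independent, (-1)^|T|` and `W ω = ∑ j ≤ 4s, 2^j #{admissible tuples in O ω}`.
Pointwise `1[O = ∅] ≤ Ψ + W`: if all subsets of `O` of size `≤ 2s` are independent, `Ψ = ∑ k ≤ 2s, (-1)^k C(|O|,k) ≥ 1[O=∅]`
(`Int.alternating_sum_range_choose_eq_choose`).  Otherwise fix a dependent `Cc ⊆ O`, `|Cc| ≤ 2s`; for independent `T ⊆ O`, `|T| ≤ 2s` take a maximal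
independent `T'` with `T ⊆ T' ⊆ T ∪ Cc` and `z ∈ (T ∪ Cc) \ T'` (in the span of `T'`); at most `2^|T'|` sets `T` give the same `(T', z)`, and
`(T', z)` is the image of an admissible tuple; so `|Ψ| ≤ W`.
`E Ψ = ∑ T indep, (-1)^|T| ∏ p` (`prob_indepOn`) `≤ ∑ |T| ≤ 2s, (-1)^|T| ∏ p + Dep`,
`∑ |T| ≤ 2s, (-1)^|T| ∏ p ≤ ∏ (1-p) + ∑ |T| > 2s, ∏ p ≤ e^(-V) + e^(-2s) ∏ (1 + e p) ≤ e^(-V) + e^(3V - 2s)`
(`Finset.prod_one_sub`/`Finset.prod_add`), and a dependent `T` is `T' ∪ T''` with `T'` independent (`|T'| ≤ 2s`), `∅ ≠ T'' ⊆ span T'`, whence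
`Dep ≤ ∑ T', ∏ p * (∏ z ∈ Z ∩ span T', (1 + p z) - 1) ≤ e^V (e^κ₀ - 1)`.
-/

set_option autoImplicit false

open MeasureTheory ProbabilityTheory Matrix Filter Topology
open scoped ENNReal RealInnerProductSpace

noncomputable section

namespace Crest.Agent.R225

section BonfAux

open Finset

variable {α : Type} [DecidableEq α]

theorem Bonf_alt (O : Finset α) (s : ℕ) :
    (if O = ∅ then 1 else 0 : ℝ) ≤ ∑ T ∈ O.powerset.filter (fun T => T.card ≤ 2 * s), (-1) ^ T.card := by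
  have h1 : ∑ T ∈ O.powerset.filter (fun T => T.card ≤ 2 * s), (-1 : ℝ) ^ T.card
      = ∑ k ∈ range (2 * s + 1), (-1) ^ k * (O.card.choose k : ℝ) := by
    rw [← sum_fiberwise_of_maps_to (g := Finset.card) (t := range (2 * s + 1))
      fun T hT => mem_range.2 (Nat.lt_succ_of_le (mem_filter.1 hT).2)]
    refine sum_congr rfl fun k hk => ?_
    have : (O.powerset.filter fun T => T.card ≤ 2 * s).filter (fun T => T.card = k)
        = O.powersetCard k := by
      ext T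
      have := mem_range.1 hk
      simp only [mem_filter, mem_powerset, mem_powersetCard]
      constructor
      · exact fun h => ⟨h.1.1, h.2⟩
      · exact fun h => ⟨⟨h.1, by omega⟩, h.2⟩
    rw [this, sum_congr rfl (g := fun _ => (-1 : ℝ) ^ k) fun T hT => by
      rw [(mem_powersetCard.1 hT).2], sum_const, card_powersetCard, nsmul_eq_mul, mul_comm]
  split_ifs with hO
  · subst hO
    simp [filter_singleton]
  · obtain ⟨n, hn⟩ : ∃ n, O.card = n + 1 :=
      Nat.exists_eq_succ_of_ne_zero (card_ne_zero.2 (nonempty_iff_ne_empty.2 hO))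
    have h2 := Int.alternating_sum_range_choose_eq_choose (n := n) (m := 2 * s)
    have h3 : (∑ k ∈ range (2 * s + 1), (-1) ^ k * ((n + 1).choose k : ℝ))
        = (-1) ^ (2 * s) * (n.choose (2 * s) : ℝ) := by exact_mod_cast h2
    rw [h1, hn, h3, pow_mul]
    simp

theorem Bonf_trunc (Z : Finset α) {p : α → ℝ} (h0 : ∀ z, 0 ≤ p z) (h1 : ∀ z, p z ≤ 1) (s : ℕ) :
    ∑ T ∈ Z.powerset.filter (fun T => T.card ≤ 2 * s), (-1) ^ T.card * ∏ z ∈ T, p z ≤
      Real.exp (-∑ z ∈ Z, p z) + Real.exp (3 * ∑ z ∈ Z, p z - 2 * s) := by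
  have e1 : ∏ z ∈ Z, (1 + -p z) = ∑ T ∈ Z.powerset, (-1) ^ T.card * ∏ z ∈ T, p z := by
    rw [prod_one_add]
    exact sum_congr rfl fun T _ => prod_neg _
  have e2 : ∏ z ∈ Z, (1 + -p z) ≤ Real.exp (-∑ z ∈ Z, p z) := by
    rw [← sum_neg_distrib, Real.exp_sum]
    exact prod_le_prod (fun z _ => by linarith [h1 z]) fun z _ => by
      linarith [Real.add_one_le_exp (-p z)]
  have e3 : -∑ T ∈ Z.powerset.filter (fun T => ¬ T.card ≤ 2 * s), (-1) ^ T.card * ∏ z ∈ T, p z
      ≤ ∑ T ∈ Z.powerset, Real.exp (-(2 * s)) * ∏ z ∈ T, (Real.exp 1 * p z) := by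
    rw [← sum_neg_distrib]
    refine le_trans (sum_le_sum fun T hT => ?_)
      (sum_le_sum_of_subset_of_nonneg (filter_subset (fun T : Finset α => ¬ T.card ≤ 2 * s) _) fun T _ _ =>
        mul_nonneg (Real.exp_pos _).le (prod_nonneg fun z _ => mul_nonneg (Real.exp_pos _).le (h0 z)))
    have hp : 0 ≤ ∏ z ∈ T, p z := prod_nonneg fun z _ => h0 z
    rw [prod_mul_distrib, prod_const, ← mul_assoc, ← neg_mul]
    refine mul_le_mul_of_nonneg_right ?_ hp
    have h2 : -(-1 : ℝ) ^ T.card ≤ 1 := by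
      rcases neg_one_pow_eq_or ℝ T.card with h | h <;> rw [h] <;> norm_num
    refine h2.trans ?_
    rw [← Real.exp_nat_mul, ← Real.exp_add]
    refine Real.one_le_exp ?_
    have h3 : 2 * s ≤ T.card := (not_le.1 (mem_filter.1 hT).2).le
    have h4 : (2 * s : ℝ) ≤ T.card := by exact_mod_cast h3
    linarith
  have e4 : ∑ T ∈ Z.powerset, Real.exp (-(2 * s)) * ∏ z ∈ T, (Real.exp 1 * p z)
      ≤ Real.exp (3 * ∑ z ∈ Z, p z - 2 * s) := by
    rw [← mul_sum, ← prod_one_add, sub_eq_neg_add, Real.exp_add]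
    refine mul_le_mul_of_nonneg_left ((Real.prod_one_add_le_exp_sum Z
      fun z => mul_nonneg (Real.exp_pos _).le (h0 z)).trans ?_) (Real.exp_pos _).le
    rw [← mul_sum]
    exact Real.exp_le_exp.2 (mul_le_mul_of_nonneg_right
      (Real.exp_one_lt_d9.le.trans (by norm_num)) (sum_nonneg fun z _ => h0 z))
  have e5 := sum_filter_add_sum_filter_not Z.powerset (fun T => T.card ≤ 2 * s)
    fun T => (-1) ^ T.card * ∏ z ∈ T, p z
  linarith

variable {V : Type} [AddCommGroup V] [Module ℚ V] (v : α → V)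

omit [DecidableEq α] in
theorem Bonf_ext {T U : Finset α} (hT : LinearIndepOn ℚ v (T : Set α)) (hTU : T ⊆ U) :
    ∃ T' ⊆ U, T ⊆ T' ∧ LinearIndepOn ℚ v (T' : Set α) ∧
      ∀ z ∈ U, v z ∈ Submodule.span ℚ (v '' (T' : Set α)) := by
  classical
  obtain ⟨b, h1, h2, h3, h4⟩ := exists_linearIndepOn_extension hT (coe_subset.2 hTU)
  have e : ((U.filter (· ∈ b) : Finset α) : Set α) = b := by
    ext z
    simp only [coe_filter, Set.mem_ofPred_eq]
    exact ⟨fun h => h.2, fun h => ⟨h1 h, h⟩⟩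
  refine ⟨U.filter (· ∈ b), filter_subset _ _, fun z hz => mem_filter.2 ⟨hTU hz, h2 hz⟩, ?_, ?_⟩
  · rw [e]; exact h4
  · intro z hz
    rw [e]; exact h3 ⟨z, hz, rfl⟩

open Classical in
/-- small independent subsets -/
def BonfF (Z : Finset α) (s : ℕ) : Finset (Finset α) :=
  (Z.powerset.filter fun T => T.card ≤ 2 * s).filter fun T => LinearIndepOn ℚ v (T : Set α)

open Classical in
/-- independent subsets with one more point in the span -/
def BonfP (Z : Finset α) (s : ℕ) : Finset (Finset α × α) :=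
  (Z.powerset ×ˢ Z).filter fun x => x.1.card ≤ 4 * s ∧ LinearIndepOn ℚ v (x.1 : Set α) ∧
    v x.2 ∈ Submodule.span ℚ (v '' (x.1 : Set α)) ∧ x.2 ∉ x.1

theorem Bonf_point (O : Finset α) (s : ℕ) :
    (if O = ∅ then 1 else 0 : ℝ) ≤
      ∑ T ∈ BonfF v O s, (-1) ^ T.card + ∑ x ∈ BonfP v O s, 2 ^ x.1.card := by
  classical
  by_cases h : ∀ T ⊆ O, T.card ≤ 2 * s → LinearIndepOn ℚ v (T : Set α)
  · have e : BonfF v O s = O.powerset.filter fun T => T.card ≤ 2 * s :=
      filter_true_of_mem fun T hT =>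
        h T (mem_powerset.1 (mem_filter.1 hT).1) (mem_filter.1 hT).2
    rw [e]
    exact (Bonf_alt O s).trans (le_add_of_nonneg_right (sum_nonneg fun _ _ => by positivity))
  · push Not at h
    obtain ⟨C, hC, hC1, hC2⟩ := h
    have hO : O ≠ ∅ := by
      rintro rfl
      rw [subset_empty.1 hC] at hC2
      exact hC2 (by simp)
    rw [if_neg hO]
    have h1 : BonfF v O s ⊆ (BonfP v O s).biUnion fun x => x.1.powerset := by
      intro T hT
      obtain ⟨hT1, hT2⟩ := mem_filter.1 hT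
      obtain ⟨hT0, hT1⟩ := mem_filter.1 hT1
      obtain ⟨T', a1, a2, a3, a4⟩ := Bonf_ext v hT2 (subset_union_left (s₂ := C))
      obtain ⟨z, hz, hz'⟩ : ∃ z ∈ C, z ∉ T' := by
        by_contra hc
        push Not at hc
        exact hC2 (a3.mono fun z hz => hc z hz)
      refine mem_biUnion.2 ⟨(T', z), mem_filter.2 ⟨mem_product.2
        ⟨mem_powerset.2 (a1.trans (union_subset (mem_powerset.1 hT0) hC)), hC hz⟩, ?_, a3,
        a4 z (mem_union_right _ hz), hz'⟩, mem_powerset.2 a2⟩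
      have := (card_le_card a1).trans (card_union_le T C)
      simp only
      omega
    have h2 : (BonfF v O s).card ≤ ∑ x ∈ BonfP v O s, 2 ^ x.1.card := by
      refine ((card_le_card h1).trans card_biUnion_le).trans (le_of_eq ?_)
      exact sum_congr rfl fun x _ => card_powerset _
    have h3 : ((BonfF v O s).card : ℝ) ≤ ∑ x ∈ BonfP v O s, 2 ^ x.1.card := by exact_mod_cast h2
    have h4 : ∑ T ∈ BonfF v O s, (-1 : ℝ) ≤ ∑ T ∈ BonfF v O s, (-1) ^ T.card :=
      sum_le_sum fun T _ => by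
        rcases neg_one_pow_eq_or ℝ T.card with h | h <;> rw [h] <;> norm_num
    rw [sum_const, nsmul_eq_mul] at h4
    linarith

theorem Bonf_point' {O Z : Finset α} (hO : O ⊆ Z) (s : ℕ) :
    (if O = ∅ then 1 else 0 : ℝ) ≤
      ∑ T ∈ BonfF v Z s, (-1) ^ T.card * (if T ⊆ O then 1 else 0) +
        ∑ x ∈ BonfP v Z s, 2 ^ x.1.card * (if x.1 ⊆ O ∧ x.2 ∈ O then 1 else 0) := by
  classical
  have e1 : BonfF v O s = (BonfF v Z s).filter (· ⊆ O) := by
    ext T
    simp only [BonfF, mem_filter, mem_powerset]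
    exact ⟨fun h => ⟨⟨⟨h.1.1.trans hO, h.1.2⟩, h.2⟩, h.1.1⟩, fun h => ⟨⟨h.2, h.1.1.2⟩, h.1.2⟩⟩
  have e2 : BonfP v O s = (BonfP v Z s).filter fun x => x.1 ⊆ O ∧ x.2 ∈ O := by
    ext x
    simp only [BonfP, mem_filter, mem_powerset, mem_product]
    exact ⟨fun h => ⟨⟨⟨h.1.1.trans hO, hO h.1.2⟩, h.2⟩, h.1⟩, fun h => ⟨h.2, h.1.2⟩⟩
  have := Bonf_point v O s
  rw [e1, e2, sum_filter, sum_filter] at this
  simpa only [mul_ite, mul_one, mul_zero] using this

open Classical in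
theorem Bonf_dep (Z : Finset α) {p : α → ℝ} (h0 : ∀ z, 0 ≤ p z) (s : ℕ) {κ₀ : ℝ}
    (hκ : ∀ T ⊆ Z, T.card ≤ 2 * s →
      ∑ z ∈ Z.filter (fun z => v z ∈ Submodule.span ℚ (v '' (T : Set α))), p z ≤ κ₀) :
    ∑ T ∈ (Z.powerset.filter fun T => T.card ≤ 2 * s).filter
        (fun T : Finset α => ¬ LinearIndepOn ℚ v (T : Set α)), ∏ z ∈ T, p z ≤
      Real.exp (∑ z ∈ Z, p z) * (Real.exp κ₀ - 1) := by
  have hp : ∀ T : Finset α, 0 ≤ ∏ z ∈ T, p z := fun T => prod_nonneg fun z _ => h0 z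
  obtain ⟨Q, hQ⟩ : ∃ Q : Finset (Σ _ : Finset α, Finset α), Q =
      (Z.powerset.filter fun T => T.card ≤ 2 * s).sigma fun T =>
        (Z.filter fun z => v z ∈ Submodule.span ℚ (v '' (T : Set α))).powerset.erase ∅ := ⟨_, rfl⟩
  have h1 : (Z.powerset.filter fun T => T.card ≤ 2 * s).filter
      (fun T : Finset α => ¬ LinearIndepOn ℚ v (T : Set α)) ⊆
      (Q.filter fun x => Disjoint x.1 x.2).image fun x => x.1 ∪ x.2 := by
    intro T hT
    obtain ⟨hT1, hT2⟩ := mem_filter.1 hT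
    obtain ⟨hT0, hT1⟩ := mem_filter.1 hT1
    rw [mem_powerset] at hT0
    obtain ⟨T', a1, -, a3, a4⟩ := Bonf_ext v (T := ∅) (by simp) (empty_subset T)
    refine mem_image.2 ⟨⟨T', T \ T'⟩, mem_filter.2 ⟨?_, disjoint_sdiff⟩, union_sdiff_of_subset a1⟩
    rw [hQ]
    refine mem_sigma.2 ⟨mem_filter.2 ⟨mem_powerset.2 (a1.trans hT0), (card_le_card a1).trans hT1⟩,
      mem_erase.2 ⟨fun h => hT2 (a3.mono (coe_subset.2 (sdiff_eq_empty_iff_subset.1 h))),
        mem_powerset.2 fun z hz => ?_⟩⟩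
    exact mem_filter.2 ⟨hT0 (mem_sdiff.1 hz).1, a4 z (mem_sdiff.1 hz).1⟩
  have hκ0 : 0 ≤ κ₀ := (sum_nonneg fun z _ => h0 z).trans (hκ ∅ (empty_subset _) (by simp))
  have hκ1 : 0 ≤ Real.exp κ₀ - 1 := sub_nonneg.2 (Real.one_le_exp hκ0)
  calc _ ≤ ∑ T ∈ (Q.filter fun x => Disjoint x.1 x.2).image (fun x => x.1 ∪ x.2), ∏ z ∈ T, p z :=
        sum_le_sum_of_subset_of_nonneg h1 fun T _ _ => hp T
    _ ≤ ∑ x ∈ Q.filter fun x => Disjoint x.1 x.2, ∏ z ∈ x.1 ∪ x.2, p z :=
        sum_image_le_of_nonneg fun T _ => hp T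
    _ = ∑ x ∈ Q.filter fun x => Disjoint x.1 x.2, (∏ z ∈ x.1, p z) * ∏ z ∈ x.2, p z :=
        sum_congr rfl fun x hx => prod_union (mem_filter.1 hx).2
    _ ≤ ∑ x ∈ Q, (∏ z ∈ x.1, p z) * ∏ z ∈ x.2, p z :=
        sum_le_sum_of_subset_of_nonneg (filter_subset _ _) fun x _ _ => mul_nonneg (hp _) (hp _)
    _ ≤ ∑ T ∈ Z.powerset.filter fun T => T.card ≤ 2 * s, (∏ z ∈ T, p z) * (Real.exp κ₀ - 1) := by
        rw [hQ, sum_sigma]
        refine sum_le_sum fun T hT => ?_
        simp only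
        rw [← mul_sum]
        refine mul_le_mul_of_nonneg_left ?_ (hp T)
        rw [sum_erase_eq_sub (empty_mem_powerset _), prod_empty, ← prod_one_add]
        exact sub_le_sub_right ((Real.prod_one_add_le_exp_sum _ h0).trans (Real.exp_le_exp.2
          (hκ T (mem_powerset.1 (mem_filter.1 hT).1) (mem_filter.1 hT).2))) 1
    _ ≤ _ := by
        rw [← sum_mul]
        refine mul_le_mul_of_nonneg_right ?_ hκ1
        refine (sum_le_sum_of_subset_of_nonneg (filter_subset _ _) fun T _ _ => hp T).trans ?_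
        rw [← prod_one_add]
        exact Real.prod_one_add_le_exp_sum _ h0

theorem Bonf_int {Ω β γ : Type} [MeasurableSpace Ω] (μ : Measure Ω) [IsFiniteMeasure μ]
    {E : Set Ω} (hE : MeasurableSet E) (A : Finset β) (B : Finset γ) (a : β → ℝ) (b : γ → ℝ)
    {F : β → Set Ω} {G : γ → Set Ω} (hF : ∀ i, MeasurableSet (F i)) (hG : ∀ i, MeasurableSet (G i))
    (h : ∀ ω, E.indicator (1 : Ω → ℝ) ω ≤ ∑ i ∈ A, a i * (F i).indicator (1 : Ω → ℝ) ω +
      ∑ i ∈ B, b i * (G i).indicator (1 : Ω → ℝ) ω) :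
    μ.real E ≤ ∑ i ∈ A, a i * μ.real (F i) + ∑ i ∈ B, b i * μ.real (G i) := by
  have hi : ∀ {X : Set Ω}, MeasurableSet X → Integrable (X.indicator (1 : Ω → ℝ)) μ :=
    fun hX => (integrable_const (1 : ℝ)).indicator hX
  have hA : ∀ i ∈ A, Integrable (fun ω => a i * (F i).indicator (1 : Ω → ℝ) ω) μ :=
    fun i _ => (hi (hF i)).const_mul _
  have hB : ∀ i ∈ B, Integrable (fun ω => b i * (G i).indicator (1 : Ω → ℝ) ω) μ :=
    fun i _ => (hi (hG i)).const_mul _
  have h1 := integral_mono (hi hE)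
    ((integrable_finsetSum A hA).add (integrable_finsetSum B hB)) h
  rw [integral_indicator_one hE, integral_add' (integrable_finsetSum A hA)
    (integrable_finsetSum B hB), integral_finsetSum A hA, integral_finsetSum B hB] at h1
  simpa only [integral_const_mul, integral_indicator_one (hF _), integral_indicator_one (hG _)]
    using h1

end BonfAux

open Classical in
theorem Bonf_occ {σ : Type} [Fintype σ] (Z : Finset (σ → ℤ)) (S : (σ → ℤ) → Set UnitAddCircle)
    (s j : ℕ) :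
    ∑ x ∈ (BonfP cq Z s).filter (fun x => x.1.card = j),
      volume.real {ω : TT σ | (∀ z ∈ x.1, ev z ω ∈ S z) ∧ ev x.2 ω ∈ S x.2} ≤
      occ Z S (Adm (j := j)) := by
  have h1 : (BonfP cq Z s).filter (fun x => x.1.card = j) ⊆
      ((Fintype.piFinset fun _ : Option (Fin j) => Z).filter (Adm (j := j))).image
        fun w => (Finset.univ.image fun l => w (some l), w none) := by
    rintro ⟨T, z⟩ hx
    obtain ⟨hx1, hj⟩ := Finset.mem_filter.1 hx
    obtain ⟨hx0, -, a1, a2, a3⟩ := Finset.mem_filter.1 hx1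
    obtain ⟨b1, b2⟩ := Finset.mem_product.1 hx0
    simp only at hj a1 a2 a3 b1 b2
    obtain ⟨e, -⟩ : ∃ e : Fin j ≃ T, True := ⟨(T.equivFinOfCardEq hj).symm, trivial⟩
    have hr : (Set.range fun l : Fin j => cq ((e l : σ → ℤ))) = cq '' (T : Set (σ → ℤ)) := by
      ext y
      constructor
      · rintro ⟨l, rfl⟩
        exact ⟨e l, (e l).2, rfl⟩
      · rintro ⟨t, ht, rfl⟩
        exact ⟨e.symm ⟨t, ht⟩, by simp⟩
    refine Finset.mem_image.2 ⟨fun o => o.elim z fun l => e l, Finset.mem_filter.2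
      ⟨Fintype.mem_piFinset.2 ?_, a1.comp e e.injective, ?_, fun l h => a3 ?_⟩, ?_⟩
    · rintro (_ | l)
      · exact b2
      · exact Finset.mem_powerset.1 b1 (e l).2
    · simp only [Option.elim]
      rw [hr]; exact a2
    · simp only [Option.elim] at h
      rw [h]; exact (e l).2
    · refine Prod.ext ?_ rfl
      ext t
      simp only [Option.elim, Finset.mem_image, Finset.mem_univ, true_and]
      constructor
      · rintro ⟨l, rfl⟩
        exact (e l).2
      · intro ht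
        exact ⟨e.symm ⟨t, ht⟩, by simp⟩
  refine (Finset.sum_le_sum_of_subset_of_nonneg h1 fun _ _ _ => measureReal_nonneg).trans
    ((Finset.sum_image_le_of_nonneg fun _ _ => measureReal_nonneg).trans (le_of_eq ?_))
  unfold occ
  refine Finset.sum_congr rfl fun w _ => ?_
  congr 1
  ext ω
  simp [Option.forall, and_comm]

open Classical in
theorem bonf {σ : Type} [Fintype σ] (Z : Finset (σ → ℤ)) (S : (σ → ℤ) → Set UnitAddCircle)
    (hS : ∀ z, MeasurableSet (S z)) (s : ℕ) {κ₀ : ℝ}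
    (hκ : ∀ T ⊆ Z, T.card ≤ 2 * s →
      ∑ z ∈ Z.filter (fun z => cq z ∈ Submodule.span ℚ (cq '' (T : Set (σ → ℤ)))),
        volume.real (S z) ≤ κ₀) :
    volume.real {ω : TT σ | ∀ z ∈ Z, ev z ω ∉ S z} ≤
      Real.exp (-∑ z ∈ Z, volume.real (S z)) + Real.exp (3 * ∑ z ∈ Z, volume.real (S z) - 2 * s) +
        Real.exp (∑ z ∈ Z, volume.real (S z)) * (Real.exp κ₀ - 1) +
        ∑ j ∈ Finset.range (4 * s + 1), 2 ^ j * occ Z S (Adm (j := j)) := by
  have hm : ∀ z, MeasurableSet {ω : TT σ | ev z ω ∈ S z} := fun z => measurable_ev z (hS z)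
  have hmT : ∀ T : Finset (σ → ℤ), MeasurableSet {ω : TT σ | ∀ z ∈ T, ev z ω ∈ S z} := fun T => by
    rw [Set.ofPred_forall]
    refine MeasurableSet.iInter fun z => ?_
    rw [Set.ofPred_forall]
    exact MeasurableSet.iInter fun _ => hm z
  have hE : MeasurableSet {ω : TT σ | ∀ z ∈ Z, ev z ω ∉ S z} := by
    rw [Set.ofPred_forall]
    refine MeasurableSet.iInter fun z => ?_
    rw [Set.ofPred_forall]
    exact MeasurableSet.iInter fun _ => (hm z).compl
  have h1 := Bonf_int volume hE (BonfF cq Z s) (BonfP cq Z s) (fun T => (-1) ^ T.card)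
    (fun x => 2 ^ x.1.card) hmT
    (G := fun x => {ω : TT σ | (∀ z ∈ x.1, ev z ω ∈ S z) ∧ ev x.2 ω ∈ S x.2})
    (fun x => (hmT x.1).inter (hm x.2)) fun ω => by
      have h := Bonf_point' cq (Finset.filter_subset (fun z => ev z ω ∈ S z) Z) s
      refine le_trans (le_of_eq ?_) (h.trans (le_of_eq ?_))
      · simp only [Set.indicator_apply, Set.mem_ofPred_eq, Pi.one_apply, Finset.filter_eq_empty_iff]
      · congr 1
        · refine Finset.sum_congr rfl fun T hT => ?_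
          have hT' := Finset.mem_powerset.1 (Finset.mem_filter.1 (Finset.mem_filter.1 hT).1).1
          rw [Set.indicator_apply]
          congr 1
          refine if_congr ?_ rfl rfl
          exact ⟨fun h z hz => (Finset.mem_filter.1 (h hz)).2,
            fun h z hz => Finset.mem_filter.2 ⟨hT' hz, h z hz⟩⟩
        · refine Finset.sum_congr rfl fun x hx => ?_
          obtain ⟨b1, b2⟩ := Finset.mem_product.1 (Finset.mem_filter.1 hx).1
          rw [Set.indicator_apply]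
          congr 1
          refine if_congr ?_ rfl rfl
          exact ⟨fun h => ⟨fun z hz => (Finset.mem_filter.1 (h.1 hz)).2,
              (Finset.mem_filter.1 h.2).2⟩,
            fun h => ⟨fun z hz => Finset.mem_filter.2 ⟨Finset.mem_powerset.1 b1 hz, h.1 z hz⟩,
              Finset.mem_filter.2 ⟨b2, h.2⟩⟩⟩
  have h2 : ∑ T ∈ BonfF cq Z s, (-1) ^ T.card * volume.real {ω : TT σ | ∀ z ∈ T, ev z ω ∈ S z}
      = ∑ T ∈ BonfF cq Z s, (-1) ^ T.card * ∏ z ∈ T, volume.real (S z) :=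
    Finset.sum_congr rfl fun T hT => by rw [prob_indepOn T (Finset.mem_filter.1 hT).2 S hS]
  have h3 := Bonf_trunc Z (p := fun z => volume.real (S z)) (fun _ => measureReal_nonneg)
    (fun _ => measureReal_le_one) s
  have h4 := Bonf_dep cq Z (p := fun z => volume.real (S z)) (fun _ => measureReal_nonneg) s
    (κ₀ := κ₀) (by convert hκ)
  have h5 := Finset.sum_filter_add_sum_filter_not (Z.powerset.filter fun T => T.card ≤ 2 * s)
    (fun T : Finset (σ → ℤ) => LinearIndepOn ℚ cq (T : Set (σ → ℤ)))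
    fun T => (-1) ^ T.card * ∏ z ∈ T, volume.real (S z)
  have h6 : -∑ T ∈ (Z.powerset.filter fun T => T.card ≤ 2 * s).filter
        (fun T : Finset (σ → ℤ) => ¬ LinearIndepOn ℚ cq (T : Set (σ → ℤ))),
        (-1) ^ T.card * ∏ z ∈ T, volume.real (S z) ≤
      ∑ T ∈ (Z.powerset.filter fun T => T.card ≤ 2 * s).filter
        (fun T : Finset (σ → ℤ) => ¬ LinearIndepOn ℚ cq (T : Set (σ → ℤ))),
        ∏ z ∈ T, volume.real (S z) := by
    rw [← Finset.sum_neg_distrib]
    refine Finset.sum_le_sum fun T _ => ?_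
    have hp : 0 ≤ ∏ z ∈ T, volume.real (S z) := Finset.prod_nonneg fun _ _ => measureReal_nonneg
    rcases neg_one_pow_eq_or ℝ T.card with h | h <;> rw [h] <;> linarith
  have h7 : ∑ x ∈ BonfP cq Z s, 2 ^ x.1.card *
        volume.real {ω : TT σ | (∀ z ∈ x.1, ev z ω ∈ S z) ∧ ev x.2 ω ∈ S x.2} ≤
      ∑ j ∈ Finset.range (4 * s + 1), 2 ^ j * occ Z S (Adm (j := j)) := by
    rw [← Finset.sum_fiberwise_of_maps_to (g := fun x => x.1.card) (t := Finset.range (4 * s + 1))
      fun x hx => Finset.mem_range.2 (Nat.lt_succ_of_le (Finset.mem_filter.1 hx).2.1)]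
    refine Finset.sum_le_sum fun j _ => ?_
    refine le_trans (le_of_eq ?_) (mul_le_mul_of_nonneg_left (Bonf_occ Z S s j) (by positivity))
    rw [Finset.mul_sum]
    exact Finset.sum_congr rfl fun x hx => by rw [(Finset.mem_filter.1 hx).2]
  rw [h2] at h1
  unfold BonfF at h1
  linarith

end Crest.Agent.R225
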