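import Crest.Agent.R225.Iso

/-!
# Row 225: Borell
Borell's lemma for the Euclidean norm.

`borell`: `μ = volume[|K]` satisfies `μ B₁ * μ B₂ ≤ (μ B)²` if `(B₁ + B₂)/2 ⊆ B` (`Lib.PL.hasPL_pi` with indicators of `B ∩ K`).  Let
`q s = μ {s² a n < x ⬝ x}`.  If `q 1 ≤ 1/4` then `q (2s+1) * (3/4) ≤ (q s)²` for `s ≥ 1` (triangle inequality), so with `s₀ = 1`, `s_(i+1) = 2 s_i + 1`,
`(4/3) q (s_i) ≤ 3^(-2^i)`, and `n = ∫ x ⬝ x ≤ a n (1 + ∑ s_(i+1)² q (s_i)) ≤ C a n`, false for small `a`.  Markov: `μ {8 n < x ⬝ x} ≤ 1/8`.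
-/

set_option autoImplicit false

open MeasureTheory ProbabilityTheory Matrix Filter Topology
open scoped ENNReal RealInnerProductSpace

noncomputable section

namespace Crest.Agent.R225

/-- midpoint Brunn–Minkowski for the uniform measure on a convex body -/
theorem borell_bm {n : ℕ} {K : Set (Fin n → ℝ)} (h : Body K) {B₁ B₂ B : Set (Fin n → ℝ)}
    (h₁ : MeasurableSet B₁) (h₂ : MeasurableSet B₂) (hB : MeasurableSet B)
    (hm : ∀ x ∈ B₁, ∀ y ∈ B₂, (1 / 2 : ℝ) • (x + y) ∈ B) :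
    (volume[|K]).real B₁ * (volume[|K]).real B₂ ≤ (volume[|K]).real B ^ 2 := by
  have hK := h.1.measurableSet
  have key := Crest.Agent.Lib.PL.hasPL_pi n ((K ∩ B₁).indicator 1) ((K ∩ B₂).indicator 1)
    ((K ∩ B).indicator 1) (measurable_one.indicator (hK.inter h₁))
    (measurable_one.indicator (hK.inter h₂)) (measurable_one.indicator (hK.inter hB)) (by
      intro x y
      by_cases hx : x ∈ K ∩ B₁
      · by_cases hy : y ∈ K ∩ B₂
        · have hz : (1 / 2 : ℝ) • (x + y) ∈ K ∩ B := by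
            refine ⟨?_, hm x hx.2 y hy.2⟩
            rw [smul_add]
            exact h.2.1 hx.1 hy.1 (by norm_num) (by norm_num) (by norm_num)
          rw [Set.indicator_of_mem hx, Set.indicator_of_mem hy, Set.indicator_of_mem hz]
          simp
        · rw [Set.indicator_of_notMem hy]; simp
      · rw [Set.indicator_of_notMem hx]; simp)
  rw [lintegral_indicator_one (hK.inter h₁), lintegral_indicator_one (hK.inter h₂),
    lintegral_indicator_one (hK.inter hB)] at key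
  have := h.isProb
  simp only [Measure.real]
  rw [← ENNReal.toReal_mul, ← ENNReal.toReal_pow]
  refine ENNReal.toReal_mono (ENNReal.pow_ne_top (measure_ne_top _ _)) ?_
  rw [cond_apply hK, cond_apply hK, cond_apply hK, mul_mul_mul_comm, mul_pow, ← pow_two]
  exact mul_le_mul_right key _

theorem borell_mid {n : ℕ} {x y : Fin n → ℝ} {t : ℝ} (hx : 9 * t < x ⬝ᵥ x) (hy : y ⬝ᵥ y ≤ t) :
    t < ((1 / 2 : ℝ) • (x + y)) ⬝ᵥ ((1 / 2 : ℝ) • (x + y)) := by
  have h0 : 0 ≤ (x + (3 : ℝ) • y) ⬝ᵥ (x + (3 : ℝ) • y) :=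
    Finset.sum_nonneg fun i _ => mul_self_nonneg _
  simp only [add_dotProduct, dotProduct_add, smul_dotProduct, dotProduct_smul, smul_eq_mul,
    dotProduct_comm y x] at h0 ⊢
  linarith

theorem borell_meas {n : ℕ} (t : ℝ) : MeasurableSet {x : Fin n → ℝ | t < x ⬝ᵥ x} :=
  measurableSet_lt measurable_const (by fun_prop : Continuous fun x : Fin n → ℝ => x ⬝ᵥ x).measurable

/-- the tail bound along the scales `9 ^ i * c` -/
theorem borell_tail {n : ℕ} {K : Set (Fin n → ℝ)} (h : Body K) {c : ℝ} (hc : 0 ≤ c)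
    (h0 : (volume[|K]).real {x | c < x ⬝ᵥ x} ≤ 1 / 4) (i : ℕ) :
    (volume[|K]).real {x | 9 ^ (i + 2) * c < x ⬝ᵥ x} ≤ (3 / 4) * (1 / 18) ^ (i + 1) := by
  have := h.isProb
  have hcompl : 3 / 4 ≤ (volume[|K]).real {x : Fin n → ℝ | c < x ⬝ᵥ x}ᶜ := by
    rw [probReal_compl_eq_one_sub (borell_meas c)]
    linarith
  have step : ∀ (j : ℕ) (u : ℝ), (volume[|K]).real {x | 9 ^ j * c < x ⬝ᵥ x} ≤ (3 / 4) * u →
      (volume[|K]).real {x | 9 ^ (j + 1) * c < x ⬝ᵥ x} ≤ (3 / 4) * u ^ 2 := by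
    intro j u hu
    have h1 := borell_bm h (borell_meas (9 ^ (j + 1) * c)) (borell_meas c).compl
      (borell_meas (9 ^ j * c)) (by
        intro x hx y hy
        have hy' : y ⬝ᵥ y ≤ c := not_lt.1 hy
        have h9 : (1 : ℝ) ≤ 9 ^ j := one_le_pow₀ (by norm_num)
        have hx' : 9 ^ (j + 1) * c < x ⬝ᵥ x := hx
        refine borell_mid (t := 9 ^ j * c) ?_ (hy'.trans (le_mul_of_one_le_left hc h9))
        rw [pow_succ] at hx'
        linarith)
    have h2 : 0 ≤ (volume[|K]).real {x | 9 ^ (j + 1) * c < x ⬝ᵥ x} := measureReal_nonneg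
    have h3 : 0 ≤ (volume[|K]).real {x | 9 ^ j * c < x ⬝ᵥ x} := measureReal_nonneg
    have h4 := pow_le_pow_left₀ h3 hu 2
    have h5 := mul_le_mul_of_nonneg_left hcompl h2
    nlinarith
  induction i with
  | zero =>
    have s0 := step 0 (1 / 3) (by simp only [pow_zero, one_mul]; linarith)
    have s1 := step 1 _ s0
    refine s1.trans (by norm_num)
  | succ i ih =>
    refine (step _ _ ih).trans ?_
    have h1 : ((1 : ℝ) / 18) ^ (i + 1) ≤ 1 / 18 := by
      rw [pow_succ]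
      exact mul_le_of_le_one_left (by norm_num) (pow_le_one₀ (by norm_num) (by norm_num))
    have h2 : (0 : ℝ) ≤ (1 / 18) ^ (i + 1) := by positivity
    rw [pow_succ _ (i + 1), pow_two]
    nlinarith

/-- truncated second moments stay bounded -/
theorem borell_trunc {n : ℕ} {K : Set (Fin n → ℝ)} (h : Body K) {c : ℝ} (hc : 0 ≤ c)
    (h0 : (volume[|K]).real {x | c < x ⬝ᵥ x} ≤ 1 / 4) (i : ℕ) :
    ∫ x, min (x ⬝ᵥ x) (9 ^ (i + 2) * c) ∂(volume[|K]) ≤ 81 * c * (2 - (1 / 2) ^ i) := by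
  have := h.isProb
  induction i with
  | zero =>
    calc ∫ x, min (x ⬝ᵥ x) (9 ^ (0 + 2) * c) ∂(volume[|K])
        ≤ ∫ x, (9 ^ (0 + 2) * c) ∂(volume[|K]) :=
          integral_mono (h.integrable (by fun_prop)) (integrable_const _) fun x => min_le_right _ _
      _ = 81 * c * (2 - (1 / 2) ^ 0) := by
          simp only [integral_const, probReal_univ, smul_eq_mul, one_mul]
          ring
  | succ i ih =>
    have ht := borell_tail h hc h0 i
    have i1 : Integrable (fun x : Fin n → ℝ => min (x ⬝ᵥ x) (9 ^ (i + 2) * c)) (volume[|K]) :=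
      h.integrable (by fun_prop)
    have i2 : Integrable ({x : Fin n → ℝ | 9 ^ (i + 2) * c < x ⬝ᵥ x}.indicator
        fun _ => (9 : ℝ) ^ (i + 1 + 2) * c) (volume[|K]) :=
      (integrable_const _).indicator (borell_meas _)
    have hp : 0 ≤ (9 : ℝ) ^ (i + 1 + 2) * c := by positivity
    calc ∫ x, min (x ⬝ᵥ x) (9 ^ (i + 1 + 2) * c) ∂(volume[|K])
        ≤ ∫ x, (min (x ⬝ᵥ x) (9 ^ (i + 2) * c) + {x : Fin n → ℝ | 9 ^ (i + 2) * c < x ⬝ᵥ x}.indicator
            (fun _ => (9 : ℝ) ^ (i + 1 + 2) * c) x) ∂(volume[|K]) := by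
          refine integral_mono (h.integrable (by fun_prop)) (i1.add i2) fun x => ?_
          simp only
          by_cases hx : x ∈ {x : Fin n → ℝ | 9 ^ (i + 2) * c < x ⬝ᵥ x}
          · rw [Set.indicator_of_mem hx]
            have h1 : 0 ≤ min (x ⬝ᵥ x) (9 ^ (i + 2) * c) :=
              le_min (Finset.sum_nonneg fun i _ => mul_self_nonneg _) (by positivity)
            have h2 := min_le_right (x ⬝ᵥ x) (9 ^ (i + 1 + 2) * c)
            linarith
          · have hx' : x ⬝ᵥ x ≤ 9 ^ (i + 2) * c := not_lt.1 hx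
            rw [Set.indicator_of_notMem hx, add_zero, min_eq_left hx']
            exact min_le_left _ _
      _ = ∫ x, min (x ⬝ᵥ x) (9 ^ (i + 2) * c) ∂(volume[|K])
            + (volume[|K]).real {x : Fin n → ℝ | 9 ^ (i + 2) * c < x ⬝ᵥ x}
              * (9 ^ (i + 1 + 2) * c) := by
          rw [integral_add i1 i2, integral_indicator_const _ (borell_meas _), smul_eq_mul]
      _ ≤ 81 * c * (2 - (1 / 2) ^ i) + (3 / 4) * (1 / 18) ^ (i + 1) * (9 ^ (i + 1 + 2) * c) :=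
          add_le_add ih (mul_le_mul_of_nonneg_right ht hp)
      _ ≤ 81 * c * (2 - (1 / 2) ^ (i + 1)) := by
          have e1 : ((1 : ℝ) / 18) ^ (i + 1) * 9 ^ (i + 1) = (1 / 2) ^ (i + 1) := by
            rw [← mul_pow]; norm_num
          have e2 : (3 / 4 : ℝ) * (1 / 18) ^ (i + 1) * (9 ^ (i + 1 + 2) * c)
              = (3 / 4) * (81 * c) * ((1 / 18) ^ (i + 1) * 9 ^ (i + 1)) := by ring
          have e3 : 0 ≤ c * (1 / 2 : ℝ) ^ i := by positivity
          rw [e2, e1, pow_succ]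
          nlinarith

theorem borell : ∃ a : ℝ, 0 < a ∧ a ≤ 1 ∧ ∀ (n : ℕ) (K : Set (Fin n → ℝ)), 1 ≤ n → Body K → Iso K →
    1 / 8 ≤ (volume[|K]).real {x | a * n ≤ x ⬝ᵥ x ∧ x ⬝ᵥ x ≤ 8 * n} := by
  refine ⟨1 / 200, by norm_num, by norm_num, fun n K hn h hI => ?_⟩
  have := h.isProb
  have hn' : (1 : ℝ) ≤ n := by exact_mod_cast hn
  have hsq : ∫ x, x ⬝ᵥ x ∂(volume[|K]) = n := by simpa using hI.sq h
  have hcont : Continuous fun x : Fin n → ℝ => x ⬝ᵥ x := by fun_prop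
  -- Markov
  have hM : (volume[|K]).real {x : Fin n → ℝ | 8 * n ≤ x ⬝ᵥ x} ≤ 1 / 8 := by
    have h1 := mul_meas_ge_le_integral_of_nonneg (μ := volume[|K])
      (f := fun x : Fin n → ℝ => x ⬝ᵥ x)
      (Eventually.of_forall fun x => Finset.sum_nonneg fun i _ => mul_self_nonneg _)
      (h.integrable hcont) (8 * n)
    rw [hsq] at h1
    by_contra hc
    push Not at hc
    nlinarith
  -- Borell
  have hB : 1 / 4 < (volume[|K]).real {x : Fin n → ℝ | 1 / 200 * n < x ⬝ᵥ x} := by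
    by_contra hc
    push Not at hc
    obtain ⟨R, hR⟩ := h.1.bddAbove_image hcont.continuousOn
    have hc0 : (0 : ℝ) < 1 / 200 * n := by positivity
    obtain ⟨i, hi⟩ := pow_unbounded_of_one_lt (R / (1 / 200 * n)) (by norm_num : (1 : ℝ) < 9)
    have hi2 : R ≤ 9 ^ (i + 2) * (1 / 200 * n) := by
      rw [div_lt_iff₀ hc0] at hi
      have h9 : (9 : ℝ) ^ i ≤ 9 ^ (i + 2) := pow_le_pow_right₀ (by norm_num) (by omega)
      exact hi.le.trans (mul_le_mul_of_nonneg_right h9 hc0.le)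
    have h1 := borell_trunc h hc0.le hc i
    have h2 : ∫ x, min (x ⬝ᵥ x) (9 ^ (i + 2) * (1 / 200 * n)) ∂(volume[|K])
        = ∫ x, x ⬝ᵥ x ∂(volume[|K]) := by
      refine integral_congr_ae (ae_cond_of_forall_mem h.1.measurableSet fun x hx => ?_)
      exact min_eq_left ((hR ⟨x, hx, rfl⟩).trans hi2)
    rw [h2, hsq] at h1
    have h3 : (0 : ℝ) ≤ (1 / 2) ^ i := by positivity
    nlinarith
  have hsub : {x : Fin n → ℝ | 1 / 200 * n < x ⬝ᵥ x}
      ⊆ {x | 1 / 200 * n ≤ x ⬝ᵥ x ∧ x ⬝ᵥ x ≤ 8 * n} ∪ {x | 8 * n ≤ x ⬝ᵥ x} := by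
    intro x hx
    rcases le_total (x ⬝ᵥ x) (8 * n) with h1 | h1
    · exact Or.inl ⟨le_of_lt hx, h1⟩
    · exact Or.inr h1
  have h4 := (measureReal_mono hsub (measure_ne_top (volume[|K]) _)).trans (measureReal_union_le _ _)
  linarith

end Crest.Agent.R225
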