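import Crest.Agent.R225.GTail

/-!
# Row 225: Cap
Geometry of caps.  `reg Z z₀ L u t` is the set of normals with `⟪g, ẑ₀⟫ ∈ [L+u, L+u+1/L]` and typical fluctuations.  For `z ∈ Z`,
`⟪g, z⟫ = ⟪z, ẑ₀⟫ ⟪g, ẑ₀⟫ + ⟪g, z - ⟪z, ẑ₀⟫ ẑ₀⟫`, `‖z - ⟪z, ẑ₀⟫ ẑ₀‖ ≤ ‖z - z₀‖` and `⟪z, ẑ₀⟫ = (‖z‖² + ‖z₀‖² - ‖z - z₀‖²)/(2‖z₀‖)`.
`le_reg`: `gauss_inner_unit`, `le_gauss_Icc`, union bound with `gauss_pair`.
`reg_cut`: `⟪z,ẑ₀⟫ ≥ ‖z‖ - δ² ≥ 1 - σ - a² ≥ 1/2`.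
`reg_near`: `⟪z,ẑ₀⟫ ≤ 1 + 5σ - δ²/3`; if it is `≤ 0` then `⟪g,z⟫ ≤ t δ < L`; otherwise `L δ²/3 < 26 L a² + L a δ`.
`overlap`: `‖z + z'‖² ≤ 4 - δ²/2`, so `‖z + z'‖ ≤ 2/(1 + δ²/16)`; `gauss_inner_gt`, `Qt_add_le`.
-/

set_option autoImplicit false
set_option linter.unusedVariables false

open MeasureTheory ProbabilityTheory Matrix Filter Topology
open scoped ENNReal RealInnerProductSpace

noncomputable section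

namespace Crest.Agent.R225

variable {n : ℕ}

/-- typical normals at depth `u` beyond `z₀` -/
def reg (Z : Finset (Eu n)) (z₀ : Eu n) (L u t : ℝ) : Set (Eu n) :=
  {g | ⟪g, ‖z₀‖⁻¹ • z₀⟫ ∈ Set.Icc (L + u) (L + u + 1 / L) ∧
    ∀ z ∈ Z, |⟪g, z - ⟪z, ‖z₀‖⁻¹ • z₀⟫ • ‖z₀‖⁻¹ • z₀⟫| ≤ t * ‖z - z₀‖}

variable {Z : Finset (Eu n)} {z₀ z z' g : Eu n} {L u t a m σ η δ : ℝ}

theorem cap_unit (hz : z₀ ≠ 0) : ‖‖z₀‖⁻¹ • z₀‖ = 1 := by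
  rw [norm_smul, norm_inv, norm_norm, inv_mul_cancel₀ (norm_ne_zero_iff.2 hz)]

theorem cap_orth {e : Eu n} (he : ‖e‖ = 1) (z : Eu n) : ⟪e, z - ⟪z, e⟫ • e⟫ = 0 := by
  rw [inner_sub_right, real_inner_smul_right, real_inner_self_eq_norm_sq, he, real_inner_comm]
  ring

theorem cap_proj_le {e : Eu n} (he : ‖e‖ = 1) (z : Eu n) (c : ℝ) :
    ‖z - ⟪z, e⟫ • e‖ ≤ ‖z - c • e‖ := by
  refine (pow_le_pow_iff_left₀ (norm_nonneg _) (norm_nonneg _) two_ne_zero).1 ?_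
  rw [norm_sub_sq_real, norm_sub_sq_real, real_inner_smul_right, real_inner_smul_right,
    norm_smul, norm_smul, he, mul_one, mul_one, Real.norm_eq_abs, Real.norm_eq_abs, sq_abs, sq_abs]
  nlinarith [sq_nonneg (⟪z, e⟫ - c)]

theorem cap_self (hz : z₀ ≠ 0) : ‖z₀‖ • ‖z₀‖⁻¹ • z₀ = z₀ := by
  rw [smul_smul, mul_inv_cancel₀ (norm_ne_zero_iff.2 hz), one_smul]

theorem cap_split (g z e : Eu n) : ⟪g, z⟫ = ⟪z, e⟫ * ⟪g, e⟫ + ⟪g, z - ⟪z, e⟫ • e⟫ := by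
  rw [inner_sub_right, real_inner_smul_right]
  ring

theorem cap_cos (hz : z₀ ≠ 0) (z : Eu n) :
    2 * ‖z₀‖ * ⟪z, ‖z₀‖⁻¹ • z₀⟫ = ‖z‖ ^ 2 + ‖z₀‖ ^ 2 - ‖z - z₀‖ ^ 2 := by
  have h := norm_ne_zero_iff.2 hz
  rw [norm_sub_sq_real, real_inner_smul_right]
  field_simp
  ring

theorem measurableSet_reg (Z : Finset (Eu n)) (z₀ : Eu n) (L u t : ℝ) :
    MeasurableSet (reg Z z₀ L u t) := by
  refine IsClosed.measurableSet ?_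
  have e : reg Z z₀ L u t = (fun g => ⟪g, ‖z₀‖⁻¹ • z₀⟫) ⁻¹' Set.Icc (L + u) (L + u + 1 / L) ∩
      ⋂ z ∈ Z, {g | |⟪g, z - ⟪z, ‖z₀‖⁻¹ • z₀⟫ • ‖z₀‖⁻¹ • z₀⟫| ≤ t * ‖z - z₀‖} := by
    ext g
    simp only [reg, Set.mem_inter_iff, Set.mem_iInter, Set.mem_preimage, Set.mem_ofPred_eq]
  rw [e]
  exact (isClosed_Icc.preimage (by fun_prop)).inter
    (isClosed_biInter fun z _ => isClosed_le (by fun_prop) continuous_const)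

theorem le_reg (hz : z₀ ≠ 0) (hL : 2 ≤ L) (hu : 0 ≤ u) (huL : u ≤ L) (ht : 0 ≤ t)
    (hZ : 4 * Z.card * Real.exp (-t ^ 2 / 2) ≤ 1) :
    1 / 4 * Real.exp (-(2 * L * u)) * Qt L ≤ (stdGaussian (Eu n)).real (reg Z z₀ L u t) := by
  have he := cap_unit hz
  set e := ‖z₀‖⁻¹ • z₀ with he_def
  set I := Set.Icc (L + u) (L + u + 1 / L) with hI
  have hIm : MeasurableSet I := measurableSet_Icc
  set P := (gaussianReal 0 1).real I with hP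
  have hP0 : 0 ≤ P := measureReal_nonneg
  have hsub : {g : Eu n | ⟪g, e⟫ ∈ I} ⊆ reg Z z₀ L u t ∪
      ⋃ z ∈ Z, {g : Eu n | ⟪g, e⟫ ∈ I ∧ t * ‖z - z₀‖ < |⟪g, z - ⟪z, e⟫ • e⟫|} := by
    intro g hg
    by_cases h : ∀ z ∈ Z, |⟪g, z - ⟪z, e⟫ • e⟫| ≤ t * ‖z - z₀‖
    · exact Or.inl ⟨hg, h⟩
    · push Not at h
      obtain ⟨z, hz, h⟩ := h
      exact Or.inr (Set.mem_biUnion hz ⟨hg, h⟩)
  have h1 := (measureReal_mono hsub (measure_ne_top (stdGaussian (Eu n)) _)).trans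
    (measureReal_union_le _ _)
  rw [gauss_inner_unit he hIm] at h1
  have h2 : (stdGaussian (Eu n)).real
      (⋃ z ∈ Z, {g : Eu n | ⟪g, e⟫ ∈ I ∧ t * ‖z - z₀‖ < |⟪g, z - ⟪z, e⟫ • e⟫|})
      ≤ Z.card * (P * (2 * Real.exp (-t ^ 2 / 2))) := by
    refine (measureReal_biUnion_finset_le _ _).trans ?_
    rw [← nsmul_eq_mul]
    refine Finset.sum_le_card_nsmul _ _ _ fun z _ => ?_
    refine gauss_pair he (cap_orth he z) hIm ht ?_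
    have := cap_proj_le he z ‖z₀‖
    rwa [he_def, cap_self hz] at this
  have h3 : Z.card * (P * (2 * Real.exp (-t ^ 2 / 2))) ≤ P / 2 := by nlinarith
  have h4 := le_gauss_Icc (t := L) (u := u) (by linarith) hu
  have h5 : Real.exp (-(2 * L * u)) ≤ Real.exp (-((L + 1 / L) * u) - u ^ 2 / 2) := by
    refine Real.exp_le_exp.2 ?_
    have h6 : 1 / L ≤ 1 / 2 := one_div_le_one_div_of_le (by norm_num) hL
    nlinarith [mul_nonneg hu (by linarith : 0 ≤ L - 1 / L - u / 2)]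
  have h6 := mul_le_mul_of_nonneg_right h5 (Qt_pos L).le
  linarith

theorem reg_self (hg : g ∈ reg Z z₀ L u t) (hL : 0 ≤ L) (h0 : 1 / 2 ≤ ‖z₀‖) (hu0 : 0 ≤ u)
    (hu : 2 * (L * max 0 (1 - ‖z₀‖) + m) ≤ u) : L + m ≤ ⟪g, z₀⟫ := by
  have hz : z₀ ≠ 0 := norm_pos_iff.1 (by linarith)
  have h1 := hg.1.1
  have h2 : ⟪g, z₀⟫ = ‖z₀‖ * ⟪g, ‖z₀‖⁻¹ • z₀⟫ := by
    rw [← real_inner_smul_right, cap_self hz]
  have h3 := mul_le_mul_of_nonneg_left h1 (norm_nonneg z₀)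
  have h4 := mul_le_mul_of_nonneg_left (le_max_right 0 (1 - ‖z₀‖)) hL
  have h5 := mul_le_mul_of_nonneg_right h0 hu0
  rw [h2]
  nlinarith

theorem reg_cut (hg : g ∈ reg Z z₀ L u t) (hz : z ∈ Z) (hL : 0 ≤ L) (ht : 0 ≤ t) (hu0 : 0 ≤ u)
    (h0 : 1 - σ ≤ ‖z₀‖) (h1 : 1 - σ ≤ ‖z‖) (hσ : 0 ≤ σ) (ha : ‖z - z₀‖ ≤ a) (hs : σ + a ^ 2 ≤ 1 / 2)
    (hu : 2 * (L * (σ + a ^ 2) + t * a + m) ≤ u) : L + m ≤ ⟪g, z⟫ := by
  have ha2 := sq_nonneg a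
  have hr : 1 / 2 ≤ ‖z₀‖ := by linarith
  have hz0 : z₀ ≠ 0 := norm_pos_iff.1 (by linarith)
  have hc := cap_cos hz0 z
  have hsplit := cap_split g z (‖z₀‖⁻¹ • z₀)
  have g1 := hg.1.1
  have g2 := (abs_le.1 (hg.2 z hz)).1
  set c := ⟪z, ‖z₀‖⁻¹ • z₀⟫
  set G := ⟪g, ‖z₀‖⁻¹ • z₀⟫
  have hd : ‖z - z₀‖ ^ 2 ≤ a ^ 2 := pow_le_pow_left₀ (norm_nonneg _) ha 2
  have hc1 : ‖z‖ - a ^ 2 ≤ c := by
    refine le_of_mul_le_mul_left (a := 2 * ‖z₀‖) ?_ (by linarith)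
    rw [hc]
    nlinarith [sq_nonneg (‖z‖ - ‖z₀‖)]
  have hc2 : 1 - (σ + a ^ 2) ≤ c := by linarith
  have hc3 : 1 / 2 ≤ c := by linarith
  have h3 : c * (L + u) ≤ c * G := mul_le_mul_of_nonneg_left g1 (by linarith)
  have h4 := mul_le_mul_of_nonneg_right hc2 hL
  have h5 := mul_le_mul_of_nonneg_right hc3 hu0
  have h6 := mul_le_mul_of_nonneg_left ha ht
  rw [hsplit]
  nlinarith

theorem reg_near (hg : g ∈ reg Z z₀ L u t) (hz : z ∈ Z) (hcut : L < ⟪g, z⟫) (hL : 0 < L) (ht : 0 ≤ t)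
    (hu0 : 0 ≤ u) (h0 : 1 - σ ≤ ‖z₀‖) (h0' : ‖z₀‖ ≤ 1 + η) (h1' : ‖z‖ ≤ 1 + η) (hη : 0 ≤ η)
    (hησ : η ≤ σ) (ha0 : 0 ≤ a) (hσ : σ ≤ a ^ 2) (ha : a ≤ 1 / 4) (hta : t ≤ L * a) (hLa : 1 ≤ L * a)
    (hu : u ≤ 8 * L * a ^ 2) : ‖z - z₀‖ ≤ 12 * a := by
  have ha2 : a ^ 2 ≤ 1 / 16 := by nlinarith
  have hσ0 : 0 ≤ σ := hη.trans hησ
  have hσ1 : σ ≤ 1 / 16 := hσ.trans ha2
  have hz0 : z₀ ≠ 0 := norm_pos_iff.1 (by linarith)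
  have hc := cap_cos hz0 z
  have hsplit := cap_split g z (‖z₀‖⁻¹ • z₀)
  have g1 := hg.1.1
  have g1' := hg.1.2
  have g2 := (abs_le.1 (hg.2 z hz)).2
  have hd0 := norm_nonneg (z - z₀)
  have hd2 : ‖z - z₀‖ ≤ 17 / 8 := (norm_sub_le z z₀).trans (by linarith)
  set c := ⟪z, ‖z₀‖⁻¹ • z₀⟫
  set G := ⟪g, ‖z₀‖⁻¹ • z₀⟫
  set d := ‖z - z₀‖
  have g3 : t * d ≤ L * a * d := mul_le_mul_of_nonneg_right hta hd0
  have hc1 : c ≤ 1 + 5 * σ - d ^ 2 / 3 := by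
    refine le_of_mul_le_mul_left (a := 2 * ‖z₀‖) ?_ (by linarith)
    rw [hc]
    have b1 : ‖z‖ ^ 2 ≤ (1 + σ) ^ 2 := pow_le_pow_left₀ (norm_nonneg _) (by linarith) 2
    have b2 : ‖z₀‖ ^ 2 ≤ (1 + σ) ^ 2 := pow_le_pow_left₀ (norm_nonneg _) (by linarith) 2
    have b3 : (1 - σ) * (1 + 5 * σ) ≤ ‖z₀‖ * (1 + 5 * σ) :=
      mul_le_mul_of_nonneg_right h0 (by linarith)
    have b4 : ‖z₀‖ * d ^ 2 ≤ 3 / 2 * d ^ 2 := mul_le_mul_of_nonneg_right (by linarith) (sq_nonneg d)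
    nlinarith
  rcases le_or_gt c 0 with hc0 | hc0
  · exfalso
    have b1 : c * G ≤ 0 := mul_nonpos_of_nonpos_of_nonneg hc0 (by linarith)
    have b2 : a * d ≤ 1 := by nlinarith
    have b3 := mul_le_mul_of_nonneg_left b2 hL.le
    nlinarith
  · have b1 : 1 / L ≤ L * a ^ 2 := by
      rw [div_le_iff₀ hL]
      nlinarith
    have b2 : G ≤ L * (1 + 9 * a ^ 2) := by nlinarith
    have b3 : c * G ≤ c * (L * (1 + 9 * a ^ 2)) := mul_le_mul_of_nonneg_left b2 hc0.le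
    have b4 : L * 1 < L * (c * (1 + 9 * a ^ 2) + a * d) := by nlinarith
    have b5 : 1 < c * (1 + 9 * a ^ 2) + a * d := lt_of_mul_lt_mul_left b4 hL.le
    have b6 : c ≤ 4 / 3 := by nlinarith [sq_nonneg d]
    have b7 : c * a ^ 2 ≤ 4 / 3 * a ^ 2 := mul_le_mul_of_nonneg_right b6 (sq_nonneg a)
    have b8 : d ^ 2 / 3 < 17 * a ^ 2 + a * d := by nlinarith
    by_contra hcon
    push Not at hcon
    nlinarith [mul_pos (by linarith : 0 < d - 12 * a) (by linarith : 0 < d + 9 * a), sq_nonneg a]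

theorem overlap (hL : 0 ≤ L) (h1 : ‖z‖ ≤ 1 + η) (h1' : ‖z'‖ ≤ 1 + η) (hη : 0 ≤ η) (hη1 : η ≤ 1)
    (hδ0 : 0 ≤ δ) (hδ : δ ≤ ‖z - z'‖) (hηδ : 24 * η ≤ δ ^ 2) :
    (stdGaussian (Eu n)).real {g | L < ⟪g, z⟫ ∧ L < ⟪g, z'⟫} ≤
      Real.exp (-(L ^ 2 * δ ^ 2 / 16)) * Qt L := by
  set x := δ ^ 2 / 16 with hx
  have hx0 : 0 ≤ x := by positivity
  have hr : 0 < 2 / (1 + x) := by positivity
  have hn : ‖z + z'‖ ≤ 2 / (1 + x) := by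
    have p := parallelogram_law_with_norm ℝ z z'
    have b1 : ‖z‖ ^ 2 ≤ (1 + η) ^ 2 := pow_le_pow_left₀ (norm_nonneg _) h1 2
    have b2 : ‖z'‖ ^ 2 ≤ (1 + η) ^ 2 := pow_le_pow_left₀ (norm_nonneg _) h1' 2
    have b3 : δ ^ 2 ≤ ‖z - z'‖ ^ 2 := pow_le_pow_left₀ hδ0 hδ 2
    have b4 : ‖z + z'‖ ^ 2 ≤ 4 - 8 * x := by nlinarith
    rw [le_div_iff₀ (by positivity)]
    refine (pow_le_pow_iff_left₀ (by positivity) (by norm_num) two_ne_zero).1 ?_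
    rw [mul_pow]
    have b5 := mul_le_mul_of_nonneg_right b4 (sq_nonneg (1 + x))
    nlinarith [mul_nonneg hx0 (sq_nonneg x), sq_nonneg x]
  have hsub : {g : Eu n | L < ⟪g, z⟫ ∧ L < ⟪g, z'⟫} ⊆ {g | 2 * L < ⟪g, z + z'⟫} := by
    intro g hg
    have a1 := hg.1
    have a2 := hg.2
    show 2 * L < ⟪g, z + z'⟫
    rw [inner_add_right]
    linarith
  have h2 := (measureReal_mono hsub (measure_ne_top (stdGaussian (Eu n)) _)).trans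
    (gauss_inner_gt (by linarith) hr hn)
  have e1 : 2 * L / (2 / (1 + x)) = L + L * x := by field_simp
  have h3 := Qt_add_le hL (mul_nonneg hL hx0)
  have e2 : L * (L * x) = L ^ 2 * δ ^ 2 / 16 := by rw [hx]; ring
  rw [e1] at h2
  rw [e2] at h3
  exact h2.trans h3

end Crest.Agent.R225
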