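import Crest.Agent.R225.Indep

/-!
# Row 225: Cells
Sums over labels compared with integrals.  `E = ℝ × (κ → ℝ)` carries the sup metric; `fib J y = {τ | (τ, y) ∈ J}`.
`vol (arc J ε u z) ≤ ε^|κ| vol (fib J (ε (u + w)))` (the projection `ℝ → circle` does not increase measure), with equality if the fibre is
shorter than `ε^(-|κ|)`.  Cells: `cell w = {y | ∀ i, ε (u i + w i) ≤ y i < ε (u i + w i + 1)}` are disjoint of volume `ε^|κ|` and cover;
for `y` within sup-distance `η` of `y'`, `fib J y' ⊆ fib (cthickening η J) y`.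
-/

set_option autoImplicit false

open MeasureTheory ProbabilityTheory Matrix Filter Topology
open scoped ENNReal RealInnerProductSpace

noncomputable section

namespace Crest.Agent.R225

theorem Cells_img_eq {S : Set ℝ} (hS : MeasurableSet S) {a : ℝ} (hSa : S ⊆ Set.Ioc a (a + 1)) :
    volume (((↑) : ℝ → UnitAddCircle) '' S) = volume S := by
  have hinj : Set.InjOn ((↑) : ℝ → UnitAddCircle) (Set.Ioc a (a + 1)) := fun x hx y hy h =>
    (AddCircle.coe_eq_coe_iff_of_mem_Ioc hx hy).1 h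
  have hm : MeasurableSet (((↑) : ℝ → UnitAddCircle) '' S) :=
    hS.image_of_continuousOn_injOn (AddCircle.continuous_mk' (1 : ℝ)).continuousOn (hinj.mono hSa)
  rw [← (UnitAddCircle.measurePreserving_mk a).measure_preimage hm.nullMeasurableSet,
    Measure.restrict_apply' measurableSet_Ioc]
  congr 1
  ext x
  constructor
  · rintro ⟨⟨y, hy, hxy⟩, hx⟩
    rwa [← hinj (hSa hy) hx hxy]
  · intro hx
    exact ⟨⟨x, hx, rfl⟩, hSa hx⟩

theorem Cells_img_le {S : Set ℝ} (hS : MeasurableSet S) :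
    volume (((↑) : ℝ → UnitAddCircle) '' S) ≤ volume S := by
  have e : S = ⋃ n : ℤ, S ∩ Set.Ioc (n : ℝ) (n + 1) := by
    rw [← Set.inter_iUnion, iUnion_Ioc_intCast, Set.inter_univ]
  have hd : Pairwise (Function.onFun Disjoint fun n : ℤ => S ∩ Set.Ioc (n : ℝ) (n + 1)) :=
    fun m n hmn => (Set.pairwise_disjoint_Ioc_intCast ℝ hmn).mono Set.inter_subset_right
      Set.inter_subset_right
  conv_rhs => rw [e, measure_iUnion hd fun n => hS.inter measurableSet_Ioc]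
  conv_lhs => rw [e, Set.image_iUnion]
  refine (measure_iUnion_le _).trans (le_of_eq (tsum_congr fun n => ?_))
  exact Cells_img_eq (hS.inter measurableSet_Ioc) Set.inter_subset_right

theorem Cells_scale {c : ℝ} (hc : 0 < c) (S : Set ℝ) :
    volume ((fun τ => τ * c) '' S) = ENNReal.ofReal c * volume S := by
  have e : (fun τ => τ * c) '' S = (fun τ => τ * c⁻¹) ⁻¹' S := by
    ext t
    constructor
    · rintro ⟨τ, hτ, rfl⟩
      simpa [mul_assoc, hc.ne'] using hτ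
    · intro ht
      exact ⟨t * c⁻¹, ht, by simp [mul_assoc, hc.ne']⟩
  rw [e, Real.volume_preimage_mul_right (inv_ne_zero hc.ne'), inv_inv, abs_of_pos hc]

variable {κ L : Type} [Fintype κ] [DecidableEq κ] [Fintype L] [DecidableEq L]
  {J : Set (ℝ × (κ → ℝ))} {ε η R₀ : ℝ} {u : κ → ℝ}

/-- fibre -/
def Cellsfib (J : Set (ℝ × (κ → ℝ))) (y : κ → ℝ) : Set ℝ := {τ | (τ, y) ∈ J}

/-- grid point -/
def Cellspt (ε : ℝ) (u : κ → ℝ) (w : κ → ℤ) : κ → ℝ := fun i => ε * (u i + w i)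

/-- cell -/
def Cellscell (ε : ℝ) (u : κ → ℝ) (w : κ → ℤ) : Set (κ → ℝ) :=
  Set.pi Set.univ fun i => Set.Ico (ε * (u i + w i)) (ε * (u i + w i + 1))

omit [DecidableEq κ] in
theorem Cellsfib_compact (hJ : IsCompact J) (y : κ → ℝ) : IsCompact (Cellsfib J y) := by
  have hc : IsClosed (Cellsfib J y) :=
    hJ.isClosed.preimage (continuous_id.prodMk continuous_const)
  exact (hJ.image continuous_fst).of_isClosed_subset hc fun τ hτ => ⟨(τ, y), hτ, rfl⟩

omit [DecidableEq κ] in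
theorem Cells_arc_eq (J : Set (ℝ × (κ → ℝ))) (ε : ℝ) (u : κ → ℝ) (z : Option κ → ℤ) :
    arc J ε u z = ((↑) : ℝ → UnitAddCircle) '' ((fun τ => τ * ε ^ Fintype.card κ) ''
      Cellsfib J (Cellspt ε u fun i => z (some i))) := by
  ext t
  constructor
  · rintro ⟨τ, hτ, rfl⟩
    exact ⟨_, ⟨τ, hτ, rfl⟩, rfl⟩
  · rintro ⟨_, ⟨τ, hτ, rfl⟩, rfl⟩
    exact ⟨τ, hτ, rfl⟩

omit [DecidableEq κ] in
theorem Cells_scaled_compact (hJ : IsCompact J) (c : ℝ) (y : κ → ℝ) :
    IsCompact ((fun τ => τ * c) '' Cellsfib J y) :=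
  (Cellsfib_compact hJ y).image (continuous_id.mul continuous_const)

theorem measurableSet_arc (hJ : IsCompact J) (ε : ℝ) (u : κ → ℝ) (z : Option κ → ℤ) :
    MeasurableSet (arc J ε u z) := by
  rw [Cells_arc_eq]
  exact ((Cells_scaled_compact hJ _ _).image (AddCircle.continuous_mk' (1 : ℝ))).isClosed.measurableSet

omit [DecidableEq κ] in
theorem Cells_arc_le (hJ : IsCompact J) (hε : 0 < ε) (u : κ → ℝ) (z : Option κ → ℤ) :
    volume (arc J ε u z) ≤ ENNReal.ofReal (ε ^ Fintype.card κ) *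
      volume (Cellsfib J (Cellspt ε u fun i => z (some i))) := by
  rw [Cells_arc_eq, ← Cells_scale (pow_pos hε _)]
  exact Cells_img_le (Cells_scaled_compact hJ _ _).isClosed.measurableSet

omit [DecidableEq κ] in
theorem Cells_abs_le (hR : J ⊆ Metric.closedBall 0 R₀) {τ : ℝ} {y : κ → ℝ} (h : (τ, y) ∈ J) :
    |τ| ≤ R₀ ∧ ∀ i, |y i| ≤ R₀ := by
  have h1 := hR h
  rw [mem_closedBall_zero_iff, Prod.norm_def, max_le_iff] at h1
  exact ⟨h1.1, fun i => (norm_le_pi_norm y i).trans h1.2⟩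

omit [DecidableEq κ] in
theorem Cells_arc_vol (hJ : IsCompact J) (hR : J ⊆ Metric.closedBall 0 R₀) (hε : 0 < ε)
    (hw : 2 * R₀ * ε ^ Fintype.card κ < 1) (u : κ → ℝ) (z : Option κ → ℤ) :
    volume (arc J ε u z) = ENNReal.ofReal (ε ^ Fintype.card κ) *
      volume (Cellsfib J (Cellspt ε u fun i => z (some i))) := by
  rw [Cells_arc_eq, ← Cells_scale (pow_pos hε _)]
  refine Cells_img_eq (a := -1 / 2) (Cells_scaled_compact hJ _ _).isClosed.measurableSet ?_
  rintro _ ⟨τ, hτ, rfl⟩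
  have h1 := abs_le.1 (Cells_abs_le hR hτ).1
  have h2 := pow_pos hε (Fintype.card κ)
  constructor
  · show -1 / 2 < τ * ε ^ Fintype.card κ
    nlinarith [h1.1]
  · show τ * ε ^ Fintype.card κ ≤ -1 / 2 + 1
    nlinarith [h1.2]

theorem arc_le (hJ : IsCompact J) (hR : J ⊆ Metric.closedBall 0 R₀) (hR0 : 0 ≤ R₀) (hε : 0 < ε)
    (u : κ → ℝ) (z : Option κ → ℤ) :
    volume.real (arc J ε u z) ≤ 2 * R₀ * ε ^ Fintype.card κ := by
  have h2 := pow_pos hε (Fintype.card κ)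
  refine ENNReal.toReal_le_of_le_ofReal (by positivity) ((Cells_arc_le hJ hε u z).trans ?_)
  rw [mul_comm (2 * R₀), ENNReal.ofReal_mul h2.le]
  refine mul_le_mul_right ?_ _
  refine (measure_mono (t := Set.Icc (-R₀) R₀) fun τ hτ => abs_le.1 (Cells_abs_le hR hτ).1).trans ?_
  rw [Real.volume_Icc]
  exact le_of_eq (by congr 1; ring)

omit [Fintype κ] [DecidableEq κ] in
theorem Cells_mem_cell (hε : 0 < ε) {w : κ → ℤ} {y : κ → ℝ} :
    y ∈ Cellscell ε u w ↔ (fun i => ⌊y i / ε - u i⌋) = w := by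
  simp only [Cellscell, Set.mem_pi, Set.mem_univ, true_imp_iff, Set.mem_Ico, funext_iff,
    Int.floor_eq_iff]
  refine forall_congr' fun i => ?_
  rw [le_sub_iff_add_le, sub_lt_iff_lt_add, le_div_iff₀ hε, div_lt_iff₀ hε]
  constructor <;> rintro ⟨h1, h2⟩ <;> constructor <;> linarith

omit [DecidableEq κ] in
theorem Cells_cell_vol (hε : 0 < ε) (u : κ → ℝ) (w : κ → ℤ) :
    volume (Cellscell ε u w) = ENNReal.ofReal (ε ^ Fintype.card κ) := by
  unfold Cellscell
  rw [Real.volume_pi_Ico, ENNReal.ofReal_pow hε.le, ← Finset.card_univ, ← Finset.prod_const]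
  refine Finset.prod_congr rfl fun i _ => ?_
  congr 1
  ring

omit [DecidableEq κ] in
theorem Cells_cell_meas (ε : ℝ) (u : κ → ℝ) (w : κ → ℤ) : MeasurableSet (Cellscell ε u w) :=
  MeasurableSet.univ_pi fun _ => measurableSet_Ico

omit [DecidableEq κ] in
theorem Cells_dist (hε : 0 < ε) {w : κ → ℤ} {y : κ → ℝ} (hy : y ∈ Cellscell ε u w) (τ : ℝ) :
    dist ((τ, y) : ℝ × (κ → ℝ)) (τ, Cellspt ε u w) ≤ ε := by
  rw [Prod.dist_eq, dist_self, max_le_iff]
  refine ⟨hε.le, (dist_pi_le_iff hε.le).2 fun i => ?_⟩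
  have := hy i (Set.mem_univ i)
  rw [Real.dist_eq, abs_le]
  simp only [Cellspt]
  constructor <;> linarith [this.1, this.2]

omit [Fintype κ] [DecidableEq κ] in
theorem Cells_lab_inj : Function.Injective (lab : (κ → ℤ) → Option κ → ℤ) :=
  fun _ _ h => funext fun i => congrFun h (some i)

omit [DecidableEq κ] in
theorem Cells_box_vol (hε : 0 < ε) (J : Set (ℝ × (κ → ℝ))) (u : κ → ℝ) (w : κ → ℤ) :
    volume (Cellsfib J (Cellspt ε u w) ×ˢ Cellscell ε u w) =
      ENNReal.ofReal (ε ^ Fintype.card κ) * volume (Cellsfib J (Cellspt ε u w)) := by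
  rw [Measure.volume_eq_prod, Measure.prod_prod, Cells_cell_vol hε, mul_comm]

theorem Cells_sum_real (J : Set (ℝ × (κ → ℝ))) (ε : ℝ) (u : κ → ℝ) (R : ℕ) :
    ∑ z ∈ box κ R, volume.real (arc J ε u z) =
      (∑ w ∈ Fintype.piFinset fun _ : κ => Finset.Icc (-(R : ℤ)) R,
        volume (arc J ε u (lab w))).toReal := by
  unfold box
  rw [Finset.sum_image fun _ _ _ _ h => Cells_lab_inj h,
    ENNReal.toReal_sum fun _ _ => measure_ne_top _ _]
  rfl

theorem sum_arc_le (hJ : IsCompact J) (hε : 0 < ε) (hη : ε ≤ η) (u : κ → ℝ) (R : ℕ) :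
    ∑ z ∈ box κ R, volume.real (arc J ε u z) ≤ volume.real (Metric.cthickening η J) := by
  rw [Cells_sum_real]
  refine ENNReal.toReal_mono hJ.cthickening.measure_lt_top.ne ?_
  refine (Finset.sum_le_sum fun w _ => (Cells_arc_le hJ hε u (lab w)).trans
    (Cells_box_vol hε J u w).ge).trans ?_
  rw [← measure_biUnion_finset]
  · refine measure_mono (Set.iUnion₂_subset fun w _ => ?_)
    rintro ⟨τ, y⟩ ⟨hτ, hy⟩
    exact Metric.mem_cthickening_of_dist_le _ _ _ _ hτ ((Cells_dist hε hy τ).trans hη)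
  · intro w _ w' _ hww
    refine Set.disjoint_left.2 fun p hp hp' => hww ?_
    exact ((Cells_mem_cell hε).1 hp.2).symm.trans ((Cells_mem_cell hε).1 hp'.2)
  · intro w _
    exact (Cellsfib_compact hJ _).isClosed.measurableSet.prod (Cells_cell_meas _ _ _)

theorem Cells_mem_box (hR : J ⊆ Metric.closedBall 0 R₀) (hε : 0 < ε) (hu : ∀ i, |u i| ≤ 1) {R : ℕ}
    (hRR : R₀ / ε + 1 ≤ R) {w : κ → ℤ} {τ : ℝ} (h : (τ, Cellspt ε u w) ∈ J) :
    w ∈ Fintype.piFinset fun _ : κ => Finset.Icc (-(R : ℤ)) R := by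
  rw [Fintype.mem_piFinset]
  intro i
  have h1 := (Cells_abs_le hR h).2 i
  simp only [Cellspt] at h1
  rw [abs_mul, abs_of_pos hε, mul_comm, ← le_div_iff₀ hε, abs_le] at h1
  have h2 := abs_le.1 (hu i)
  rw [Finset.mem_Icc]
  constructor
  · have : (-(R : ℝ)) ≤ w i := by linarith [h1.1, h2.2]
    exact_mod_cast this
  · have : (w i : ℝ) ≤ R := by linarith [h1.2, h2.1]
    exact_mod_cast this

theorem le_sum_arc (hJ : IsCompact J) (hR : J ⊆ Metric.closedBall 0 R₀) (hε : 0 < ε)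
    (hw : 2 * R₀ * ε ^ Fintype.card κ < 1) (hu : ∀ i, |u i| ≤ 1) {R : ℕ} (hRR : R₀ / ε + 1 ≤ R) :
    volume.real {x | Metric.closedBall x ε ⊆ J} ≤ ∑ z ∈ box κ R, volume.real (arc J ε u z) := by
  rw [Cells_sum_real]
  refine ENNReal.toReal_mono (ENNReal.sum_ne_top.2 fun _ _ => measure_ne_top _ _) ?_
  refine le_trans ?_ (Finset.sum_le_sum fun w _ => (Cells_box_vol hε J u w).le.trans
    (Cells_arc_vol hJ hR hε hw u (lab w)).ge)
  refine (measure_mono ?_).trans (measure_biUnion_finset_le _ _)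
  rintro ⟨τ, y⟩ hx
  have hy : y ∈ Cellscell ε u fun i => ⌊y i / ε - u i⌋ := (Cells_mem_cell hε).2 rfl
  have hJ' : (τ, Cellspt ε u fun i => ⌊y i / ε - u i⌋) ∈ J :=
    hx (Metric.mem_closedBall'.2 (Cells_dist hε hy τ))
  exact Set.mem_iUnion₂.2 ⟨_, Cells_mem_box hR hε hu hRR hJ', hJ', hy⟩

theorem arc_eq_empty (hR : J ⊆ Metric.closedBall 0 R₀) (hε : 0 < ε) (hu : ∀ i, |u i| ≤ 1) {R : ℕ}
    (hRR : R₀ / ε + 1 ≤ R) {w : κ → ℤ} (hw : lab w ∉ box κ R) : arc J ε u (lab w) = ∅ := by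
  refine Set.eq_empty_of_forall_notMem ?_
  rintro t ⟨τ, hτ, -⟩
  exact hw (Finset.mem_image_of_mem _ (Cells_mem_box hR hε hu hRR hτ))

end Crest.Agent.R225
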