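import Crest.Agent.R225.Proj

/-!
# Row 225: Desm
Removing the smoothing.  `f y = vol (sec K y) / vol K` is the density of the vertical projection (Fubini through
`MeasurableEquiv.sumPiEquivProdPi`), so `∫ gv a (y - x ∘ inl) d(volume[|K]) = ∫ gv a (y - y') f y' dy'`.
`convex_sec_level`: the level set is closed (for `y m → y`, `⋂ k, ⋃ m ≥ k, sec K (y m) ⊆ sec K y`, continuity from above) and midpoint convex
(`Lib.PL.hasPL_pi`, transported to `κ → ℝ`), hence convex (dyadic rationals are dense).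
`desmooth`: if `f y₀ < lam`, separate `y₀` from the closed convex set `{lam ≤ f}` (`geometric_hahn_banach_point_closed`; if it is empty any unit `ν` will do): a unit
`ν` with `f < lam` on `{(y - y₀) ⬝ ν ≥ 0}`.  At `y₀ + t ν` the integral over this half-space is `≤ lam ∫ gv = lam`, and off it
`gv a (y₀ + t ν - y') ≤ (2πa)^(-d/2) exp (-t²/(2a))` while `∫ f = 1`.
`surj_of_lower`: if `Γ` is not onto take a unit `ν` orthogonal to the range.
`exists_extend`: complete a surjection by coordinates on a complement of the kernel (`LinearMap.exists_rightInverse_of_surjective`,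
rank-nullity, `LinearEquiv.ofFinrankEq`).
-/

set_option autoImplicit false
set_option linter.unusedSectionVars false

open MeasureTheory ProbabilityTheory Matrix Filter Topology
open scoped ENNReal RealInnerProductSpace

noncomputable section

namespace Crest.Agent.R225

variable {ι κ : Type} [Fintype ι] [DecidableEq ι] [Fintype κ] [DecidableEq κ]

theorem isCompact_sec {K : Set (ι ⊕ κ → ℝ)} (h : IsCompact K) (y : ι → ℝ) : IsCompact (sec K y) := by
  have h1 : Continuous fun w : κ → ℝ => (Sum.elim y w : ι ⊕ κ → ℝ) :=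
    continuous_pi fun i => by cases i <;> simp only [Sum.elim_inl, Sum.elim_inr] <;> fun_prop
  refine (h.image (f := fun x j => x (Sum.inr j)) (by fun_prop)).of_isClosed_subset
    (h.isClosed.preimage h1) fun w hw => ⟨_, hw, rfl⟩

theorem convex_sec {K : Set (ι ⊕ κ → ℝ)} (h : Convex ℝ K) (y : ι → ℝ) : Convex ℝ (sec K y) := by
  intro w hw w' hw' a b ha hb hab
  have := h hw hw' ha hb hab
  show Sum.elim y (a • w + b • w') ∈ K
  convert this using 1
  ext (i | i)
  · simp [← add_mul, hab]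
  · simp

theorem desm_hasPL : Crest.Agent.Lib.PL.HasPL (volume : Measure (κ → ℝ)) :=
  (Crest.Agent.Lib.PL.hasPL_pi (Fintype.card κ)).of_measurePreserving
    (volume_preserving_arrowCongr' (Fintype.equivFin κ).symm (MeasurableEquiv.refl ℝ)
      (MeasurePreserving.id _)) fun _ _ => rfl

/-- a closed midpoint convex set is convex -/
theorem desm_convex {E : Type} [NormedAddCommGroup E] [NormedSpace ℝ E] {S : Set E}
    (hS : IsClosed S) (hm : ∀ x ∈ S, ∀ y ∈ S, (1 / 2 : ℝ) • (x + y) ∈ S) : Convex ℝ S := by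
  intro x hx y hy a b ha hb hab
  by_contra hc
  have hT : IsClosed {t : ℝ | x + t • (y - x) ∈ S} := hS.preimage (by fun_prop)
  have hb' : b ∉ {t : ℝ | x + t • (y - x) ∈ S} := by
    intro h
    refine hc ?_
    rw [show a = 1 - b by linarith]
    convert (show x + b • (y - x) ∈ S from h) using 1
    module
  obtain ⟨u, hu, hu'⟩ := (isCompact_Icc.inter_left hT).exists_isGreatest
    (⟨0, by simpa using hx, le_rfl, hb⟩ : ({t : ℝ | x + t • (y - x) ∈ S} ∩ Set.Icc 0 b).Nonempty)
  obtain ⟨v, hv, hv'⟩ := (isCompact_Icc.inter_left hT).exists_isLeast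
    (⟨1, by simpa using hy, by linarith, le_rfl⟩ :
      ({t : ℝ | x + t • (y - x) ∈ S} ∩ Set.Icc b 1).Nonempty)
  have h1 : u < b := lt_of_le_of_ne hu.2.2 fun h => hb' (h ▸ hu.1)
  have h2 : b < v := lt_of_le_of_ne hv.2.1 fun h => hb' (h ▸ hv.1)
  have h3 : (u + v) / 2 ∈ {t : ℝ | x + t • (y - x) ∈ S} := by
    have := hm _ hu.1 _ hv.1
    show x + ((u + v) / 2) • (y - x) ∈ S
    convert this using 1
    module
  rcases le_total ((u + v) / 2) b with h | h
  · have := hu' ⟨h3, by linarith [hu.2.1], h⟩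
    linarith
  · have := hv' ⟨h3, h, by linarith [hv.2.2]⟩
    linarith

theorem convex_sec_level {K : Set (ι ⊕ κ → ℝ)} (h : Body K) {lam : ℝ} (hl : 0 < lam) :
    IsClosed {y | lam ≤ volume.real (sec K y)} ∧ Convex ℝ {y | lam ≤ volume.real (sec K y)} := by
  have hfin : ∀ y, volume (sec K y) ≠ ⊤ := fun y => (isCompact_sec h.1 y).measure_lt_top.ne
  have hiff : ∀ y, lam ≤ volume.real (sec K y) ↔ ENNReal.ofReal lam ≤ volume (sec K y) := fun y =>
    (ENNReal.ofReal_le_iff_le_toReal (hfin y)).symm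
  have hcl : IsClosed {y | lam ≤ volume.real (sec K y)} := by
    rw [← isOpen_compl_iff, isOpen_iff_forall_mem_open]
    intro y₀ hy₀
    have h1 : volume (sec K y₀) < ENNReal.ofReal lam := not_le.1 fun hc => hy₀ ((hiff y₀).2 hc)
    obtain ⟨U, hU, hUo, hUv⟩ := Set.exists_isOpen_lt_of_lt _ _ h1
    have h2 : IsCompact ((fun (x : ι ⊕ κ → ℝ) i => x (Sum.inl i)) ''
        (K ∩ (fun x j => x (Sum.inr j)) ⁻¹' Uᶜ)) :=
      (h.1.inter_right (hUo.isClosed_compl.preimage (by fun_prop))).image (by fun_prop)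
    refine ⟨_, fun y hy hc => ?_, h2.isClosed.isOpen_compl, ?_⟩
    · have h3 : sec K y ⊆ U := fun w hw => by
        by_contra hn
        exact hy ⟨Sum.elim y w, ⟨hw, hn⟩, rfl⟩
      exact absurd (((hiff y).1 hc).trans (measure_mono h3)) (not_le.2 hUv)
    · rintro ⟨x, ⟨hx, hx'⟩, rfl⟩
      refine hx' (hU ?_)
      show Sum.elim _ _ ∈ K
      convert hx using 1
      ext (i | i) <;> rfl
  refine ⟨hcl, desm_convex hcl fun y hy y' hy' => ?_⟩
  have hms : ∀ y, MeasurableSet (sec K y) := fun y => (isCompact_sec h.1 y).measurableSet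
  have key := desm_hasPL ((sec K y).indicator 1) ((sec K y').indicator 1)
    ((sec K ((1 / 2 : ℝ) • (y + y'))).indicator 1) (measurable_one.indicator (hms _))
    (measurable_one.indicator (hms _)) (measurable_one.indicator (hms _)) (by
      intro w w'
      by_cases hw : w ∈ sec K y
      · by_cases hw' : w' ∈ sec K y'
        · have hz : (1 / 2 : ℝ) • (w + w') ∈ sec K ((1 / 2 : ℝ) • (y + y')) := by
            have hK : Convex ℝ K := h.2.1
            have := hK hw hw' (a := 1 / 2) (b := 1 / 2) (by norm_num) (by norm_num) (by norm_num)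
            show Sum.elim _ _ ∈ K
            convert this using 1
            ext (i | i) <;> simp
          rw [Set.indicator_of_mem hw, Set.indicator_of_mem hw', Set.indicator_of_mem hz]
          simp
        · rw [Set.indicator_of_notMem hw']; simp
      · rw [Set.indicator_of_notMem hw]; simp)
  rw [lintegral_indicator_one (hms _), lintegral_indicator_one (hms _),
    lintegral_indicator_one (hms _)] at key
  have h1 := ENNReal.toReal_mono (ENNReal.pow_ne_top (hfin _)) key
  rw [ENNReal.toReal_mul, ENNReal.toReal_pow] at h1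
  have h2 : lam * lam ≤ volume.real (sec K y) * volume.real (sec K y') :=
    mul_le_mul hy hy' hl.le measureReal_nonneg
  exact (pow_le_pow_iff_left₀ hl.le measureReal_nonneg two_ne_zero).1 (by rw [sq]; exact h2.trans h1)

/-- a nonzero functional is a positive multiple of the product with a unit vector -/
theorem desm_unit (φ : (ι → ℝ) →ₗ[ℝ] ℝ) (hφ : φ ≠ 0) :
    ∃ (ν : ι → ℝ) (r : ℝ), ν ⬝ᵥ ν = 1 ∧ 0 < r ∧ ∀ y, ν ⬝ᵥ y = r * φ y := by
  let c : ι → ℝ := fun i => φ fun j => if i = j then 1 else 0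
  have hc : ∀ y, c ⬝ᵥ y = φ y := fun y => by
    rw [φ.pi_apply_eq_sum_univ y, dotProduct_comm]
    rfl
  have h0 : 0 < c ⬝ᵥ c := by
    refine lt_of_le_of_ne (Finset.sum_nonneg fun i _ => mul_self_nonneg _) fun h => hφ ?_
    refine LinearMap.ext fun y => ?_
    rw [← hc, dotProduct_self_eq_zero.1 h.symm]
    simp
  have h1 := Real.sqrt_pos.2 h0
  refine ⟨(√(c ⬝ᵥ c))⁻¹ • c, (√(c ⬝ᵥ c))⁻¹, ?_, inv_pos.2 h1, fun y => ?_⟩
  · rw [smul_dotProduct, dotProduct_smul, smul_eq_mul, smul_eq_mul, ← mul_assoc, ← mul_inv,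
      Real.mul_self_sqrt h0.le, inv_mul_cancel₀ h0.ne']
  · rw [smul_dotProduct, smul_eq_mul, hc y]

/-- the Gaussian density behind a hyperplane -/
theorem desm_gv_le {a t : ℝ} (ha : 0 < a) (ht : 0 ≤ t) {ν z : ι → ℝ} (hν : ν ⬝ᵥ ν = 1)
    (hz : ν ⬝ᵥ z ≤ 0) : gv a (t • ν - z) ≤
      (√(2 * Real.pi * a))⁻¹ ^ Fintype.card ι * Real.exp (-t ^ 2 / (2 * a)) := by
  rw [gv_eq]
  refine mul_le_mul_of_nonneg_left (Real.exp_le_exp.2
    (div_le_div_of_nonneg_right (neg_le_neg ?_) (by positivity))) (by positivity)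
  have h1 : 0 ≤ z ⬝ᵥ z := Finset.sum_nonneg fun i _ => mul_self_nonneg _
  simp only [sub_dotProduct, dotProduct_sub, smul_dotProduct, dotProduct_smul, smul_eq_mul, hν,
    dotProduct_comm z ν]
  nlinarith [mul_nonneg ht (neg_nonneg.2 hz)]

/-- Fubini along the sections -/
theorem desm_fubini {K : Set (ι ⊕ κ → ℝ)} (hK : MeasurableSet K) {g : (ι → ℝ) → ℝ≥0∞}
    (hg : Measurable g) :
    ∫⁻ x in K, g (fun i => x (Sum.inl i)) = ∫⁻ y, g y * volume (sec K y) := by
  have hm : Measurable (K.indicator fun x : ι ⊕ κ → ℝ => g (fun i => x (Sum.inl i))) :=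
    (hg.comp (by fun_prop)).indicator hK
  have he := volume_measurePreserving_sumPiEquivProdPi_symm (fun _ : ι ⊕ κ => ℝ)
  rw [← lintegral_indicator hK, ← he.lintegral_comp hm, Measure.volume_eq_prod]
  refine (lintegral_prod _ (hm.comp he.measurable).aemeasurable).trans (lintegral_congr fun y => ?_)
  have h1 : Measurable fun w : κ → ℝ => (Sum.elim y w : ι ⊕ κ → ℝ) :=
    measurable_pi_lambda _ fun i => by
      cases i <;> simp only [Sum.elim_inl, Sum.elim_inr] <;> fun_prop
  rw [← lintegral_indicator_const (s := sec K y) (h1 hK)]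
  refine lintegral_congr fun w => ?_
  have h2 : (MeasurableEquiv.sumPiEquivProdPi fun _ : ι ⊕ κ => ℝ).symm (y, w) = Sum.elim y w := by
    ext (i | i) <;> rfl
  rw [Function.comp_apply, h2]
  by_cases hw : Sum.elim y w ∈ K
  · rw [Set.indicator_of_mem hw, Set.indicator_of_mem (show w ∈ sec K y from hw)]
    rfl
  · rw [Set.indicator_of_notMem hw, Set.indicator_of_notMem (show w ∉ sec K y from hw)]

/-- the part of the smoothed density coming from small sections -/
theorem desm_small {K : Set (ι ⊕ κ → ℝ)} (h : Body K) {a lam : ℝ} (ha : 0 < a) (hl : 0 < lam)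
    (p : ι → ℝ) {S : Set (ι → ℝ)} (hS : MeasurableSet S)
    (hS' : ∀ y ∈ S, volume.real (sec K y) ≤ lam * volume.real K) :
    ∫ x, S.indicator (fun y => gv a (p - y)) (fun i => x (Sum.inl i)) ∂(volume[|K]) ≤ lam := by
  have hc : Continuous fun y : ι → ℝ => gv a (p - y) := (continuous_gv a).comp (by fun_prop)
  have hm : Measurable (S.indicator fun y => gv a (p - y)) := hc.measurable.indicator hS
  rw [integral_eq_lintegral_of_nonneg_ae
    (ae_of_all _ fun x => Set.indicator_nonneg (fun y _ => (gv_pos ha _).le) _)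
    (hm.comp (by fun_prop)).aestronglyMeasurable]
  refine ENNReal.toReal_le_of_le_ofReal hl.le ?_
  rw [ProbabilityTheory.cond, lintegral_smul_measure, desm_fubini h.1.measurableSet
    (g := fun y => ENNReal.ofReal (S.indicator (fun y => gv a (p - y)) y)) hm.ennreal_ofReal]
  have h1 : ∫⁻ y, ENNReal.ofReal (S.indicator (fun y => gv a (p - y)) y) * volume (sec K y) ≤
      ∫⁻ y, ENNReal.ofReal (gv a (p - y)) * (ENNReal.ofReal lam * volume K) := by
    refine lintegral_mono fun y => ?_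
    by_cases hy : y ∈ S
    · rw [Set.indicator_of_mem hy]
      refine mul_le_mul_right ?_ _
      rw [← ofReal_measureReal (isCompact_sec h.1 y).measure_lt_top.ne,
        ← ofReal_measureReal h.vol_lt_top.ne, ← ENNReal.ofReal_mul hl.le]
      exact ENNReal.ofReal_le_ofReal (hS' y hy)
    · simp [Set.indicator_of_notMem hy]
  rw [lintegral_mul_const _ hc.measurable.ennreal_ofReal,
    lintegral_sub_left_eq_self (fun y => ENNReal.ofReal (gv a y)) p,
    ← ofReal_integral_eq_lintegral_ofReal (integrable_gv ha) (ae_of_all _ fun y => (gv_pos ha y).le),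
    integral_gv ha, ENNReal.ofReal_one, one_mul] at h1
  refine (mul_le_mul_right h1 _).trans_eq ?_
  rw [mul_comm (ENNReal.ofReal lam), ← mul_assoc,
    ENNReal.inv_mul_cancel h.vol_pos.ne' h.vol_lt_top.ne, one_mul]

theorem desmooth [Nonempty ι] {K : Set (ι ⊕ κ → ℝ)} (h : Body K) {a t lam : ℝ} (ha : 0 < a)
    (ht : 0 ≤ t) (hl : 0 < lam) (y₀ : ι → ℝ)
    (H : ∀ ν : ι → ℝ, ν ⬝ᵥ ν = 1 →
      lam + (√(2 * Real.pi * a))⁻¹ ^ Fintype.card ι * Real.exp (-t ^ 2 / (2 * a)) <
        ∫ x, gv a (y₀ + t • ν - fun i => x (Sum.inl i)) ∂(volume[|K])) :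
    lam * volume.real K ≤ volume.real (sec K y₀) := by
  by_contra hc
  obtain ⟨hcl, hcv⟩ := convex_sec_level h (mul_pos hl h.real_pos)
  obtain ⟨ν, hν, hsep⟩ : ∃ ν : ι → ℝ, ν ⬝ᵥ ν = 1 ∧
      ∀ y, lam * volume.real K ≤ volume.real (sec K y) → ν ⬝ᵥ (y - y₀) ≤ 0 := by
    obtain ⟨f, u, h1, h2⟩ := geometric_hahn_banach_point_closed hcv hcl hc
    by_cases hf : -(f : (ι → ℝ) →ₗ[ℝ] ℝ) = 0
    · refine ⟨Pi.single (Classical.arbitrary ι) 1, by simp, fun y hy => ?_⟩
      have h3 : ∀ z, f z = 0 := fun z => by simpa using LinearMap.congr_fun hf z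
      have := h2 y hy
      rw [h3] at h1 this
      linarith
    · obtain ⟨ν, r, h3, h4, h5⟩ := desm_unit _ hf
      refine ⟨ν, h3, fun y hy => ?_⟩
      rw [h5]
      refine mul_nonpos_of_nonneg_of_nonpos h4.le ?_
      have := h2 y hy
      simp only [LinearMap.neg_apply, map_sub, ContinuousLinearMap.coe_coe]
      linarith
  refine absurd (H ν hν) (not_lt.2 ?_)
  have := h.isProb
  have h1 := desm_small h ha hl (y₀ + t • ν) hcl.measurableSet.compl
    fun y hy => le_of_not_ge hy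
  have hc' : Continuous fun x : ι ⊕ κ → ℝ => gv a (y₀ + t • ν - fun i => x (Sum.inl i)) :=
    (continuous_gv a).comp (by fun_prop)
  have hint : Integrable (fun x : ι ⊕ κ → ℝ =>
      {y | lam * volume.real K ≤ volume.real (sec K y)}ᶜ.indicator
        (fun y => gv a (y₀ + t • ν - y)) (fun i => x (Sum.inl i))) (volume[|K]) :=
    (h.integrable hc').indicator (s := (fun (x : ι ⊕ κ → ℝ) i => x (Sum.inl i)) ⁻¹'
      {y | lam * volume.real K ≤ volume.real (sec K y)}ᶜ)
      (hcl.measurableSet.compl.preimage (by fun_prop))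
  refine (integral_mono (h.integrable hc') (hint.add (integrable_const
    ((√(2 * Real.pi * a))⁻¹ ^ Fintype.card ι * Real.exp (-t ^ 2 / (2 * a))))) fun x => ?_).trans ?_
  · simp only [Pi.add_apply]
    by_cases hx : (fun i => x (Sum.inl i)) ∈ {y | lam * volume.real K ≤ volume.real (sec K y)}
    · rw [Set.indicator_of_notMem (Set.notMem_compl_iff.2 hx), zero_add,
        show y₀ + t • ν - (fun i => x (Sum.inl i)) = t • ν - ((fun i => x (Sum.inl i)) - y₀) by abel]
      exact desm_gv_le ha ht hν (hsep _ hx)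
    · rw [Set.indicator_of_mem (Set.mem_compl hx)]
      exact le_add_of_nonneg_right (by positivity)
  · simp only [Pi.add_apply]
    rw [integral_add hint (integrable_const _), integral_const, probReal_univ, one_smul]
    linarith

theorem surj_of_lower {n : ℕ} {K : Set (Fin n → ℝ)} (h : Body K) {a t : ℝ} (ha : 0 < a) (ht : 0 ≤ t)
    (Γ : Matrix ι (Fin n) ℝ)
    (H : ∀ ν : ι → ℝ, ν ⬝ᵥ ν = 1 →
      (√(2 * Real.pi * a))⁻¹ ^ Fintype.card ι * Real.exp (-t ^ 2 / (2 * a)) <
        ∫ x, gv a (t • ν - Γ *ᵥ x) ∂(volume[|K])) :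
    Function.Surjective Γ.mulVec := by
  by_contra hc
  obtain ⟨f, hf, hr⟩ := Submodule.exists_le_ker_of_lt_top (LinearMap.range Γ.mulVecLin)
    (lt_top_iff_ne_top.2 fun hh => hc (LinearMap.range_eq_top.1 hh))
  obtain ⟨ν, r, h1, -, h2⟩ := desm_unit f hf
  refine absurd (H ν h1) (not_lt.2 ?_)
  have := h.isProb
  refine (integral_mono (h.integrable ((continuous_gv a).comp (by fun_prop))) (integrable_const _)
    fun x => desm_gv_le ha ht h1 ?_).trans_eq ?_
  · rw [h2, show f (Γ *ᵥ x) = 0 from hr ⟨x, rfl⟩, mul_zero]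
  · rw [integral_const, probReal_univ, one_smul]

theorem exists_extend {n : ℕ} (hn : n = Fintype.card ι + Fintype.card κ) (Γ : Matrix ι (Fin n) ℝ)
    (hΓ : Function.Surjective Γ.mulVec) :
    ∃ Φ : (Fin n → ℝ) ≃ₗ[ℝ] (ι ⊕ κ → ℝ), ∀ x i, Φ x (Sum.inl i) = (Γ *ᵥ x) i := by
  have h1 := LinearMap.finrank_range_add_finrank_ker Γ.mulVecLin
  rw [LinearMap.range_eq_top.2 hΓ, finrank_top, Module.finrank_fintype_fun_eq_card,
    Module.finrank_fintype_fun_eq_card, Fintype.card_fin] at h1
  let e : LinearMap.ker Γ.mulVecLin ≃ₗ[ℝ] (κ → ℝ) :=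
    LinearEquiv.ofFinrankEq _ _ (by rw [Module.finrank_fintype_fun_eq_card]; omega)
  obtain ⟨π, hπ⟩ := LinearMap.exists_leftInverse_of_injective (LinearMap.ker Γ.mulVecLin).subtype
    (Submodule.ker_subtype _)
  let Φ : (Fin n → ℝ) →ₗ[ℝ] (ι ⊕ κ → ℝ) :=
    (LinearEquiv.sumArrowLequivProdArrow ι κ ℝ ℝ).symm.toLinearMap ∘ₗ
      (Γ.mulVecLin.prod (e.toLinearMap ∘ₗ π))
  have hinj : Function.Injective Φ := by
    rw [injective_iff_map_eq_zero]
    intro x hx
    have h2 : (Γ.mulVecLin x, e (π x)) = 0 :=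
      (LinearEquiv.sumArrowLequivProdArrow ι κ ℝ ℝ).symm.map_eq_zero_iff.1 hx
    obtain ⟨h3, h4⟩ := Prod.mk_eq_zero.1 h2
    have h5 : π x = ⟨x, h3⟩ := LinearMap.congr_fun hπ ⟨x, h3⟩
    rw [e.map_eq_zero_iff, h5] at h4
    exact congrArg Subtype.val h4
  exact ⟨Φ.linearEquivOfInjective hinj (by simp [hn]), fun x i => rfl⟩

end Crest.Agent.R225
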