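import Crest.Agent.R225.Thin
import Crest.Agent.R225.Desm
import Crest.Agent.R225.Psi

/-!
# Row 225: Marg
Gaussian lower bound for a low-dimensional marginal.  `d = |ι|`.  `exists_iso`; `thin` with `d' = (C₂ d)^6`, `C₂` a natural number with `C / C₂³ ≤ a/4`: a window
`|x ⬝ x / n - τ| ≤ w = C/(C₂ d)³` of mass `≥ c`.  `exists_proj` with `κ := ι` and variance `α = 1/T⁴`, `T = C₃ d²`, `t = 1/T`.  For `y ⬝ y ≤ 4 τ d³` and `s` in the
window (shifted by `α`), `gv s y ≥ e^(-C₄) gv τ y` (`gv_eq`, `|log (s/τ)| ≤ 2|s-τ|/τ`).  For `y₀ = √τ y`, `|y i| ≤ d`, `gv τ (y₀ + t ν) ≥ e^(-1) gv τ y₀`,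
`gv τ y₀ ≥ exp (-C₅ d³)`, while the projection error and the tail `(2πα)^(-d/2) exp (-T²/2)` are `≤ exp (-C₆ d³)` for any fixed `C₆`.
`surj_of_lower`, then `exists_extend` for `Γ' = τ^(-1/2) Γ`; apply `desmooth` to `Φ '' (T₀ '' K)` in the normalised coordinates
(`gv a (√τ v) = τ^(-d/2) gv (a/τ) v`, `gv 1 = gz`, `Body.map_cond`).
-/

set_option autoImplicit false

open MeasureTheory ProbabilityTheory Matrix Filter Topology
open scoped ENNReal RealInnerProductSpace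

noncomputable section

namespace Crest.Agent.R225

theorem marg_one_dim {δ s v B : ℝ} (hδ : δ ≤ 1 / 2) (hs : |s - 1| ≤ δ) (hv : v ^ 2 ≤ B) :
    Real.exp (-(δ + B * δ)) * ph v ≤ (√(2 * Real.pi * s))⁻¹ * Real.exp (-v ^ 2 / (2 * s)) := by
  obtain ⟨h1, h2⟩ := abs_le.1 hs
  have hδ0 : 0 ≤ δ := (abs_nonneg _).trans hs
  have hs0 : 0 < s := by linarith
  have h3 : √s ≤ Real.exp δ := by
    refine Real.sqrt_le_iff.2 ⟨(Real.exp_pos _).le, ?_⟩
    have := Real.add_one_le_exp δ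
    nlinarith
  have h4 : Real.exp (-δ) ≤ (√s)⁻¹ := by
    rw [Real.exp_neg]
    exact inv_anti₀ (Real.sqrt_pos.2 hs0) h3
  have h5 : -(B * δ) + -v ^ 2 / 2 ≤ -v ^ 2 / (2 * s) := by
    rw [le_div_iff₀ (by positivity)]
    have h6 : 1 ≤ (1 + 2 * δ) * s := by nlinarith
    have h7 : v ^ 2 * δ ≤ B * δ := mul_le_mul_of_nonneg_right hv hδ0
    have h8 : v ^ 2 * 1 ≤ v ^ 2 * ((1 + 2 * δ) * s) := mul_le_mul_of_nonneg_left h6 (sq_nonneg _)
    nlinarith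
  calc Real.exp (-(δ + B * δ)) * ph v
      = (√(2 * Real.pi))⁻¹ * Real.exp (-δ) * Real.exp (-(B * δ) + -v ^ 2 / 2) := by
        rw [ph, neg_add, Real.exp_add, Real.exp_add]; ring
    _ ≤ (√(2 * Real.pi))⁻¹ * (√s)⁻¹ * Real.exp (-v ^ 2 / (2 * s)) := by gcongr
    _ = _ := by rw [Real.sqrt_mul (by positivity : 0 ≤ 2 * Real.pi), mul_inv]

variable {ι : Type} [Fintype ι]

theorem marg_gv_ge {s : ℝ} {v : ι → ℝ} (hd : 1 ≤ Fintype.card ι)
    (hs : |s - 1| ≤ 1 / (2 * (Fintype.card ι : ℝ) ^ 3)) (hv : ∀ i, |v i| ≤ 2 * Fintype.card ι) :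
    Real.exp (-3) * gz v ≤ gv s v := by
  have hd' : (1 : ℝ) ≤ Fintype.card ι := by exact_mod_cast hd
  set d : ℝ := (Fintype.card ι : ℝ) with hdd
  have h3 : 1 ≤ d ^ 3 := one_le_pow₀ hd'
  have hδ : 1 / (2 * d ^ 3) ≤ 1 / 2 := by gcongr; linarith
  have h1 : ∏ i, (Real.exp (-(1 / (2 * d ^ 3) + (2 * d) ^ 2 * (1 / (2 * d ^ 3)))) * ph (v i)) ≤
      gv s v :=
    Finset.prod_le_prod (fun i _ => (mul_pos (Real.exp_pos _) (ph_pos _)).le) fun i _ =>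
      marg_one_dim hδ hs (by rw [← sq_abs]; exact pow_le_pow_left₀ (abs_nonneg _) (hv i) 2)
  rw [Finset.prod_mul_distrib, Finset.prod_const, Finset.card_univ, ← Real.exp_nat_mul] at h1
  refine le_trans (mul_le_mul_of_nonneg_right (Real.exp_le_exp.2 ?_) (gz_pos v).le) h1
  have h4 : d * -(1 / (2 * d ^ 3) + (2 * d) ^ 2 * (1 / (2 * d ^ 3))) = -(1 / (2 * d ^ 2) + 2) := by
    field_simp
  have h5 : 1 / (2 * d ^ 2) ≤ 1 := by
    rw [div_le_one (by positivity)]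
    nlinarith
  rw [← hdd, h4]
  linarith

theorem marg_gz_ge {y : ι → ℝ} (hd : 1 ≤ Fintype.card ι) (hy : ∀ i, |y i| ≤ Fintype.card ι) :
    Real.exp (-(2 * (Fintype.card ι : ℝ) ^ 3)) ≤ gz y := by
  have hd' : (1 : ℝ) ≤ Fintype.card ι := by exact_mod_cast hd
  have h1 : ∏ _i : ι, Real.exp (-(2 * (Fintype.card ι : ℝ) ^ 2)) ≤ gz y := by
    refine Finset.prod_le_prod (fun i _ => (Real.exp_pos _).le) fun i _ => ?_
    have h2 : √(2 * Real.pi) ≤ Real.exp 1 := by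
      refine Real.sqrt_le_iff.2 ⟨(Real.exp_pos _).le, ?_⟩
      have := Real.exp_one_gt_d9
      have := Real.pi_lt_d2
      nlinarith
    have h3 : Real.exp (-1) ≤ (√(2 * Real.pi))⁻¹ := by
      rw [Real.exp_neg]
      exact inv_anti₀ (Real.sqrt_pos.2 (by positivity)) h2
    have h4 : y i ^ 2 ≤ (Fintype.card ι : ℝ) ^ 2 := by
      rw [← sq_abs]; exact pow_le_pow_left₀ (abs_nonneg _) (hy i) 2
    calc Real.exp (-(2 * (Fintype.card ι : ℝ) ^ 2)) ≤ Real.exp (-1 + -y i ^ 2 / 2) :=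
          Real.exp_le_exp.2 (by nlinarith)
      _ = Real.exp (-1) * Real.exp (-y i ^ 2 / 2) := Real.exp_add _ _
      _ ≤ _ := by unfold ph; gcongr
  rw [Finset.prod_const, Finset.card_univ, ← Real.exp_nat_mul] at h1
  refine le_trans (le_of_eq ?_) h1
  congr 1
  ring

theorem marg_gv_scale {τ : ℝ} (hτ : 0 < τ) (s : ℝ) (v : ι → ℝ) :
    gv s v = √τ ^ Fintype.card ι * gv (τ * s) (√τ • v) := by
  have h0 : 0 < √τ := Real.sqrt_pos.2 hτ
  rw [← Finset.card_univ, ← Finset.prod_const, gv, gv, ← Finset.prod_mul_distrib]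
  refine Finset.prod_congr rfl fun i _ => ?_
  rw [show 2 * Real.pi * (τ * s) = τ * (2 * Real.pi * s) by ring, Real.sqrt_mul hτ.le, mul_inv,
    ← mul_assoc, ← mul_assoc, mul_inv_cancel₀ h0.ne', one_mul, Pi.smul_apply, smul_eq_mul,
    mul_pow, Real.sq_sqrt hτ.le, show 2 * (τ * s) = τ * (2 * s) by ring, ← mul_neg,
    mul_div_mul_left _ _ hτ.ne']

theorem marg_continuous {X : Type} [TopologicalSpace X] {s : X → ℝ} (hs : Continuous s)
    (h0 : ∀ x, 0 < s x) (v : ι → ℝ) : Continuous fun x => gv (s x) v := by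
  refine continuous_finsetProd _ fun i _ => ?_
  refine Continuous.mul (Continuous.inv₀ (by fun_prop) fun x => ?_) (Continuous.rexp ?_)
  · have := h0 x
    exact (Real.sqrt_pos.2 (by positivity)).ne'
  · exact continuous_const.div (by fun_prop) fun x => by have := h0 x; positivity

/-- the smoothed marginal in normalised coordinates -/
theorem marg_core {n : ℕ} (hn : 1 ≤ n) (hd : 1 ≤ Fintype.card ι) {K : Set (Fin n → ℝ)}
    (hK : Body K) (hI : Iso K) {τ c w α t : ℝ} (hτ : 0 < τ) (hα : 0 < α) (ht : 0 ≤ t)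
    (hw : w / τ + α ≤ 1 / (2 * (Fintype.card ι : ℝ) ^ 3))
    (ht' : t ≤ 1 / (2 * (Fintype.card ι : ℝ) ^ 2))
    (hc : c ≤ (volume[|K]).real {x | |x ⬝ᵥ x / n - τ| ≤ w}) :
    ∃ Γ : Matrix ι (Fin n) ℝ, ∀ y : ι → ℝ, (∀ i, |y i| ≤ Fintype.card ι) → ∀ ν : ι → ℝ,
      ν ⬝ᵥ ν = 1 → c * Real.exp (-4) * gz y -
        √(Fintype.card ι * τ⁻¹ * α⁻¹ ^ (Fintype.card ι + 1) / √n) ≤
          ∫ x, gv α (y + t • ν - Γ *ᵥ x) ∂(volume[|K]) := by
  have hd' : (1 : ℝ) ≤ Fintype.card ι := by exact_mod_cast hd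
  have h0 : 0 < √τ := Real.sqrt_pos.2 hτ
  have := hK.isProb
  obtain ⟨Γ, hΓ⟩ := exists_proj ι hn hK hI (mul_pos hτ hα)
  refine ⟨(√τ)⁻¹ • Γ, fun y hy ν hν => ?_⟩
  set v := y + t • ν with hv
  have hνi : ∀ i, |ν i| ≤ 1 := fun i => by
    rw [← sq_le_one_iff_abs_le_one, ← hν, sq]
    exact Finset.single_le_sum (f := fun j => ν j * ν j) (fun j _ => mul_self_nonneg _)
      (Finset.mem_univ i)
  have hvy : ∀ i, |v i - y i| ≤ t := fun i => by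
    rw [hv, Pi.add_apply, add_sub_cancel_left, Pi.smul_apply, smul_eq_mul, abs_mul,
      abs_of_nonneg ht]
    exact mul_le_of_le_one_right ht (hνi i)
  have ht1 : (Fintype.card ι : ℝ) ^ 2 * t ≤ 1 / 2 := by
    rw [le_div_iff₀ (by positivity)] at ht'
    linarith
  have ht2 : Fintype.card ι * t ≤ 1 / 2 := by nlinarith
  have ht3 : t ≤ 1 / 2 := by nlinarith
  have hvi : ∀ i, |v i| ≤ 2 * Fintype.card ι := fun i => by
    have h1 := abs_sub_abs_le_abs_sub (v i) (y i)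
    linarith [hvy i, hy i]
  have hshift : Real.exp (-1) * gz y ≤ gz v := by
    refine le_trans (mul_le_mul_of_nonneg_right (Real.exp_le_exp.2 ?_) (gz_pos y).le)
      (gz_perturb hy hvy)
    nlinarith
  -- the Gaussian mixture
  have hpos : ∀ x : Fin n → ℝ, 0 < x ⬝ᵥ x / n / τ + α := fun x => by
    have : 0 ≤ x ⬝ᵥ x := Finset.sum_nonneg fun i _ => mul_self_nonneg _
    positivity
  have hmix : c * Real.exp (-4) * gz y ≤ ∫ x, gv (x ⬝ᵥ x / n / τ + α) v ∂(volume[|K]) := by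
    have h1 := mul_meas_ge_le_integral_of_nonneg (μ := volume[|K])
      (f := fun x => gv (x ⬝ᵥ x / n / τ + α) v) (ae_of_all _ fun x => (gv_pos (hpos x) v).le)
      (hK.integrable (marg_continuous (by fun_prop) hpos v)) (Real.exp (-4) * gz y)
    refine le_trans ?_ h1
    rw [mul_assoc, mul_comm]
    refine mul_le_mul_of_nonneg_left (hc.trans (measureReal_mono fun x hx => ?_))
      (mul_pos (Real.exp_pos _) (gz_pos y)).le
    have h2 : |x ⬝ᵥ x / n / τ + α - 1| ≤ 1 / (2 * (Fintype.card ι : ℝ) ^ 3) := by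
      refine le_trans ?_ hw
      rw [show x ⬝ᵥ x / n / τ + α - 1 = (x ⬝ᵥ x / n - τ) / τ + α by field_simp; ring]
      refine (abs_add_le _ _).trans (add_le_add ?_ (abs_of_pos hα).le)
      rw [abs_div, abs_of_pos hτ]
      exact div_le_div_of_nonneg_right hx hτ.le
    refine le_trans ?_ (marg_gv_ge hd h2 hvi)
    rw [show (-4 : ℝ) = -3 + -1 by norm_num, Real.exp_add, mul_assoc]
    exact mul_le_mul_of_nonneg_left hshift (Real.exp_pos _).le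
  have e1 : ∫ x, gv α (v - ((√τ)⁻¹ • Γ) *ᵥ x) ∂(volume[|K]) =
      √τ ^ Fintype.card ι * ∫ x, gv (τ * α) (√τ • v - Γ *ᵥ x) ∂(volume[|K]) := by
    rw [← integral_const_mul]
    refine integral_congr_ae (ae_of_all _ fun x => ?_)
    beta_reduce
    rw [marg_gv_scale hτ, smul_sub, smul_mulVec, smul_smul, mul_inv_cancel₀ h0.ne', one_smul]
  have e2 : ∫ x, gv (x ⬝ᵥ x / n / τ + α) v ∂(volume[|K]) =
      √τ ^ Fintype.card ι * ∫ x, gv (x ⬝ᵥ x / n + τ * α) (√τ • v) ∂(volume[|K]) := by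
    rw [← integral_const_mul]
    refine integral_congr_ae (ae_of_all _ fun x => ?_)
    beta_reduce
    rw [marg_gv_scale hτ, mul_add, mul_div_cancel₀ _ hτ.ne']
  have h3 : (∫ x, gv α (v - ((√τ)⁻¹ • Γ) *ᵥ x) ∂(volume[|K]) -
      ∫ x, gv (x ⬝ᵥ x / n / τ + α) v ∂(volume[|K])) ^ 2 ≤
      Fintype.card ι * τ⁻¹ * α⁻¹ ^ (Fintype.card ι + 1) / √n := by
    rw [e1, e2, ← mul_sub, mul_pow, ← pow_mul, mul_comm _ 2, pow_mul, Real.sq_sqrt hτ.le]
    refine (mul_le_mul_of_nonneg_left (hΓ (√τ • v)) (by positivity)).trans (le_of_eq ?_)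
    rw [mul_inv, mul_pow, pow_succ τ⁻¹, inv_pow τ]
    field_simp
  have h4 := (abs_le.1 (Real.abs_le_sqrt h3)).1
  linarith

theorem marg_tail {d : ℕ} (hd : 1 ≤ d) {C M : ℝ} (hM : 0 ≤ M) (hC : 8 + M ≤ C) :
    (√(2 * Real.pi * ((C * d ^ 2) ^ 4)⁻¹))⁻¹ ^ d *
      Real.exp (-(C * d ^ 2)⁻¹ ^ 2 / (2 * ((C * d ^ 2) ^ 4)⁻¹)) ≤ Real.exp (-(M + 2 * d ^ 3)) := by
  have hd' : (1 : ℝ) ≤ d := by exact_mod_cast hd
  have hC0 : 0 < C := by linarith
  set T : ℝ := C * d ^ 2 with hT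
  have hT0 : 0 < T := by positivity
  have h1 : (√(2 * Real.pi * (T ^ 4)⁻¹))⁻¹ ≤ Real.exp (2 * T) := by
    have h2 : (T ^ 2)⁻¹ ≤ √(2 * Real.pi * (T ^ 4)⁻¹) := by
      refine Real.le_sqrt_of_sq_le ?_
      rw [inv_pow, ← pow_mul]
      refine le_mul_of_one_le_left (by positivity) ?_
      linarith [Real.pi_gt_three]
    refine (inv_anti₀ (by positivity) h2).trans ?_
    rw [inv_inv, show 2 * T = (2 : ℕ) * T by norm_num, Real.exp_nat_mul]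
    exact pow_le_pow_left₀ hT0.le (by linarith [Real.add_one_le_exp T]) 2
  have h3 : -T⁻¹ ^ 2 / (2 * (T ^ 4)⁻¹) = -(T ^ 2 / 2) := by field_simp
  rw [h3]
  refine (mul_le_mul_of_nonneg_right (pow_le_pow_left₀ (by positivity) h1 d)
    (Real.exp_pos _).le).trans ?_
  rw [← Real.exp_nat_mul, ← Real.exp_add]
  refine Real.exp_le_exp.2 ?_
  have h4 : (1 : ℝ) ≤ d ^ 3 := one_le_pow₀ hd'
  have h5 : (d : ℝ) ^ 3 ≤ d ^ 4 := pow_le_pow_right₀ hd' (by norm_num)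
  have h6 : C ^ 2 * d ^ 3 ≤ C ^ 2 * d ^ 4 := by gcongr
  have h7 : M + 2 + 2 * C ≤ C ^ 2 / 2 := by nlinarith
  have h8 : (M + 2 + 2 * C) * d ^ 3 ≤ C ^ 2 / 2 * d ^ 3 := by gcongr
  have h9 : M ≤ M * d ^ 3 := le_mul_of_one_le_right hM h4
  rw [hT]
  nlinarith

theorem marg_err {d n : ℕ} (hd : 1 ≤ d) {a τ C M E : ℝ} (ha : 0 < a) (hτ : a ≤ τ) (hM : 0 ≤ M)
    (hC : 0 < C) (hE : 2 * (5 + a⁻¹ + 8 * C + 2 * M) ≤ E) (hn : Real.exp (E * (d : ℝ) ^ 6) ≤ n) :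
    √(d * τ⁻¹ * ((C * d ^ 2) ^ 4)⁻¹⁻¹ ^ (d + 1) / √n) ≤ Real.exp (-(M + 2 * d ^ 3)) := by
  have hd' : (1 : ℝ) ≤ d := by exact_mod_cast hd
  have hτ0 : 0 < τ := ha.trans_le hτ
  refine Real.sqrt_le_iff.2 ⟨(Real.exp_pos _).le, ?_⟩
  have h1 : Real.exp (E * (d : ℝ) ^ 6 / 2) ≤ √n := by
    refine Real.le_sqrt_of_sq_le ?_
    rwa [← Real.exp_nat_mul, show ((2 : ℕ) : ℝ) * (E * (d : ℝ) ^ 6 / 2) = E * (d : ℝ) ^ 6 by
      push_cast; ring]
  have h2 : (d : ℝ) ≤ Real.exp d := by linarith [Real.add_one_le_exp (d : ℝ)]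
  have h3 : τ⁻¹ ≤ Real.exp a⁻¹ := by
    linarith [Real.add_one_le_exp a⁻¹, inv_anti₀ ha hτ]
  have h4 : C * d ^ 2 ≤ Real.exp (C * d ^ 2) := by linarith [Real.add_one_le_exp (C * d ^ 2)]
  rw [inv_inv]
  calc d * τ⁻¹ * ((C * d ^ 2) ^ 4) ^ (d + 1) / √n
      ≤ Real.exp d * Real.exp a⁻¹ * (Real.exp (C * d ^ 2) ^ 4) ^ (d + 1) /
        Real.exp (E * (d : ℝ) ^ 6 / 2) := by gcongr
    _ ≤ _ := by
        rw [← pow_mul, ← Real.exp_nat_mul, ← Real.exp_nat_mul, ← Real.exp_add, ← Real.exp_add,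
          ← Real.exp_sub]
        refine Real.exp_le_exp.2 ?_
        push_cast
        have a0 : (1 : ℝ) ≤ d ^ 6 := one_le_pow₀ hd'
        have a1 : (d : ℝ) ≤ d ^ 6 := le_self_pow₀ hd' (by norm_num)
        have a2 : (d : ℝ) ^ 2 ≤ d ^ 6 := pow_le_pow_right₀ hd' (by norm_num)
        have a3 : (d : ℝ) ^ 3 ≤ d ^ 6 := pow_le_pow_right₀ hd' (by norm_num)
        have a4 : a⁻¹ ≤ a⁻¹ * d ^ 6 := le_mul_of_one_le_right (by positivity) a0
        have a5 : M ≤ M * d ^ 6 := le_mul_of_one_le_right hM a0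
        have a6 : C * d ^ 2 ≤ C * d ^ 6 := by gcongr
        have a7 : C * d ^ 3 ≤ C * d ^ 6 := by gcongr
        have a8 : 2 * (5 + a⁻¹ + 8 * C + 2 * M) * d ^ 6 ≤ E * d ^ 6 := by gcongr
        nlinarith

theorem marginal : ∃ c : ℝ, 0 < c ∧ ∃ E : ℝ, ∀ (ι κ : Type) [Fintype ι] [DecidableEq ι] [Fintype κ]
    [DecidableEq κ] (n : ℕ), n = Fintype.card ι + Fintype.card κ → 1 ≤ Fintype.card ι →
      Real.exp (E * (Fintype.card ι : ℝ) ^ 6) ≤ n → ∀ K : Set (Fin n → ℝ), Body K →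
      ∃ Φ : (Fin n → ℝ) ≃ₗ[ℝ] (ι ⊕ κ → ℝ), ∀ y : ι → ℝ, (∀ i, |y i| ≤ Fintype.card ι) →
        c * gz y * volume.real (Φ '' K) ≤ volume.real (sec (Φ '' K) y) := by
  obtain ⟨a, b, C, c, E₀, ha, hC, hc, hE₀, H⟩ := thin
  obtain ⟨C₂, hC₂⟩ := exists_nat_ge (4 * C / a + 1)
  have hC₂1 : (1 : ℝ) ≤ C₂ := le_trans (le_add_of_nonneg_left (by positivity)) hC₂
  set η : ℝ := c * Real.exp (-4) / 8 with hη
  have hη0 : 0 < η := by positivity
  have hM : Real.exp (-η⁻¹) ≤ η := by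
    rw [Real.exp_neg]
    refine inv_le_of_inv_le₀ hη0 ?_
    linarith [Real.add_one_le_exp η⁻¹]
  set C₃ : ℝ := 8 + η⁻¹ with hC₃
  have hC₃8 : 8 ≤ C₃ := le_add_of_nonneg_right (by positivity)
  refine ⟨4 * η, by positivity, E₀ * C₂ ^ 6 + 2 * (5 + a⁻¹ + 8 * C₃ + 2 * η⁻¹),
    fun ι κ _ _ _ _ n hn hd hE K hK => ?_⟩
  have hd' : (1 : ℝ) ≤ Fintype.card ι := by exact_mod_cast hd
  have : Nonempty ι := Fintype.card_pos_iff.1 hd
  obtain ⟨T₀, hI⟩ := exists_iso hK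
  have hK₁ := hK.image T₀
  obtain ⟨τ, hτ, hw⟩ := H ((C₂ * Fintype.card ι) ^ 6) n
    (Nat.one_le_pow _ _ (Nat.mul_pos (by exact_mod_cast hC₂1) hd)) (by
      refine le_trans (Real.exp_le_exp.2 ?_) hE
      push_cast
      rw [mul_pow, ← mul_assoc]
      gcongr
      exact le_add_of_nonneg_right (by positivity)) _ hK₁ hI
  have hτ0 : 0 < τ := ha.trans_le hτ.1
  set d : ℝ := (Fintype.card ι : ℝ) with hdd
  have hsq : √(((C₂ * Fintype.card ι) ^ 6 : ℕ) : ℝ) = (C₂ * d) ^ 3 := by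
    rw [Real.sqrt_eq_iff_mul_self_eq (by positivity) (by positivity)]
    push_cast
    ring
  rw [hsq] at hw
  have hT : 2 * d ^ 2 ≤ C₃ * d ^ 2 := by gcongr; linarith
  have hα : (0 : ℝ) < ((C₃ * d ^ 2) ^ 4)⁻¹ := by positivity
  have ht : (0 : ℝ) ≤ (C₃ * d ^ 2)⁻¹ := by positivity
  obtain ⟨Γ, hΓ⟩ := marg_core (ι := ι) (by omega) hd hK₁ hI hτ0 hα ht (by
      have h1 : C / (C₂ * d) ^ 3 / τ ≤ 1 / (4 * d ^ 3) := by
        rw [div_div, div_le_div_iff₀ (by positivity) (by positivity)]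
        have h2 : 4 * C ≤ C₂ * a := by
          rw [← div_le_iff₀ ha]; linarith
        have h3 : (C₂ : ℝ) ≤ C₂ ^ 3 := le_self_pow₀ hC₂1 (by norm_num)
        have h4 : C₂ * a ≤ C₂ ^ 3 * τ := by gcongr; exact hτ.1
        calc C * (4 * d ^ 3) = 4 * C * d ^ 3 := by ring
          _ ≤ C₂ ^ 3 * τ * d ^ 3 := mul_le_mul_of_nonneg_right (h2.trans h4) (by positivity)
          _ = _ := by ring
      have h2 : ((C₃ * d ^ 2) ^ 4)⁻¹ ≤ 1 / (4 * d ^ 3) := by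
        rw [one_div]
        refine inv_anti₀ (by positivity) ?_
        have h3 : d ^ 3 ≤ d ^ 8 := pow_le_pow_right₀ hd' (by norm_num)
        calc 4 * d ^ 3 ≤ 16 * d ^ 8 := by gcongr; norm_num
          _ = (2 * d ^ 2) ^ 4 := by ring
          _ ≤ _ := by gcongr
      calc _ ≤ 1 / (4 * d ^ 3) + 1 / (4 * d ^ 3) := add_le_add h1 h2
        _ = _ := by rw [← hdd]; field_simp; norm_num)
    (by rw [one_div]; exact inv_anti₀ (by positivity) hT) hw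
  have htail := marg_tail hd (C := C₃) (M := η⁻¹) (by positivity) le_rfl
  have herr := marg_err hd ha hτ.1 (C := C₃) (M := η⁻¹) (by positivity) (by positivity)
    (le_add_of_nonneg_left (by positivity)) hE
  have hsmall : ∀ y : ι → ℝ, (∀ i, |y i| ≤ d) → Real.exp (-(η⁻¹ + 2 * d ^ 3)) ≤ η * gz y :=
    fun y hy => by
      rw [neg_add, Real.exp_add]
      exact mul_le_mul hM (marg_gz_ge hd hy) (Real.exp_pos _).le hη0.le
  have key : ∀ y : ι → ℝ, (∀ i, |y i| ≤ d) → ∀ ν : ι → ℝ, ν ⬝ᵥ ν = 1 →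
      4 * η * gz y + (√(2 * Real.pi * ((C₃ * d ^ 2) ^ 4)⁻¹))⁻¹ ^ Fintype.card ι *
        Real.exp (-(C₃ * d ^ 2)⁻¹ ^ 2 / (2 * ((C₃ * d ^ 2) ^ 4)⁻¹)) <
      ∫ x, gv ((C₃ * d ^ 2) ^ 4)⁻¹ (y + (C₃ * d ^ 2)⁻¹ • ν - Γ *ᵥ x) ∂(volume[|T₀ '' K]) := by
    intro y hy ν hν
    have h1 := hΓ y hy ν hν
    have h2 := hsmall y hy
    have h3 : c * Real.exp (-4) * gz y = 8 * (η * gz y) := by rw [hη]; ring
    have h4 := mul_pos hη0 (gz_pos y)
    linarith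
  have hsurj := surj_of_lower hK₁ hα ht Γ fun ν hν => by
    have h1 := key 0 (fun i => by simpa using (by linarith : 0 ≤ d)) ν hν
    have h2 := mul_pos hη0 (gz_pos (0 : ι → ℝ))
    rw [zero_add] at h1
    linarith
  obtain ⟨Φ, hΦ⟩ := exists_extend hn Γ hsurj
  refine ⟨T₀.trans Φ, fun y hy => ?_⟩
  have him : (T₀.trans Φ) '' K = Φ '' (T₀ '' K) := by
    rw [Set.image_image]
    rfl
  rw [him]
  refine desmooth (hK₁.image Φ) hα ht (mul_pos (by positivity) (gz_pos y)) y fun ν hν => ?_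
  have hΦc : Continuous Φ := Φ.toLinearMap.continuous_of_finiteDimensional
  have hcont : Continuous fun x : ι ⊕ κ → ℝ =>
      gv ((C₃ * d ^ 2) ^ 4)⁻¹ (y + (C₃ * d ^ 2)⁻¹ • ν - fun i => x (Sum.inl i)) :=
    (continuous_gv _).comp (by fun_prop)
  rw [← hK₁.map_cond Φ, integral_map hΦc.aemeasurable hcont.aestronglyMeasurable]
  simp only [hΦ]
  exact key y hy ν hν

end Crest.Agent.R225
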