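import Crest.Agent.R225.Defs

/-!
# Row 225: Shift
The product property of two-level families.

`exists_shift`: take `x` Haar random in `ι → TT κ`.  Put `F S x = {t | ∀ z ∈ S, t - ∑ i, z i • x i ∈ H z}`.
Claim (induction on `TwoLevel S`, `S` nonempty): `P(vol (F S x) > Q^(|S|-1) ∏ vol (H z)) ≤ (|S|-1)/Q`.
For `S = A ∪ B` (disjoint as `a ≠ b`; if one is empty use the other): the map `x ↦ (fun i => x i + lam i • s)` preserves
the Haar measure, moves `F A x` by `a • s` and `F B x` by `b • s`, and
`∫ vol ((F + a • s) ∩ (F' + b • s)) ds = vol F * vol F'` because `s ↦ (b - a) • s` is measure preserving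
(`Measure.measurePreserving_zsmul`).  Hence `E[vol (F S x); vol (F A x) ≤ α, vol (F B x) ≤ β] ≤ α β`; Markov.
Finish with a union bound (total failure probability `< 1`).
-/

set_option autoImplicit false

open MeasureTheory ProbabilityTheory Matrix Filter Topology
open scoped ENNReal RealInnerProductSpace

noncomputable section

namespace Crest.Agent.R225

variable {ι κ : Type} [Fintype ι] [DecidableEq ι] [Fintype κ] [DecidableEq κ]

set_option linter.unusedSectionVars false

omit [DecidableEq ι] [DecidableEq κ] in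
theorem Shift_inv : (volume : Measure (ι → TT κ)).IsAddLeftInvariant :=
  Measure.pi.isAddLeftInvariant _

/-- the set of good shifts -/
def Shift_F (H : (ι → ℤ) → Set (TT κ)) (S : Finset (ι → ℤ)) (x : ι → TT κ) : Set (TT κ) :=
  {t | ∀ z ∈ S, t - ∑ i, z i • x i ∈ H z}

omit [DecidableEq ι] [DecidableEq κ] in
theorem Shift_meas_joint {H : (ι → ℤ) → Set (TT κ)} (hH : ∀ z, MeasurableSet (H z))
    (S : Finset (ι → ℤ)) : MeasurableSet {q : (ι → TT κ) × TT κ | q.2 ∈ Shift_F H S q.1} := by
  have : {q : (ι → TT κ) × TT κ | q.2 ∈ Shift_F H S q.1} =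
      ⋂ z ∈ S, (fun q : (ι → TT κ) × TT κ => q.2 - ∑ i, z i • q.1 i) ⁻¹' H z := by
    ext q
    simp [Shift_F]
  rw [this]
  refine Finset.measurableSet_biInter _ fun z _ => ?_
  exact (hH z).preimage (by fun_prop)

omit [DecidableEq ι] [DecidableEq κ] in
theorem Shift_meas_F {H : (ι → ℤ) → Set (TT κ)} (hH : ∀ z, MeasurableSet (H z))
    (S : Finset (ι → ℤ)) (x : ι → TT κ) : MeasurableSet (Shift_F H S x) :=
  measurable_prodMk_left (Shift_meas_joint hH S)

omit [DecidableEq ι] [DecidableEq κ] in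
theorem Shift_meas_vol {H : (ι → ℤ) → Set (TT κ)} (hH : ∀ z, MeasurableSet (H z))
    (S : Finset (ι → ℤ)) : Measurable fun x : ι → TT κ => volume (Shift_F H S x) :=
  measurable_measure_prodMk_left (Shift_meas_joint hH S)

omit [DecidableEq ι] [DecidableEq κ] in
theorem Shift_F_add (H : (ι → ℤ) → Set (TT κ)) {S : Finset (ι → ℤ)} {lam : ι → ℤ} {a : ℤ}
    (h : ∀ z ∈ S, lam ⬝ᵥ z = a) (s : TT κ) (x : ι → TT κ) :
    Shift_F H S ((fun i => lam i • s) + x) = (fun t => t + -(a • s)) ⁻¹' Shift_F H S x := by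
  have key : ∀ z ∈ S, ∀ t : TT κ, t - ∑ i, z i • ((fun i => lam i • s) + x) i =
      t + -(a • s) - ∑ i, z i • x i := by
    intro z hz t
    have h1 : ∑ i, z i • (lam i • s) = a • s := by
      rw [← h z hz, dotProduct, Finset.sum_smul]
      refine Finset.sum_congr rfl fun i _ => ?_
      rw [smul_smul, mul_comm]
    simp only [Pi.add_apply, smul_add, Finset.sum_add_distrib, h1]
    abel
  ext t
  simp only [Shift_F, Set.mem_ofPred_eq, Set.mem_preimage]
  exact forall₂_congr fun z hz => by rw [key z hz]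

omit [DecidableEq κ] in
/-- independence on average -/
theorem Shift_avg {F F' : Set (TT κ)} (hF : MeasurableSet F) (hF' : MeasurableSet F') {a b : ℤ}
    (hab : a ≠ b) :
    ∫⁻ s : TT κ, volume ((fun t => t + -(a • s)) ⁻¹' F ∩ (fun t => t + -(b • s)) ⁻¹' F') =
      volume F * volume F' := by
  have h1 : ∀ s : TT κ, volume ((fun t => t + -(a • s)) ⁻¹' F ∩ (fun t => t + -(b • s)) ⁻¹' F') =
      ∫⁻ t, F.indicator 1 t * F'.indicator 1 (t + (a - b) • s) := by
    intro s
    have e : (fun t => t + -(a • s)) ⁻¹' F ∩ (fun t => t + -(b • s)) ⁻¹' F' =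
        (fun t => t + -(a • s)) ⁻¹' (F ∩ (fun t => t + (a - b) • s) ⁻¹' F') := by
      ext t
      have : t + -(a • s) + (a - b) • s = t + -(b • s) := by
        rw [sub_smul]
        abel
      simp only [Set.mem_inter_iff, Set.mem_preimage, this]
    rw [e, measure_preimage_add_right,
      ← lintegral_indicator_one (hF.inter (hF'.preimage (by fun_prop)))]
    refine lintegral_congr fun t => ?_
    by_cases h : t ∈ F <;> by_cases h' : t + (a - b) • s ∈ F' <;> simp [Set.indicator, h, h']
  simp only [h1]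
  have hm : Measurable (Function.uncurry fun (s t : TT κ) =>
      F.indicator (1 : TT κ → ℝ≥0∞) t * F'.indicator (1 : TT κ → ℝ≥0∞) (t + (a - b) • s)) := by
    refine Measurable.mul ((measurable_one.indicator hF).comp measurable_snd)
      ((measurable_one.indicator hF').comp ?_)
    fun_prop
  rw [lintegral_lintegral_swap hm.aemeasurable]
  have h2 : ∀ t : TT κ, ∫⁻ s : TT κ, F'.indicator (1 : TT κ → ℝ≥0∞) (t + (a - b) • s) =
      volume F' := by
    intro t
    have hp : MeasurePreserving (fun s : TT κ => t + (a - b) • s) volume volume :=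
      (measurePreserving_add_left volume t).comp
        (Measure.measurePreserving_zsmul volume (sub_ne_zero.mpr hab))
    rw [hp.lintegral_comp (measurable_one.indicator hF'), lintegral_indicator_one hF']
  have h3 : ∀ t : TT κ, ∫⁻ s : TT κ, F.indicator (1 : TT κ → ℝ≥0∞) t *
      F'.indicator (1 : TT κ → ℝ≥0∞) (t + (a - b) • s) = F.indicator 1 t * volume F' := by
    intro t
    have hm' : Measurable fun s : TT κ => F'.indicator (1 : TT κ → ℝ≥0∞) (t + (a - b) • s) :=
      (measurable_one.indicator hF').comp (by fun_prop : Measurable fun s : TT κ => t + (a - b) • s)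
    rw [lintegral_const_mul _ hm', h2]
  simp only [h3]
  rw [lintegral_mul_const _ (measurable_one.indicator hF), lintegral_indicator_one hF]

theorem Shift_markov {X : Type} [MeasurableSpace X] (μ : Measure X) {g : X → ℝ≥0∞}
    (hg : Measurable g) {c : ℝ≥0∞} (hc : c ≠ ⊤) (h : ∫⁻ x, g x ∂μ ≤ c) (Q : ℝ≥0∞) :
    μ {x | Q * c < g x} * Q ≤ 1 := by
  rcases eq_or_ne c 0 with rfl | hc0
  · have h0 : g =ᵐ[μ] 0 := (lintegral_eq_zero_iff hg).mp (le_antisymm h zero_le)
    have : μ {x | Q * 0 < g x} = 0 := by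
      refine measure_mono_null (fun x hx => ?_) (ae_iff.mp h0)
      simp only [mul_zero, Set.mem_ofPred_eq] at hx
      exact hx.ne'
    rw [this, zero_mul]
    exact zero_le
  · have h1 : Q * c * μ {x | Q * c < g x} ≤ c :=
      calc Q * c * μ {x | Q * c < g x} ≤ Q * c * μ {x | Q * c ≤ g x} :=
            mul_le_mul_right (measure_mono fun x (hx : Q * c < g x) => (le_of_lt hx : Q * c ≤ g x)) _
        _ ≤ _ := (mul_meas_ge_le_lintegral₀ hg.aemeasurable _).trans h
    refine (ENNReal.mul_le_mul_iff_left hc0 hc).mp ?_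
    calc μ {x | Q * c < g x} * Q * c = Q * c * μ {x | Q * c < g x} := by ring
      _ ≤ c := h1
      _ = 1 * c := (one_mul c).symm

omit [DecidableEq κ] in
theorem Shift_union {H : (ι → ℤ) → Set (TT κ)} (hH : ∀ z, MeasurableSet (H z))
    {A B : Finset (ι → ℤ)} {lam : ι → ℤ} {a b : ℤ} (hab : a ≠ b) (hA : ∀ z ∈ A, lam ⬝ᵥ z = a)
    (hB : ∀ z ∈ B, lam ⬝ᵥ z = b) (α β : ℝ≥0∞) :
    ∫⁻ x : ι → TT κ, {x | volume (Shift_F H A x) ≤ α ∧ volume (Shift_F H B x) ≤ β}.indicator
      (fun x => volume (Shift_F H A x ∩ Shift_F H B x)) x ≤ α * β := by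
  have := Shift_inv (ι := ι) (κ := κ)
  set good : Set (ι → TT κ) := {x | volume (Shift_F H A x) ≤ α ∧ volume (Shift_F H B x) ≤ β}
    with hgood
  have hgm : MeasurableSet good :=
    (measurableSet_le (Shift_meas_vol hH A) measurable_const).inter
      (measurableSet_le (Shift_meas_vol hH B) measurable_const)
  set G : (ι → TT κ) → ℝ≥0∞ := good.indicator fun x => volume (Shift_F H A x ∩ Shift_F H B x)
    with hG
  have hGm : Measurable G := by
    refine Measurable.indicator ?_ hgm
    exact measurable_measure_prodMk_left ((Shift_meas_joint hH A).inter (Shift_meas_joint hH B))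
  have h1 : ∀ s : TT κ, ∫⁻ x, G x = ∫⁻ x, G ((fun i => lam i • s) + x) := fun s =>
    (lintegral_add_left_eq_self G _).symm
  have h2 : ∫⁻ x, G x = ∫⁻ s : TT κ, ∫⁻ x, G ((fun i => lam i • s) + x) := by
    simp only [← h1]
    simp
  have hm : Measurable (Function.uncurry fun (s : TT κ) (x : ι → TT κ) =>
      G ((fun i => lam i • s) + x)) := hGm.comp (by fun_prop)
  rw [h2, lintegral_lintegral_swap hm.aemeasurable]
  have h3 : ∀ x : ι → TT κ, ∫⁻ s : TT κ, G ((fun i => lam i • s) + x) ≤ α * β := by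
    intro x
    have hmem : ∀ s : TT κ, ((fun i => lam i • s) + x) ∈ good ↔ x ∈ good := by
      intro s
      simp only [hgood, Set.mem_ofPred_eq, Shift_F_add H hA, Shift_F_add H hB,
        measure_preimage_add_right]
    by_cases hx : x ∈ good
    · have : ∀ s : TT κ, G ((fun i => lam i • s) + x) =
          volume ((fun t => t + -(a • s)) ⁻¹' Shift_F H A x ∩
            (fun t => t + -(b • s)) ⁻¹' Shift_F H B x) := by
        intro s
        rw [hG, Set.indicator_of_mem ((hmem s).mpr hx), Shift_F_add H hA, Shift_F_add H hB]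
      simp only [this]
      rw [Shift_avg (Shift_meas_F hH A x) (Shift_meas_F hH B x) hab]
      exact mul_le_mul' hx.1 hx.2
    · have : ∀ s : TT κ, G ((fun i => lam i • s) + x) = 0 := fun s => by
        rw [hG, Set.indicator_of_notMem fun h => hx ((hmem s).mp h)]
      simp [this]
  calc _ ≤ ∫⁻ _x : ι → TT κ, α * β := lintegral_mono h3
    _ = α * β := by simp

omit [DecidableEq κ] in
theorem Shift_claim {H : (ι → ℤ) → Set (TT κ)} (hH : ∀ z, MeasurableSet (H z)) (Q : ℕ)
    {S : Finset (ι → ℤ)} (hS : TwoLevel S) :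
    volume {x : ι → TT κ | (Q : ℝ≥0∞) ^ (S.card - 1) * ∏ z ∈ S, volume (H z) <
      volume (Shift_F H S x)} * Q ≤ (S.card - 1 : ℕ) := by
  induction hS with
  | empty =>
    have : {x : ι → TT κ | (Q : ℝ≥0∞) ^ ((∅ : Finset (ι → ℤ)).card - 1) *
        ∏ z ∈ (∅ : Finset (ι → ℤ)), volume (H z) < volume (Shift_F H ∅ x)} = ∅ := by
      ext x
      simp only [Finset.card_empty, Nat.zero_sub, pow_zero, Finset.prod_empty, mul_one,
        Set.mem_ofPred_eq, Set.mem_empty_iff_false, iff_false, not_lt]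
      exact prob_le_one
    rw [this]
    simp
  | single z =>
    have : {x : ι → TT κ | (Q : ℝ≥0∞) ^ (({z} : Finset (ι → ℤ)).card - 1) *
        ∏ z ∈ ({z} : Finset (ι → ℤ)), volume (H z) < volume (Shift_F H {z} x)} = ∅ := by
      ext x
      have e : Shift_F H {z} x = (fun t => t + -(∑ i, z i • x i)) ⁻¹' H z := by
        ext t
        simp [Shift_F, sub_eq_add_neg]
      simp only [Set.mem_ofPred_eq, e, measure_preimage_add_right]
      simp
    rw [this]
    simp
  | union A B lam a b hab hA hB _ _ ihA ihB =>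
    rcases A.eq_empty_or_nonempty with rfl | hAne
    · simpa using ihB
    rcases B.eq_empty_or_nonempty with rfl | hBne
    · simpa using ihA
    have hd : Disjoint A B := Finset.disjoint_left.mpr fun z hzA hzB =>
      hab ((hA z hzA).symm.trans (hB z hzB))
    obtain ⟨n, hn⟩ : ∃ n, A.card = n + 1 := ⟨A.card - 1, by have := hAne.card_pos; omega⟩
    obtain ⟨m, hm⟩ : ∃ m, B.card = m + 1 := ⟨B.card - 1, by have := hBne.card_pos; omega⟩
    have hc : (A ∪ B).card - 1 = n + m + 1 := by
      rw [Finset.card_union_of_disjoint hd]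
      omega
    rw [hc, Finset.prod_union hd]
    rw [hn, Nat.add_sub_cancel] at ihA
    rw [hm, Nat.add_sub_cancel] at ihB
    set α : ℝ≥0∞ := (Q : ℝ≥0∞) ^ n * ∏ z ∈ A, volume (H z) with hα
    set β : ℝ≥0∞ := (Q : ℝ≥0∞) ^ m * ∏ z ∈ B, volume (H z) with hβ
    have hαt : α ≠ ⊤ := ENNReal.mul_ne_top (ENNReal.pow_ne_top (ENNReal.natCast_ne_top Q))
      (ENNReal.prod_ne_top fun z _ => measure_ne_top _ _)
    have hβt : β ≠ ⊤ := ENNReal.mul_ne_top (ENNReal.pow_ne_top (ENNReal.natCast_ne_top Q))
      (ENNReal.prod_ne_top fun z _ => measure_ne_top _ _)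
    have hFU : ∀ x : ι → TT κ, Shift_F H (A ∪ B) x = Shift_F H A x ∩ Shift_F H B x := by
      intro x
      ext t
      simp only [Shift_F, Finset.mem_union, Set.mem_ofPred_eq, Set.mem_inter_iff, or_imp, forall_and]
    set good : Set (ι → TT κ) := {x | volume (Shift_F H A x) ≤ α ∧ volume (Shift_F H B x) ≤ β}
      with hgood
    have hgm : MeasurableSet good :=
      (measurableSet_le (Shift_meas_vol hH A) measurable_const).inter
        (measurableSet_le (Shift_meas_vol hH B) measurable_const)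
    set G : (ι → TT κ) → ℝ≥0∞ := good.indicator fun x => volume (Shift_F H A x ∩ Shift_F H B x)
      with hG
    have hGm : Measurable G := by
      refine Measurable.indicator ?_ hgm
      exact measurable_measure_prodMk_left ((Shift_meas_joint hH A).inter (Shift_meas_joint hH B))
    have hmk := Shift_markov volume hGm (ENNReal.mul_ne_top hαt hβt)
      (Shift_union hH hab hA hB α β) Q
    have hsub : {x : ι → TT κ | (Q : ℝ≥0∞) ^ (n + m + 1) *
        ((∏ z ∈ A, volume (H z)) * ∏ z ∈ B, volume (H z)) < volume (Shift_F H (A ∪ B) x)} ⊆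
        ({x | α < volume (Shift_F H A x)} ∪ {x | β < volume (Shift_F H B x)}) ∪
          {x | Q * (α * β) < G x} := by
      intro x hx
      by_cases hxg : x ∈ good
      · refine Or.inr ?_
        simp only [Set.mem_ofPred_eq] at hx ⊢
        rw [hG, Set.indicator_of_mem hxg, ← hFU]
        refine lt_of_eq_of_lt ?_ hx
        rw [hα, hβ]
        ring
      · refine Or.inl ?_
        simp only [hgood, Set.mem_ofPred_eq, not_and_or, not_le] at hxg
        exact hxg
    calc _ ≤ (volume {x : ι → TT κ | α < volume (Shift_F H A x)} +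
          volume {x : ι → TT κ | β < volume (Shift_F H B x)} +
          volume {x : ι → TT κ | Q * (α * β) < G x}) * Q := by
          refine mul_le_mul_left ((measure_mono hsub).trans ((measure_union_le _ _).trans ?_)) _
          exact add_le_add_left (measure_union_le _ _) _
      _ ≤ (n : ℝ≥0∞) + m + 1 := by
          rw [add_mul, add_mul]
          exact add_le_add (add_le_add ihA ihB) hmk
      _ = _ := by push_cast; rfl

theorem exists_shift {I : Type} [Fintype I] (S : I → Finset (ι → ℤ)) (hS : ∀ a, TwoLevel (S a))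
    (H : I → (ι → ℤ) → Set (TT κ)) (hH : ∀ a z, MeasurableSet (H a z)) (Q : ℕ)
    (hQ : ∑ a, (S a).card < Q) :
    ∃ x : ι → TT κ, ∀ a, volume {t : TT κ | ∀ z ∈ S a, t - ∑ i, z i • x i ∈ H a z} ≤
      (Q : ℝ≥0∞) ^ (S a).card * ∏ z ∈ S a, volume (H a z) := by
  by_contra hne
  push Not at hne
  have hQ1 : (1 : ℝ≥0∞) ≤ Q := by exact_mod_cast (by omega : 1 ≤ Q)
  set bad : I → Set (ι → TT κ) := fun a => {x | (Q : ℝ≥0∞) ^ ((S a).card - 1) *
    ∏ z ∈ S a, volume (H a z) < volume (Shift_F (H a) (S a) x)} with hbad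
  have hcov : (Set.univ : Set (ι → TT κ)) ⊆ ⋃ a, bad a := by
    intro x _
    obtain ⟨a, ha⟩ := hne x
    refine Set.mem_iUnion.mpr ⟨a, lt_of_le_of_lt ?_ ha⟩
    exact mul_le_mul_left (pow_le_pow_right₀ hQ1 (Nat.sub_le _ _)) _
  have h1 : (1 : ℝ≥0∞) ≤ ∑ a, volume (bad a) := by
    rw [← measure_univ (μ := (volume : Measure (ι → TT κ)))]
    exact (measure_mono hcov).trans (measure_iUnion_fintype_le _ _)
  have h2 : (Q : ℝ≥0∞) ≤ ((∑ a, (S a).card : ℕ) : ℝ≥0∞) := by
    calc (Q : ℝ≥0∞) = 1 * Q := (one_mul _).symm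
      _ ≤ (∑ a, volume (bad a)) * Q := mul_le_mul_left h1 _
      _ = ∑ a, volume (bad a) * Q := Finset.sum_mul _ _ _
      _ ≤ ∑ a, (((S a).card - 1 : ℕ) : ℝ≥0∞) :=
          Finset.sum_le_sum fun a _ => Shift_claim (hH a) Q (hS a)
      _ ≤ ∑ a, ((S a).card : ℝ≥0∞) :=
          Finset.sum_le_sum fun a _ => by exact_mod_cast Nat.sub_le _ _
      _ = _ := by push_cast; rfl
  have h3 : Q ≤ ∑ a, (S a).card := by exact_mod_cast h2
  omega

end Crest.Agent.R225
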