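import Crest.Agent.R225.Vert
import Crest.Agent.R225.Base
import Crest.Agent.R225.Marg
import Crest.Agent.R225.LC
import Crest.Agent.R225.Shift

/-!
# Row 225: Cover
Assembly of S0347 (helper31).
-/

set_option autoImplicit false

open MeasureTheory ProbabilityTheory Matrix Filter Topology
open scoped ENNReal RealInnerProductSpace

noncomputable section

namespace Crest.Agent.R225

open Pointwise

theorem cover_net {ι : Type} {m : ℕ} (hm : 0 < m) (r : ι → ℝ) :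
    ∃ (z : ι → ℤ) (a : ι → Fin m), ∀ i, |r i - z i - ((a i : ℕ) : ℝ) / m| ≤ 1 / m := by
  have hm' : (0 : ℝ) < m := by exact_mod_cast hm
  have hz : (0 : ℤ) < m := by exact_mod_cast hm
  refine ⟨fun i => ⌊m * r i⌋ / m, fun i => ⟨(⌊m * r i⌋ % m).toNat, ?_⟩, fun i => ?_⟩
  · have := Int.emod_lt_of_pos ⌊m * r i⌋ hz
    have := Int.emod_nonneg ⌊m * r i⌋ hz.ne'
    omega
  · have h0 := Int.emod_nonneg ⌊m * r i⌋ hz.ne'
    have h1 : (((⌊m * r i⌋ % m).toNat : ℕ) : ℝ) = ((⌊m * r i⌋ % m : ℤ) : ℝ) := by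
      rw [← Int.cast_natCast, Int.toNat_of_nonneg h0]
    have h2 : ((⌊m * r i⌋ : ℤ) : ℝ) = m * ((⌊m * r i⌋ / m : ℤ) : ℝ) + ((⌊m * r i⌋ % m : ℤ) : ℝ) := by
      exact_mod_cast (Int.mul_ediv_add_emod ⌊m * r i⌋ m).symm
    have h3 := Int.floor_le (m * r i)
    have h4 := Int.lt_floor_add_one (m * r i)
    simp only [h1]
    have h5 : r i - ((⌊m * r i⌋ / m : ℤ) : ℝ) - ((⌊m * r i⌋ % m : ℤ) : ℝ) / m =
        (m * r i - ⌊m * r i⌋) / m := by
      rw [h2]; field_simp; ring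
    rw [h5, abs_div, abs_of_pos hm']
    gcongr
    rw [abs_le]; constructor <;> linarith

theorem cover_surj {ι : Type} [Fintype ι] [DecidableEq ι] {A : Matrix ι ι ℝ} (h : A.det ≠ 0) :
    Function.Surjective A.mulVec :=
  Matrix.mulVec_surjective_iff_isUnit.2 ((Matrix.isUnit_iff_isUnit_det A).2 (isUnit_iff_ne_zero.2 h))

theorem cover_real_smul {κ : Type} [Fintype κ] {t : ℝ} (ht : 0 < t) (S : Set (κ → ℝ)) :
    volume.real (t⁻¹ • S) = volume.real S / t ^ Fintype.card κ := by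
  rw [Measure.real, Measure.addHaar_smul_of_nonneg _ (inv_pos.2 ht).le, ENNReal.toReal_mul,
    ENNReal.toReal_ofReal (by positivity), Module.finrank_fintype_fun_eq_card, inv_pow]
  rw [Measure.real]; ring

theorem cover_pr_mulVec {ι κ : Type} [Fintype ι] [Fintype κ] [DecidableEq κ] (xt : ι → κ → ℝ)
    (z : ι → ℤ) :
    pr ((Matrix.of fun o i => xt i o) *ᵥ ci z) = ∑ i, z i • pr (xt i) := by
  have : (Matrix.of fun o i => xt i o) *ᵥ ci z = ∑ i, ((z i : ℤ) : ℝ) • xt i := by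
    ext o
    simp [Matrix.mulVec, dotProduct, ci, Finset.sum_apply, mul_comm]
  rw [this, pr_sum]
  simp only [pr_zsmul]

theorem cover {ι κ : Type} [Fintype ι] [DecidableEq ι] [Fintype κ] [DecidableEq κ]
    {K : Set (ι ⊕ Option κ → ℝ)} (hK : Body K) {A : Matrix ι ι ℝ} {c c₀ θ wm V₀ v₀ : ℝ} {n Q : ℕ}
    (hn : n = Fintype.card ι + Fintype.card κ + 1) (hd : 1 ≤ Fintype.card ι) (hc : 0 < c) (hθ : 0 < θ)
    (hV : Vert A (0 : (ι → ℤ) →+ Unit) (Fintype.card ι) wm c₀)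
    (hM : ∀ y : ι → ℝ, (∀ i, |y i| ≤ Fintype.card ι) →
      c * gz y * volume.real K ≤ volume.real (sec K y))
    (hb : ∀ (I : Type) [Fintype I] (J : I → Set (Option κ → ℝ)) (v : I → ℝ),
      (∀ a, IsCompact (J a) ∧ Convex ℝ (J a) ∧ 0 ≤ v a ∧ v a ≤ volume.real (J a) ∧ v a ≤ V₀) →
      ∃ g : Matrix (Option κ) (Option κ) ℝ, g.det = 1 ∧ ∀ a,
        volume.real (hole g (J a)) ≤ 4 * Fintype.card I * Real.exp (-v a / 2))
    (hQ : Q = (n * Fintype.card ι) ^ Fintype.card ι * 2 ^ Fintype.card ι + 1)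
    (h1 : c * θ * wm ≤ V₀) (h2 : 0 ≤ v₀) (h3 : v₀ ≤ V₀) (h4 : v₀ * 2 ^ Fintype.card ι ≤ c * θ * c₀)
    (h5 : 8 * Q * Real.exp (-v₀ / 2) ≤ 1)
    (h6 : 2 * (n : ℝ) ^ n * (4 * (Q : ℝ) ^ 2) ^ 2 ^ Fintype.card ι * Real.exp (-(c * θ * c₀) / 2) < 1) :
    LC K (θ * (1 + 2 / n) ^ n) := by
  classical
  obtain ⟨hA, hAR, hS⟩ := hV
  set d := Fintype.card ι with hdd
  have hn0 : 0 < n := by omega
  have hn' : (0 : ℝ) < n := by exact_mod_cast hn0
  have hd' : (1 : ℝ) ≤ d := by exact_mod_cast hd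
  have hm : 0 < n * d := Nat.mul_pos hn0 hd
  have hA' : 0 < |A.det| := abs_pos.2 hA
  have hvol := hK.real_pos
  let ya : (ι → Fin (n * d)) → ι → ℝ := fun a => A *ᵥ fun i => ((a i : ℕ) : ℝ) / ((n * d : ℕ) : ℝ)
  choose S w hS2 hSc hw hmass using fun a => hS (ya a)
  have hmass' : ∀ a, c₀ ≤ ∑ z ∈ S a, w a z := fun a => by simpa using hmass a ()
  set T := volume.real K / (θ * |A.det|) with hT
  have hT0 : 0 < T := by positivity
  have hN0 : Fintype.card (Option κ) ≠ 0 := by simp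
  set t := T ^ ((Fintype.card (Option κ) : ℝ)⁻¹) with ht
  have ht0 : 0 < t := Real.rpow_pos_of_pos hT0 _
  have htN : t ^ Fintype.card (Option κ) = T := Real.rpow_inv_natCast_pow hT0.le hN0
  have hJv : ∀ y : ι → ℝ, (∀ i, |y i| ≤ d) →
      c * θ * (|A.det| * gz y) ≤ volume.real (t⁻¹ • sec K y) := by
    intro y hy
    rw [cover_real_smul ht0, htN, le_div_iff₀ hT0]
    refine le_trans (le_of_eq ?_) (hM y hy)
    rw [hT]; field_simp
  have hJc : ∀ y : ι → ℝ, IsCompact (t⁻¹ • sec K y) := fun y => (isCompact_sec hK.1 y).smul _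
  have hJx : ∀ y : ι → ℝ, Convex ℝ (t⁻¹ • sec K y) := fun y => (convex_sec hK.2.1 y).smul _
  have hv₀ : v₀ ≤ c * θ * (|A.det| * gz (0 : ι → ℝ)) := by
    let a₀ : ι → Fin (n * d) := fun _ => ⟨0, hm⟩
    have e1 : ∑ z ∈ S a₀, w a₀ z ≤ (S a₀).card • (|A.det| * gz (0 : ι → ℝ)) :=
      Finset.sum_le_card_nsmul _ _ _ fun z hz =>
        (hw a₀ z hz).2.2.1.trans (mul_le_mul_of_nonneg_left (gz_le_zero _) hA'.le)
    have e2 : ((S a₀).card : ℝ) ≤ 2 ^ d := by exact_mod_cast hSc a₀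
    have e3 := gz_pos (0 : ι → ℝ)
    rw [nsmul_eq_mul] at e1
    have e4 : c₀ ≤ 2 ^ d * (|A.det| * gz (0 : ι → ℝ)) :=
      (hmass' a₀).trans (e1.trans (by gcongr))
    have e5 : v₀ * 2 ^ d ≤ c * θ * (|A.det| * gz (0 : ι → ℝ)) * 2 ^ d :=
      h4.trans ((mul_le_mul_of_nonneg_left e4 (by positivity)).trans_eq (by ring))
    exact le_of_mul_le_mul_right e5 (by positivity)
  have hsum : ∑ a, (S a).card < Q := by
    have := Finset.sum_le_card_nsmul Finset.univ (fun a => (S a).card) _ fun a _ => hSc a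
    simp only [Finset.card_univ, Fintype.card_fun, Fintype.card_fin, smul_eq_mul] at this
    rw [hQ]; exact Nat.lt_succ_of_le this
  obtain ⟨g, hg, hhole⟩ := hb (Option (Σ a : ι → Fin (n * d), S a))
    (fun o => o.elim (t⁻¹ • sec K 0) fun p => t⁻¹ • sec K (ya p.1 - A *ᵥ ci p.2.1))
    (fun o => o.elim v₀ fun p => c * θ * w p.1 p.2.1) (by
      rintro (_ | ⟨a, z, hz⟩)
      · exact ⟨hJc _, hJx _, h2, hv₀.trans (hJv 0 fun i => by simp), h3⟩
      · obtain ⟨e1, e2, e3, e4⟩ := hw a z hz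
        refine ⟨hJc _, hJx _, by simp only [Option.elim]; positivity, ?_, ?_⟩
        · exact (mul_le_mul_of_nonneg_left e3 (by positivity)).trans (hJv _ e4)
        · exact (mul_le_mul_of_nonneg_left e2 (by positivity)).trans h1)
  have hI : (Fintype.card (Option (Σ a : ι → Fin (n * d), S a)) : ℝ) ≤ Q := by
    rw [Fintype.card_option, Fintype.card_sigma]
    simp only [Fintype.card_coe]
    exact_mod_cast hsum
  have hg0 : g.det ≠ 0 := by rw [hg]; exact one_ne_zero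
  have hQ1 : (1 : ℝ) ≤ Q := by exact_mod_cast (show 1 ≤ Q by omega)
  obtain ⟨x, hx⟩ := exists_shift S hS2 (fun a z => hole g (t⁻¹ • sec K (ya a - A *ᵥ ci z)))
    (fun a z => measurableSet_hole hg0 (hJc _)) Q hsum
  have hU : ∀ a, volume.real {τ : TT (Option κ) | ∀ z ∈ S a, τ - ∑ i, z i • x i ∈
      hole g (t⁻¹ • sec K (ya a - A *ᵥ ci z))} ≤
      (4 * (Q : ℝ) ^ 2) ^ 2 ^ d * Real.exp (-(c * θ * c₀) / 2) := by
    intro a
    have e1 := ENNReal.toReal_mono (ENNReal.mul_ne_top (by simp)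
      (ENNReal.prod_ne_top fun z _ => measure_ne_top _ _)) (hx a)
    rw [ENNReal.toReal_mul, ENNReal.toReal_pow, ENNReal.toReal_prod, ENNReal.toReal_natCast] at e1
    refine e1.trans ?_
    have e2 : ∏ z ∈ S a, (volume (hole g (t⁻¹ • sec K (ya a - A *ᵥ ci z)))).toReal ≤
        ∏ z ∈ S a, (4 * Q * Real.exp (-(c * θ * w a z) / 2)) := by
      refine Finset.prod_le_prod (fun _ _ => ENNReal.toReal_nonneg) fun z hz => ?_
      refine (hhole (some ⟨a, z, hz⟩)).trans ?_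
      simp only [Option.elim]
      gcongr
    rw [Finset.prod_mul_distrib, Finset.prod_const, ← Real.exp_sum] at e2
    have e3 : ∑ z ∈ S a, -(c * θ * w a z) / 2 ≤ -(c * θ * c₀) / 2 := by
      rw [← Finset.sum_div, Finset.sum_neg_distrib, ← Finset.mul_sum]
      have := mul_le_mul_of_nonneg_left (hmass' a) (show 0 ≤ c * θ by positivity)
      linarith
    calc _ ≤ (Q : ℝ) ^ (S a).card * ((4 * Q) ^ (S a).card * Real.exp (-(c * θ * c₀) / 2)) := by
          refine mul_le_mul_of_nonneg_left (e2.trans ?_) (by positivity)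
          gcongr
      _ = (4 * (Q : ℝ) ^ 2) ^ (S a).card * Real.exp (-(c * θ * c₀) / 2) := by
          rw [← mul_assoc, ← mul_pow]; congr 2; ring
      _ ≤ _ := by
          gcongr
          · nlinarith
          · exact hSc a
  have hh0 : volume.real (hole g (t⁻¹ • sec K 0)) ≤ 1 / 2 := by
    refine (hhole none).trans ?_
    simp only [Option.elim]
    have : 4 * (Fintype.card (Option (Σ a : ι → Fin (n * d), S a)) : ℝ) * Real.exp (-v₀ / 2) ≤
        4 * Q * Real.exp (-v₀ / 2) := by gcongr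
    linarith
  choose xt hxt using fun i => pr_surjective (x i)
  set Xt : Matrix (Option κ) ι ℝ := Matrix.of fun o i => xt i o with hXt
  have hprX : ∀ z : ι → ℤ, pr (Xt *ᵥ ci z) = ∑ i, z i • x i := fun z => by
    rw [hXt, cover_pr_mulVec]; simp only [hxt]
  have hGdet : (t • g).det = T := by rw [Matrix.det_smul, hg, mul_one, htN]
  have hcard : Fintype.card (ι ⊕ Option κ) = n := by
    rw [Fintype.card_sum, Fintype.card_option, hn, add_assoc]
  have key := LC.of_dilate (K := K) (θ := θ) (t := 2 / n) (by positivity) 0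
    (Matrix.fromBlocks A 0 ((t • g) * Xt) (t • g))
    (by rw [Matrix.det_fromBlocks_zero₁₂, hGdet]; exact mul_ne_zero hA hT0.ne') ?_
    (by
      rw [Matrix.det_fromBlocks_zero₁₂, hGdet, abs_mul, abs_of_pos hT0, hT]
      exact le_of_eq (by field_simp))
  · rwa [hcard] at key
  intro p
  obtain ⟨r, hr⟩ := cover_surj hA fun i => p (Sum.inl i)
  obtain ⟨z₀, a, hza⟩ := cover_net hm r
  set r' : ι → ℝ := fun i => r i - z₀ i - ((a i : ℕ) : ℝ) / ((n * d : ℕ) : ℝ) with hr'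
  have he : ∀ i, |((n : ℝ) • (A *ᵥ r')) i| ≤ d := by
    intro i
    have e1 : |(A *ᵥ r') i| ≤ ∑ _j : ι, (d : ℝ) * (1 / ((n * d : ℕ) : ℝ)) := by
      refine (Finset.abs_sum_le_sum_abs _ _).trans (Finset.sum_le_sum fun j _ => ?_)
      rw [abs_mul]
      exact mul_le_mul (hAR i j) (hza j) (abs_nonneg _) (by positivity)
    rw [Finset.sum_const, Finset.card_univ, nsmul_eq_mul] at e1
    rw [Pi.smul_apply, smul_eq_mul, abs_mul, abs_of_pos hn']
    refine (mul_le_mul_of_nonneg_left e1 hn'.le).trans (le_of_eq ?_)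
    rw [← hdd]; push_cast; field_simp
  obtain ⟨u₁, hu₁⟩ : (sec K ((n : ℝ) • (A *ᵥ r'))).Nonempty := by
    have e1 := hM _ he
    have e2 := gz_pos ((n : ℝ) • (A *ᵥ r'))
    refine nonempty_of_measure_ne_zero (μ := volume) fun h0 => ?_
    rw [Measure.real, Measure.real, h0] at e1
    have : 0 < c * gz ((n : ℝ) • (A *ᵥ r')) * (volume K).toReal := mul_pos (mul_pos hc e2) hvol
    simp only [ENNReal.toReal_zero] at e1
    linarith
  obtain ⟨ξ₀, hξ₀⟩ := cover_surj (A := t • g) (by rw [hGdet]; exact hT0.ne')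
    ((fun o => p (Sum.inr o)) - (n : ℝ)⁻¹ • u₁)
  obtain ⟨ξ₂, hξ₂, hnot⟩ := exists_not_mem hg0 (hJc 0) hh0
    (U := {τ : TT (Option κ) | ∀ z ∈ S a, τ - ∑ i, z i • x i ∈
      hole g (t⁻¹ • sec K (ya a - A *ᵥ ci z))}) (m := n) hn0 (by
      refine lt_of_le_of_lt ?_ h6
      rw [mul_assoc (2 * (n : ℝ) ^ n)]
      refine mul_le_mul ?_ (hU a) measureReal_nonneg (by positivity)
      gcongr
      · exact_mod_cast hn0
      · rw [Fintype.card_option]; omega) (ξ₀ - Xt *ᵥ ci z₀)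
  simp only [Set.mem_ofPred_eq, hole, not_forall, not_not] at hnot
  obtain ⟨z, hz, ξ, hξ, hξJ⟩ := hnot
  rw [← hprX, ← pr_sub, pr_eq_iff] at hξ
  obtain ⟨b, hb'⟩ := hξ
  rw [Set.mem_inv_smul_set_iff₀ ht0.ne'] at hξJ hξ₂
  have hk := hK.2.1
  have hs0 : (0 : ℝ) < 1 + 2 / n := by positivity
  let k₀ : ι ⊕ Option κ → ℝ := Sum.elim (ya a - A *ᵥ ci z) (t • (g *ᵥ ξ))
  let k₁ : ι ⊕ Option κ → ℝ := Sum.elim ((n : ℝ) • (A *ᵥ r')) u₁
  let k₂ : ι ⊕ Option κ → ℝ := Sum.elim 0 (t • (g *ᵥ ξ₂))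
  have hk12 : (1 / 2 : ℝ) • k₁ + (1 / 2 : ℝ) • k₂ ∈ K :=
    hk hu₁ hξ₂ (by norm_num) (by norm_num) (by norm_num)
  have hkk : (1 / (1 + 2 / n) : ℝ) • k₀ + ((2 / n) / (1 + 2 / n) : ℝ) •
      ((1 / 2 : ℝ) • k₁ + (1 / 2 : ℝ) • k₂) ∈ K :=
    hk hξJ hk12 (by positivity) (by positivity) (by field_simp)
  refine ⟨Sum.elim (z₀ + z) (-b), _, hkk, ?_⟩
  have hcomb : (1 + 2 / (n : ℝ)) • ((1 / (1 + 2 / n) : ℝ) • k₀ + ((2 / n) / (1 + 2 / n) : ℝ) •
      ((1 / 2 : ℝ) • k₁ + (1 / 2 : ℝ) • k₂)) - (2 / (n : ℝ)) • (0 : ι ⊕ Option κ → ℝ) =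
      k₀ + (n : ℝ)⁻¹ • k₁ + (n : ℝ)⁻¹ • k₂ := by
    ext o
    simp only [Pi.add_apply, Pi.sub_apply, Pi.smul_apply, smul_eq_mul, Pi.zero_apply]
    field_simp
    ring
  rw [hcomb, Matrix.fromBlocks_mulVec]
  have c1 : ci (Sum.elim (z₀ + z) (-b)) ∘ Sum.inl = ci z₀ + ci z := by ext i; simp [ci]
  have c2 : ci (Sum.elim (z₀ + z) (-b)) ∘ Sum.inr = -ci b := by ext i; simp [ci]
  rw [c1, c2]
  have hy : (fun i => p (Sum.inl i)) = A *ᵥ ci z₀ + ya a + A *ᵥ r' := by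
    rw [← hr, ← Matrix.mulVec_add, ← Matrix.mulVec_add]
    congr 1
    ext i
    simp [hr', ci]
  have hu : (fun o => p (Sum.inr o)) = t • (g *ᵥ ξ₀) + (n : ℝ)⁻¹ • u₁ := by
    rw [← Matrix.smul_mulVec, hξ₀]; abel
  have hξ' : ξ₀ = ξ + Xt *ᵥ ci z₀ + (n : ℝ)⁻¹ • ξ₂ + Xt *ᵥ ci z - ci b := by rw [hb']; abel
  ext (i | o)
  · have := congrFun hy i
    simp only [Pi.add_apply] at this
    simp only [k₀, k₁, k₂, Pi.sub_apply, Pi.add_apply, Pi.smul_apply, Sum.elim_inl, this,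
      Matrix.mulVec_add, Matrix.zero_mulVec, Pi.zero_apply, smul_eq_mul]
    field_simp
    ring
  · have := congrFun hu o
    rw [hξ'] at this
    simp only [Pi.add_apply, Pi.smul_apply, Matrix.mulVec_add, Matrix.mulVec_sub,
      Matrix.mulVec_smul, Pi.sub_apply, smul_eq_mul] at this
    simp only [k₀, k₁, k₂, Pi.sub_apply, Pi.add_apply, Pi.smul_apply, Sum.elim_inr, this,
      Matrix.mulVec_add, ← Matrix.mulVec_mulVec, Matrix.smul_mulVec, Matrix.mulVec_neg,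
      Pi.neg_apply, smul_eq_mul]
    ring

theorem cover_ev_dim (C : ℕ) {M B : ℝ} (hM : 0 < M) (hB : 0 < B) : ∀ᶠ l : ℝ in atTop,
    M * ((C : ℝ) * ((⌈Real.log (B * l ^ 2)⌉₊ : ℝ) + 1) ^ 17) ^ 6 ≤ l := by
  have hpos : (0 : ℝ) < M * ((C : ℝ) + 1) ^ 6 * 3 ^ 102 := by positivity
  have h := (Real.isLittleO_pow_log_id_atTop (n := 102)).bound (inv_pos.2 hpos)
  filter_upwards [h, eventually_ge_atTop (1 : ℝ),
    Real.tendsto_log_atTop.eventually_ge_atTop (|Real.log B| + 2)] with l h hl hl2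
  have hl0 : 0 < l := by linarith
  have hlog : 0 ≤ Real.log l := Real.log_nonneg hl
  have e1 : Real.log (B * l ^ 2) = Real.log B + 2 * Real.log l := by
    rw [Real.log_mul hB.ne' (by positivity), Real.log_pow]; norm_num
  have e0 : 0 ≤ Real.log (B * l ^ 2) := by
    rw [e1]; linarith [neg_abs_le (Real.log B), abs_nonneg (Real.log B)]
  have e2 : (⌈Real.log (B * l ^ 2)⌉₊ : ℝ) + 1 ≤ 3 * Real.log l := by
    have := Nat.ceil_lt_add_one e0
    rw [e1] at this ⊢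
    linarith [le_abs_self (Real.log B)]
  simp only [id, Real.norm_eq_abs, abs_of_pos hl0, abs_of_nonneg (pow_nonneg hlog 102)] at h
  calc M * ((C : ℝ) * ((⌈Real.log (B * l ^ 2)⌉₊ : ℝ) + 1) ^ 17) ^ 6
      ≤ M * (((C : ℝ) + 1) * (3 * Real.log l) ^ 17) ^ 6 := by gcongr; linarith
    _ = M * ((C : ℝ) + 1) ^ 6 * 3 ^ 102 * Real.log l ^ 102 := by ring
    _ ≤ M * ((C : ℝ) + 1) ^ 6 * 3 ^ 102 * ((M * ((C : ℝ) + 1) ^ 6 * 3 ^ 102)⁻¹ * l) := by gcongr
    _ = l := by field_simp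

theorem cover_ev_log {δ : ℝ} (hδ : 0 < δ) : ∀ᶠ n : ℕ in atTop, Real.log n ^ 2 ≤ δ * √(n : ℝ) := by
  have hsq : Tendsto (fun n : ℕ => √(n : ℝ)) atTop atTop :=
    Real.tendsto_sqrt_atTop.comp tendsto_natCast_atTop_atTop
  have h := (Real.isLittleO_pow_log_id_atTop (n := 2)).bound (show 0 < δ / 4 by positivity)
  filter_upwards [hsq.eventually h] with n h
  simp only [id, Real.norm_eq_abs, abs_of_nonneg (Real.sqrt_nonneg _),
    abs_of_nonneg (sq_nonneg (Real.log √(n : ℝ)))] at h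
  rw [Real.log_sqrt (Nat.cast_nonneg n)] at h
  linarith

theorem cover_num {n d k : ℕ} {c₀ cb E l s : ℝ} (hc₀ : 0 < c₀) (hcb : 0 < cb) (hexp : Real.exp l = n)
    (hss : s * s = n) (hs0 : 0 < s) (hd1 : 1 ≤ d) (hd6 : (|E| + 2) * (d : ℝ) ^ 6 ≤ l)
    (hl1 : l ^ 2 ≤ 1 / 10 * s) (hl2 : l ^ 2 ≤ cb / 2 * s) (hl : 2 ≤ l)
    (hk : 12 / (c₀ * cb) * l ^ 2 ≤ Real.exp k) {Q : ℕ} (hQ : Q = (n * d) ^ d * 2 ^ d + 1) :
    2 * (d + 1) ≤ n ∧ Real.exp (E * (d : ℝ) ^ 6) ≤ n ∧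
      6 / c₀ * n * l * Real.exp (-(k : ℝ)) ≤ cb * n / (2 * l) ∧ s ≤ cb * n / (2 * l) ∧
      s * 2 ^ d ≤ 6 * n * l ∧ 8 * Q * Real.exp (-s / 2) ≤ 1 ∧
      2 * (n : ℝ) ^ n * (4 * (Q : ℝ) ^ 2) ^ 2 ^ d * Real.exp (-(6 * n * l) / 2) < 1 := by
  have hd1' : (1 : ℝ) ≤ d := by exact_mod_cast hd1
  have hdd : (d : ℝ) ≤ d ^ 6 := le_self_pow₀ hd1' (by norm_num)
  have hE : 0 ≤ |E| * (d : ℝ) ^ 6 := by positivity
  have hdl : 2 * (d : ℝ) ≤ l := by linarith
  have hll : 2 * l ≤ l ^ 2 := by nlinarith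
  have hs1 : 40 ≤ s := by linarith
  have hsn : s ≤ n := by nlinarith
  have hn0 : (0 : ℝ) < n := by linarith
  have hsl : Real.exp (l / 2) = s := by
    rw [Real.exp_half, hexp, ← hss, Real.sqrt_mul_self hs0.le]
  have h2d : (2 : ℝ) ^ d ≤ s := by
    rw [← hsl]
    calc (2 : ℝ) ^ d ≤ Real.exp 1 ^ d := by gcongr; linarith [Real.add_one_le_exp (1 : ℝ)]
      _ = Real.exp d := by rw [← Real.exp_nat_mul, mul_one]
      _ ≤ _ := Real.exp_le_exp.2 (by linarith)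
  have h8Q : 8 * (Q : ℝ) ≤ Real.exp (s / 2) := by
    have e1 : ((n : ℝ) * d) ^ d * 2 ^ d ≤ Real.exp (l ^ 2) := by
      rw [← mul_pow]
      calc ((n : ℝ) * d * 2) ^ d ≤ Real.exp (2 * l) ^ d := by
            gcongr
            rw [two_mul, Real.exp_add, hexp, mul_assoc]
            exact mul_le_mul_of_nonneg_left (by linarith) hn0.le
        _ = Real.exp (d * (2 * l)) := by rw [← Real.exp_nat_mul]
        _ ≤ _ := Real.exp_le_exp.2 (by nlinarith)
    have e2 : (1 : ℝ) ≤ Real.exp (l ^ 2) := Real.one_le_exp (by positivity)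
    have e3 : (16 : ℝ) ≤ Real.exp 4 := by
      have := Real.add_one_le_exp (1 : ℝ)
      calc (16 : ℝ) = 2 ^ 4 := by norm_num
        _ ≤ Real.exp 1 ^ 4 := by gcongr; linarith
        _ = _ := by rw [← Real.exp_nat_mul]; norm_num
    calc 8 * (Q : ℝ) ≤ 16 * Real.exp (l ^ 2) := by rw [hQ]; push_cast; linarith
      _ ≤ Real.exp 4 * Real.exp (l ^ 2) := by gcongr
      _ ≤ _ := by rw [← Real.exp_add]; exact Real.exp_le_exp.2 (by linarith)
  refine ⟨?_, ?_, ?_, ?_, ?_, ?_, ?_⟩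
  · have : 2 * ((d : ℝ) + 1) ≤ n := by linarith
    exact_mod_cast this
  · rw [← hexp]
    apply Real.exp_le_exp.2
    have : E * (d : ℝ) ^ 6 ≤ |E| * (d : ℝ) ^ 6 := by gcongr; exact le_abs_self E
    linarith
  · have e2 : Real.exp (-(k : ℝ)) ≤ (12 / (c₀ * cb) * l ^ 2)⁻¹ := by
      rw [Real.exp_neg]; exact inv_anti₀ (by positivity) hk
    refine (mul_le_mul_of_nonneg_left e2 (by positivity)).trans (le_of_eq ?_)
    field_simp; norm_num
  · rw [le_div_iff₀ (by positivity), ← hss]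
    have : 2 * l ≤ cb * s := by nlinarith
    nlinarith
  · have : s * 2 ^ d ≤ s * s := by gcongr
    nlinarith
  · calc 8 * (Q : ℝ) * Real.exp (-s / 2) ≤ Real.exp (s / 2) * Real.exp (-s / 2) := by gcongr
      _ = 1 := by rw [← Real.exp_add, ← Real.exp_zero]; congr 1; ring
  · have e1 : 4 * (Q : ℝ) ^ 2 ≤ Real.exp s := by
      have : (8 * (Q : ℝ)) ^ 2 ≤ Real.exp (s / 2) ^ 2 := by gcongr
      rw [← Real.exp_nat_mul] at this
      have e : ((2 : ℕ) : ℝ) * (s / 2) = s := by push_cast; ring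
      rw [e] at this
      nlinarith [sq_nonneg (Q : ℝ)]
    have e2 : (4 * (Q : ℝ) ^ 2) ^ 2 ^ d ≤ Real.exp n := by
      calc (4 * (Q : ℝ) ^ 2) ^ 2 ^ d ≤ Real.exp s ^ 2 ^ d := by gcongr
        _ = Real.exp (2 ^ d * s) := by rw [← Real.exp_nat_mul]; push_cast; rfl
        _ ≤ _ := Real.exp_le_exp.2 (by rw [← hss]; gcongr)
    have e3 : (n : ℝ) ^ n = Real.exp (n * l) := by rw [Real.exp_nat_mul, hexp]
    have e4 : (n : ℝ) * 2 ≤ n * l := by gcongr
    calc _ ≤ 2 * Real.exp (n * l) * Real.exp n * Real.exp (-(6 * n * l) / 2) := by rw [e3]; gcongr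
      _ = 2 * Real.exp (n * l + n + -(6 * n * l) / 2) := by rw [Real.exp_add, Real.exp_add]; ring
      _ ≤ 2 * Real.exp (-1) := by gcongr; linarith
      _ < 1 := by
        rw [Real.exp_neg, ← div_eq_mul_inv, div_lt_one (Real.exp_pos 1)]
        linarith [Real.exp_one_gt_d9]

theorem lc_large : ∃ C : ℝ, ∀ᶠ n : ℕ in atTop, ∀ K : Set (Fin n → ℝ), Body K →
    LC K (C * n * Real.log n) := by
  classical
  obtain ⟨c, hc, E, hmarg⟩ := marginal
  obtain ⟨c₀, hc₀, C, hvert⟩ := vert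
  obtain ⟨cb, hcb, N₀, hbase⟩ := base
  refine ⟨6 / (c * c₀) * Real.exp 2, ?_⟩
  have hlogt : Tendsto (fun n : ℕ => Real.log n) atTop atTop :=
    Real.tendsto_log_atTop.comp tendsto_natCast_atTop_atTop
  filter_upwards [hlogt.eventually (cover_ev_dim C (M := |E| + 2) (B := 12 / (c₀ * cb))
    (by positivity) (by positivity)), cover_ev_log (δ := 1 / 10) (by norm_num),
    cover_ev_log (δ := cb / 2) (by positivity), hlogt.eventually_ge_atTop 2,
    eventually_ge_atTop (2 * N₀ + 4)] with n hdim hl1 hl2 hl hn K hK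
  have hn4 : (4 : ℝ) ≤ n := by exact_mod_cast (show 4 ≤ n by omega)
  have hn0 : (0 : ℝ) < n := by linarith
  have hexp : Real.exp (Real.log n) = n := Real.exp_log hn0
  have hll : ∀ x : ℝ, 0 < x → x ≤ n → Real.log x ≤ Real.log n := fun x h h' => Real.log_le_log h h'
  generalize Real.log n = l at *
  have hk : 12 / (c₀ * cb) * l ^ 2 ≤ Real.exp (⌈Real.log (12 / (c₀ * cb) * l ^ 2)⌉₊ : ℕ) := by
    conv_lhs => rw [← Real.exp_log (show 0 < 12 / (c₀ * cb) * l ^ 2 by positivity)]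
    exact Real.exp_le_exp.2 (Nat.le_ceil _)
  generalize ⌈Real.log (12 / (c₀ * cb) * l ^ 2)⌉₊ = k at *
  obtain ⟨ι, _, _, A, hd1, hdC, hV⟩ := hvert k
  have hd6 : (|E| + 2) * (Fintype.card ι : ℝ) ^ 6 ≤ l := by
    refine le_trans ?_ hdim
    have : (Fintype.card ι : ℝ) ≤ C * ((k : ℝ) + 1) ^ 17 := by exact_mod_cast hdC
    gcongr
  clear hdim
  obtain ⟨hdn, g1, g2, g3, g4, g5, g6⟩ := cover_num hc₀ hcb hexp (Real.mul_self_sqrt hn0.le)
    (Real.sqrt_pos.2 hn0) hd1 hd6 hl1 hl2 hl hk rfl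
  obtain ⟨N, hN⟩ : ∃ N, n = Fintype.card ι + N + 1 := ⟨n - Fintype.card ι - 1, by omega⟩
  have hN2 : (n : ℝ) ≤ 2 * N := by exact_mod_cast (show n ≤ 2 * N by omega)
  have hNn : (N : ℝ) ≤ n := by exact_mod_cast (show N ≤ n by omega)
  have hlogN : 0 < Real.log N := Real.log_pos (by linarith)
  have hlogN' : Real.log N ≤ l := hll _ (by linarith) hNn
  have hV₀ : cb * n / (2 * l) ≤ cb * N / Real.log N := by
    rw [div_le_div_iff₀ (by positivity) hlogN]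
    have : cb * n * Real.log N ≤ cb * (2 * N) * l := by gcongr
    linarith
  obtain ⟨Φ, hΦ⟩ := hmarg ι (Option (Fin N)) n
    (by rw [Fintype.card_option, Fintype.card_fin, ← add_assoc]; exact hN) hd1 g1 K hK
  have hb := hbase (Fin N) (by rw [Fintype.card_fin]; omega)
  rw [Fintype.card_fin] at hb
  have hθ : c * (6 / (c * c₀) * n * l) * c₀ = 6 * n * l := by field_simp
  have hθ' : c * (6 / (c * c₀) * n * l) = 6 / c₀ * n * l := by field_simp
  refine LC.of_equiv Φ (LC.mono (cover (κ := Fin N) (hK.image Φ) (n := n)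
    (θ := 6 / (c * c₀) * n * l) (V₀ := cb * N / Real.log N) (v₀ := √(n : ℝ))
    (by rw [Fintype.card_fin]; exact hN) hd1 hc (by positivity) hV hΦ hb rfl
    (by rw [hθ']; exact g2.trans hV₀) (Real.sqrt_nonneg _) (g3.trans hV₀) (by rw [hθ]; exact g4) g5
    (by rw [hθ]; exact g6)) ?_)
  have e1 : (1 + 2 / (n : ℝ)) ^ n ≤ Real.exp 2 := by
    calc (1 + 2 / (n : ℝ)) ^ n ≤ Real.exp (2 / n) ^ n := by
          gcongr; linarith [Real.add_one_le_exp (2 / (n : ℝ))]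
      _ = _ := by rw [← Real.exp_nat_mul]; congr 1; field_simp
  calc _ ≤ 6 / (c * c₀) * n * l * Real.exp 2 := by gcongr
    _ = _ := by ring

end Crest.Agent.R225
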