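import Mathlib

/-!
# Row 225 (S0347, S0348): definitions.  FROZEN (owner helper31).  Plan: `R225/Blueprint.lean`.
-/

set_option autoImplicit false

open MeasureTheory ProbabilityTheory Matrix Filter Topology
open scoped ENNReal RealInnerProductSpace

noncomputable section

namespace Crest.Agent.R225

/-! ## Gaussians, lattice coverings -/

/-- standard Gaussian density on the line -/
def ph (t : ℝ) : ℝ := (√(2 * Real.pi))⁻¹ * Real.exp (-t ^ 2 / 2)

/-- standard Gaussian density on `ι → ℝ` -/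
def gz {ι : Type} [Fintype ι] (v : ι → ℝ) : ℝ := ∏ i, ph (v i)

/-- density of `N(0, s I)` -/
def gv {ι : Type} [Fintype ι] (s : ℝ) (v : ι → ℝ) : ℝ :=
  ∏ i, (√(2 * Real.pi * s))⁻¹ * Real.exp (-(v i) ^ 2 / (2 * s))

/-- integer vector as a real vector -/
def ci {ι : Type} (z : ι → ℤ) : ι → ℝ := fun i => (z i : ℝ)

/-- integer vector as a rational vector -/
def cq {ι : Type} (z : ι → ℤ) : ι → ℚ := fun i => (z i : ℚ)

/-- `K` has a lattice covering of density at most `θ` -/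
def LC {ι : Type} [Fintype ι] [DecidableEq ι] (K : Set (ι → ℝ)) (θ : ℝ) : Prop :=
  ∃ g : Matrix ι ι ℝ, g.det ≠ 0 ∧ (∀ x, ∃ z : ι → ℤ, x - g *ᵥ ci z ∈ K) ∧
    volume.real K ≤ θ * |g.det|

/-- convex body -/
def Body {ι : Type} [Fintype ι] (K : Set (ι → ℝ)) : Prop :=
  IsCompact K ∧ Convex ℝ K ∧ (interior K).Nonempty

/-- horizontal section -/
def sec {ι κ : Type} (K : Set (ι ⊕ κ → ℝ)) (y : ι → ℝ) : Set (κ → ℝ) := {w | Sum.elim y w ∈ K}

/-- identity second-moment matrix (no centring) -/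
def Iso {ι : Type} [Fintype ι] [DecidableEq ι] (K : Set (ι → ℝ)) : Prop :=
  ∀ i j, ∫ x, x i * x j ∂(volume[|K]) = if i = j then 1 else 0

/-! ## The vertical structure -/

/-- finite sets of integer points that split recursively along two parallel hyperplanes -/
inductive TwoLevel {ι : Type} [Fintype ι] [DecidableEq ι] : Finset (ι → ℤ) → Prop
  | empty : TwoLevel ∅
  | single (z : ι → ℤ) : TwoLevel {z}
  | union (A B : Finset (ι → ℤ)) (lam : ι → ℤ) (a b : ℤ) : a ≠ b → (∀ z ∈ A, lam ⬝ᵥ z = a) →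
      (∀ z ∈ B, lam ⬝ᵥ z = b) → TwoLevel A → TwoLevel B → TwoLevel (A ∪ B)

/-- At `y` there is a two-level family of points of the lattice `A ℤ^ι`, within sup-distance `R`,
carrying weights below the Gaussian weights and below `wm`, with mass at least `m / |G|` in every class of
the hash map `h`. -/
def Str {ι G : Type} [Fintype ι] [DecidableEq ι] [AddCommGroup G] [Fintype G] [DecidableEq G]
    (A : Matrix ι ι ℝ) (h : (ι → ℤ) →+ G) (R wm m : ℝ) (y : ι → ℝ) : Prop :=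
  ∃ (S : Finset (ι → ℤ)) (w : (ι → ℤ) → ℝ), TwoLevel S ∧ S.card ≤ 2 ^ Fintype.card ι ∧
    (∀ z ∈ S, 0 ≤ w z ∧ w z ≤ wm ∧ w z ≤ |A.det| * gz (y - A *ᵥ ci z) ∧
      ∀ i, |(y - A *ᵥ ci z) i| ≤ R) ∧
    ∀ s : G, m ≤ Fintype.card G * ∑ z ∈ S.filter (fun z => h z = s), w z

/-- `Str` at every point -/
def Vert {ι G : Type} [Fintype ι] [DecidableEq ι] [AddCommGroup G] [Fintype G] [DecidableEq G]
    (A : Matrix ι ι ℝ) (h : (ι → ℤ) →+ G) (R wm m : ℝ) : Prop :=
  A.det ≠ 0 ∧ (∀ i j, |A i j| ≤ R) ∧ ∀ y, Str A h R wm m y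

/-- One block of the tower: averaging over the shifts `sh s`, `s ∈ G` (a homomorphism modulo the lattice)
captures mass `1 - ε` at every point. -/
def Blk {κ G G' : Type} [Fintype κ] [DecidableEq κ] [AddCommGroup G] [Fintype G]
    [AddCommGroup G'] [Fintype G'] [DecidableEq G']
    (A : Matrix κ κ ℝ) (sh : G → κ → ℝ) (h : (κ → ℤ) →+ G') (R wm ε : ℝ) : Prop :=
  A.det ≠ 0 ∧ (∀ i j, |A i j| ≤ R) ∧ (∀ s i, |sh s i| ≤ R) ∧
    (∀ s s', ∃ b : κ → ℤ, sh (s + s') = sh s + sh s' + A *ᵥ ci b) ∧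
    ∀ y, ∃ ζ : G → ℝ, (∀ s, 0 ≤ ζ s ∧ Str A h R wm (ζ s) (y + sh s)) ∧
      (1 - ε) * Fintype.card G ≤ ∑ s, ζ s

/-- product Bernoulli weight -/
def bw {ι : Type} [Fintype ι] (p : ι → ℝ) (ω : ι → Bool) : ℝ :=
  ∏ i, if ω i then p i else 1 - p i

/-- law of the random subset sum `∑ e i • a i`, `e i ~ Bernoulli (P i)` -/
def piH {κ G : Type} [Fintype κ] [DecidableEq κ] [AddCommGroup G] [DecidableEq G]
    (a : κ → G) (P : κ → ℝ) (s : G) : ℝ :=
  ∑ e : κ → Bool, if (∑ i, if e i then a i else 0) = s then bw P e else 0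

/-! ## Tori -/

/-- the torus -/
abbrev TT (κ : Type) : Type := κ → UnitAddCircle

instance : IsProbabilityMeasure (volume : Measure UnitAddCircle) := ⟨UnitAddCircle.measure_univ⟩

/-- projection to the torus -/
def pr {κ : Type} (x : κ → ℝ) : TT κ := fun i => (x i : UnitAddCircle)

/-- representative in `(0, 1]` -/
def rep (t : UnitAddCircle) : ℝ := (AddCircle.equivIoc 1 0 t : ℝ)

/-- points of the torus `ℝ^κ / g ℤ^κ` (in lattice coordinates) not covered by `J + g ℤ^κ` -/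
def hole {κ : Type} [Fintype κ] (g : Matrix κ κ ℝ) (J : Set (κ → ℝ)) : Set (TT κ) :=
  {t | ∀ x, pr x = t → g *ᵥ x ∉ J}

open Classical in
/-- mass of the unique surviving label -/
def surv {κ : Type} (J : Finset ℤ) (om : ℤ → ℝ) (Ψ : TT κ → ℝ) (R : Set (TT κ)) (a t : TT κ) : ℝ :=
  ∑ j ∈ J, if ∀ j' ∈ J, j' ≠ j → t - j' • a ∉ R then om j * R.indicator Ψ (t - j • a) else 0

/-- folded Gaussian density (two layers at distance `l`) -/
def psi (l : ℝ) (t : UnitAddCircle) : ℝ := ph (l * rep t) + ph (l * rep t - l)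

/-- conditional probability of the upper layer -/
def pup (l : ℝ) (t : UnitAddCircle) : ℝ := ph (l * rep t - l) / psi l t

/-! ## The base range -/

/-- pairing of a label with a point of the torus -/
def ev {σ : Type} [Fintype σ] (z : σ → ℤ) (ω : TT σ) : UnitAddCircle := ∑ o, z o • ω o

/-- the label `(1, w)` -/
def lab {κ : Type} (w : κ → ℤ) : Option κ → ℤ := fun o => o.elim 1 w

/-- labels in a box -/
def box (κ : Type) [Fintype κ] [DecidableEq κ] (R : ℕ) : Finset (Option κ → ℤ) :=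
  (Fintype.piFinset fun _ : κ => Finset.Icc (-(R : ℤ)) R).image lab

/-- the fibre of `J` over `ε (u + w)`, rescaled and projected to the circle -/
def arc {κ : Type} [Fintype κ] (J : Set (ℝ × (κ → ℝ))) (ε : ℝ) (u : κ → ℝ) (z : Option κ → ℤ) :
    Set UnitAddCircle :=
  {t | ∃ τ : ℝ, (τ, fun i => ε * (u i + z (some i))) ∈ J ∧
    t = ((τ * ε ^ Fintype.card κ : ℝ) : UnitAddCircle)}

/-- an independent `j`-tuple and one more point in its span -/
def Adm {σ : Type} {j : ℕ} (z : Option (Fin j) → σ → ℤ) : Prop :=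
  LinearIndependent ℚ (fun l : Fin j => cq (z (some l))) ∧
    cq (z none) ∈ Submodule.span ℚ (Set.range fun l : Fin j => cq (z (some l))) ∧
    ∀ l, z none ≠ z (some l)

/-- `C` is the (unique up to scaling) relation of the tuple `z` -/
def Rel {σ L : Type} [Fintype L] (C : L → ℤ) (z : L → σ → ℤ) : Prop :=
  Function.Injective z ∧ ∑ l, C l • z l = 0 ∧
    ∀ l₀, C l₀ ≠ 0 → LinearIndependent ℚ fun l : {l // l ≠ l₀} => cq (z l)

open Classical in
/-- expected number of occurring tuples with the property `P` -/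
def occ {σ L : Type} [Fintype σ] [Fintype L] [DecidableEq L] (Z : Finset (σ → ℤ))
    (S : (σ → ℤ) → Set UnitAddCircle) (P : (L → σ → ℤ) → Prop) : ℝ :=
  ∑ z ∈ (Fintype.piFinset fun _ : L => Z).filter P,
    volume.real {ω : TT σ | ∀ l, ev (z l) ω ∈ S (z l)}

/-- the four-function `U²` inequality with constant `c` -/
def HasU2 {E : Type} [AddCommGroup E] [MeasurableSpace E] (μ : Measure E) (c : ℝ≥0∞) : Prop :=
  ∀ f₁ f₂ f₃ f₄ : E → ℝ≥0∞, Measurable f₁ → Measurable f₂ → Measurable f₃ → Measurable f₄ →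
    ∫⁻ x, ∫⁻ y, ∫⁻ z, f₁ x * f₂ y * f₃ z * f₄ (x - y + z) ∂μ ∂μ ∂μ ≤
      c * ((∫⁻ x, f₁ x ^ (4 / 3 : ℝ) ∂μ) ^ (3 / 4 : ℝ) * (∫⁻ x, f₂ x ^ (4 / 3 : ℝ) ∂μ) ^ (3 / 4 : ℝ) *
        (∫⁻ x, f₃ x ^ (4 / 3 : ℝ) ∂μ) ^ (3 / 4 : ℝ) * (∫⁻ x, f₄ x ^ (4 / 3 : ℝ) ∂μ) ^ (3 / 4 : ℝ))

/-! ## The lower bound (S0348) -/

open Classical in
/-- probability under the product Bernoulli measure -/
def Pb {ι : Type} [Fintype ι] [DecidableEq ι] (p : ι → ℝ) (A : (ι → Bool) → Prop) : ℝ :=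
  ∑ ω, if A ω then bw p ω else 0

/-- the random set meets `C` -/
def Hit {ι : Type} (C : Finset ι) (ω : ι → Bool) : Prop := ∃ q ∈ C, ω q = true

/-- increasing event -/
def Up {ι : Type} (A : (ι → Bool) → Prop) : Prop :=
  ∀ ω ω' : ι → Bool, (∀ i, ω i = true → ω' i = true) → A ω → A ω'

/-- all the sets `C x`, `x ∈ R`, are hit -/
def All {ι X : Type} (R : Finset X) (C : X → Finset ι) (ω : ι → Bool) : Prop :=
  ∀ x ∈ R, Hit (C x) ω

/-- Euclidean space -/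
abbrev Eu (n : ℕ) : Type := EuclideanSpace ℝ (Fin n)

/-- Gaussian tail -/
def Qt (t : ℝ) : ℝ := (gaussianReal 0 1).real (Set.Ioi t)

/-- `(pts, ν)` discretises the standard Gaussian measure at Euclidean precision `h` -/
structure Disc (n : ℕ) (h : ℝ) {I : Type} [Fintype I] (pts : I → Eu n) (ν : I → ℝ) : Prop where
  nonneg : ∀ q, 0 ≤ ν q
  norm_le : ∀ q, ‖pts q‖ ≤ (n : ℝ) ^ 2
  lower : ∀ (S : Set (Eu n)) (C : Finset I), MeasurableSet S →
    (∀ g ∈ S, ∀ q, ‖pts q - g‖ ≤ h → q ∈ C) →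
    (stdGaussian (Eu n)).real S - 2 * n * Real.exp (-(n : ℝ) ^ 2 / 2) ≤ ∑ q ∈ C, ν q
  upper : ∀ (S : Set (Eu n)) (C : Finset I), MeasurableSet S →
    (∀ q ∈ C, ∀ g, ‖pts q - g‖ ≤ h → g ∈ S) → ∑ q ∈ C, ν q ≤ (stdGaussian (Eu n)).real S

open Classical in
/-- well spread test points in the unit ball -/
structure Test (n : ℕ) {Y : Type} [Fintype Y] (yp : Y → Eu n) : Prop where
  norm_le : ∀ y, ‖yp y‖ ≤ 1
  small : ∀ (c : Eu n) (δ : ℝ), 1 / (n : ℝ) ≤ δ →
    ((Finset.univ.filter fun y => ‖yp y - c‖ ≤ δ).card : ℝ) ≤ (5 * δ) ^ n * Fintype.card Y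

open Classical in
/-- the centres relevant for the point `y` -/
def rel {n : ℕ} (η : ℝ) (X : Finset (Eu n)) (y : Eu n) : Finset (Eu n) :=
  X.filter fun x => ‖y - x‖ ≤ 1 + η

/-- no deep centre and small total cost -/
def Good {n : ℕ} (η σ θ : ℝ) (X : Finset (Eu n)) (y : Eu n) : Prop :=
  (∀ x ∈ rel η X y, 1 - σ ≤ ‖y - x‖) ∧
    ∑ x ∈ rel η X y, (1 + n * max 0 (1 - ‖y - x‖)) ≤ θ

/-- inclusion probabilities of the candidate normals -/
def pq (L : ℝ) {I : Type} (ν : I → ℝ) (q : I) : ℝ := 1 - Real.exp (-(ν q / Qt L))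

/-- every relevant centre is robustly cut -/
def Cut {n : ℕ} {I : Type} (pts : I → Eu n) (L η : ℝ) (X : Finset (Eu n)) (y : Eu n)
    (ω : I → Bool) : Prop :=
  ∀ x ∈ rel η X y, ∃ q, ω q = true ∧ L + 1 / (2 * L) ≤ ⟪pts q, y - x⟫

/-- the random body -/
def body {n : ℕ} {I : Type} (pts : I → Eu n) (L : ℝ) (ω : I → Bool) : Set (Eu n) :=
  {z | ‖z‖ ≤ 1 ∧ ∀ q, ω q = true → |⟪pts q, z⟫| ≤ L}

end Crest.Agent.R225
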