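import Crest.Agent.R225.Psi

/-!
# Row 225: GTail
Gaussian tails.  `(gaussianReal 0 1).real s = ∫ t in s, ph t`; substitute `t ↦ t + v` and compare `ph (t + v) = ph t * exp (-t v - v²/2)`.
For the standard Gaussian on `Eu n`: `g ↦ ⟪g, z⟫` has law `gaussianReal 0 ‖z‖²` (`IsGaussian.map_eq_gaussianReal`, `variance_dual_stdGaussian`), and orthogonal
functionals are independent (`HasGaussianLaw.indepFun_of_covariance_eq_zero`, `covarianceBilin_stdGaussian`).
`vol_ball_le`: `vol B * exp (-n/2) ≤ ∫ exp (-n ‖x‖²/2) = (2π/n)^(n/2)` (`GaussianFourier.integral_rexp_neg_mul_sq_norm`), `√(2π e) ≤ 5`.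
-/

set_option autoImplicit false

open MeasureTheory ProbabilityTheory Matrix Filter Topology
open scoped ENNReal RealInnerProductSpace

noncomputable section

namespace Crest.Agent.R225

theorem gauss_real_eq {s : Set ℝ} (hs : MeasurableSet s) :
    (gaussianReal 0 1).real s = ∫ t in s, ph t := by
  have e : gaussianPDFReal 0 1 = ph := by
    funext t; simp [gaussianPDFReal, ph]
  rw [Measure.real, gaussianReal_apply_eq_integral 0 one_ne_zero, e, ENNReal.toReal_ofReal]
  exact setIntegral_nonneg hs fun t _ => (ph_pos t).le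

theorem GTail_Qt_eq (t : ℝ) : Qt t = ∫ s in Set.Ioi t, ph s := gauss_real_eq measurableSet_Ioi

theorem Qt_pos (t : ℝ) : 0 < Qt t := by
  rw [GTail_Qt_eq, setIntegral_pos_iff_support_of_nonneg_ae
    (Eventually.of_forall fun s => (ph_pos s).le) integrable_ph.integrableOn]
  have : Function.support ph = Set.univ := by
    ext s; simp [(ph_pos s).ne']
  simp [this]

theorem Qt_anti {s t : ℝ} (h : s ≤ t) : Qt t ≤ Qt s :=
  measureReal_mono (Set.Ioi_subset_Ioi h)

theorem GTail_shift (s : Set ℝ) (v : ℝ) :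
    ∫ x in s, ph x = ∫ x in (fun x => x + v) ⁻¹' s, ph (x + v) :=
  ((measurePreserving_add_right volume v).setIntegral_preimage_emb
    (measurableEmbedding_addRight v) ph s).symm

theorem GTail_ph_add (t v : ℝ) : ph (t + v) = Real.exp (-(t * v) - v ^ 2 / 2) * ph t := by
  unfold ph
  rw [mul_left_comm, ← Real.exp_add]; congr 2; ring

theorem GTail_Qt_add_le (t : ℝ) {v : ℝ} (hv : 0 ≤ v) :
    Qt (t + v) ≤ Real.exp (-(t * v) - v ^ 2 / 2) * Qt t := by
  rw [GTail_Qt_eq, GTail_Qt_eq, GTail_shift _ v, ← integral_const_mul]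
  have e : (fun x => x + v) ⁻¹' Set.Ioi (t + v) = Set.Ioi t := by ext x; simp
  rw [e]
  refine setIntegral_mono_on (integrable_ph.comp_add_right v).integrableOn
    (integrable_ph.const_mul _).integrableOn measurableSet_Ioi fun x hx => ?_
  rw [GTail_ph_add]
  refine mul_le_mul_of_nonneg_right (Real.exp_le_exp.2 ?_) (ph_pos x).le
  have : t * v ≤ x * v := mul_le_mul_of_nonneg_right (le_of_lt hx) hv
  linarith

theorem Qt_add_le {t v : ℝ} (ht : 0 ≤ t) (hv : 0 ≤ v) : Qt (t + v) ≤ Real.exp (-(t * v)) * Qt t := by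
  have _ := ht
  refine (GTail_Qt_add_le t hv).trans (mul_le_mul_of_nonneg_right (Real.exp_le_exp.2 ?_) (Qt_pos t).le)
  nlinarith [sq_nonneg v]

theorem Qt_le {t : ℝ} (ht : 0 ≤ t) : Qt t ≤ Real.exp (-t ^ 2 / 2) := by
  have h := GTail_Qt_add_le 0 ht
  have h1 : Qt 0 ≤ 1 := measureReal_le_one
  rw [zero_add] at h
  refine h.trans ?_
  have e : -(0 * t) - t ^ 2 / 2 = -t ^ 2 / 2 := by ring
  rw [e]
  exact mul_le_of_le_one_right (Real.exp_pos _).le h1

theorem GTail_hasDerivAt_ph (t : ℝ) : HasDerivAt ph (-t * ph t) t := by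
  unfold ph
  have h1 : HasDerivAt (fun t : ℝ => -t ^ 2 / 2) (-t) t := by
    have := ((hasDerivAt_pow 2 t).neg).div_const 2
    refine this.congr_deriv ?_
    simp; ring
  refine (h1.exp.const_mul _).congr_deriv ?_
  ring

/-- Mills ratio lower bound -/
theorem GTail_mills {t : ℝ} (ht : 0 ≤ t) : t / (1 + t ^ 2) * ph t ≤ Qt t := by
  set g : ℝ → ℝ := fun s => -(s / (1 + s ^ 2) * ph s) with hg
  set g' : ℝ → ℝ := fun s => (s ^ 4 + 2 * s ^ 2 - 1) / (1 + s ^ 2) ^ 2 * ph s with hg'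
  have hd : ∀ s, HasDerivAt g (g' s) s := by
    intro s
    have h0 : (1 + s ^ 2) ≠ 0 := by positivity
    have h1 : HasDerivAt (fun s : ℝ => 1 + s ^ 2) (2 * s) s := by
      simpa using (hasDerivAt_pow 2 s).const_add 1
    have := (((hasDerivAt_id s).div h1 h0).mul (GTail_hasDerivAt_ph s)).neg
    refine this.congr_deriv ?_
    simp only [hg', id, Pi.div_apply]
    field_simp; ring
  have hb : ∀ s : ℝ, |(s ^ 4 + 2 * s ^ 2 - 1) / (1 + s ^ 2) ^ 2| ≤ 1 := by
    intro s
    rw [abs_div, abs_of_pos (by positivity : 0 < (1 + s ^ 2) ^ 2), div_le_one (by positivity), abs_le]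
    constructor <;> nlinarith [sq_nonneg s, sq_nonneg (s ^ 2)]
  have hi : Integrable g' := by
    refine integrable_ph.bdd_mul (c := 1) ?_ (Eventually.of_forall fun s => hb s)
    refine Continuous.aestronglyMeasurable (Continuous.div (by fun_prop) (by fun_prop) fun s => ?_)
    positivity
  have hlim : Tendsto g atTop (𝓝 0) := by
    have h1 : Tendsto (fun s : ℝ => s⁻¹) atTop (𝓝 0) := tendsto_inv_atTop_zero
    refine squeeze_zero_norm' ?_ h1
    filter_upwards [eventually_gt_atTop 0] with s hs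
    have h2 := ph_le_half s
    have h3 := ph_pos s
    simp only [hg, norm_neg, Real.norm_eq_abs]
    rw [abs_of_nonneg (by positivity)]
    have h4 : s / (1 + s ^ 2) ≤ s⁻¹ := by
      rw [div_le_iff₀ (by positivity), inv_mul_eq_div, le_div_iff₀ hs]; nlinarith
    calc s / (1 + s ^ 2) * ph s ≤ s⁻¹ * 1 := mul_le_mul h4 (by linarith) h3.le (by positivity)
      _ = s⁻¹ := mul_one _
  have h := integral_Ioi_of_hasDerivAt_of_tendsto' (a := t) (fun s _ => hd s) hi.integrableOn hlim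
  have _ := ht
  rw [GTail_Qt_eq]
  calc t / (1 + t ^ 2) * ph t = 0 - g t := by simp [hg]
    _ = ∫ s in Set.Ioi t, g' s := h.symm
    _ ≤ _ := by
      refine setIntegral_mono_on hi.integrableOn integrable_ph.integrableOn measurableSet_Ioi
        fun s _ => ?_
      exact mul_le_of_le_one_left (ph_pos s).le ((le_abs_self _).trans (hb s))

theorem le_Qt {t : ℝ} (ht : 2 ≤ t) : Real.exp (-t ^ 2) ≤ Qt t := by
  refine le_trans ?_ (GTail_mills (by linarith))
  have hs : √(2 * Real.pi) ≤ 2.51 := by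
    rw [Real.sqrt_le_iff]; refine ⟨by norm_num, ?_⟩
    have := Real.pi_lt_d2; nlinarith
  have hs0 : 0 < √(2 * Real.pi) := Real.sqrt_pos.2 (by positivity)
  have he : 7.38 * (t ^ 2 / 2 - 1) ≤ Real.exp (t ^ 2 / 2) := by
    have h1 : Real.exp (t ^ 2 / 2) = Real.exp 1 * Real.exp 1 * Real.exp (t ^ 2 / 2 - 2) := by
      rw [← Real.exp_add, ← Real.exp_add]; congr 1; ring
    have h2 := Real.add_one_le_exp (t ^ 2 / 2 - 2)
    have h3 := Real.exp_one_gt_d9
    have h4 : 7.38 ≤ Real.exp 1 * Real.exp 1 := by nlinarith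
    rw [h1]
    exact mul_le_mul h4 (by linarith) (by nlinarith) (by positivity)
  have e : Real.exp (-t ^ 2 / 2) = Real.exp (t ^ 2 / 2) * Real.exp (-t ^ 2) := by
    rw [← Real.exp_add]; congr 1; ring
  unfold ph
  rw [e, ← mul_assoc, ← mul_assoc]
  refine le_mul_of_one_le_left (Real.exp_pos _).le ?_
  rw [div_mul_eq_mul_div, div_mul_eq_mul_div, le_div_iff₀ (by positivity), mul_assoc,
    mul_left_comm, ← div_eq_inv_mul, le_div_iff₀ hs0]
  have h5 : 2 * (7.38 * (t ^ 2 / 2 - 1)) ≤ t * Real.exp (t ^ 2 / 2) :=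
    mul_le_mul ht he (by nlinarith) (by linarith)
  nlinarith

theorem GTail_Qt_split {a b : ℝ} (h : a ≤ b) : Qt a = (∫ s in Set.Ioc a b, ph s) + Qt b := by
  rw [GTail_Qt_eq, GTail_Qt_eq, ← setIntegral_union (Set.Ioc_disjoint_Ioi le_rfl) measurableSet_Ioi
    integrable_ph.integrableOn integrable_ph.integrableOn, Set.Ioc_union_Ioi_eq_Ioi h]

theorem le_gauss_Icc {t u : ℝ} (ht : 1 ≤ t) (hu : 0 ≤ u) :
    1 / 2 * Real.exp (-((t + 1 / t) * u) - u ^ 2 / 2) * Qt t ≤
      (gaussianReal 0 1).real (Set.Icc (t + u) (t + u + 1 / t)) := by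
  have ht0 : 0 < t := by linarith
  have h1t : 0 < 1 / t := by positivity
  rw [gauss_real_eq measurableSet_Icc, GTail_shift _ u]
  have e : (fun x => x + u) ⁻¹' Set.Icc (t + u) (t + u + 1 / t) = Set.Icc t (t + 1 / t) := by
    ext x; simp only [Set.mem_preimage, Set.mem_Icc]
    constructor <;> rintro ⟨h1, h2⟩ <;> constructor <;> linarith
  rw [e, integral_Icc_eq_integral_Ioc]
  have h1 : 1 / 2 * Qt t ≤ ∫ s in Set.Ioc t (t + 1 / t), ph s := by
    have h2 := GTail_Qt_split (a := t) (b := t + 1 / t) (by linarith)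
    have h3 := Qt_add_le ht0.le h1t.le
    have h4 : Real.exp (-(t * (1 / t))) ≤ 1 / 2 := by
      rw [mul_one_div_cancel ht0.ne', Real.exp_neg, one_div]
      exact inv_anti₀ (by norm_num) (by have := Real.exp_one_gt_d9; linarith)
    have := mul_le_mul_of_nonneg_right h4 (Qt_pos t).le
    linarith
  calc 1 / 2 * Real.exp (-((t + 1 / t) * u) - u ^ 2 / 2) * Qt t
      = Real.exp (-((t + 1 / t) * u) - u ^ 2 / 2) * (1 / 2 * Qt t) := by ring
    _ ≤ Real.exp (-((t + 1 / t) * u) - u ^ 2 / 2) * ∫ s in Set.Ioc t (t + 1 / t), ph s :=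
        mul_le_mul_of_nonneg_left h1 (Real.exp_pos _).le
    _ ≤ _ := by
      rw [← integral_const_mul]
      refine setIntegral_mono_on (integrable_ph.const_mul _).integrableOn
        (integrable_ph.comp_add_right u).integrableOn measurableSet_Ioc fun x hx => ?_
      rw [GTail_ph_add]
      refine mul_le_mul_of_nonneg_right (Real.exp_le_exp.2 ?_) (ph_pos x).le
      have : x * u ≤ (t + 1 / t) * u := mul_le_mul_of_nonneg_right hx.2 hu
      linarith

theorem Qt_sub_le {t : ℝ} (ht : 2 ≤ t) : Qt (t - 1 / t) ≤ 20 * Qt t := by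
  have ht0 : 0 < t := by linarith
  have h1t : 0 < 1 / t := by positivity
  have h1t' : 1 / t ≤ 1 / 2 := one_div_le_one_div_of_le (by norm_num) ht
  rw [GTail_Qt_split (a := t - 1 / t) (b := t) (by linarith)]
  have h1 : ∫ s in Set.Ioc (t - 1 / t) t, ph s ≤ 1 / t * ph (t - 1 / t) := by
    calc ∫ s in Set.Ioc (t - 1 / t) t, ph s ≤ ∫ _s in Set.Ioc (t - 1 / t) t, ph (t - 1 / t) := by
          refine setIntegral_mono_on integrable_ph.integrableOn (by simp) measurableSet_Ioc
            fun x hx => ph_anti ?_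
          rw [abs_of_nonneg (by linarith), abs_of_nonneg (by linarith [hx.1])]; exact hx.1.le
      _ = 1 / t * ph (t - 1 / t) := by
          rw [setIntegral_const, smul_eq_mul, Real.volume_real_Ioc_of_le (by linarith)]; ring
  have h2 : ph (t - 1 / t) ≤ 3 * ph t := by
    rw [sub_eq_add_neg, GTail_ph_add]
    refine mul_le_mul_of_nonneg_right ?_ (ph_pos t).le
    have : -(t * -(1 / t)) - (-(1 / t)) ^ 2 / 2 ≤ 1 := by
      have : t * (1 / t) = 1 := mul_one_div_cancel ht0.ne'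
      nlinarith [sq_nonneg (1 / t)]
    exact (Real.exp_le_exp.2 this).trans (by have := Real.exp_one_lt_d9; linarith)
  have h3 := GTail_mills ht0.le
  have h4 : 1 / t ≤ 2 * (t / (1 + t ^ 2)) := by
    rw [← mul_div_assoc, div_le_div_iff₀ ht0 (by positivity)]; nlinarith
  have h5 := ph_pos t
  have h6 : 1 / t * ph (t - 1 / t) ≤ 2 * (t / (1 + t ^ 2)) * (3 * ph t) :=
    mul_le_mul h4 h2 (ph_pos _).le (by positivity)
  have := Qt_pos t
  nlinarith

variable {n : ℕ}

theorem gauss_inner_unit {e : Eu n} (he : ‖e‖ = 1) {s : Set ℝ} (hs : MeasurableSet s) :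
    (stdGaussian (Eu n)).real {g | ⟪g, e⟫ ∈ s} = (gaussianReal 0 1).real s := by
  have h := IsGaussian.map_eq_gaussianReal (μ := stdGaussian (Eu n)) (innerSL ℝ e)
  rw [integral_strongDual_stdGaussian, variance_dual_stdGaussian, innerSL_apply_norm, he] at h
  simp only [one_pow, Real.toNNReal_one] at h
  rw [← h, map_measureReal_apply (by fun_prop) hs]
  congr 1; ext g; simp [real_inner_comm]

theorem gauss_inner_gt {z : Eu n} {t r : ℝ} (ht : 0 ≤ t) (hr : 0 < r) (hz : ‖z‖ ≤ r) :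
    (stdGaussian (Eu n)).real {g | t < ⟪g, z⟫} ≤ Qt (t / r) := by
  by_cases h0 : z = 0
  · have : {g : Eu n | t < ⟪g, z⟫} = ∅ := by ext g; simp [h0, ht]
    rw [this, measureReal_empty]; exact (Qt_pos _).le
  have hz0 : 0 < ‖z‖ := norm_pos_iff.2 h0
  have he : ‖(‖z‖⁻¹ • z : Eu n)‖ = 1 := norm_smul_inv_norm h0
  have e : {g : Eu n | t < ⟪g, z⟫} = {g | ⟪g, ‖z‖⁻¹ • z⟫ ∈ Set.Ioi (t / ‖z‖)} := by
    ext g
    simp only [Set.mem_ofPred_eq, Set.mem_Ioi, real_inner_smul_right]
    rw [div_lt_iff₀ hz0, mul_comm, ← mul_assoc, mul_inv_cancel₀ hz0.ne', one_mul]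
  rw [e, gauss_inner_unit he measurableSet_Ioi]
  exact Qt_anti (div_le_div_of_nonneg_left ht hz0 hz)

theorem gauss_pair {e v : Eu n} (he : ‖e‖ = 1) (hev : ⟪e, v⟫ = 0) {s : Set ℝ} (hs : MeasurableSet s)
    {t r : ℝ} (ht : 0 ≤ t) (hv : ‖v‖ ≤ r) :
    (stdGaussian (Eu n)).real {g | ⟪g, e⟫ ∈ s ∧ t * r < |⟪g, v⟫|} ≤
      (gaussianReal 0 1).real s * (2 * Real.exp (-t ^ 2 / 2)) := by
  have hr0 : 0 ≤ r := (norm_nonneg v).trans hv
  rcases hr0.eq_or_lt with hr | hr
  · have hv0 : v = 0 := norm_le_zero_iff.1 (hr ▸ hv)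
    have : {g : Eu n | ⟪g, e⟫ ∈ s ∧ t * r < |⟪g, v⟫|} = ∅ := by ext g; simp [hv0, ← hr]
    rw [this, measureReal_empty]; positivity
  have hG : HasGaussianLaw (fun g : Eu n => (⟪e, g⟫, ⟪v, g⟫)) (stdGaussian (Eu n)) :=
    (IsGaussian.hasGaussianLaw_id (μ := stdGaussian (Eu n))).map_fun
      ((innerSL ℝ e).prod (innerSL ℝ v))
  have hcov : cov[fun g : Eu n => ⟪e, g⟫, fun g => ⟪v, g⟫; stdGaussian (Eu n)] = 0 := by
    rw [← covarianceBilin_apply_eq_cov IsGaussian.memLp_two_id, covarianceBilin_stdGaussian]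
    exact hev
  have hind := hG.indepFun_of_covariance_eq_zero hcov
  have hB : MeasurableSet {x : ℝ | t * r < |x|} := measurableSet_lt measurable_const (by fun_prop)
  have hmul := hind.measure_inter_preimage_eq_mul s _ hs hB
  have e1 : {g : Eu n | ⟪g, e⟫ ∈ s ∧ t * r < |⟪g, v⟫|}
      = (fun g : Eu n => ⟪e, g⟫) ⁻¹' s ∩ (fun g : Eu n => ⟪v, g⟫) ⁻¹' {x : ℝ | t * r < |x|} := by
    ext g; simp [real_inner_comm]
  have e2 : (fun g : Eu n => ⟪e, g⟫) ⁻¹' s = {g | ⟪g, e⟫ ∈ s} := by ext g; simp [real_inner_comm]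
  rw [e1, Measure.real, hmul, ENNReal.toReal_mul, e2]
  change (stdGaussian (Eu n)).real _ * (stdGaussian (Eu n)).real _ ≤ _
  rw [gauss_inner_unit he hs]
  refine mul_le_mul_of_nonneg_left ?_ measureReal_nonneg
  have hsub : (fun g : Eu n => ⟪v, g⟫) ⁻¹' {x : ℝ | t * r < |x|}
      ⊆ {g | t * r < ⟪g, v⟫} ∪ {g | t * r < ⟪g, -v⟫} := by
    intro g hg
    simp only [Set.mem_preimage, Set.mem_ofPred_eq, lt_abs] at hg
    simpa [real_inner_comm, inner_neg_right] using hg
  have htr : 0 ≤ t * r := by positivity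
  have h1 := gauss_inner_gt htr hr hv
  have h2 := gauss_inner_gt (z := -v) htr hr (by simpa using hv)
  rw [mul_div_cancel_right₀ _ hr.ne'] at h1 h2
  have h3 := Qt_le ht
  refine (measureReal_mono hsub).trans ((measureReal_union_le _ _).trans ?_)
  linarith

theorem vol_ball_le (hn : 1 ≤ n) : volume.real (Metric.closedBall (0 : Eu n) 1) ≤ (5 / √n) ^ n := by
  have hn0 : (0 : ℝ) < n := by exact_mod_cast hn
  have hb : (0 : ℝ) < n / 2 := by positivity
  have hI := GaussianFourier.integral_rexp_neg_mul_sq_norm (V := Eu n) hb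
  have hint : Integrable (fun v : Eu n => Real.exp (-((n : ℝ) / 2) * ‖v‖ ^ 2)) := by
    by_contra h
    rw [integral_undef h] at hI
    exact absurd hI (Real.rpow_pos_of_pos (by positivity) _).ne
  have h1 : volume.real (Metric.closedBall (0 : Eu n) 1) * Real.exp (-((n : ℝ) / 2))
      ≤ ∫ v : Eu n, Real.exp (-((n : ℝ) / 2) * ‖v‖ ^ 2) := by
    refine le_trans ?_ (setIntegral_le_integral (s := Metric.closedBall (0 : Eu n) 1) hint
      (Eventually.of_forall fun v => (Real.exp_pos _).le))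
    rw [← smul_eq_mul, ← setIntegral_const]
    refine setIntegral_mono_on (integrableOn_const measure_closedBall_lt_top.ne) hint.integrableOn
      measurableSet_closedBall fun v hv => Real.exp_le_exp.2 ?_
    have h2 : ‖v‖ ≤ 1 := by simpa using hv
    have h3 : ‖v‖ ^ 2 ≤ 1 := by nlinarith [norm_nonneg v]
    nlinarith
  rw [hI, finrank_euclideanSpace_fin] at h1
  have e1 : (Real.pi / (n / 2)) ^ ((n : ℝ) / 2) = √(Real.pi / (n / 2)) ^ n := by
    rw [Real.sqrt_eq_rpow, ← Real.rpow_natCast, ← Real.rpow_mul (by positivity)]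
    congr 1; ring
  have e2 : Real.exp ((n : ℝ) / 2) = Real.exp (1 / 2) ^ n := by
    rw [← Real.exp_nat_mul]; congr 1; ring
  rw [e1, Real.exp_neg, ← div_eq_mul_inv, div_le_iff₀ (Real.exp_pos _), e2, ← mul_pow] at h1
  refine h1.trans (pow_le_pow_left₀ (by positivity) ?_ n)
  have h4 : Real.exp (1 / 2) ^ 2 = Real.exp 1 := by rw [← Real.exp_nat_mul]; norm_num
  refine abs_le_of_sq_le_sq' ?_ (by positivity) |>.2
  rw [mul_pow, Real.sq_sqrt (by positivity), h4, div_pow, Real.sq_sqrt hn0.le,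
    le_div_iff₀ hn0]
  have h5 := Real.pi_lt_d2
  have h6 := Real.exp_one_lt_d9
  have h7 : Real.pi / (n / 2) * Real.exp 1 * n = 2 * (Real.pi * Real.exp 1) := by field_simp
  rw [h7]
  nlinarith [Real.pi_pos, Real.exp_pos 1]

end Crest.Agent.R225
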