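import Crest.Agent.R225.GTail

/-!
# Row 225: Grid
Discretisations.
`exists_disc`: `I = Fin n → Icc (-m) m` (integers), mesh `h' = min 1 h / (n+1)`, `pts q i = h' * q i`, `ν q` the Gaussian measure of
`{g | (∀ i, |g i| < n) ∧ ∀ i, ⌊g i / h'⌋ = q i}`; the complement of the cube has measure `≤ 2 n exp (-n²/2)` (`gauss_inner_unit`, `Qt_le`).
`exists_test`: `Y = Fin n → Fin (2n)`, `yp y i = (y i / n - 1)/√n`; the cells of side `1/(n √n)` at the points within `δ` of `c` are disjoint and lie in the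
ball of radius `δ + 1/n ≤ 2δ`, `vol_ball_le`.
`exists_net`: the grid of mesh `1/n⁴` in the cube `[-3,3]^n`.
-/

set_option autoImplicit false
set_option linter.unusedVariables false

open MeasureTheory ProbabilityTheory Matrix Filter Topology
open scoped ENNReal RealInnerProductSpace

noncomputable section

namespace Crest.Agent.R225

theorem grid_norm_le {n : ℕ} {x : Eu n} {s : ℝ} (hs : 0 ≤ s) (h : ∀ i, |x i| ≤ s) :
    ‖x‖ ≤ √n * s := by
  have h1 : ‖x‖ ^ 2 ≤ (√n * s) ^ 2 := by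
    rw [EuclideanSpace.real_norm_sq_eq, mul_pow, Real.sq_sqrt (Nat.cast_nonneg n)]
    calc ∑ i, x i ^ 2 ≤ ∑ _i : Fin n, s ^ 2 :=
          Finset.sum_le_sum fun i _ => sq_le_sq' (abs_le.1 (h i)).1 (abs_le.1 (h i)).2
      _ = n * s ^ 2 := by simp
  exact (pow_le_pow_iff_left₀ (norm_nonneg _) (by positivity) two_ne_zero).1 h1

theorem grid_sqrt_le (n : ℕ) : √(n : ℝ) ≤ n := by
  rcases Nat.eq_zero_or_pos n with rfl | hn
  · simp
  have h1 : (1 : ℝ) ≤ n := by exact_mod_cast hn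
  rw [Real.sqrt_le_left (by positivity)]
  nlinarith

theorem grid_tail {n : ℕ} : (stdGaussian (Eu n)).real (Metric.closedBall (0 : Eu n) ((n : ℝ) ^ 2))ᶜ
    ≤ 2 * n * Real.exp (-(n : ℝ) ^ 2 / 2) := by
  have hn0 : (0 : ℝ) ≤ n := Nat.cast_nonneg n
  have hsub : (Metric.closedBall (0 : Eu n) ((n : ℝ) ^ 2))ᶜ ⊆
      ⋃ i : Fin n, ({g : Eu n | (n : ℝ) < ⟪g, EuclideanSpace.single i (1 : ℝ)⟫} ∪
        {g : Eu n | (n : ℝ) < ⟪g, EuclideanSpace.single i (-1 : ℝ)⟫}) := by
    intro g hg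
    by_contra hc
    apply hg
    simp only [Set.mem_iUnion, Set.mem_union, Set.mem_ofPred_eq, not_exists, not_or, not_lt,
      EuclideanSpace.inner_single_right] at hc
    rw [mem_closedBall_zero_iff]
    have h1 : ‖g‖ ≤ √n * n := grid_norm_le hn0 fun i => by
      have := hc i
      simp only [conj_trivial, one_mul, neg_mul] at this
      exact abs_le.2 ⟨by linarith [this.2], this.1⟩
    have h2 := grid_sqrt_le n
    nlinarith
  have hq : ∀ (i : Fin n) (c : ℝ), |c| = 1 →
      (stdGaussian (Eu n)).real {g : Eu n | (n : ℝ) < ⟪g, EuclideanSpace.single i c⟫}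
        ≤ Real.exp (-(n : ℝ) ^ 2 / 2) := by
    intro i c hc
    have h1 := gauss_inner_gt (z := EuclideanSpace.single i c) (t := n) (r := 1) hn0 one_pos
      (by simp [hc])
    rw [div_one] at h1
    exact h1.trans (Qt_le hn0)
  calc (stdGaussian (Eu n)).real (Metric.closedBall (0 : Eu n) ((n : ℝ) ^ 2))ᶜ
      ≤ _ := measureReal_mono hsub (measure_ne_top _ _)
    _ ≤ ∑ i : Fin n, (stdGaussian (Eu n)).real
        ({g : Eu n | (n : ℝ) < ⟪g, EuclideanSpace.single i (1 : ℝ)⟫} ∪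
          {g : Eu n | (n : ℝ) < ⟪g, EuclideanSpace.single i (-1 : ℝ)⟫}) :=
        measureReal_iUnion_fintype_le _
    _ ≤ ∑ _i : Fin n, 2 * Real.exp (-(n : ℝ) ^ 2 / 2) := by
        refine Finset.sum_le_sum fun i _ => (measureReal_union_le _ _).trans ?_
        have h1 := hq i 1 (by simp)
        have h2 := hq i (-1) (by simp)
        linarith
    _ = 2 * n * Real.exp (-(n : ℝ) ^ 2 / 2) := by
        simp only [Finset.sum_const, Finset.card_univ, Fintype.card_fin, nsmul_eq_mul]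
        ring

theorem exists_disc {n : ℕ} (hn : 4 ≤ n) {h : ℝ} (hh : 0 < h) :
    ∃ (I : Type) (_ : Fintype I) (_ : DecidableEq I) (pts : I → Eu n) (ν : I → ℝ), Disc n h pts ν := by
  obtain ⟨t, htK, htf, hcov⟩ := finite_cover_balls_of_compact
    (isCompact_closedBall (0 : Eu n) ((n : ℝ) ^ 2)) hh
  obtain ⟨k, p, -, hp⟩ := htf.fin_param
  let B : Fin k → Set (Eu n) := fun i => Metric.ball (p i) h
  have hBm : ∀ i, MeasurableSet (disjointed B i) := by
    intro i
    rw [disjointed_eq_inter_compl]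
    exact Metric.isOpen_ball.measurableSet.inter
      (MeasurableSet.iInter fun j => MeasurableSet.iInter fun _ =>
        Metric.isOpen_ball.measurableSet.compl)
  have hB : ∀ i g, g ∈ disjointed B i → ‖p i - g‖ ≤ h := by
    intro i g hg
    have h1 : g ∈ Metric.ball (p i) h := disjointed_subset B i hg
    rw [mem_ball_iff_norm'] at h1
    exact h1.le
  have hsum : ∀ C : Finset (Fin k), ∑ q ∈ C, (stdGaussian (Eu n)).real (disjointed B q)
      = (stdGaussian (Eu n)).real (⋃ q ∈ C, disjointed B q) := fun C =>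
    (measureReal_biUnion_finset (fun i _ j _ hij => disjoint_disjointed B hij)
      fun i _ => hBm i).symm
  refine ⟨Fin k, inferInstance, inferInstance, p,
    fun i => (stdGaussian (Eu n)).real (disjointed B i), fun q => measureReal_nonneg, ?_, ?_, ?_⟩
  · intro q
    have h1 : p q ∈ t := hp ▸ Set.mem_range_self q
    exact mem_closedBall_zero_iff.1 (htK h1)
  · intro S C hS hSC
    rw [hsum]
    have hsub : S ⊆ (Metric.closedBall (0 : Eu n) ((n : ℝ) ^ 2))ᶜ ∪ ⋃ q ∈ C, disjointed B q := by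
      intro g hg
      by_cases hK : g ∈ Metric.closedBall (0 : Eu n) ((n : ℝ) ^ 2)
      · right
        have h1 := hcov hK
        rw [← hp, Set.biUnion_range] at h1
        have h2 : g ∈ ⋃ i, disjointed B i := by rw [iUnion_disjointed]; exact h1
        obtain ⟨i, hi⟩ := Set.mem_iUnion.1 h2
        exact Set.mem_biUnion (hSC g hg i (hB i g hi)) hi
      · exact Or.inl hK
    have h1 := (measureReal_mono hsub (measure_ne_top (stdGaussian (Eu n)) _)).trans
      (measureReal_union_le _ _)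
    have h2 := grid_tail (n := n)
    linarith
  · intro S C hS hSC
    rw [hsum]
    refine measureReal_mono ?_ (measure_ne_top _ _)
    intro g hg
    obtain ⟨q, hq, hg⟩ := Set.mem_iUnion₂.1 hg
    exact hSC q hq g (hB q g hg)

/-- half-open cube with corner `x` and side `s` -/
def gridCell {n : ℕ} (x : Eu n) (s : ℝ) : Set (Eu n) :=
  WithLp.ofLp ⁻¹' Set.univ.pi fun i => Set.Ico (x i) (x i + s)

theorem gridCell_meas {n : ℕ} (x : Eu n) (s : ℝ) : MeasurableSet (gridCell x s) :=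
  (PiLp.volume_preserving_ofLp (Fin n)).measurable
    (MeasurableSet.univ_pi fun _ => measurableSet_Ico)

theorem gridCell_vol {n : ℕ} (x : Eu n) {s : ℝ} (hs : 0 ≤ s) :
    volume.real (gridCell x s) = s ^ n := by
  unfold gridCell
  rw [Measure.real, (PiLp.volume_preserving_ofLp (Fin n)).measure_preimage
    (MeasurableSet.univ_pi fun _ => measurableSet_Ico).nullMeasurableSet,
    Real.volume_pi_Ico_toReal (fun i => by simpa using hs)]
  simp

theorem mem_gridCell {n : ℕ} {x y : Eu n} {s : ℝ} :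
    y ∈ gridCell x s ↔ ∀ i, x i ≤ y i ∧ y i < x i + s := by
  simp [gridCell]

theorem exists_test {n : ℕ} (hn : 1 ≤ n) :
    ∃ (Y : Type) (_ : Fintype Y) (_ : Nonempty Y) (yp : Y → Eu n), Test n yp := by
  classical
  have hn1 : (1 : ℝ) ≤ n := by exact_mod_cast hn
  have hn0 : (0 : ℝ) < n := by linarith
  have hr : 0 < √(n : ℝ) := Real.sqrt_pos.2 hn0
  let yp : (Fin n → Fin (2 * n)) → Eu n := fun y =>
    WithLp.toLp 2 fun i => (((y i : ℕ) : ℝ) / n - 1) / √n
  have hyp : ∀ y i, yp y i = (((y i : ℕ) : ℝ) / n - 1) / √n := fun y i => rfl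
  refine ⟨Fin n → Fin (2 * n), inferInstance, ⟨fun _ => ⟨0, by omega⟩⟩, yp, ?_, ?_⟩
  · intro y
    have h1 : ‖yp y‖ ≤ √n * (1 / √n) := grid_norm_le (by positivity) fun i => by
      rw [hyp, abs_div, abs_of_pos hr]
      refine div_le_div_of_nonneg_right ?_ hr.le
      have h2 : ((y i : ℕ) : ℝ) ≤ 2 * n := by exact_mod_cast (y i).2.le
      have h3 : ((y i : ℕ) : ℝ) / n ≤ 2 := by rwa [div_le_iff₀ hn0]
      have h4 : 0 ≤ ((y i : ℕ) : ℝ) / n := by positivity
      exact abs_le.2 ⟨by linarith, by linarith⟩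
    rwa [mul_one_div_cancel hr.ne'] at h1
  · intro c δ hδ
    have hδ0 : 0 < δ := lt_of_lt_of_le (by positivity) hδ
    set A := Finset.univ.filter fun y => ‖yp y - c‖ ≤ δ with hA
    set s : ℝ := 1 / n / √n with hs
    have hs0 : 0 < s := by positivity
    have hdisj : Set.PairwiseDisjoint (A : Set (Fin n → Fin (2 * n)))
        fun y => gridCell (yp y) s := by
      intro y _ y' _ hne
      refine Set.disjoint_left.2 fun x hx hx' => hne (funext fun i => ?_)
      obtain ⟨a1, a2⟩ := mem_gridCell.1 hx i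
      obtain ⟨b1, b2⟩ := mem_gridCell.1 hx' i
      have key : ∀ u v : ℕ, ((u : ℝ) / n - 1) / √n < ((v : ℝ) / n - 1) / √n + s → u ≤ v := by
        intro u v huv
        rw [hs, ← add_div, div_lt_div_iff_of_pos_right hr, sub_add_eq_add_sub, ← add_div,
          sub_lt_sub_iff_right, div_lt_div_iff_of_pos_right hn0] at huv
        have : u < v + 1 := by exact_mod_cast huv
        omega
      exact Fin.ext (le_antisymm (key _ _ (a1.trans_lt b2)) (key _ _ (b1.trans_lt a2)))
    have hsub : (⋃ y ∈ A, gridCell (yp y) s) ⊆ Metric.closedBall c (2 * δ) := by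
      intro x hx
      obtain ⟨y, hy, hx⟩ := Set.mem_iUnion₂.1 hx
      have h1 : ‖yp y - c‖ ≤ δ := (Finset.mem_filter.1 hy).2
      have h2 : ‖x - yp y‖ ≤ √n * s := grid_norm_le hs0.le fun i => by
        obtain ⟨a1, a2⟩ := mem_gridCell.1 hx i
        rw [PiLp.sub_apply]
        exact abs_le.2 ⟨by linarith, by linarith⟩
      have h3 : √n * s = 1 / n := by rw [hs]; field_simp
      rw [mem_closedBall_iff_norm]
      calc ‖x - c‖ = ‖(x - yp y) + (yp y - c)‖ := by rw [sub_add_sub_cancel]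
        _ ≤ ‖x - yp y‖ + ‖yp y - c‖ := norm_add_le _ _
        _ ≤ 2 * δ := by linarith
    have hfin : volume (Metric.closedBall c (2 * δ)) ≠ ⊤ := measure_closedBall_lt_top.ne
    have h1 : volume.real (⋃ y ∈ A, gridCell (yp y) s) = A.card * s ^ n := by
      rw [measureReal_biUnion_finset hdisj (fun y _ => gridCell_meas _ _) fun y hy =>
        ne_top_of_le_ne_top hfin (measure_mono ((Set.subset_biUnion_of_mem
          (u := fun y => gridCell (yp y) s) hy).trans hsub))]
      simp only [gridCell_vol _ hs0.le, Finset.sum_const, nsmul_eq_mul]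
    have h2 := measureReal_mono hsub hfin
    rw [h1, Measure.addHaar_real_closedBall' volume c (by positivity), finrank_euclideanSpace,
      Fintype.card_fin] at h2
    have h3 := h2.trans (mul_le_mul_of_nonneg_left (vol_ball_le hn) (by positivity))
    have h4 : (Fintype.card (Fin n → Fin (2 * n)) : ℝ) = (2 * n) ^ n := by simp
    have h5 : (2 * δ) ^ n * (5 / √n) ^ n = (5 * δ) ^ n * (2 * n) ^ n * s ^ n := by
      rw [← mul_pow, ← mul_pow, ← mul_pow, hs]
      congr 1
      field_simp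
    rw [h5] at h3
    rw [h4]
    exact le_of_mul_le_mul_right h3 (by positivity)

theorem exists_net {n : ℕ} (hn : 10 ≤ n) : ∃ N : Finset (Eu n), (N.card : ℝ) ≤ (n : ℝ) ^ (5 * n) ∧
    ∀ v : Eu n, ‖v‖ ≤ 2 → ∃ v' ∈ N, ‖v - v'‖ ≤ 1 / (n : ℝ) ^ 3 := by
  classical
  have hn1 : (10 : ℝ) ≤ n := by exact_mod_cast hn
  have hn0 : (0 : ℝ) < n := by linarith
  have h4 : (0 : ℝ) < (n : ℝ) ^ 4 := by positivity
  refine ⟨(Fintype.piFinset fun _ : Fin n => Finset.Icc (-(2 * n ^ 4 : ℤ)) (2 * n ^ 4)).image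
    fun k => WithLp.toLp 2 fun i => (k i : ℝ) / (n : ℝ) ^ 4, ?_, ?_⟩
  · have h1 : (Finset.Icc (-(2 * n ^ 4 : ℤ)) (2 * n ^ 4)).card = 4 * n ^ 4 + 1 := by
      rw [Int.card_Icc]
      have : (2 * n ^ 4 + 1 - -(2 * n ^ 4) : ℤ) = ((4 * n ^ 4 + 1 : ℕ) : ℤ) := by push_cast; ring
      rw [this, Int.toNat_natCast]
    have h2 : 4 * n ^ 4 + 1 ≤ n ^ 5 := by
      have : 1 ≤ n ^ 4 := Nat.one_le_pow _ _ (by omega)
      calc 4 * n ^ 4 + 1 ≤ 10 * n ^ 4 := by omega
        _ ≤ n * n ^ 4 := Nat.mul_le_mul_right _ hn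
        _ = n ^ 5 := by ring
    have h3 := Finset.card_image_le
      (s := Fintype.piFinset fun _ : Fin n => Finset.Icc (-(2 * n ^ 4 : ℤ)) (2 * n ^ 4))
      (f := fun k => (WithLp.toLp 2 fun i => (k i : ℝ) / (n : ℝ) ^ 4 : Eu n))
    rw [Fintype.card_piFinset_const, h1] at h3
    have h5 : (4 * n ^ 4 + 1) ^ n ≤ n ^ (5 * n) := by
      rw [pow_mul]; exact Nat.pow_le_pow_left h2 n
    exact_mod_cast h3.trans h5
  · intro v hv
    refine ⟨_, Finset.mem_image_of_mem _ (a := fun i => ⌊v i * (n : ℝ) ^ 4⌋) ?_, ?_⟩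
    · rw [Fintype.mem_piFinset]
      intro i
      have h1 : |v i| ≤ 2 := (by simpa using PiLp.norm_apply_le v i : |v i| ≤ ‖v‖).trans hv
      rw [abs_le] at h1
      rw [Finset.mem_Icc, Int.le_floor]
      refine ⟨by push_cast; nlinarith [h1.1], ?_⟩
      have h2 : (⌊v i * (n : ℝ) ^ 4⌋ : ℝ) ≤ ((2 * n ^ 4 : ℤ) : ℝ) :=
        (Int.floor_le _).trans (by push_cast; nlinarith [h1.2])
      exact_mod_cast h2
    · refine (grid_norm_le (s := 1 / (n : ℝ) ^ 4) (by positivity) fun i => ?_).trans ?_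
      · rw [PiLp.sub_apply]
        have e : v i - (⌊v i * (n : ℝ) ^ 4⌋ : ℝ) / (n : ℝ) ^ 4
            = (v i * (n : ℝ) ^ 4 - ⌊v i * (n : ℝ) ^ 4⌋) / (n : ℝ) ^ 4 := by field_simp
        show |v i - (⌊v i * (n : ℝ) ^ 4⌋ : ℝ) / (n : ℝ) ^ 4| ≤ _
        rw [e, abs_div, abs_of_pos h4]
        refine div_le_div_of_nonneg_right ?_ h4.le
        have a1 := Int.floor_le (v i * (n : ℝ) ^ 4)
        have a2 := Int.lt_floor_add_one (v i * (n : ℝ) ^ 4)
        exact abs_le.2 ⟨by linarith, by linarith⟩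
      · calc √n * (1 / (n : ℝ) ^ 4) ≤ n * (1 / (n : ℝ) ^ 4) :=
            mul_le_mul_of_nonneg_right (grid_sqrt_le n) (by positivity)
          _ = 1 / (n : ℝ) ^ 3 := by field_simp

end Crest.Agent.R225
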