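import Crest.Agent.R225.Defs

/-!
# Row 225: Hash
Finite lemmas.
`sum_piH_sq` (leftover hash lemma): `∑ s, (piH - 1/|G|)² = ∑ s, piH² - 1/|G|`,
`∑ s, piH² = ∑ e e', bw e * bw e' * [∑ (e i - e' i) a i = 0]`, and for `e ≠ e'` the fraction of `a` with
`∑ = 0` is `1/|G|` (solve for a coordinate where `e, e'` differ); `∑ e, (bw e)² = ∏ (P² + (1-P)²)`.
-/

set_option autoImplicit false

open MeasureTheory ProbabilityTheory Matrix Filter Topology
open scoped ENNReal RealInnerProductSpace

noncomputable section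

namespace Crest.Agent.R225

/-- a surjective homomorphism of finite groups pushes the counting measure to a multiple of the counting
measure -/
theorem Hash_sum_comp {A G : Type} [AddCommGroup A] [Fintype A] [AddCommGroup G] [Fintype G]
    (φ : A →+ G) (hφ : Function.Surjective φ) (F : G → ℝ) :
    (Fintype.card G : ℝ) * ∑ a, F (φ a) = Fintype.card A * ∑ s, F s := by
  classical
  choose ψ hψ using hφ
  have h1 : ∀ s : G, ∑ a, F (φ a) = ∑ a, F (φ a + s) := by
    intro s
    rw [← Equiv.sum_comp (Equiv.addRight (ψ s))]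
    simp [hψ]
  have h2 : ∀ a : A, ∑ s, F (φ a + s) = ∑ s, F s := fun a =>
    Equiv.sum_comp (Equiv.addLeft (φ a)) F
  calc (Fintype.card G : ℝ) * ∑ a, F (φ a) = ∑ _s : G, ∑ a, F (φ a) := by simp
    _ = ∑ s : G, ∑ a, F (φ a + s) := Finset.sum_congr rfl fun s _ => h1 s
    _ = ∑ a, ∑ s : G, F (φ a + s) := Finset.sum_comm
    _ = ∑ _a : A, ∑ s, F s := Finset.sum_congr rfl fun a _ => h2 a
    _ = _ := by simp

section hash
variable {κ G : Type} [Fintype κ] [DecidableEq κ] [AddCommGroup G] [Fintype G] [DecidableEq G]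

theorem bw_nonneg {ι : Type} [Fintype ι] {p : ι → ℝ} (hp : ∀ i, p i ∈ Set.Icc (0 : ℝ) 1)
    (ω : ι → Bool) : 0 ≤ bw p ω := by
  unfold bw
  refine Finset.prod_nonneg fun i _ => ?_
  split_ifs
  · exact (hp i).1
  · exact sub_nonneg.mpr (hp i).2

theorem sum_bw {ι : Type} [Fintype ι] [DecidableEq ι] (p : ι → ℝ) : ∑ ω, bw p ω = 1 := by
  have h := Finset.prod_univ_sum (fun _ : ι => (Finset.univ : Finset Bool))
    (fun i b => if b = true then p i else 1 - p i)
  rw [Fintype.piFinset_univ] at h
  unfold bw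
  rw [← h]
  simp

theorem Hash_sum_bw_sq {ι : Type} [Fintype ι] [DecidableEq ι] (p : ι → ℝ) :
    ∑ ω, bw p ω * bw p ω = ∏ i, (1 - 2 * p i * (1 - p i)) := by
  have h := Finset.prod_univ_sum (fun _ : ι => (Finset.univ : Finset Bool))
    (fun i b => (if b = true then p i else 1 - p i) * (if b = true then p i else 1 - p i))
  rw [Fintype.piFinset_univ] at h
  unfold bw
  simp only [← Finset.prod_mul_distrib]
  rw [← h]
  refine Finset.prod_congr rfl fun i _ => ?_
  simp
  ring

theorem sum_piH (a : κ → G) (P : κ → ℝ) : ∑ s, piH a P s = 1 := by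
  unfold piH
  rw [Finset.sum_comm, ← sum_bw P]
  refine Finset.sum_congr rfl fun e _ => ?_
  simp

/-- the subset-sum map -/
def Hash_ss (e : κ → Bool) : (κ → G) →+ G where
  toFun a := ∑ i, if e i then a i else 0
  map_zero' := by simp
  map_add' a b := by
    rw [← Finset.sum_add_distrib]
    refine Finset.sum_congr rfl fun i _ => ?_
    split_ifs <;> simp

omit [Fintype G] [DecidableEq G] in
theorem Hash_ss_single (e : κ → Bool) (i : κ) (g : G) :
    Hash_ss e (Pi.single i g) = if e i then g else 0 := by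
  change (∑ j, if e j then (Pi.single i g : κ → G) j else 0) = _
  rw [Finset.sum_eq_single i]
  · simp
  · intro j _ hj
    simp [Pi.single_eq_of_ne hj]
  · simp

omit [Fintype G] [DecidableEq G] in
theorem Hash_surj {e e' : κ → Bool} (h : e ≠ e') :
    Function.Surjective (Hash_ss e - Hash_ss e' : (κ → G) →+ G) := by
  obtain ⟨i, hi⟩ := Function.ne_iff.mp h
  intro g
  cases he : e i <;> cases he' : e' i
  · exact absurd (he.trans he'.symm) hi
  · refine ⟨Pi.single i (-g), ?_⟩
    simp [Hash_ss_single, he, he']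
  · refine ⟨Pi.single i g, ?_⟩
    simp [Hash_ss_single, he, he']
  · exact absurd (he.trans he'.symm) hi

theorem Hash_sum_sq (a : κ → G) (P : κ → ℝ) :
    ∑ s, piH a P s ^ 2 =
      ∑ e, ∑ e', bw P e * bw P e' * if Hash_ss e a = Hash_ss e' a then 1 else 0 := by
  have h : ∀ s, piH a P s ^ 2 = ∑ e, ∑ e', (if Hash_ss e a = s then bw P e else 0) *
      (if Hash_ss e' a = s then bw P e' else 0) := by
    intro s
    rw [sq, ← Finset.sum_mul_sum]
    rfl
  simp only [h]
  rw [Finset.sum_comm]
  refine Finset.sum_congr rfl fun e _ => ?_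
  rw [Finset.sum_comm]
  refine Finset.sum_congr rfl fun e' _ => ?_
  rw [Finset.sum_eq_single (Hash_ss e a)]
  · by_cases h : Hash_ss e a = Hash_ss e' a
    · simp [h]
    · simp [h, Ne.symm h]
  · intro s _ hs
    simp [Ne.symm hs]
  · simp

theorem sum_piH_sq (P : κ → ℝ) (hP : ∀ i, P i ∈ Set.Icc (0 : ℝ) 1) :
    ∑ a : κ → G, ∑ s, (piH a P s - 1 / Fintype.card G) ^ 2 ≤
      (Fintype.card G : ℝ) ^ Fintype.card κ * ∏ i, (1 - 2 * P i * (1 - P i)) := by
  have hG : (0 : ℝ) < Fintype.card G := by exact_mod_cast Fintype.card_pos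
  set N : ℝ := (Fintype.card G : ℝ) ^ Fintype.card κ with hN
  have hcard : (Fintype.card (κ → G) : ℝ) = N := by simp [hN]
  have h1 : ∀ a : κ → G, ∑ s, (piH a P s - 1 / Fintype.card G) ^ 2 =
      ∑ s, piH a P s ^ 2 - 1 / Fintype.card G := by
    intro a
    have : ∀ s, (piH a P s - 1 / Fintype.card G) ^ 2 =
        piH a P s ^ 2 - 2 / Fintype.card G * piH a P s + 1 / (Fintype.card G : ℝ) ^ 2 := by
      intro s
      ring
    simp only [this]
    rw [Finset.sum_add_distrib, Finset.sum_sub_distrib, ← Finset.mul_sum, sum_piH]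
    simp only [Finset.sum_const, Finset.card_univ, nsmul_eq_mul]
    field_simp
    ring
  have h2 : ∀ e e' : κ → Bool, (∑ a : κ → G, if Hash_ss e a = Hash_ss e' a then (1 : ℝ) else 0) ≤
      (if e = e' then N else 0) + N / Fintype.card G := by
    intro e e'
    by_cases h : e = e'
    · subst h
      simp only [if_true, Finset.sum_const, Finset.card_univ, nsmul_eq_mul, mul_one, hcard]
      have : 0 ≤ N / Fintype.card G := by positivity
      linarith
    · have key := Hash_sum_comp (Hash_ss e - Hash_ss e' : (κ → G) →+ G) (Hash_surj h)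
        (fun s => if s = 0 then (1 : ℝ) else 0)
      simp only [AddMonoidHom.sub_apply, sub_eq_zero, Finset.sum_ite_eq', Finset.mem_univ, if_true,
        mul_one, hcard] at key
      simp only [h, if_false, zero_add]
      rw [le_div_iff₀ hG, mul_comm, key]
  simp only [h1, Hash_sum_sq]
  rw [Finset.sum_sub_distrib, Finset.sum_comm]
  simp only [Finset.sum_const, Finset.card_univ, nsmul_eq_mul, hcard]
  have h3 : ∀ e : κ → Bool, (∑ a : κ → G, ∑ e', bw P e * bw P e' *
      if Hash_ss e a = Hash_ss e' a then (1 : ℝ) else 0) ≤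
      N * (bw P e * bw P e) + N / Fintype.card G * bw P e := by
    intro e
    rw [Finset.sum_comm]
    calc (∑ e', ∑ a : κ → G, bw P e * bw P e' * if Hash_ss e a = Hash_ss e' a then (1 : ℝ) else 0)
        ≤ ∑ e', bw P e * bw P e' * ((if e = e' then N else 0) + N / Fintype.card G) := by
          refine Finset.sum_le_sum fun e' _ => ?_
          rw [← Finset.mul_sum]
          exact mul_le_mul_of_nonneg_left (h2 e e') (mul_nonneg (bw_nonneg hP e) (bw_nonneg hP e'))
      _ = _ := by
          simp only [mul_add, Finset.sum_add_distrib, mul_ite, mul_zero, Finset.sum_ite_eq,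
            Finset.mem_univ, if_true]
          rw [← Finset.sum_mul, ← Finset.mul_sum, sum_bw]
          ring
  have h4 := Finset.sum_le_sum fun e (_ : e ∈ Finset.univ) => h3 e
  rw [Finset.sum_add_distrib, ← Finset.mul_sum, ← Finset.mul_sum, sum_bw, Hash_sum_bw_sq] at h4
  have : N * (1 / Fintype.card G) = N / Fintype.card G * 1 := by ring
  linarith

end hash

end Crest.Agent.R225
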