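import Crest.Agent.R225.Defs

/-!
# Row 225: Indep
Linear algebra of labels.

`mp_ev`: the map is a continuous homomorphism of compact groups (`AddMonoidHom.measurePreserving`); surjective because the
integer matrix `(z l o)` of full row rank has an integer right inverse up to a scalar `q ≠ 0` (clear denominators of a rational
right inverse) and the circle is divisible.
`card_span_le`: some set of `finrank W` coordinates gives an injective projection on `W`.
`Adm.exists_rel`: write `cq (z none)` in the span, clear denominators, divide by the gcd (`Finset.extract_gcd`).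
-/

set_option autoImplicit false

open MeasureTheory ProbabilityTheory Matrix Filter Topology
open scoped ENNReal RealInnerProductSpace

noncomputable section

namespace Crest.Agent.R225

variable {σ L : Type} [Fintype σ] [Fintype L]

/-- clearing denominators -/
theorem indep_clear {ι : Type} [Fintype ι] (x : ι → ℚ) :
    ∃ q : ℤ, q ≠ 0 ∧ ∃ y : ι → ℤ, ∀ i, (y i : ℚ) = q * x i := by
  obtain ⟨b, hb⟩ := IsLocalization.exist_integer_multiples_of_finite (nonZeroDivisors ℤ) x
  choose y hy using hb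
  exact ⟨b, nonZeroDivisors.ne_zero b.2, y, fun i => by simpa using hy i⟩

theorem continuous_ev (z : σ → ℤ) : Continuous (ev z) :=
  continuous_finsetSum _ fun o _ => (continuous_apply o).zsmul (z o)

theorem measurable_ev (z : σ → ℤ) : Measurable (ev z) := (continuous_ev z).measurable

/-- an integer right inverse up to a scalar -/
theorem indep_inv [DecidableEq L] (z : L → σ → ℤ) (hz : LinearIndependent ℚ fun l => cq (z l)) :
    ∃ q : ℤ, q ≠ 0 ∧ ∃ Y : σ → L → ℤ, ∀ l l', ∑ o, z l o * Y o l' = if l = l' then q else 0 := by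
  classical
  obtain ⟨g, hg⟩ := (Fintype.linearCombination ℚ fun l => cq (z l)).exists_leftInverse_of_injective
    (LinearMap.ker_eq_bot.2 hz.fintypeLinearCombination_injective)
  obtain ⟨q, hq, y, hy⟩ := indep_clear fun p : σ × L => g (Pi.single p.1 1) p.2
  refine ⟨q, hq, fun o l => y (o, l), fun l l' => ?_⟩
  have h1 : g (cq (z l)) = Pi.single l 1 := by
    simpa using LinearMap.congr_fun hg (Pi.single l 1)
  have h2 : cq (z l) = ∑ o, (z l o : ℚ) • (Pi.single o 1 : σ → ℚ) := by
    funext o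
    simp [cq, Pi.single_apply]
  rw [h2, map_sum] at h1
  have h3 := congrFun h1 l'
  simp only [map_smul, Finset.sum_apply, Pi.smul_apply, smul_eq_mul] at h3
  apply Int.cast_injective (α := ℚ)
  push_cast
  simp only [hy, mul_left_comm _ (q : ℚ)]
  rw [← Finset.mul_sum, h3, Pi.single_apply]
  by_cases h : l = l'
  · simp [h]
  · simp [h, Ne.symm h]

theorem mp_ev (z : L → σ → ℤ) (hz : LinearIndependent ℚ fun l => cq (z l)) :
    MeasurePreserving (fun (ω : TT σ) (l : L) => ev (z l) ω) volume (volume : Measure (TT L)) := by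
  classical
  let f : TT σ →+ TT L := AddMonoidHom.mk' (fun ω l => ev (z l) ω) fun a b => by
    funext l
    simp [ev, Finset.sum_add_distrib]
  refine AddMonoidHom.measurePreserving (f := f) (continuous_pi fun l => continuous_ev _)
    (fun t => ?_) (by rw [measure_univ, measure_univ])
  obtain ⟨q, hq, Y, hY⟩ := indep_inv z hz
  have hs : ∀ l, ∃ s : UnitAddCircle, q • s = t l := fun l => by
    obtain ⟨x, hx⟩ := QuotientAddGroup.mk_surjective (t l)
    refine ⟨((x / q : ℝ) : UnitAddCircle), ?_⟩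
    rw [← hx, ← AddCircle.coe_zsmul, zsmul_eq_mul, mul_div_cancel₀ _ (by exact_mod_cast hq)]
  choose s hs using hs
  refine ⟨fun o => ∑ l', Y o l' • s l', funext fun l => ?_⟩
  change ∑ o, z l o • ∑ l', Y o l' • s l' = t l
  simp only [Finset.smul_sum, smul_smul]
  rw [Finset.sum_comm]
  simp only [← Finset.sum_smul, hY, ite_smul, zero_smul]
  rw [Finset.sum_ite_eq, if_pos (Finset.mem_univ _), hs]

theorem prob_indep (z : L → σ → ℤ) (hz : LinearIndependent ℚ fun l => cq (z l))
    (S : L → Set UnitAddCircle) (hS : ∀ l, MeasurableSet (S l)) :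
    volume.real {ω : TT σ | ∀ l, ev (z l) ω ∈ S l} = ∏ l, volume.real (S l) := by
  have h1 : {ω : TT σ | ∀ l, ev (z l) ω ∈ S l} =
      (fun (ω : TT σ) (l : L) => ev (z l) ω) ⁻¹' Set.univ.pi S := by
    ext ω
    simp
  rw [measureReal_def, h1,
    (mp_ev z hz).measure_preimage (MeasurableSet.univ_pi hS).nullMeasurableSet, volume_pi_pi,
    ENNReal.toReal_prod]
  rfl

theorem prob_indepOn (T : Finset (σ → ℤ)) (hT : LinearIndepOn ℚ cq (T : Set (σ → ℤ)))
    (S : (σ → ℤ) → Set UnitAddCircle) (hS : ∀ z, MeasurableSet (S z)) :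
    volume.real {ω : TT σ | ∀ z ∈ T, ev z ω ∈ S z} = ∏ z ∈ T, volume.real (S z) := by
  have h := prob_indep (L := T) (fun z => z.1) hT (fun z => S z.1) fun z => hS z.1
  rw [Finset.prod_coe_sort T fun z => volume.real (S z)] at h
  rw [← h]
  congr 1
  ext ω
  simp

theorem ev_rel {C : L → ℤ} {z : L → σ → ℤ} (h : ∑ l, C l • z l = 0) (ω : TT σ) :
    ∑ l, C l • ev (z l) ω = 0 := by
  simp only [ev, Finset.smul_sum, smul_smul]
  rw [Finset.sum_comm]
  refine Finset.sum_eq_zero fun o _ => ?_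
  have h1 := congrFun h o
  simp only [Finset.sum_apply, Pi.smul_apply, smul_eq_mul, Pi.zero_apply] at h1
  rw [← Finset.sum_smul, h1, zero_smul]

theorem indep_card_le (R j : ℕ) : ∀ (W : Submodule ℚ (σ → ℚ)) (_ : Module.finrank ℚ W ≤ j)
    (Z : Finset (σ → ℤ)) (_ : ∀ z ∈ Z, ∀ z' ∈ Z, cq z - cq z' ∈ W)
    (_ : ∀ z ∈ Z, ∀ o, |z o| ≤ R), Z.card ≤ (2 * R + 1) ^ j := by
  have hbot : ∀ Z : Finset (σ → ℤ),
      (∀ z ∈ Z, ∀ z' ∈ Z, cq z - cq z' ∈ (⊥ : Submodule ℚ (σ → ℚ))) → Z.card ≤ 1 := fun Z hZ =>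
    Finset.card_le_one.2 fun z hz z' hz' => funext fun o => by
      have := congrFun (sub_eq_zero.1 ((Submodule.mem_bot ℚ).1 (hZ z hz z' hz'))) o
      simpa [cq] using this
  induction j with
  | zero =>
    intro W hW Z hZ _
    rw [Submodule.finrank_eq_zero.1 (Nat.le_zero.1 hW)] at hZ
    exact hbot Z hZ
  | succ j ih =>
    intro W hW Z hZ hR
    rcases eq_or_ne W ⊥ with rfl | h0
    · exact (hbot Z hZ).trans (Nat.one_le_pow _ _ (by omega))
    obtain ⟨w, hw, hw0⟩ := (Submodule.ne_bot_iff W).1 h0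
    obtain ⟨o, ho⟩ := Function.ne_iff.1 hw0
    have hlt : W ⊓ LinearMap.ker (LinearMap.proj o : (σ → ℚ) →ₗ[ℚ] ℚ) < W :=
      lt_of_le_of_ne inf_le_left fun h => ho (by rw [← h] at hw; exact hw.2)
    have h1 := Submodule.finrank_lt_finrank_of_lt hlt
    have h2 := Finset.card_le_mul_card_image_of_maps_to (s := Z)
      (t := Finset.Icc (-(R : ℤ)) R) (f := fun z => z o)
      (fun z hz => Finset.mem_Icc.2 (abs_le.1 (hR z hz o))) ((2 * R + 1) ^ j) fun c _ =>
        ih _ (Nat.le_of_lt_succ (h1.trans_le hW)) _ (fun z hz z' hz' => by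
          rw [Finset.mem_filter] at hz hz'
          exact ⟨hZ z hz.1 z' hz'.1, by simp [cq, hz.2, hz'.2]⟩)
          fun z hz => hR z (Finset.mem_filter.1 hz).1
    rw [Int.card_Icc] at h2
    rw [pow_succ]
    refine h2.trans (le_of_eq ?_)
    congr 1
    omega

theorem card_span_le (W : Submodule ℚ (σ → ℚ)) {j R : ℕ} (hW : Module.finrank ℚ W ≤ j)
    (Z : Finset (σ → ℤ)) (hZ : ∀ z ∈ Z, cq z ∈ W ∧ ∀ o, |z o| ≤ R) : Z.card ≤ (2 * R + 1) ^ j :=
  indep_card_le R j W hW Z (fun z hz z' hz' => W.sub_mem (hZ z hz).1 (hZ z' hz').1)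
    fun z hz => (hZ z hz).2

omit [Fintype σ] in
theorem indep_rel_iff (C : L → ℤ) (z : L → σ → ℤ) :
    ∑ l, C l • z l = 0 ↔ ∑ l, (C l : ℚ) • cq (z l) = 0 := by
  simp only [funext_iff, Finset.sum_apply, Pi.smul_apply, smul_eq_mul, Pi.zero_apply, cq]
  refine forall_congr' fun o => ?_
  norm_cast

set_option linter.unusedSectionVars false in
theorem Adm.exists_rel {j : ℕ} {z : Option (Fin j) → σ → ℤ} (h : Adm z) :
    ∃ C : Option (Fin j) → ℤ, Finset.univ.gcd C = 1 ∧ Rel C z := by
  obtain ⟨h1, h2, h3⟩ := h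
  obtain ⟨c, hc⟩ := (Submodule.mem_span_range_iff_exists_fun ℚ).1 h2
  obtain ⟨q, hq, y, hy⟩ := indep_clear fun o : Option (Fin j) => o.elim (-1) c
  obtain ⟨C, hC, hC1⟩ := Finset.univ.extract_gcd y Finset.univ_nonempty
  have hyn : (y none : ℚ) ≠ 0 := by simpa [hy] using hq
  have hg : ((Finset.univ.gcd y : ℤ) : ℚ) ≠ 0 := fun h0 => hyn (by
    rw [hC none (Finset.mem_univ _), Int.cast_mul, h0, zero_mul])
  have hCn : (C none : ℚ) ≠ 0 := fun h0 => hyn (by
    rw [hC none (Finset.mem_univ _), Int.cast_mul, h0, mul_zero])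
  have hrel : ∑ l, (C l : ℚ) • cq (z l) = 0 := by
    have e1 : ∑ l, (y l : ℚ) • cq (z l) = 0 := by
      simp only [hy, mul_smul]
      rw [← Finset.smul_sum, Fintype.sum_option]
      simp [hc]
    have e2 : ∑ l, (y l : ℚ) • cq (z l) =
        ((Finset.univ.gcd y : ℤ) : ℚ) • ∑ l, (C l : ℚ) • cq (z l) := by
      rw [Finset.smul_sum]
      refine Finset.sum_congr rfl fun l hl => ?_
      rw [smul_smul, ← Int.cast_mul, ← hC l hl]
    exact (smul_eq_zero.1 (e2.symm.trans e1)).resolve_left hg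
  refine ⟨C, hC1, fun a b hab => ?_, (indep_rel_iff C z).2 hrel, fun l₀ hl₀ => ?_⟩
  · rcases a with _ | a <;> rcases b with _ | b
    · rfl
    · exact absurd hab (h3 b)
    · exact absurd hab.symm (h3 a)
    · exact congrArg some (h1.injective (congrArg cq hab))
  · refine Fintype.linearIndependent_iff.2 fun g hg0 => ?_
    let g' : Option (Fin j) → ℚ := fun l => if h : l ≠ l₀ then g ⟨l, h⟩ else 0
    have hg' : ∀ l : {l // l ≠ l₀}, g' l = g l := fun l => dif_pos l.2
    have hg0' : g' l₀ = 0 := dif_neg (by simp)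
    have e1 : ∑ l, g' l • cq (z l) = 0 := by
      rw [← Finset.add_sum_erase _ _ (Finset.mem_univ l₀), hg0', zero_smul, zero_add,
        Finset.sum_subtype (p := fun l => l ≠ l₀) _ (by simp)]
      simpa only [hg'] using hg0
    have e2 : ∑ l, ((C none : ℚ) * g' l - g' none * C l) • cq (z l) = 0 := by
      simp only [sub_smul, mul_smul, Finset.sum_sub_distrib, ← Finset.smul_sum, e1, hrel]
      simp
    rw [Fintype.sum_option, mul_comm, sub_self, zero_smul, zero_add] at e2
    have e3 : ∀ l, (C none : ℚ) * g' l = g' none * C l := fun l => by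
      rcases l with _ | l
      · exact mul_comm _ _
      · exact sub_eq_zero.1 (Fintype.linearIndependent_iff.1 h1 _ e2 l)
    have e4 : g' none = 0 := by
      have := e3 l₀
      rw [hg0', mul_zero] at this
      exact (mul_eq_zero.1 this.symm).resolve_right (by exact_mod_cast hl₀)
    intro l
    have := e3 l
    rw [e4, zero_mul, hg'] at this
    exact (mul_eq_zero.1 this).resolve_left hCn

end Crest.Agent.R225
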