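import Crest.Agent.R225.Defs
import Crest.Agent.Lib.PL.PrekopaLeindler

/-!
# Row 225: Iso
Isotropic position and the norm of a random point of an isotropic convex body.

`exists_iso`: `⟨u,v⟩ = ∫ (u ⬝ x)(v ⬝ x) d(volume[|K])` is a positive definite form on `ι → ℝ` (`K` has interior).  With an orthonormal basis `u i` of it
(`LinearMap.BilinForm.exists_orthogonal_basis` and normalise, or a square root of the positive definite matrix) put `T x = (u i ⬝ x)_i`;
`volume[|T '' K]` is the image of `volume[|K]` (`Measure.addHaar_image_linearMap`).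
`Iso.abs_dot`: Cauchy–Schwarz and `∫∫ (x ⬝ x')² = ∑ i j, δ_ij δ_ij = n`.
-/

set_option autoImplicit false
set_option linter.unusedSectionVars false

open MeasureTheory ProbabilityTheory Matrix Filter Topology
open scoped ENNReal RealInnerProductSpace MatrixOrder

noncomputable section

namespace Crest.Agent.R225

variable {ι : Type} [Fintype ι] [DecidableEq ι] {K : Set (ι → ℝ)}

theorem Body.vol_pos (h : Body K) : 0 < volume K :=
  Measure.measure_pos_of_nonempty_interior volume h.2.2

theorem Body.vol_lt_top (h : Body K) : volume K < ⊤ := h.1.measure_lt_top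

theorem Body.real_pos (h : Body K) : 0 < volume.real K :=
  ENNReal.toReal_pos h.vol_pos.ne' h.vol_lt_top.ne

theorem Body.isProb (h : Body K) : IsProbabilityMeasure (volume[|K]) :=
  cond_isProbabilityMeasure_of_finite h.vol_pos.ne' h.vol_lt_top.ne

theorem Body.image {κ : Type} [Fintype κ] (h : Body K) (T : (ι → ℝ) ≃ₗ[ℝ] (κ → ℝ)) :
    Body (T '' K) := by
  let L := T.toContinuousLinearEquiv
  refine ⟨h.1.image L.continuous, h.2.1.linear_image T.toLinearMap, ?_⟩
  have h1 := L.toHomeomorph.image_interior K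
  have h2 : (L.toHomeomorph : (ι → ℝ) → (κ → ℝ)) = T := rfl
  rw [h2] at h1
  rw [← h1]
  exact h.2.2.image _

/-- the uniform measure is transported by linear equivalences -/
theorem Body.map_cond {κ : Type} [Fintype κ] (h : Body K) (T : (ι → ℝ) ≃ₗ[ℝ] (κ → ℝ)) :
    (volume[|K]).map T = volume[|T '' K] := by
  classical
  let L := T.toContinuousLinearEquiv
  have hL : (L : (ι → ℝ) → (κ → ℝ)) = T := rfl
  have hm : Measurable T := L.continuous.measurable
  have hK' := h.image T
  have : Measure.IsAddHaarMeasure ((volume : Measure (ι → ℝ)).map T) :=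
    L.isAddHaarMeasure_map volume
  obtain ⟨c, hc⟩ : ∃ c : ℝ≥0∞, (volume : Measure (ι → ℝ)).map T = c • volume :=
    ⟨_, Measure.isAddLeftInvariant_eq_smul _ _⟩
  have key : ∀ s : Set (κ → ℝ), MeasurableSet s → volume (T ⁻¹' s) = c * volume s := by
    intro s hs
    rw [← Measure.map_apply hm hs, hc, Measure.smul_apply, smul_eq_mul]
  have hpre : T ⁻¹' (T '' K) = K := Set.preimage_image_eq K T.injective
  have h1 : volume K = c * volume (T '' K) := by rw [← key _ hK'.1.measurableSet, hpre]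
  have hc0 : c ≠ 0 := by
    rintro rfl
    rw [zero_mul] at h1
    exact h.vol_pos.ne' h1
  have hct : c ≠ ⊤ := by
    rintro rfl
    rw [ENNReal.top_mul hK'.vol_pos.ne'] at h1
    exact h.vol_lt_top.ne h1
  ext s hs
  rw [Measure.map_apply hm hs, cond_apply h.1.measurableSet, cond_apply hK'.1.measurableSet]
  have h2 : K ∩ T ⁻¹' s = T ⁻¹' (T '' K ∩ s) := by rw [Set.preimage_inter, hpre]
  rw [h2, key _ (hK'.1.measurableSet.inter hs), h1,
    ENNReal.mul_inv (Or.inl hc0) (Or.inl hct), mul_comm c⁻¹, mul_assoc, ← mul_assoc c⁻¹,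
    ENNReal.inv_mul_cancel hc0 hct, one_mul]

theorem Body.integrable (h : Body K) {F : Type} [NormedAddCommGroup F] {f : (ι → ℝ) → F}
    (hf : Continuous f) : Integrable f (volume[|K]) :=
  Integrable.smul_measure (hf.continuousOn.integrableOn_compact h.1)
    (ENNReal.inv_ne_top.2 h.vol_pos.ne')

/-- the second-moment matrix -/
def isoMom (K : Set (ι → ℝ)) : Matrix ι ι ℝ := Matrix.of fun i j => ∫ x, x i * x j ∂(volume[|K])

theorem iso_int_dot (h : Body K) (u v : ι → ℝ) :
    ∫ x, (u ⬝ᵥ x) * (v ⬝ᵥ x) ∂(volume[|K]) = u ⬝ᵥ (isoMom K *ᵥ v) := by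
  have h1 : ∀ x : ι → ℝ, (u ⬝ᵥ x) * (v ⬝ᵥ x) = ∑ i, ∑ j, u i * v j * (x i * x j) := by
    intro x
    simp only [dotProduct, Finset.sum_mul_sum]
    exact Finset.sum_congr rfl fun i _ => Finset.sum_congr rfl fun j _ => by ring
  simp only [h1]
  rw [integral_finsetSum _ fun i _ => h.integrable (by fun_prop)]
  simp only [dotProduct, mulVec, isoMom, Matrix.of_apply, Finset.mul_sum]
  refine Finset.sum_congr rfl fun i _ => ?_
  rw [integral_finsetSum _ fun j _ => h.integrable (by fun_prop)]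
  refine Finset.sum_congr rfl fun j _ => ?_
  rw [integral_const_mul]
  ring

theorem iso_posDef (h : Body K) : (isoMom K).PosDef := by
  refine Matrix.PosDef.of_dotProduct_mulVec_pos ?_ fun u hu => ?_
  · ext i j
    simp only [conjTranspose_apply, isoMom, Matrix.of_apply, star_trivial, mul_comm]
  · have := h.isProb
    rw [star_trivial, ← iso_int_dot h]
    have hi : Integrable (fun x : ι → ℝ => (u ⬝ᵥ x) * (u ⬝ᵥ x)) (volume[|K]) :=
      h.integrable (by fun_prop)
    rw [integral_pos_iff_support_of_nonneg (fun x => mul_self_nonneg _) hi]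
    let f : (ι → ℝ) →ₗ[ℝ] ℝ :=
      { toFun := fun x => u ⬝ᵥ x
        map_add' := dotProduct_add u
        map_smul' := fun c x => by simp }
    have hf : LinearMap.ker f ≠ ⊤ := by
      intro ht
      have : u ∈ LinearMap.ker f := ht ▸ Submodule.mem_top
      exact hu (dotProduct_self_eq_zero.1 this)
    have h0 : volume (LinearMap.ker f : Set (ι → ℝ)) = 0 := Measure.addHaar_submodule volume _ hf
    have h1 : (volume[|K]) (LinearMap.ker f : Set (ι → ℝ)) = 0 := cond_absolutelyContinuous h0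
    have h2 : (Function.support fun x : ι → ℝ => (u ⬝ᵥ x) * (u ⬝ᵥ x))
        = (LinearMap.ker f : Set (ι → ℝ))ᶜ := by
      ext x
      simp [f]
    rw [h2, pos_iff_ne_zero]
    intro h3
    have h4 := measure_union_null h1 h3
    rw [Set.union_compl_self, measure_univ] at h4
    exact one_ne_zero h4

theorem exists_iso (h : Body K) : ∃ T : (ι → ℝ) ≃ₗ[ℝ] (ι → ℝ), Iso (T '' K) := by
  obtain ⟨B, hB, hM⟩ := CStarAlgebra.isStrictlyPositive_iff_eq_star_mul_self.mp
    (iso_posDef h).isStrictlyPositive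
  have hd : IsUnit B.det := (Matrix.isUnit_iff_isUnit_det B).1 hB
  let C : Matrix ι ι ℝ := B⁻¹ᵀ
  have hC : C * isoMom K * Cᵀ = 1 := by
    rw [hM, star_eq_conjTranspose, conjTranspose_eq_transpose_of_trivial]
    simp only [C, transpose_transpose]
    rw [← Matrix.mul_assoc, ← transpose_mul, Matrix.mul_nonsing_inv _ hd, transpose_one,
      Matrix.one_mul, Matrix.mul_nonsing_inv _ hd]
  have hCB : C * Bᵀ = 1 := by
    simp only [C]
    rw [← transpose_mul, Matrix.mul_nonsing_inv _ hd, transpose_one]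
  have hBC : Bᵀ * C = 1 := by
    simp only [C]
    rw [← transpose_mul, Matrix.nonsing_inv_mul _ hd, transpose_one]
  let T : (ι → ℝ) ≃ₗ[ℝ] (ι → ℝ) := Matrix.toLin'OfInv hBC hCB
  have hT : ∀ x, T x = C *ᵥ x := fun x => rfl
  refine ⟨T, fun i j => ?_⟩
  have hm : Measurable T := T.toContinuousLinearEquiv.continuous.measurable
  rw [← h.map_cond T, integral_map hm.aemeasurable (by fun_prop)]
  simp only [hT]
  have h1 := iso_int_dot h (C i) (C j)
  have h2 : (C * isoMom K * Cᵀ) i j = C i ⬝ᵥ (isoMom K *ᵥ C j) := by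
    rw [Matrix.mul_assoc]
    rfl
  rw [← Matrix.one_apply, ← hC, h2, ← h1]
  rfl

theorem Iso.mom (hI : Iso K) : isoMom K = 1 := by
  ext i j
  rw [Matrix.one_apply, ← hI i j]
  rfl

theorem Iso.dot_sq (h : Body K) (hI : Iso K) (u : ι → ℝ) :
    ∫ x, (u ⬝ᵥ x) * (u ⬝ᵥ x) ∂(volume[|K]) = u ⬝ᵥ u := by
  rw [iso_int_dot h, hI.mom, one_mulVec]

theorem Iso.sq (h : Body K) (hI : Iso K) : ∫ x, x ⬝ᵥ x ∂(volume[|K]) = Fintype.card ι := by
  simp only [dotProduct]
  rw [integral_finsetSum _ fun i _ => h.integrable (by fun_prop)]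
  simp [hI _ _]

theorem Iso.abs_dot (h : Body K) (hI : Iso K) :
    ∫ x, ∫ x', |x ⬝ᵥ x'| ∂(volume[|K]) ∂(volume[|K]) ≤ √(Fintype.card ι) := by
  have := h.isProb
  rcases isEmpty_or_nonempty ι with hι | hι
  · simp [dotProduct]
  have hn : (0 : ℝ) < Fintype.card ι := by exact_mod_cast Fintype.card_pos
  set c := √(Fintype.card ι : ℝ) with hc
  have hc0 : 0 < c := Real.sqrt_pos.2 hn
  have hcc : c * c = Fintype.card ι := Real.mul_self_sqrt hn.le
  have h1 : ∀ x : ι → ℝ, ∫ x', |x ⬝ᵥ x'| ∂(volume[|K]) ≤ (2 * c)⁻¹ * (x ⬝ᵥ x) + c / 2 := by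
    intro x
    have i1 : Integrable (fun x' : ι → ℝ => (2 * c)⁻¹ * ((x ⬝ᵥ x') * (x ⬝ᵥ x'))) (volume[|K]) :=
      h.integrable (by fun_prop)
    calc ∫ x', |x ⬝ᵥ x'| ∂(volume[|K])
        ≤ ∫ x', ((2 * c)⁻¹ * ((x ⬝ᵥ x') * (x ⬝ᵥ x')) + c / 2) ∂(volume[|K]) := by
          refine integral_mono (h.integrable (by fun_prop)) (i1.add (integrable_const _)) fun x' => ?_
          simp only
          rw [← abs_mul_abs_self (x ⬝ᵥ x')]
          set t := |x ⬝ᵥ x'|
          have : (2 * c)⁻¹ * (t * t) + c / 2 - t = (2 * c)⁻¹ * (t - c) ^ 2 := by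
            field_simp
            ring
          have h3 : 0 ≤ (2 * c)⁻¹ * (t - c) ^ 2 := by positivity
          linarith
      _ = (2 * c)⁻¹ * (x ⬝ᵥ x) + c / 2 := by
          rw [integral_add i1 (integrable_const _), integral_const_mul, hI.dot_sq h]
          simp
  have i2 : Integrable (fun x : ι → ℝ => (2 * c)⁻¹ * (x ⬝ᵥ x)) (volume[|K]) :=
    h.integrable (by fun_prop)
  calc ∫ x, ∫ x', |x ⬝ᵥ x'| ∂(volume[|K]) ∂(volume[|K])
      ≤ ∫ x, ((2 * c)⁻¹ * (x ⬝ᵥ x) + c / 2) ∂(volume[|K]) :=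
        integral_mono_of_nonneg
          (Eventually.of_forall fun x => integral_nonneg fun x' => abs_nonneg _)
          (i2.add (integrable_const _)) (Eventually.of_forall h1)
    _ = c := by
        rw [integral_add i2 (integrable_const _), integral_const_mul, hI.sq h, ← hcc]
        simp only [integral_const, probReal_univ, smul_eq_mul, one_mul]
        field_simp
        ring

end Crest.Agent.R225
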