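import Crest.Agent.R225.Bern

/-!
# Row 225: Janson
A Janson / Boppana-Spencer type inequality.  Resampling: the involution swapping the coordinates in `W` of two samples preserves
`bw p σ * bw p ω`.

`janson`.  Write `A y = All (Rl y) (C y)`, `Om y = (Rl y).biUnion (C y)`.  Claim, by induction on `m`: there is a list `y₁ .. y_k` with
`P (no A y_i) ≤ exp (-(∑ P (A y_i))/2)` and (`k = m` or `∑ P (A y_i) > 1/(2κ₀)`).  Step: if `∑ ≤ 1/(2κ₀)` averaging gives `y` with
`∑ i, κ y y_i * P (A y_i) ≤ 1/2`.  With `Dn = ⋀ ¬ A y_i`, resampling on `Om y`, monotonicity and Harris for decreasing events give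
`P (A y ∧ Dn) ≥ P Dn * (P (A y) - ∑ i, Δ y y_i)`, where
`Δ y y' = ∑ σ ω, bw σ bw ω [A y σ ∧ Hit (Om y ∩ Om y') σ ∧ A y' (ω ∨ σ restricted to Om y)]`.
Always `Δ y y' ≤ P (A y)`; and conditioning on `τ = σ ∩ W`, `W = Om y ∩ Om y'` (probability `≤ ∏ q ∈ τ, p q`), `Pb_add_le` twice gives
`Δ y y' ≤ F² P (A y) P (A y') ∑ τ ≠ ∅, ∏ (B² p q) ≤ F² P P' (exp (B² ∑ W p) - 1)`.  Take `m` with `m * min P (A y) > 1/(2κ₀)`.
-/

set_option autoImplicit false

open MeasureTheory ProbabilityTheory Matrix Filter Topology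
open scoped ENNReal RealInnerProductSpace

noncomputable section

namespace Crest.Agent.R225

variable {ι : Type} [Fintype ι] [DecidableEq ι] {p : ι → ℝ} {A B : (ι → Bool) → Prop}

theorem janson_bw_nonneg (hp : ∀ i, p i ∈ Set.Icc (0 : ℝ) 1) (ω : ι → Bool) : 0 ≤ bw p ω :=
  Finset.prod_nonneg fun i _ => by
    split_ifs
    · exact (hp i).1
    · exact sub_nonneg.mpr (hp i).2

theorem janson_sum_bw (p : ι → ℝ) : ∑ ω, bw p ω = 1 := by
  simpa [Pb] using Pb_true p

theorem janson_congr (h : ∀ ω, A ω ↔ B ω) : Pb p A = Pb p B := by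
  rw [show A = B from funext fun ω => propext (h ω)]

theorem janson_false (p : ι → ℝ) (h : ∀ ω, ¬A ω) : Pb p A = 0 := by
  simp [Pb, h]

/-- `σ` on `W`, `ω` off `W` -/
def janson_mix (W : Finset ι) (σ ω : ι → Bool) : ι → Bool := fun i => if i ∈ W then σ i else ω i

theorem janson_resample (p : ι → ℝ) (W : Finset ι) (A : (ι → Bool) → Prop) :
    Pb p A = ∑ σ, bw p σ * Pb p fun ω => A (janson_mix W σ ω) := by
  classical
  let f : (ι → Bool) × (ι → Bool) → (ι → Bool) × (ι → Bool) :=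
    fun z => (janson_mix W z.1 z.2, janson_mix W z.2 z.1)
  have hf : Function.Involutive f := fun z => by
    ext i <;> by_cases h : i ∈ W <;> simp [f, janson_mix, h]
  have hw : ∀ z, bw p (f z).1 * bw p (f z).2 = bw p z.1 * bw p z.2 := fun z => by
    simp only [bw, ← Finset.prod_mul_distrib]
    refine Finset.prod_congr rfl fun i _ => ?_
    by_cases h : i ∈ W
    · simp [f, janson_mix, h]
    · simp only [f, janson_mix, h, if_false]; exact mul_comm _ _
  have e := Equiv.sum_comp hf.toPerm fun z => if A z.1 then bw p z.1 * bw p z.2 else 0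
  simp only [Function.Involutive.coe_toPerm, hw] at e
  simp only [Fintype.sum_prod_type] at e
  simp only [Pb, Finset.mul_sum, mul_ite, mul_zero]
  refine Eq.trans ?_ e.symm
  refine Finset.sum_congr rfl fun σ _ => ?_
  split_ifs
  · rw [← Finset.mul_sum, janson_sum_bw, mul_one]
  · simp

theorem janson_harris (hp : ∀ i, p i ∈ Set.Icc (0 : ℝ) 1) (hA : Up A) (hB : Up B) :
    Pb p (fun ω => ¬A ω) * Pb p (fun ω => ¬B ω) ≤ Pb p fun ω => ¬A ω ∧ ¬B ω := by
  have h1 := harris hp hA hB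
  have h2 : Pb p (fun ω => ¬A ω ∧ ¬B ω) + Pb p A + Pb p B =
      Pb p (fun _ => True) + Pb p fun ω => A ω ∧ B ω := by
    simp only [Pb, ← Finset.sum_add_distrib]
    refine Finset.sum_congr rfl fun ω _ => ?_
    by_cases ha : A ω <;> by_cases hb : B ω <;> simp [ha, hb]
  rw [Pb_true] at h2
  rw [Pb_not, Pb_not]
  nlinarith

theorem janson_split (p : ι → ℝ) (A B : (ι → Bool) → Prop) :
    Pb p (fun ω => ¬A ω ∧ B ω) = Pb p B - Pb p fun ω => A ω ∧ B ω := by
  simp only [Pb, ← Finset.sum_sub_distrib]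
  refine Finset.sum_congr rfl fun ω _ => ?_
  by_cases ha : A ω <;> by_cases hb : B ω <;> simp [ha, hb]

theorem janson_sub (p : ι → ℝ) (τ : Finset ι) :
    Pb p (fun ω => ∀ q ∈ τ, ω q = true) = ∏ q ∈ τ, p q := by
  have e := Finset.prod_univ_sum (fun _ : ι => (Finset.univ : Finset Bool))
    fun i b => if i ∈ τ then (if b then p i else 0) else (if b then p i else 1 - p i)
  rw [Fintype.piFinset_univ] at e
  have e2 : ∏ q ∈ τ, p q = ∏ i, ∑ b : Bool,
      if i ∈ τ then (if b then p i else 0) else (if b then p i else 1 - p i) := by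
    rw [← Finset.prod_subset τ.subset_univ fun i _ hi => by simp [hi]]
    exact Finset.prod_congr rfl fun i hi => by simp [hi]
  rw [e2, e, Pb]
  refine Finset.sum_congr rfl fun ω _ => ?_
  split_ifs with h
  · refine Finset.prod_congr rfl fun i _ => ?_
    by_cases hi : i ∈ τ
    · simp [hi, h i hi]
    · simp [hi]
  · push Not at h
    obtain ⟨q, hq, hq'⟩ := h
    exact (Finset.prod_eq_zero (Finset.mem_univ q) (by simp [hq, hq'])).symm

theorem janson_all_congr {X : Type} {R : Finset X} {C : X → Finset ι} {ω ω' : ι → Bool}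
    (h : ∀ q ∈ R.biUnion C, ω q = true → ω' q = true) (hA : All R C ω) : All R C ω' := by
  intro x hx
  obtain ⟨q, hq, hq'⟩ := hA x hx
  exact ⟨q, hq, h q (Finset.mem_biUnion.mpr ⟨x, hx, hq⟩) hq'⟩

theorem janson_and_sub (p : ι → ℝ) (τ : Finset ι) (A : (ι → Bool) → Prop) :
    Pb p (fun ω => (∀ q ∈ τ, ω q = true) ∧ A ω) =
      (∏ q ∈ τ, p q) * Pb p fun ω => A fun i => ω i || decide (i ∈ τ) := by
  rw [janson_resample p τ, ← janson_sub, Pb, Finset.sum_mul]
  refine Finset.sum_congr rfl fun σ _ => ?_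
  split_ifs with h
  · congr 1
    refine janson_congr fun ω => ?_
    have e : janson_mix τ σ ω = fun i => ω i || decide (i ∈ τ) := by
      funext i
      by_cases hi : i ∈ τ
      · simp [janson_mix, hi, h i hi]
      · simp [janson_mix, hi]
    rw [e]
    exact and_iff_right fun q hq => by simp [hq]
  · rw [janson_false p fun ω hω => h fun q hq => by simpa [janson_mix, hq] using hω.1 q hq]
    simp

open Classical in
/-- the correlation term -/
def janson_Delta {X : Type} (p : ι → ℝ) (R R' : Finset X) (C D : X → Finset ι) : ℝ :=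
  ∑ σ, if All R C σ ∧ Hit (R.biUnion C ∩ R'.biUnion D) σ then
    bw p σ * Pb p (fun ω => All R' D fun i => ω i || (σ i && decide (i ∈ R.biUnion C))) else 0

theorem janson_Delta_le (hp : ∀ i, p i ∈ Set.Icc (0 : ℝ) 1) {X : Type} (R R' : Finset X)
    (C D : X → Finset ι) : janson_Delta p R R' C D ≤ Pb p (All R C) := by
  refine Finset.sum_le_sum fun σ _ => ?_
  have h0 := janson_bw_nonneg hp σ
  split_ifs with h1 h2 h2
  · exact mul_le_of_le_one_right h0 (Pb_le_one hp _)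
  · exact absurd h1.1 h2
  · exact h0
  · exact le_rfl

theorem janson_Delta_le' (hp : ∀ i, p i ∈ Set.Icc (0 : ℝ) 1) {X : Type} (R R' : Finset X)
    (C D : X → Finset ι) {Bd a a' : ℝ} (hB : 0 ≤ Bd) (ha0 : 0 ≤ a) (ha0' : 0 ≤ a')
    (ha : ∀ τ ⊆ R.biUnion C,
      Pb p (fun ω => All R C fun i => ω i || decide (i ∈ τ)) ≤ Bd ^ τ.card * a)
    (ha' : ∀ τ ⊆ R'.biUnion D,
      Pb p (fun ω => All R' D fun i => ω i || decide (i ∈ τ)) ≤ Bd ^ τ.card * a') :
    janson_Delta p R R' C D ≤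
      a * a' * (Real.exp (Bd ^ 2 * ∑ q ∈ R.biUnion C ∩ R'.biUnion D, p q) - 1) := by
  classical
  set W := R.biUnion C ∩ R'.biUnion D with hW
  have h1 : janson_Delta p R R' C D ≤ ∑ τ ∈ W.powerset.erase ∅,
      Bd ^ τ.card * a' * Pb p fun σ => (∀ q ∈ τ, σ q = true) ∧ All R C σ := by
    simp only [Pb, Finset.mul_sum]
    rw [Finset.sum_comm]
    refine Finset.sum_le_sum fun σ _ => ?_
    have h0 := janson_bw_nonneg hp σ
    have hnn : ∀ τ ∈ W.powerset.erase ∅, 0 ≤ Bd ^ τ.card * a' *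
        @ite ℝ ((∀ q ∈ τ, σ q = true) ∧ All R C σ) (Classical.propDecidable _) (bw p σ) 0 :=
      fun τ _ => by split_ifs <;> positivity
    split_ifs with h
    · obtain ⟨hA, q, hq, hq'⟩ := h
      have hm : W.filter (fun i => σ i = true) ∈ W.powerset.erase ∅ :=
        Finset.mem_erase.mpr ⟨Finset.ne_empty_of_mem (Finset.mem_filter.mpr ⟨hq, hq'⟩),
          Finset.mem_powerset.mpr (Finset.filter_subset _ _)⟩
      refine le_trans ?_ (Finset.single_le_sum hnn hm)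
      rw [if_pos ⟨fun q hq => (Finset.mem_filter.mp hq).2, hA⟩, mul_comm]
      refine mul_le_mul_of_nonneg_right (le_trans (Pb_mono hp fun ω hω => ?_)
        (ha' _ ((Finset.filter_subset _ _).trans Finset.inter_subset_right))) h0
      refine janson_all_congr (fun i hi h => ?_) hω
      simp only [Bool.or_eq_true, Bool.and_eq_true, decide_eq_true_eq, Finset.mem_filter, hW,
        Finset.mem_inter] at h ⊢
      exact h.imp id fun h => ⟨⟨h.2, hi⟩, h.1⟩
    · exact Finset.sum_nonneg hnn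
  have h2 : ∑ τ ∈ W.powerset.erase ∅,
      Bd ^ τ.card * a' * Pb p (fun σ => (∀ q ∈ τ, σ q = true) ∧ All R C σ) ≤
      ∑ τ ∈ W.powerset.erase ∅, a * a' * ∏ q ∈ τ, Bd ^ 2 * p q := by
    refine Finset.sum_le_sum fun τ hτ => ?_
    have h3 := ha τ ((Finset.mem_powerset.mp (Finset.mem_erase.mp hτ).2).trans
      Finset.inter_subset_left)
    have h4 : 0 ≤ ∏ q ∈ τ, p q := Finset.prod_nonneg fun q _ => (hp q).1
    rw [janson_and_sub, Finset.prod_mul_distrib, Finset.prod_const]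
    calc _ ≤ Bd ^ τ.card * a' * ((∏ q ∈ τ, p q) * (Bd ^ τ.card * a)) := by gcongr
      _ = _ := by ring
  refine h1.trans (h2.trans ?_)
  rw [← Finset.mul_sum]
  refine mul_le_mul_of_nonneg_left ?_ (mul_nonneg ha0 ha0')
  have h5 := Finset.add_sum_erase W.powerset (fun τ => ∏ q ∈ τ, Bd ^ 2 * p q)
    (Finset.empty_mem_powerset W)
  rw [← Finset.prod_one_add, Finset.prod_empty] at h5
  have h6 : ∏ q ∈ W, (1 + Bd ^ 2 * p q) ≤ Real.exp (Bd ^ 2 * ∑ q ∈ W, p q) := by
    rw [Finset.mul_sum, Real.exp_sum]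
    refine Finset.prod_le_prod (fun q _ => ?_) fun q _ => ?_
    · have := (hp q).1; positivity
    · rw [add_comm]; exact Real.add_one_le_exp _
  linarith

theorem janson_step (hp : ∀ i, p i ∈ Set.Icc (0 : ℝ) 1) {Y X : Type} (s : Finset Y)
    (Rl : Y → Finset X) (C : Y → X → Finset ι) (y : Y) :
    Pb p (fun ω => ∀ z ∈ s, ¬All (Rl z) (C z) ω) *
        (Pb p (All (Rl y) (C y)) - ∑ z ∈ s, janson_Delta p (Rl y) (Rl z) (C y) (C z)) ≤
      Pb p fun ω => All (Rl y) (C y) ω ∧ ∀ z ∈ s, ¬All (Rl z) (C z) ω := by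
  classical
  set Om := (Rl y).biUnion (C y) with hOm
  rw [janson_resample p Om fun ω => All (Rl y) (C y) ω ∧ ∀ z ∈ s, ¬All (Rl z) (C z) ω]
  simp only [janson_Delta]
  rw [Finset.sum_comm, Pb.eq_1 p (All (Rl y) (C y)), ← Finset.sum_sub_distrib, Finset.mul_sum]
  refine Finset.sum_le_sum fun σ _ => ?_
  have h0 := janson_bw_nonneg hp σ
  by_cases hA : All (Rl y) (C y) σ
  swap
  · simp only [hA, if_false, false_and, Finset.sum_const_zero, sub_zero, mul_zero]
    exact mul_nonneg h0 (Pb_nonneg hp _)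
  simp only [hA, if_true, true_and, ← hOm]
  let s' := s.filter fun z => Hit (Om ∩ (Rl z).biUnion (C z)) σ
  let U : Y → (ι → Bool) → Prop := fun z ω =>
    All (Rl z) (C z) fun i => ω i || (σ i && decide (i ∈ Om))
  have h1 := janson_harris hp (A := fun ω => ∃ z ∈ s, All (Rl z) (C z) ω)
    (B := fun ω => ∃ z ∈ s', U z ω)
    (fun ω ω' h ⟨z, hz, hz'⟩ => ⟨z, hz, up_all _ _ ω ω' h hz'⟩)
    fun ω ω' h ⟨z, hz, hz'⟩ => ⟨z, hz, up_all _ _ _ _ (fun i hi => by
      simp only [Bool.or_eq_true] at hi ⊢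
      exact hi.imp (h i) id) hz'⟩
  have h2 := Pb_exists_le hp s' U
  rw [Pb_not p fun ω => ∃ z ∈ s', U z ω, janson_congr
    (B := fun ω => ∀ z ∈ s, ¬All (Rl z) (C z) ω) fun ω => by simp] at h1
  have h3 : Pb p (fun ω => (¬∃ z ∈ s, All (Rl z) (C z) ω) ∧ ¬∃ z ∈ s', U z ω) ≤
      Pb p fun ω => All (Rl y) (C y) (janson_mix Om σ ω) ∧
        ∀ z ∈ s, ¬All (Rl z) (C z) (janson_mix Om σ ω) := by
    refine Pb_mono hp fun ω ⟨k1, k2⟩ => ⟨janson_all_congr (fun q hq h => ?_) hA, fun z hz hz' => ?_⟩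
    · simpa [janson_mix, show q ∈ Om from hq] using h
    · by_cases hh : Hit (Om ∩ (Rl z).biUnion (C z)) σ
      · refine k2 ⟨z, Finset.mem_filter.mpr ⟨hz, hh⟩, janson_all_congr (fun q _ h => ?_) hz'⟩
        by_cases hq : q ∈ Om
        · simp only [janson_mix, hq, if_true] at h
          simp [h, hq]
        · simp only [janson_mix, hq, if_false] at h
          simp [h]
      · refine k1 ⟨z, hz, janson_all_congr (fun q hq' h => ?_) hz'⟩
        by_cases hq : q ∈ Om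
        · simp only [janson_mix, hq, if_true] at h
          exact absurd ⟨q, Finset.mem_inter.mpr ⟨hq, hq'⟩, h⟩ hh
        · simpa only [janson_mix, hq, if_false] using h
  have h4 : (∑ z ∈ s, if Hit (Om ∩ (Rl z).biUnion (C z)) σ then bw p σ * Pb p (U z) else 0) =
      bw p σ * ∑ z ∈ s', Pb p (U z) := by
    rw [Finset.mul_sum, Finset.sum_filter]
  have h5 := Pb_nonneg hp fun ω => ∀ z ∈ s, ¬All (Rl z) (C z) ω
  rw [h4]
  calc _ = bw p σ * (Pb p (fun ω => ∀ z ∈ s, ¬All (Rl z) (C z) ω) *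
        (1 - ∑ z ∈ s', Pb p (U z))) := by ring
    _ ≤ bw p σ * (Pb p (fun ω => ∀ z ∈ s, ¬All (Rl z) (C z) ω) *
        (1 - Pb p fun ω => ∃ z ∈ s', U z ω)) := by gcongr
    _ ≤ _ := mul_le_mul_of_nonneg_left (h1.trans h3) h0

theorem janson (hp : ∀ i, p i ∈ Set.Icc (0 : ℝ) 1) {Y X : Type} (Yg : Finset Y) (hY : Yg.Nonempty)
    (Rl : Y → Finset X) (C C' : Y → X → Finset ι) {Bd F κ₀ : ℝ} (κ : Y → Y → ℝ) (hB : 1 ≤ Bd)
    (hκ₀ : 0 < κ₀) (hCC' : ∀ y ∈ Yg, ∀ x ∈ Rl y, C y x ⊆ C' y x)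
    (hS : ∀ y ∈ Yg, ∀ q ∈ (Rl y).biUnion (C y),
      ∃ S : Finset ι, (∀ x ∈ Rl y, q ∈ C y x → S ⊆ C' y x) ∧ 1 ≤ Bd * Pb p (Hit S))
    (hF : ∀ y ∈ Yg, Pb p (All (Rl y) (C' y)) ≤ F * Pb p (All (Rl y) (C y)))
    (hpos : ∀ y ∈ Yg, 0 < Pb p (All (Rl y) (C y)))
    (hκ : ∀ y ∈ Yg, ∀ y' ∈ Yg, 1 ≤ κ y y' * Pb p (All (Rl y') (C y')) ∨
      F ^ 2 * (Real.exp (Bd ^ 2 * ∑ q ∈ (Rl y).biUnion (C y) ∩ (Rl y').biUnion (C y'), p q) - 1) ≤
        κ y y')
    (hκs : ∀ y' ∈ Yg, ∑ y ∈ Yg, κ y y' ≤ κ₀ * Yg.card) :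
    Pb p (fun ω => ∀ y ∈ Yg, ¬All (Rl y) (C y) ω) ≤ Real.exp (-1 / (4 * κ₀)) := by
  classical
  have hadd : ∀ y ∈ Yg, ∀ τ ⊆ (Rl y).biUnion (C y),
      Pb p (fun ω => All (Rl y) (C y) fun i => ω i || decide (i ∈ τ)) ≤
        Bd ^ τ.card * (F * Pb p (All (Rl y) (C y))) := fun y hy τ hτ =>
    (Pb_add_le hp (Rl y) (C y) (C' y) hB (hCC' y hy) τ fun q hq => hS y hy q (hτ hq)).trans
      (mul_le_mul_of_nonneg_left (hF y hy) (by positivity))
  have hΔ : ∀ y ∈ Yg, ∀ z ∈ Yg, janson_Delta p (Rl y) (Rl z) (C y) (C z) ≤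
      Pb p (All (Rl y) (C y)) * (κ y z * Pb p (All (Rl z) (C z))) := fun y hy z hz => by
    have h1 := hpos y hy
    have h2 := hpos z hz
    rcases hκ y hy z hz with h | h
    · exact (janson_Delta_le hp _ _ _ _).trans (le_mul_of_one_le_right h1.le h)
    · refine (janson_Delta_le' hp _ _ _ _ (by linarith) ((Pb_nonneg hp _).trans (hF y hy))
        ((Pb_nonneg hp _).trans (hF z hz)) (hadd y hy) (hadd z hz)).trans ?_
      have := mul_le_mul_of_nonneg_left h (mul_pos h1 h2).le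
      linarith
  have key : ∀ m : ℕ, ∃ s ⊆ Yg, Pb p (fun ω => ∀ z ∈ s, ¬All (Rl z) (C z) ω) ≤
      Real.exp (-(∑ z ∈ s, Pb p (All (Rl z) (C z))) / 2) ∧ (m ≤ s.card ∨
        Pb p (fun ω => ∀ z ∈ s, ¬All (Rl z) (C z) ω) ≤ Real.exp (-1 / (4 * κ₀))) := by
    intro m
    induction m with
    | zero => exact ⟨∅, Finset.empty_subset _, by simpa using Pb_le_one hp _, Or.inl (by simp)⟩
    | succ m ih =>
      obtain ⟨s, hs, h1, h2 | h2⟩ := ih
      swap
      · exact ⟨s, hs, h1, Or.inr h2⟩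
      rcases le_or_gt (1 / (2 * κ₀)) (∑ z ∈ s, Pb p (All (Rl z) (C z))) with h3 | h3
      · refine ⟨s, hs, h1, Or.inr (h1.trans (Real.exp_le_exp.mpr ?_))⟩
        have : -1 / (4 * κ₀) = -(1 / (2 * κ₀)) / 2 := by field_simp; norm_num
        rw [this]; linarith
      obtain ⟨y, hy, h4⟩ := Finset.exists_le_of_sum_le hY
        (f := fun y => ∑ z ∈ s, κ y z * Pb p (All (Rl z) (C z))) (g := fun _ => 1 / 2) (by
          rw [Finset.sum_comm, Finset.sum_const, nsmul_eq_mul]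
          simp only [← Finset.sum_mul]
          calc _ ≤ ∑ z ∈ s, κ₀ * Yg.card * Pb p (All (Rl z) (C z)) :=
                Finset.sum_le_sum fun z hz =>
                  mul_le_mul_of_nonneg_right (hκs z (hs hz)) (Pb_nonneg hp _)
            _ = κ₀ * Yg.card * ∑ z ∈ s, Pb p (All (Rl z) (C z)) := by rw [Finset.mul_sum]
            _ ≤ κ₀ * Yg.card * (1 / (2 * κ₀)) := by gcongr
            _ = _ := by field_simp)
      have h5 := janson_step hp s Rl C y
      have h6 : ∑ z ∈ s, janson_Delta p (Rl y) (Rl z) (C y) (C z) ≤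
          Pb p (All (Rl y) (C y)) * (1 / 2) :=
        (Finset.sum_le_sum fun z hz => hΔ y hy z (hs hz)).trans (by
          rw [← Finset.mul_sum]
          exact mul_le_mul_of_nonneg_left h4 (Pb_nonneg hp _))
      have h7 := Pb_nonneg hp fun ω => ∀ z ∈ s, ¬All (Rl z) (C z) ω
      have h8 : Pb p (fun ω => ∀ z ∈ s, ¬All (Rl z) (C z) ω) * (Pb p (All (Rl y) (C y)) / 2) ≤
          Pb p fun ω => All (Rl y) (C y) ω ∧ ∀ z ∈ s, ¬All (Rl z) (C z) ω :=
        le_trans (mul_le_mul_of_nonneg_left (by linarith) h7) h5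
      by_cases hys : y ∈ s
      · rw [janson_false p (A := fun ω => All (Rl y) (C y) ω ∧ ∀ z ∈ s, ¬All (Rl z) (C z) ω)
          fun ω h => h.2 y hys h.1] at h8
        refine ⟨s, hs, h1, Or.inr (le_trans ?_ (Real.exp_pos _).le)⟩
        exact nonpos_of_mul_nonpos_left h8 (half_pos (hpos y hy))
      · refine ⟨insert y s, Finset.insert_subset hy hs, ?_,
          Or.inl (by rw [Finset.card_insert_of_notMem hys]; omega)⟩
        simp only [Finset.forall_mem_insert, Finset.sum_insert hys]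
        rw [janson_split, show -(Pb p (All (Rl y) (C y)) + ∑ z ∈ s, Pb p (All (Rl z) (C z))) / 2 =
          -(∑ z ∈ s, Pb p (All (Rl z) (C z))) / 2 + -(Pb p (All (Rl y) (C y)) / 2) by ring,
          Real.exp_add]
        have h9 := Real.add_one_le_exp (-(Pb p (All (Rl y) (C y)) / 2))
        calc _ ≤ Pb p (fun ω => ∀ z ∈ s, ¬All (Rl z) (C z) ω) *
              (-(Pb p (All (Rl y) (C y)) / 2) + 1) := by linarith
          _ ≤ Pb p (fun ω => ∀ z ∈ s, ¬All (Rl z) (C z) ω) *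
              Real.exp (-(Pb p (All (Rl y) (C y)) / 2)) := mul_le_mul_of_nonneg_left h9 h7
          _ ≤ _ := mul_le_mul_of_nonneg_right h1 (Real.exp_pos _).le
  obtain ⟨s, hs, -, h | h⟩ := key (Yg.card + 1)
  · have := Finset.card_le_card hs
    omega
  · exact (Pb_mono hp fun ω hω z hz => hω z (hs hz)).trans h

end Crest.Agent.R225
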