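import Crest.Agent.R225.Level2

/-!
# Row 225: Level
Parameters.  `α = exp (-20)/5`, `β = 21/α` (so `β² α²/16 ≥ 27`), `c = 1/(200 (4β² + 7))`; `L = β √n`, `h = 1/n²`, `η = 1/n³`, `σ = 3 log n / n`,
`θ = c n log n`, `T = (4β²+7) θ = n log n / 200`, `a₀ = 2 √(log n / n)`, `t = √(2 log (4θ))` (`4θ ≥ 1` eventually, `4θ ≤ n²`, so `t² ≤ 4 log n ≤ L² a₀²`),
`J = ⌊log n / 32⌋₊` (so `24^J ≤ exp (4 J) ≤ n^(1/8)` and `J ≥ log n / 64`, `T/J ≤ n/3`), `s = 1/√√n`, `κ₀ = exp (-15 n)`.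
With `r = √√n` (`r⁴ = n`): `(24^J a₀)² ≤ 4 r log n / n`, `B ≤ 16 exp (64 β² r log n)`, `L² s² = β² r²`, `θ ≤ n²`, `log n ≤ 8 √r` (`log x ≤ x`), so all of `h1`, `h2` are of the form
"`C r √r + C ≤ r²` / `≤ n`" for large `r`.  `(5s)^n exp T = exp (n log 5 - n log n / 4 + n log n / 200)`; each of the three terms of `h2` is `≤ exp (-16 n)`.
`herr` from `le_Qt`.
-/

set_option autoImplicit false

open MeasureTheory ProbabilityTheory Matrix Filter Topology
open scoped ENNReal RealInnerProductSpace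

noncomputable section

namespace Crest.Agent.R225

theorem level_const : ∃ α β : ℝ, 0 < α ∧ 5 * α = Real.exp (-20) ∧ α * β = 21 ∧ 1 ≤ β := by
  have h1 : Real.exp (-20) ≤ 1 := Real.exp_le_one_iff.2 (by norm_num)
  have h0 := Real.exp_pos (-20)
  refine ⟨Real.exp (-20) / 5, 21 / (Real.exp (-20) / 5), by positivity, by ring, by field_simp, ?_⟩
  rw [le_div_iff₀ (by positivity)]
  linarith

/-- the scale `24 ^ J` -/
theorem level_J {l : ℝ} (hl : 64 ≤ l) :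
    1 ≤ ⌊l / 32⌋₊ ∧ ((24 : ℝ) ^ ⌊l / 32⌋₊) ^ 2 ≤ Real.exp (l / 4) ∧ l / 64 ≤ (⌊l / 32⌋₊ : ℝ) := by
  have h1 : (⌊l / 32⌋₊ : ℝ) ≤ l / 32 := Nat.floor_le (by linarith)
  have h2 : l / 32 < (⌊l / 32⌋₊ : ℝ) + 1 := Nat.lt_floor_add_one _
  refine ⟨Nat.one_le_floor_iff _ |>.2 (by linarith), ?_, by linarith⟩
  have h3 : (24 : ℝ) ≤ Real.exp 4 := by
    have := Real.add_one_le_exp (2 : ℝ)
    have h4 : Real.exp 4 = Real.exp 1 ^ 4 := by rw [← Real.exp_nat_mul]; norm_num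
    have h5 := Real.exp_one_gt_d9
    rw [h4]
    calc (24 : ℝ) ≤ 2.7 ^ 4 := by norm_num
      _ ≤ _ := by gcongr; linarith
  calc ((24 : ℝ) ^ ⌊l / 32⌋₊) ^ 2 ≤ (Real.exp 4 ^ ⌊l / 32⌋₊) ^ 2 := by gcongr
    _ = Real.exp (8 * ⌊l / 32⌋₊) := by rw [← Real.exp_nat_mul, ← Real.exp_nat_mul]; congr 1; push_cast; ring
    _ ≤ _ := Real.exp_le_exp.2 (by linarith)

theorem level_h2 {n : ℕ} {l θ x s α F W : ℝ} (hn : 5 ≤ (n : ℝ)) (hl : 110 ≤ l) (hθ0 : 0 ≤ θ)
    (hθ : 4 * θ ≤ (n : ℝ) ^ 2) (hx0 : 0 ≤ x) (hx : x ≤ Real.exp (2 * n))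
    (hs : s = Real.exp (-(l / 4))) (hα : 5 * α = Real.exp (-20)) (hF : F ≤ n / 3)
    (hW0 : 0 ≤ W) (hW : W ≤ Real.exp (-(26 * n))) :
    2 * x * θ * ((5 * s) ^ n * Real.exp (n * l / 200) + (5 * α) ^ n * (3 * Real.exp F ^ 2)) +
      2 * Real.exp F ^ 2 * W ≤ Real.exp (-(15 * n)) := by
  have h1 : 2 * x * θ ≤ Real.exp (3 * n) := by
    have h2 := Real.pow_div_factorial_le_exp (n : ℝ) (by linarith) 2
    norm_num [Nat.factorial] at h2
    calc 2 * x * θ = x * (2 * θ) := by ring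
      _ ≤ Real.exp (2 * n) * Real.exp n := by gcongr; linarith
      _ = _ := by rw [← Real.exp_add]; congr 1; ring
  have h2 : Real.exp F ^ 2 ≤ Real.exp n := by
    rw [← Real.exp_nat_mul]; exact Real.exp_le_exp.2 (by push_cast; linarith)
  have h3 : (5 * s) ^ n * Real.exp (n * l / 200) ≤ Real.exp (-(19 * n)) := by
    have h5 : (5 : ℝ) ≤ Real.exp 4 := by have := Real.add_one_le_exp (4 : ℝ); linarith
    calc (5 * s) ^ n * Real.exp (n * l / 200) ≤ (Real.exp 4 * s) ^ n * Real.exp (n * l / 200) := by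
          rw [hs]; gcongr
      _ = Real.exp (n * (4 - l / 4 + l / 200)) := by
          rw [hs, ← Real.exp_add, ← Real.exp_nat_mul, ← Real.exp_add]; congr 1; ring
      _ ≤ _ := Real.exp_le_exp.2 (by nlinarith)
  have h4 : (5 * α) ^ n * (3 * Real.exp F ^ 2) ≤ 3 * Real.exp (-(19 * n)) := by
    calc (5 * α) ^ n * (3 * Real.exp F ^ 2) ≤ (5 * α) ^ n * (3 * Real.exp n) := by
          rw [hα]; gcongr
      _ = _ := by
          rw [hα, ← Real.exp_nat_mul, mul_left_comm, ← Real.exp_add]; congr 2; ring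
  have h5 : Real.exp F ^ 2 * W ≤ Real.exp (-(16 * n)) := by
    calc Real.exp F ^ 2 * W ≤ Real.exp n * Real.exp (-(26 * n)) := by gcongr
      _ ≤ _ := by rw [← Real.exp_add]; exact Real.exp_le_exp.2 (by linarith)
  have h6 : Real.exp (3 * n) * Real.exp (-(19 * n)) = Real.exp (-(16 * n)) := by
    rw [← Real.exp_add]; congr 1; ring
  have h7 : 6 * Real.exp (-(16 * n)) ≤ Real.exp (-(15 * n)) := by
    have := Real.add_one_le_exp (n : ℝ)
    calc 6 * Real.exp (-(16 * n)) ≤ Real.exp n * Real.exp (-(16 * n)) := by gcongr; linarith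
      _ = _ := by rw [← Real.exp_add]; congr 1; ring
  have h8 : 2 * x * θ * ((5 * s) ^ n * Real.exp (n * l / 200) + (5 * α) ^ n * (3 * Real.exp F ^ 2)) ≤
      Real.exp (3 * n) * (4 * Real.exp (-(19 * n))) := by
    refine mul_le_mul h1 (by linarith) ?_ (Real.exp_pos _).le
    rw [hs, hα]; positivity
  nlinarith

theorem level : ∃ β c : ℝ, 1 ≤ β ∧ 0 < c ∧ c ≤ 1 ∧ ∀ᶠ n : ℕ in atTop,
    ∀ (I : Type) [Fintype I] [DecidableEq I] (pts : I → Eu n) (ν : I → ℝ),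
      Disc n (1 / (n : ℝ) ^ 2) pts ν → ∀ (Y : Type) [Fintype Y] [Nonempty Y] (yp : Y → Eu n),
      Test n yp → ∀ (X : Finset (Eu n)) (Yg : Finset Y), (X.card : ℝ) ≤ Real.exp (2 * n) →
      Fintype.card Y ≤ 2 * Yg.card →
      (∀ y ∈ Yg, Good (1 / (n : ℝ) ^ 3) (3 * Real.log n / n) (c * n * Real.log n) X (yp y)) →
      Pb (pq (β * √n) ν) (fun ω => ∀ y ∈ Yg, ¬Cut pts (β * √n) (1 / (n : ℝ) ^ 3) X (yp y) ω) ≤
        Real.exp (-Real.exp (15 * n) / 4) := by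
  obtain ⟨α, β, hα0, hα, hαβ, hβ⟩ := level_const
  have hK : 0 < 4 * β ^ 2 + 7 := by positivity
  have hc1 : 1 / (200 * (4 * β ^ 2 + 7)) ≤ 1 / 4 :=
    one_div_le_one_div_of_le (by norm_num) (by nlinarith)
  refine ⟨β, 1 / (200 * (4 * β ^ 2 + 7)), hβ, by positivity, by linarith, ?_⟩
  have hlog : Tendsto (fun n : ℕ => Real.log n) atTop atTop :=
    Real.tendsto_log_atTop.comp tendsto_natCast_atTop_atTop
  filter_upwards [hlog.eventually_ge_atTop 70656, hlog.eventually_ge_atTop (152 * β ^ 2),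
    eventually_ge_atTop 1] with n hl1 hl2 hn I _ _ pts ν hD Y _ _ yp hY X Yg hX hYg hG
  have hn0 : (0 : ℝ) < n := by exact_mod_cast hn
  set c := 1 / (200 * (4 * β ^ 2 + 7)) with hc
  have hc0 : 0 < c := by positivity
  have hcK : (4 * β ^ 2 + 7) * c = 1 / 200 := by rw [hc]; field_simp
  set l := Real.log n with hl
  obtain ⟨r, hr⟩ : ∃ r, r = Real.exp (l / 4) := ⟨_, rfl⟩
  have hr4 : (n : ℝ) = r ^ 4 := by
    rw [hr, ← Real.exp_nat_mul, show ((4 : ℕ) : ℝ) * (l / 4) = l by push_cast; ring, hl,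
      Real.exp_log hn0]
  have hrl : 2208 * l ≤ r := by
    have h2 := Real.pow_div_factorial_le_exp (l / 4) (by linarith) 2
    norm_num [Nat.factorial] at h2
    rw [← hr] at h2
    nlinarith
  have hrβ : 38 * β ^ 2 ≤ r := by
    have := Real.add_one_le_exp (l / 4)
    rw [← hr] at this
    linarith
  have hr1 : 100 ≤ r := by linarith
  have hr0 : 0 < r := by linarith
  have hsq : √(n : ℝ) = r ^ 2 := by
    rw [hr4, show r ^ 4 = (r ^ 2) ^ 2 by ring, Real.sqrt_sq (by positivity)]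
  have hβ2 : β ≤ β ^ 2 := le_self_pow₀ hβ (by norm_num)
  have hr2 : r ≤ r ^ 2 := le_self_pow₀ (by linarith) (by norm_num)
  have hr3 : r ^ 2 ≤ r ^ 3 := pow_le_pow_right₀ (by linarith) (by norm_num)
  have hr34 : r ^ 3 ≤ r ^ 4 := pow_le_pow_right₀ (by linarith) (by norm_num)
  have hrn : r ≤ n := by linarith
  have hn1 : (1 : ℝ) ≤ n := by linarith
  obtain ⟨u, hu0, hu⟩ : ∃ u : ℝ, 0 ≤ u ∧ u ^ 2 = l := ⟨√l, Real.sqrt_nonneg _, Real.sq_sqrt (by linarith)⟩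
  have hu1 : 1 ≤ u := by nlinarith only [hu0, hu, hl1]
  have hβu : u ≤ β * u := le_mul_of_one_le_left hu0 hβ
  have hβr : r ^ 2 ≤ β * r ^ 2 := le_mul_of_one_le_left (by positivity) hβ
  obtain ⟨hJ1, hJ2, hJ3⟩ := level_J (l := l) (by linarith)
  rw [← hr] at hJ2
  set J := ⌊l / 32⌋₊ with hJ
  have hθ : 4 * (c * n * l) ≤ (n : ℝ) ^ 2 := by
    have : c * l ≤ 1 / 4 * n := by
      refine mul_le_mul hc1 (by linarith) (by linarith) (by norm_num)
    nlinarith only [this, hn0]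
  have hθ0 : 0 ≤ c * n * l := by positivity
  have hexp : Real.exp (2 * l) = (n : ℝ) ^ 2 := by
    rw [← Real.exp_log hn0, ← hl, ← Real.exp_nat_mul]; norm_num
  have hLa : β * r ^ 2 * (2 * u / r ^ 2) = 2 * β * u := by field_simp
  have ha : (24 ^ J * (2 * u / r ^ 2)) ^ 2 ≤ 4 * l / r ^ 3 := by
    calc ((24 : ℝ) ^ J * (2 * u / r ^ 2)) ^ 2 = (24 ^ J) ^ 2 * (4 * u ^ 2 / r ^ 4) := by ring
      _ ≤ r * (4 * u ^ 2 / r ^ 4) := by gcongr
      _ = _ := by rw [hu]; field_simp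
  obtain ⟨B, hB⟩ : ∃ B, B = 16 * Real.exp (16 * (β * r ^ 2) ^ 2 * (24 ^ J * (2 * u / r ^ 2)) ^ 2) :=
    ⟨_, rfl⟩
  have hBθ : B ^ 2 * (c * n * l) ^ 2 ≤ Real.exp (β ^ 2 * r ^ 2 / 16) := by
    have h1 : 16 * (β * r ^ 2) ^ 2 * (24 ^ J * (2 * u / r ^ 2)) ^ 2 ≤ 64 * β ^ 2 * r * l := by
      calc _ ≤ 16 * (β * r ^ 2) ^ 2 * (4 * l / r ^ 3) := by gcongr
        _ = _ := by field_simp; ring
    have h2 : B * (c * n * l) ≤ Real.exp (64 * β ^ 2 * r * l + 2 * l + 3) := by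
      have h3 := Real.add_one_le_exp (3 : ℝ)
      calc B * (c * n * l) = (4 * (c * n * l)) * 4 *
            Real.exp (16 * (β * r ^ 2) ^ 2 * (24 ^ J * (2 * u / r ^ 2)) ^ 2) := by rw [hB]; ring
        _ ≤ Real.exp (2 * l) * Real.exp 3 * Real.exp (64 * β ^ 2 * r * l) := by
            rw [hexp]; gcongr; linarith
        _ = _ := by rw [← Real.exp_add, ← Real.exp_add]; congr 1; ring
    have h3 : 0 ≤ B := by rw [hB]; positivity
    rw [← mul_pow]
    refine (pow_le_pow_left₀ (by positivity) h2 2).trans ?_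
    rw [← Real.exp_nat_mul]
    refine Real.exp_le_exp.2 ?_
    have h4 : l ≤ β ^ 2 * r * l := by
      have : 1 ≤ β ^ 2 * r := one_le_mul_of_one_le_of_one_le (by linarith) (by linarith)
      exact le_mul_of_one_le_left (by linarith) this
    have h5 : β ^ 2 * r * (2208 * l) ≤ β ^ 2 * r * r := by gcongr
    push_cast
    linarith
  rw [hsq]
  refine (level_two (a₀ := 2 * u / r ^ 2) (t := 2 * u) (T := n * l / 200) (B := B)
    (s := Real.exp (-(l / 4))) (α := α) (κ₀ := Real.exp (-(15 * n))) (J := J) hn hD hY X Yg hYg hG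
    (by linarith) (by positivity) ?_ ?_ hJ1 ?_ (by positivity) (by rw [hLa]; linarith)
    (by rw [hLa]; linarith) ?_ ?_ ?_ ?_ hB ?_ ?_ ?_ ?_ (Real.exp_pos _) ?_).trans_eq ?_
  · rw [div_le_div_iff₀ (by positivity) hn0]
    have : (n : ℝ) ≤ n ^ 3 := le_self_pow₀ hn1 (by norm_num)
    nlinarith only [this, hn1, hl1]
  · rw [div_pow, mul_pow, hu, ← pow_mul, ← hr4]
    gcongr; norm_num
  · refine (pow_le_pow_iff_left₀ (by positivity) (by norm_num) two_ne_zero).1 (ha.trans ?_)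
    rw [div_le_iff₀ (by positivity)]
    linarith
  · rw [show -(2 * u) ^ 2 / 2 = -(2 * l) by rw [← hu]; ring, Real.exp_neg, hexp, ← div_eq_mul_inv,
      div_le_one (by positivity)]
    exact hθ
  · rw [← mul_div_assoc, div_le_one (by positivity), hr4]
    have : r ^ 2 * (8 * β) ≤ r ^ 2 * r ^ 6 := by
      gcongr
      have : r ≤ r ^ 6 := le_self_pow₀ (by linarith) (by norm_num)
      linarith
    linarith
  · refine le_trans ?_ (mul_le_mul_of_nonneg_left (le_Qt (by linarith)) (Real.exp_pos _).le)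
    rw [← Real.exp_add]
    have h1 := Real.add_one_le_exp (16 * (n : ℝ))
    calc 16 * n * Real.exp (-(n : ℝ) ^ 2 / 2) ≤ Real.exp (16 * n) * Real.exp (-(n : ℝ) ^ 2 / 2) := by
          gcongr; linarith
      _ ≤ _ := by
          rw [← Real.exp_add]
          refine Real.exp_le_exp.2 ?_
          rw [mul_pow, ← pow_mul, ← hr4]
          have : (32 + 6 * β ^ 2) * n ≤ n * n := by gcongr; linarith
          linarith
  · rw [mul_pow, ← pow_mul, ← hr4, show 4 * (β ^ 2 * n) / n = 4 * β ^ 2 by field_simp,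
      mul_assoc, ← mul_assoc, hcK]
    exact le_of_eq (by ring)
  · rw [Real.exp_neg, ← hr, ← one_div]
    exact one_div_le_one_div_of_le hr0 hrn
  · rw [Real.exp_neg, ← hr, inv_le_iff_one_le_mul₀ hr0]
    have : α * β ≤ α * r := by gcongr; linarith
    linarith
  · rw [Real.exp_neg, ← hr, inv_pow, ← one_div, ← mul_div_assoc,
      div_le_div_iff₀ (by positivity) (by positivity)]
    have : (n : ℝ) ≤ n ^ 3 := le_self_pow₀ hn1 (by norm_num)
    have : r ^ 2 * 24 ≤ r ^ 2 * r ^ 2 := by gcongr; linarith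
    linarith
  · have e : (β * r ^ 2) ^ 2 * Real.exp (-(l / 4)) ^ 2 / 16 = β ^ 2 * r ^ 2 / 16 := by
      rw [Real.exp_neg, ← hr]; field_simp
    rw [e, Real.exp_neg, ← div_eq_mul_inv, div_le_one (Real.exp_pos _)]
    exact hBθ
  · refine level_h2 (by linarith) (by linarith) hθ0 hθ (Nat.cast_nonneg _) hX rfl hα ?_
      (by positivity) ?_
    · rw [div_le_iff₀ (by linarith)]
      have : (n : ℝ) / 3 * (l / 64) ≤ n / 3 * J := by gcongr
      have : 0 ≤ n * l := by positivity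
      linarith
    · refine (mul_le_mul_of_nonneg_right hBθ (Real.exp_pos _).le).trans ?_
      rw [← Real.exp_add]
      refine Real.exp_le_exp.2 ?_
      rw [show (β * r ^ 2) ^ 2 * α ^ 2 = (α * β) ^ 2 * r ^ 4 by ring, hαβ, ← hr4]
      have : β ^ 2 * r ^ 2 ≤ r ^ 2 * r ^ 2 := by gcongr; linarith
      linarith
  · congr 1
    rw [Real.exp_neg]
    field_simp

end Crest.Agent.R225
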