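import Crest.Agent.R225.Bern
import Crest.Agent.R225.Cap

/-!
# Row 225: Level1
One test point: a good scale.  `p = pq L ν`, `Z = R.image z`, `Cp x = {q | L + 1/(2L) ≤ ⟪pts q, z x⟫}`, `α j = 24^(j+1) a₀`,
`Om j = {q | ∀ x x' ∈ R, q ∈ Cp x → q ∈ Cp x' → ‖z x - z x'‖ ≤ α j}`, `Cl j x = Om j ∩ Cp x` (increasing in `j`).
For `z₀ ∈ Z` and `0 ≤ u ≤ L` let `S z₀ u = {q | ∃ g ∈ reg Z z₀ L u t, ‖pts q - g‖ ≤ h}`.  `Disc.lower`, `le_reg` and `herr` give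
`∑ q ∈ S, ν q ≥ exp (-2Lu) Qt L / 8`, so `Pb p (Hit S) ≥ exp (-2Lu) / 16` (`Pb_hit_pq`, `1 - e^(-x) ≥ x/2` on `[0,1]`).  Rounding: `|⟪pts q - g, z x⟫| ≤ 2h ≤ 1/(4L)`.
If `q' ∈ S z₀ u ∩ Cp x` then `L < ⟪g, z x⟫`, and `reg_near` (for any `a₀ ≤ a ≤ 1/4` with `u ≤ 8 L a²`) gives `‖z x - z₀‖ ≤ 12 a`; so such `q'` have diameter `≤ 24 a`.
* Level `0`: `u = 2 (L max 0 (1 - ‖z x‖) + 1/L)`, `a = a₀`: `S (z x) u ⊆ Cl 0 x` (`reg_self` with `m = 1/L`), so `Pb p (Hit (Cl 0 x)) ≥ exp (-(4 L² max 0 (1 - ‖z x‖) + 7))`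
  (`16 ≤ e³`) and `prod_le_all` gives `exp (-T) ≤ Pb p (All R (Cl 0))`.
* Pigeonhole: if `Pb (All R (Cl (j+1))) > exp (T/J) Pb (All R (Cl j))` for all `j < J` then `Pb (All R (Cl J)) > 1`.  Take `C = Cl j`, `C' = Cl (j+1)`.
* For `q ∈ Cl j x₀` put `a = α j ≤ 24^J a₀`, `u = 2 (L (σ + a²) + t a + 1/L) ≤ 8 L a²`, `S = S (z x₀) u`; if `q ∈ Cl j x` then `‖z x - z x₀‖ ≤ a` and
  `reg_cut` (`m = 1/L`) gives `S ⊆ Cp x`, while `S ⊆ Om (j+1)` by the above.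
-/

set_option autoImplicit false

open MeasureTheory ProbabilityTheory Matrix Filter Topology
open scoped ENNReal RealInnerProductSpace

noncomputable section

namespace Crest.Agent.R225

variable {n : ℕ} {I : Type} [Fintype I] [DecidableEq I] {pts : I → Eu n} {ν : I → ℝ}

omit [Fintype I] [DecidableEq I] in
theorem pq_mem (hν : ∀ q, 0 ≤ ν q) (L : ℝ) (q : I) : pq L ν q ∈ Set.Icc (0 : ℝ) 1 := by
  have h0 : 0 ≤ ν q / Qt L := div_nonneg (hν q) measureReal_nonneg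
  have h1 := Real.exp_pos (-(ν q / Qt L))
  have h2 := Real.exp_le_one_iff.mpr (neg_nonpos.mpr h0)
  exact ⟨sub_nonneg.mpr h2, sub_le_self _ h1.le⟩

omit [Fintype I] [DecidableEq I] in
theorem pq_le (L : ℝ) (ν : I → ℝ) (q : I) : pq L ν q ≤ ν q / Qt L := by
  have := Real.add_one_le_exp (-(ν q / Qt L))
  unfold pq
  linarith

theorem Pb_not_hit_pq (L : ℝ) (ν : I → ℝ) (C : Finset I) :
    Pb (pq L ν) (fun ω => ¬Hit C ω) = Real.exp (-((∑ q ∈ C, ν q) / Qt L)) := by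
  rw [Pb_not_hit, Finset.sum_div, ← Finset.sum_neg_distrib, Real.exp_sum]
  exact Finset.prod_congr rfl fun q _ => sub_sub_cancel _ _

theorem Pb_hit_pq (L : ℝ) (ν : I → ℝ) (C : Finset I) :
    Pb (pq L ν) (Hit C) = 1 - Real.exp (-((∑ q ∈ C, ν q) / Qt L)) := by
  rw [← Pb_not_hit_pq, Pb_not, sub_sub_cancel]

theorem level1_round {L h : ℝ} (hL : 2 ≤ L) (hh : 8 * L * h ≤ 1) {w g z : Eu n}
    (hz : ‖z‖ ≤ 2) (hg : ‖w - g‖ ≤ h) : |⟪w, z⟫ - ⟪g, z⟫| ≤ 1 / L / 4 := by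
  rw [← inner_sub_left]
  have h2 : ‖w - g‖ * ‖z‖ ≤ h * 2 := mul_le_mul hg hz (norm_nonneg _) ((norm_nonneg _).trans hg)
  refine (abs_real_inner_le_norm _ _).trans (h2.trans ?_)
  rw [div_div, le_div_iff₀ (by linarith)]
  linarith

theorem level1_exp {x : ℝ} (h0 : 0 ≤ x) (h1 : x ≤ 1) : x / 2 ≤ 1 - Real.exp (-x) := by
  have h2 := Real.add_one_le_exp x
  have h3 : Real.exp (-x) ≤ 1 - x / 2 := by
    rw [Real.exp_neg, inv_le_iff_one_le_mul₀ (Real.exp_pos x)]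
    nlinarith [mul_le_mul_of_nonneg_left h2 (show 0 ≤ 1 - x / 2 by linarith)]
  linarith

theorem level1_hit {h L t u : ℝ} (hD : Disc n h pts ν) (Z : Finset (Eu n)) {z₀ : Eu n}
    (hz : z₀ ≠ 0) (hL : 2 ≤ L) (ht0 : 0 ≤ t) (hZ : 4 * Z.card * Real.exp (-t ^ 2 / 2) ≤ 1)
    (herr : 16 * n * Real.exp (-(n : ℝ) ^ 2 / 2) ≤ Real.exp (-(2 * L ^ 2)) * Qt L)
    (hu : 0 ≤ u) (huL : u ≤ L) :
    ∃ S : Finset I, Real.exp (-(2 * L * u)) ≤ 16 * Pb (pq L ν) (Hit S) ∧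
      ∀ q ∈ S, ∃ g ∈ reg Z z₀ L u t, ‖pts q - g‖ ≤ h := by
  classical
  refine ⟨Finset.univ.filter fun q => ∃ g ∈ reg Z z₀ L u t, ‖pts q - g‖ ≤ h, ?_,
    fun q hq => (Finset.mem_filter.mp hq).2⟩
  set S := Finset.univ.filter fun q => ∃ g ∈ reg Z z₀ L u t, ‖pts q - g‖ ≤ h
  have h1 := hD.lower _ S (measurableSet_reg Z z₀ L u t) fun g hg q hq =>
    Finset.mem_filter.mpr ⟨Finset.mem_univ _, g, hg, hq⟩
  have h2 := le_reg hz hL hu huL ht0 hZ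
  have hQ := Qt_pos L
  have h3 : Real.exp (-(2 * L ^ 2)) * Qt L ≤ Real.exp (-(2 * L * u)) * Qt L :=
    mul_le_mul_of_nonneg_right (Real.exp_le_exp.mpr (by nlinarith)) hQ.le
  have h4 : Real.exp (-(2 * L * u)) / 8 ≤ (∑ q ∈ S, ν q) / Qt L := by
    rw [le_div_iff₀ hQ]
    linarith
  have h5 : Real.exp (-(2 * L * u)) ≤ 1 := Real.exp_le_one_iff.mpr (by nlinarith)
  have h6 := level1_exp (x := Real.exp (-(2 * L * u)) / 8) (by positivity) (by linarith)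
  have h7 := Real.exp_le_exp.mpr (neg_le_neg h4)
  rw [Pb_hit_pq]
  linarith

open Classical in
/-- normals cutting `x` whose cut set has diameter at most `a` -/
def level1_Cl (pts : I → Eu n) (L : ℝ) {X : Type} (R : Finset X) (z : X → Eu n) (a : ℝ) (x : X) :
    Finset I :=
  Finset.univ.filter fun q => L + 1 / (2 * L) ≤ ⟪pts q, z x⟫ ∧ ∀ x₁ ∈ R, ∀ x₂ ∈ R,
    L + 1 / (2 * L) ≤ ⟪pts q, z x₁⟫ → L + 1 / (2 * L) ≤ ⟪pts q, z x₂⟫ → ‖z x₁ - z x₂‖ ≤ a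

omit [DecidableEq I] in
theorem level1_mem {L a : ℝ} {X : Type} {R : Finset X} {z : X → Eu n} {x : X} {q : I} :
    q ∈ level1_Cl pts L R z a x ↔ L + 1 / (2 * L) ≤ ⟪pts q, z x⟫ ∧ ∀ x₁ ∈ R, ∀ x₂ ∈ R,
      L + 1 / (2 * L) ≤ ⟪pts q, z x₁⟫ → L + 1 / (2 * L) ≤ ⟪pts q, z x₂⟫ → ‖z x₁ - z x₂‖ ≤ a := by
  simp only [level1_Cl, Finset.mem_filter, Finset.mem_univ, true_and]

omit [DecidableEq I] in
theorem level1_mono {L a b : ℝ} {X : Type} {R : Finset X} {z : X → Eu n} (hab : a ≤ b) (x : X) :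
    level1_Cl pts L R z a x ⊆ level1_Cl pts L R z b x := fun _ hq =>
  level1_mem.mpr ⟨(level1_mem.mp hq).1, fun x₁ h₁ x₂ h₂ k₁ k₂ =>
    ((level1_mem.mp hq).2 x₁ h₁ x₂ h₂ k₁ k₂).trans hab⟩

open Classical in
theorem level1_core {h L a t σ η u : ℝ} (hD : Disc n h pts ν) {X : Type} (R : Finset X)
    (z : X → Eu n) (hz : ∀ x ∈ R, 1 - σ ≤ ‖z x‖ ∧ ‖z x‖ ≤ 1 + η) (hL : 2 ≤ L) (hη : 0 ≤ η)
    (hησ : η ≤ σ) (ha0 : 0 ≤ a) (hσ : σ ≤ a ^ 2) (ha : a ≤ 1 / 4) (ht0 : 0 ≤ t)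
    (ht : t ≤ L * a) (hLa : 1 ≤ L * a) (hR : 4 * R.card * Real.exp (-t ^ 2 / 2) ≤ 1)
    (hh : 8 * L * h ≤ 1)
    (herr : 16 * n * Real.exp (-(n : ℝ) ^ 2 / 2) ≤ Real.exp (-(2 * L ^ 2)) * Qt L)
    {x₀ : X} (hx₀ : x₀ ∈ R) (hu0 : 0 ≤ u) (hu : u ≤ 8 * L * a ^ 2) :
    ∃ S : Finset I, Real.exp (-(2 * L * u)) ≤ 16 * Pb (pq L ν) (Hit S) ∧
      ∀ x ∈ R, (∀ g ∈ reg (R.image z) (z x₀) L u t, L + 1 / L ≤ ⟪g, z x⟫) →
        S ⊆ level1_Cl pts L R z (24 * a) x := by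
  have ha2 : a ^ 2 ≤ 1 / 16 := by nlinarith
  have hz0 : z x₀ ≠ 0 := norm_pos_iff.mp (by linarith [(hz x₀ hx₀).1])
  have hc : ((R.image z).card : ℝ) ≤ R.card := by exact_mod_cast Finset.card_image_le
  obtain ⟨S, h1, h2⟩ := level1_hit hD (R.image z) hz0 hL ht0 (le_trans (by gcongr) hR) herr hu0
    (by nlinarith)
  have hn2 : ∀ x ∈ R, ‖z x‖ ≤ 2 := fun x hx => by linarith [(hz x hx).2]
  have e : 1 / (2 * L) = 1 / L / 2 := by rw [div_div, mul_comm]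
  have hL' : 0 < 1 / L := by positivity
  refine ⟨S, h1, fun x hx hcut q hq => ?_⟩
  obtain ⟨g, hg, hq⟩ := h2 q hq
  have near : ∀ x₁ ∈ R, L + 1 / (2 * L) ≤ ⟪pts q, z x₁⟫ → ‖z x₁ - z x₀‖ ≤ 12 * a :=
    fun x₁ h₁ k₁ => by
      have := (abs_le.mp (level1_round hL hh (hn2 x₁ h₁) hq)).2
      exact reg_near hg (Finset.mem_image_of_mem z h₁) (by linarith) (by linarith) ht0 hu0
        (hz x₀ hx₀).1 (hz x₀ hx₀).2 (hz x₁ h₁).2 hη hησ ha0 hσ ha ht hLa hu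
  refine level1_mem.mpr ⟨?_, fun x₁ h₁ x₂ h₂ k₁ k₂ => ?_⟩
  · have := (abs_le.mp (level1_round hL hh (hn2 x hx) hq)).1
    linarith [hcut g hg]
  · have := norm_sub_le_norm_sub_add_norm_sub (z x₁) (z x₀) (z x₂)
    rw [norm_sub_rev (z x₀)] at this
    linarith [near x₁ h₁ k₁, near x₂ h₂ k₂]

theorem level1_inv {L a : ℝ} (hL : 2 ≤ L) (hLa : 1 ≤ L * a) : 1 / L ≤ L * a ^ 2 := by
  rw [div_le_iff₀ (by linarith)]
  nlinarith

theorem level_one {h L a₀ t σ η T : ℝ} {J : ℕ} (hD : Disc n h pts ν) {X : Type} (R : Finset X)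
    (z : X → Eu n) (hz : ∀ x ∈ R, 1 - σ ≤ ‖z x‖ ∧ ‖z x‖ ≤ 1 + η) (hL : 2 ≤ L) (hη : 0 ≤ η)
    (hησ : η ≤ σ) (hσ : σ ≤ a₀ ^ 2) (hJ : 1 ≤ J) (haJ : 24 ^ J * a₀ ≤ 1 / 4) (ht0 : 0 ≤ t)
    (ht : t ≤ L * a₀) (hLa : 1 ≤ L * a₀) (hR : 4 * R.card * Real.exp (-t ^ 2 / 2) ≤ 1)
    (hh : 8 * L * h ≤ 1)
    (herr : 16 * n * Real.exp (-(n : ℝ) ^ 2 / 2) ≤ Real.exp (-(2 * L ^ 2)) * Qt L)
    (hT : ∑ x ∈ R, (4 * L ^ 2 * max 0 (1 - ‖z x‖) + 7) ≤ T) :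
    ∃ C C' : X → Finset I, (∀ x ∈ R, C x ⊆ C' x) ∧
      (∀ x ∈ R, ∀ q ∈ C' x, L + 1 / (2 * L) ≤ ⟪pts q, z x⟫) ∧
      (∀ q ∈ R.biUnion C, ∃ S : Finset I, (∀ x ∈ R, q ∈ C x → S ⊆ C' x) ∧
        1 ≤ 16 * Real.exp (16 * L ^ 2 * (24 ^ J * a₀) ^ 2) * Pb (pq L ν) (Hit S)) ∧
      Pb (pq L ν) (All R C') ≤ Real.exp (T / J) * Pb (pq L ν) (All R C) ∧
      Real.exp (-T) ≤ Pb (pq L ν) (All R C) := by
  classical
  have hp := pq_mem hD.nonneg L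
  have ha₀ : 0 < a₀ := (mul_pos_iff_of_pos_left (by linarith)).mp (lt_of_lt_of_le one_pos hLa)
  have ha1 : a₀ ≤ 1 / 4 :=
    le_trans (le_mul_of_one_le_left ha₀.le (one_le_pow₀ (by norm_num))) haJ
  have hL' : 0 < 1 / L := by positivity
  have hL0 : 0 ≤ L := by linarith
  let f : ℕ → ℝ := fun j => Pb (pq L ν) (All R (level1_Cl pts L R z (24 ^ (j + 1) * a₀)))
  have hge : ∀ j : ℕ, a₀ ≤ 24 ^ j * a₀ := fun j =>
    le_mul_of_one_le_left ha₀.le (one_le_pow₀ (by norm_num))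
  have h0 : ∀ j, Real.exp (-T) ≤ f j := fun j => by
    refine le_trans ?_ (prod_le_all hp R _)
    refine (Real.exp_le_exp.mpr (neg_le_neg hT)).trans ?_
    rw [← Finset.sum_neg_distrib, Real.exp_sum]
    refine Finset.prod_le_prod (fun x _ => (Real.exp_pos _).le) fun x hx => ?_
    have m0 : 0 ≤ max 0 (1 - ‖z x‖) := le_max_left _ _
    have m1 : max 0 (1 - ‖z x‖) ≤ a₀ ^ 2 := max_le (sq_nonneg _) (by linarith [(hz x hx).1])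
    have hu0 : 0 ≤ 2 * (L * max 0 (1 - ‖z x‖) + 1 / L) := by positivity
    obtain ⟨S, h1, h2⟩ := level1_core hD R z hz hL hη hησ ha₀.le hσ ha1 ht0 ht hLa hR hh herr hx hu0
      (by linarith [level1_inv hL hLa, mul_le_mul_of_nonneg_left m1 hL0,
        mul_nonneg hL0 (sq_nonneg a₀)])
    have h3 := (h2 x hx fun g hg => reg_self hg hL0 (by linarith [(hz x hx).1, pow_le_pow_left₀ ha₀.le ha1 2])
      hu0 le_rfl).trans
      (level1_mono (b := 24 ^ (j + 1) * a₀) (by rw [pow_succ']; linarith [hge j]) x)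
    have h4 : Pb (pq L ν) (Hit S) ≤ Pb (pq L ν) (Hit (level1_Cl pts L R z (24 ^ (j + 1) * a₀) x)) :=
      Pb_mono hp fun ω ⟨q, hq, hq'⟩ => ⟨q, h3 hq, hq'⟩
    have e : -(2 * L * (2 * (L * max 0 (1 - ‖z x‖) + 1 / L))) =
        -(4 * L ^ 2 * max 0 (1 - ‖z x‖) + 7) + 3 := by field_simp; ring
    have h5 : (16 : ℝ) ≤ Real.exp 3 := by
      have := Real.exp_one_gt_d9
      rw [show (3 : ℝ) = 1 + 1 + 1 by norm_num, Real.exp_add, Real.exp_add]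
      nlinarith
    rw [e, Real.exp_add] at h1
    nlinarith [Real.exp_pos (-(4 * L ^ 2 * max 0 (1 - ‖z x‖) + 7))]
  obtain ⟨j, hj, hf⟩ : ∃ j < J, f (j + 1) ≤ Real.exp (T / J) * f j := by
    by_contra hne
    push Not at hne
    have key : ∀ j ≤ J, Real.exp (T / J) ^ j * Real.exp (-T) ≤ f j := fun j => by
      induction j with
      | zero => simpa using h0 0
      | succ j ih =>
        intro hj
        refine le_trans ?_ (hne j hj).le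
        rw [pow_succ', mul_assoc]
        exact mul_le_mul_of_nonneg_left (ih (by omega)) (Real.exp_pos _).le
    obtain ⟨j, rfl⟩ : ∃ j, J = j + 1 := ⟨J - 1, by omega⟩
    have h1 := (mul_le_mul_of_nonneg_left (key j (by omega)) (Real.exp_pos _).le).trans_lt
      ((hne j (by omega)).trans_le (Pb_le_one hp _))
    rw [← mul_assoc, ← pow_succ', ← Real.exp_nat_mul, ← Real.exp_add,
      mul_div_cancel₀ _ (by positivity), add_neg_cancel, Real.exp_zero] at h1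
    exact lt_irrefl _ h1
  set a : ℝ := 24 ^ (j + 1) * a₀ with ha
  have haa : a₀ ≤ a := hge _
  have haJ' : a ≤ 24 ^ J * a₀ :=
    mul_le_mul_of_nonneg_right (pow_le_pow_right₀ (by norm_num) hj) ha₀.le
  have e : (24 : ℝ) ^ (j + 1 + 1) * a₀ = 24 * a := by rw [ha]; ring
  refine ⟨level1_Cl pts L R z a, level1_Cl pts L R z (24 * a),
    fun x _ => level1_mono (by linarith) x, fun x _ q hq => (level1_mem.mp hq).1, fun q hq => ?_,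
    by simpa only [f, e] using hf, h0 j⟩
  obtain ⟨x₀, hx₀, hq₀⟩ := Finset.mem_biUnion.mp hq
  have ha0 : 0 ≤ a := by linarith
  have hσa : σ ≤ a ^ 2 := hσ.trans (by gcongr)
  have hLa' : L * a₀ ≤ L * a := by gcongr
  have hσ0 : 0 ≤ σ := hη.trans hησ
  have ha2 : a ^ 2 ≤ (1 / 4) ^ 2 := pow_le_pow_left₀ ha0 (haJ'.trans haJ) 2
  have hu0 : 0 ≤ 2 * (L * (σ + a ^ 2) + t * a + 1 / L) := by positivity
  have hu : 2 * (L * (σ + a ^ 2) + t * a + 1 / L) ≤ 8 * L * a ^ 2 := by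
    linarith [level1_inv hL (hLa.trans hLa'), mul_le_mul_of_nonneg_left hσa hL0,
      mul_le_mul_of_nonneg_right (ht.trans hLa') ha0]
  obtain ⟨S, h1, h2⟩ := level1_core hD R z hz hL hη hησ ha0 hσa (haJ'.trans haJ) ht0 (ht.trans hLa')
    (hLa.trans hLa') hR hh herr hx₀ hu0 hu
  refine ⟨S, fun x hx hqx => h2 x hx fun g hg => reg_cut hg (Finset.mem_image_of_mem z hx) hL0 ht0 hu0
    (hz x₀ hx₀).1 (hz x hx).1 hσ0 ((level1_mem.mp hqx).2 x hx x₀ hx₀ (level1_mem.mp hqx).1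
      (level1_mem.mp hq₀).1) (by linarith) le_rfl, ?_⟩
  have h3 : a ^ 2 ≤ (24 ^ J * a₀) ^ 2 := by gcongr
  have h4 : -(16 * L ^ 2 * (24 ^ J * a₀) ^ 2) ≤ -(2 * L * (2 * (L * (σ + a ^ 2) + t * a + 1 / L))) := by
    linarith [mul_le_mul_of_nonneg_left hu hL0, mul_le_mul_of_nonneg_left h3 (sq_nonneg L)]
  have h5 := mul_le_mul_of_nonneg_left ((Real.exp_le_exp.mpr h4).trans h1)
    (Real.exp_pos (16 * L ^ 2 * (24 ^ J * a₀) ^ 2)).le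
  rw [← Real.exp_add, add_neg_cancel, Real.exp_zero] at h5
  linarith

end Crest.Agent.R225
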