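import Crest.Agent.R225.Level1
import Crest.Agent.R225.Janson

/-!
# Row 225: Level2
All test points.  For `y ∈ Yg` apply `level_one` with `R = rel η X (yp y)`, `z x = yp y - x` (`R.card ≤ θ` since every cost is `≥ 1`, and
`4 L² m + 7 ≤ (4 L²/n + 7)(1 + n m)`), choose `C y`, `C' y`, and apply `janson` with `Bd = B`, `F = exp (T/J)`; `All R (C y) ω` implies `Cut`.
Let `cl δ y y'` mean `∃ x ∈ rel η X (yp y), ∃ x' ∈ rel η X (yp y'), ‖(yp y - x) - (yp y' - x')‖ ≤ δ` and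
`κ y y' = [cl s y y'] exp T + [cl α y y'] 3 F² + 2 F² B² θ² exp (-L²α²/16)`.
If `¬ cl δ y y'` and `s ≤ δ` then `∑ q ∈ Om y ∩ Om y', pq ≤ ∑ x, ∑ x', (∑ q ∈ C y x ∩ C y' x', ν q) / Qt L ≤ θ² exp (-L²δ²/16)`
(`pq_le`, `Disc.upper` with the set `{g | L < ⟪g,z⟫ ∧ L < ⟪g,z'⟫}`, `overlap`).  `exp x - 1 ≤ 2 x ≤ 2` on `[0,1]`.
`#{y | cl δ y y'} ≤ |X| θ (5δ)^n |Y|` by `Test.small` at the centres `x + (yp y' - x')`, `x ∈ X`, `x' ∈ rel η X (yp y')`, and `|Y| ≤ 2 |Yg|`.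
-/

set_option autoImplicit false

open MeasureTheory ProbabilityTheory Matrix Filter Topology
open scoped ENNReal RealInnerProductSpace

noncomputable section

namespace Crest.Agent.R225

theorem level2_sum_biUnion_le {A I : Type} [DecidableEq I] (s : Finset A) (t : A → Finset I)
    {f : I → ℝ} (hf : ∀ b, 0 ≤ f b) : ∑ b ∈ s.biUnion t, f b ≤ ∑ a ∈ s, ∑ b ∈ t a, f b := by
  classical
  induction s using Finset.induction_on with
  | empty => simp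
  | insert a s ha ih =>
    rw [Finset.biUnion_insert, Finset.sum_insert ha]
    have h1 := Finset.sum_union_inter (s₁ := t a) (s₂ := s.biUnion t) (f := f)
    have h2 : 0 ≤ ∑ b ∈ t a ∩ s.biUnion t, f b := Finset.sum_nonneg fun b _ => hf b
    linarith

theorem level2_card_le {n : ℕ} {η σ θ : ℝ} {X : Finset (Eu n)} {y : Eu n} (h : Good η σ θ X y) :
    ((rel η X y).card : ℝ) ≤ θ := by
  refine le_trans ?_ h.2
  rw [Finset.card_eq_sum_ones, Nat.cast_sum]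
  refine Finset.sum_le_sum fun x _ => ?_
  have : 0 ≤ (n : ℝ) * max 0 (1 - ‖y - x‖) := by positivity
  simpa using this

theorem level2_exp_le {x : ℝ} (h0 : 0 ≤ x) (h1 : x ≤ 1) : Real.exp x - 1 ≤ 2 * x := by
  have := Real.abs_exp_sub_one_le (x := x) (by rwa [abs_of_nonneg h0])
  rw [abs_of_nonneg h0] at this
  exact (le_abs_self _).trans this

theorem level2_cut {n : ℕ} {L h : ℝ} (hL : 2 ≤ L) (hh : 8 * L * h ≤ 1) {w g z : Eu n}
    (hz : ‖z‖ ≤ 2) (hw : L + 1 / (2 * L) ≤ ⟪w, z⟫) (hg : ‖w - g‖ ≤ h) : L < ⟪g, z⟫ := by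
  have h1 : ⟪w - g, z⟫ ≤ ‖w - g‖ * ‖z‖ := real_inner_le_norm _ _
  have h2 : ‖w - g‖ * ‖z‖ ≤ h * 2 := mul_le_mul hg hz (norm_nonneg _) ((norm_nonneg _).trans hg)
  rw [inner_sub_left] at h1
  have h3 : h * 2 < 1 / (2 * L) := by
    rw [lt_div_iff₀ (by linarith)]
    nlinarith
  linarith

theorem level2_overlap {n : ℕ} {I : Type} [Fintype I] [DecidableEq I] {pts : I → Eu n}
    {ν : I → ℝ} {h L η θ δ : ℝ} (hD : Disc n h pts ν) (hL : 2 ≤ L) (hh : 8 * L * h ≤ 1)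
    (hQ : 0 < Qt L) (hη : 0 ≤ η) (hη1 : η ≤ 1) (hδ0 : 0 ≤ δ) (hηδ : 24 * η ≤ δ ^ 2)
    {X : Type} (R R' : Finset X) (z z' : X → Eu n) (C C' : X → Finset I)
    (hR : (R.card : ℝ) ≤ θ) (hR' : (R'.card : ℝ) ≤ θ)
    (hz : ∀ x ∈ R, ‖z x‖ ≤ 1 + η) (hz' : ∀ x ∈ R', ‖z' x‖ ≤ 1 + η)
    (hC : ∀ x ∈ R, ∀ q ∈ C x, L + 1 / (2 * L) ≤ ⟪pts q, z x⟫)
    (hC' : ∀ x ∈ R', ∀ q ∈ C' x, L + 1 / (2 * L) ≤ ⟪pts q, z' x⟫)
    (hfar : ∀ x ∈ R, ∀ x' ∈ R', δ ≤ ‖z x - z' x'‖) :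
    ∑ q ∈ R.biUnion C ∩ R'.biUnion C', pq L ν q ≤ θ ^ 2 * Real.exp (-(L ^ 2 * δ ^ 2 / 16)) := by
  have hp : ∀ q, 0 ≤ pq L ν q := fun q => (pq_mem hD.nonneg L q).1
  have h1 : R.biUnion C ∩ R'.biUnion C' ⊆ (R ×ˢ R').biUnion fun w => C w.1 ∩ C' w.2 := by
    intro q hq
    simp only [Finset.mem_inter, Finset.mem_biUnion, Finset.mem_product] at hq ⊢
    obtain ⟨⟨x, hx, hq⟩, x', hx', hq'⟩ := hq
    exact ⟨(x, x'), ⟨hx, hx'⟩, hq, hq'⟩
  have h2 : ∀ w ∈ R ×ˢ R', ∑ q ∈ C w.1 ∩ C' w.2, pq L ν q ≤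
      Real.exp (-(L ^ 2 * δ ^ 2 / 16)) := fun w hw => by
    obtain ⟨hx, hx'⟩ := Finset.mem_product.mp hw
    have h3 := hD.upper {g | L < ⟪g, z w.1⟫ ∧ L < ⟪g, z' w.2⟫} (C w.1 ∩ C' w.2)
      (MeasurableSet.inter (s₁ := {g | L < ⟪g, z w.1⟫}) (s₂ := {g | L < ⟪g, z' w.2⟫})
        (measurableSet_lt measurable_const (by fun_prop))
        (measurableSet_lt measurable_const (by fun_prop))) fun q hq g hg =>
        ⟨level2_cut hL hh ((hz _ hx).trans (by linarith)) (hC _ hx q (Finset.mem_inter.mp hq).1) hg,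
          level2_cut hL hh ((hz' _ hx').trans (by linarith))
            (hC' _ hx' q (Finset.mem_inter.mp hq).2) hg⟩
    have h4 := overlap (L := L) (by linarith) (hz _ hx) (hz' _ hx') hη hη1 hδ0 (hfar _ hx _ hx') hηδ
    refine (Finset.sum_le_sum fun q _ => pq_le L ν q).trans ?_
    rw [← Finset.sum_div, div_le_iff₀ hQ]
    exact h3.trans h4
  refine (Finset.sum_le_sum_of_subset_of_nonneg h1 fun q _ _ => hp q).trans
    ((level2_sum_biUnion_le _ _ hp).trans ((Finset.sum_le_sum h2).trans ?_))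
  rw [Finset.sum_const, nsmul_eq_mul, Finset.card_product, Nat.cast_mul, sq θ]
  have : (0 : ℝ) ≤ θ := (Nat.cast_nonneg _).trans hR
  gcongr

/-- two test points see some centres at nearby relative positions -/
def level2_cl {n : ℕ} (η : ℝ) (X : Finset (Eu n)) (δ : ℝ) (y y' : Eu n) : Prop :=
  ∃ x ∈ rel η X y, ∃ x' ∈ rel η X y', ‖(y - x) - (y' - x')‖ ≤ δ

open Classical in
theorem level2_count {n : ℕ} {Y : Type} [Fintype Y] {yp : Y → Eu n} (hY : Test n yp)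
    (X : Finset (Eu n)) (Yg : Finset Y) (hYg : Fintype.card Y ≤ 2 * Yg.card) {η θ δ : ℝ}
    (hδ : 1 / (n : ℝ) ≤ δ) (y' : Eu n) (hθ : ((rel η X y').card : ℝ) ≤ θ) :
    ((Yg.filter fun y => level2_cl η X δ (yp y) y').card : ℝ) ≤
      2 * X.card * θ * (5 * δ) ^ n * Yg.card := by
  have hδ0 : 0 ≤ δ := le_trans (by positivity) hδ
  have h1 : (Yg.filter fun y => level2_cl η X δ (yp y) y') ⊆ (X ×ˢ rel η X y').biUnion fun w =>
      Finset.univ.filter fun y => ‖yp y - (w.1 + (y' - w.2))‖ ≤ δ := by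
    intro y hy
    obtain ⟨x, hx, x', hx', hd⟩ := (Finset.mem_filter.mp hy).2
    refine Finset.mem_biUnion.mpr ⟨(x, x'),
      Finset.mem_product.mpr ⟨(Finset.mem_filter.mp hx).1, hx'⟩,
      Finset.mem_filter.mpr ⟨Finset.mem_univ _, ?_⟩⟩
    rwa [← sub_sub]
  have h2 := (Finset.card_le_card h1).trans Finset.card_biUnion_le
  have h3 : (Fintype.card Y : ℝ) ≤ 2 * Yg.card := by exact_mod_cast hYg
  calc _ ≤ ((∑ w ∈ X ×ˢ rel η X y', (Finset.univ.filter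
        fun y => ‖yp y - (w.1 + (y' - w.2))‖ ≤ δ).card : ℕ) : ℝ) := by exact_mod_cast h2
    _ ≤ ∑ _w ∈ X ×ˢ rel η X y', (5 * δ) ^ n * Fintype.card Y := by
        rw [Nat.cast_sum]
        exact Finset.sum_le_sum fun w _ => hY.small _ δ hδ
    _ = X.card * (rel η X y').card * ((5 * δ) ^ n * Fintype.card Y) := by
        rw [Finset.sum_const, nsmul_eq_mul, Finset.card_product, Nat.cast_mul]
    _ ≤ X.card * θ * ((5 * δ) ^ n * (2 * Yg.card)) := by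
        have : (0 : ℝ) ≤ θ := (Nat.cast_nonneg _).trans hθ
        gcongr
    _ = _ := by ring

theorem level_two {n : ℕ} (hn : 1 ≤ n) {I : Type} [Fintype I] [DecidableEq I] {pts : I → Eu n}
    {ν : I → ℝ} {h L a₀ t σ η θ T B s α κ₀ : ℝ} {J : ℕ} (hD : Disc n h pts ν) {Y : Type} [Fintype Y]
    [Nonempty Y] {yp : Y → Eu n} (hY : Test n yp) (X : Finset (Eu n)) (Yg : Finset Y)
    (hYg : Fintype.card Y ≤ 2 * Yg.card) (hG : ∀ y ∈ Yg, Good η σ θ X (yp y)) (hL : 2 ≤ L)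
    (hη : 0 ≤ η) (hησ : η ≤ σ) (hσ : σ ≤ a₀ ^ 2) (hJ : 1 ≤ J) (haJ : 24 ^ J * a₀ ≤ 1 / 4)
    (ht0 : 0 ≤ t) (ht : t ≤ L * a₀) (hLa : 1 ≤ L * a₀) (hR : 4 * θ * Real.exp (-t ^ 2 / 2) ≤ 1)
    (hh : 8 * L * h ≤ 1)
    (herr : 16 * n * Real.exp (-(n : ℝ) ^ 2 / 2) ≤ Real.exp (-(2 * L ^ 2)) * Qt L)
    (hT : (4 * L ^ 2 / n + 7) * θ ≤ T) (hB : B = 16 * Real.exp (16 * L ^ 2 * (24 ^ J * a₀) ^ 2))
    (hs : 1 / (n : ℝ) ≤ s) (hsα : s ≤ α) (hηs : 24 * η ≤ s ^ 2)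
    (h1 : B ^ 2 * θ ^ 2 * Real.exp (-(L ^ 2 * s ^ 2 / 16)) ≤ 1) (hκ₀ : 0 < κ₀)
    (h2 : 2 * X.card * θ * ((5 * s) ^ n * Real.exp T + (5 * α) ^ n * (3 * Real.exp (T / J) ^ 2)) +
      2 * Real.exp (T / J) ^ 2 * (B ^ 2 * θ ^ 2 * Real.exp (-(L ^ 2 * α ^ 2 / 16))) ≤ κ₀) :
    Pb (pq L ν) (fun ω => ∀ y ∈ Yg, ¬Cut pts L η X (yp y) ω) ≤ Real.exp (-1 / (4 * κ₀)) := by
  classical
  have hn0 : (0 : ℝ) < n := by exact_mod_cast hn
  have hne : Yg.Nonempty := by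
    have := Fintype.card_pos (α := Y)
    exact Finset.card_pos.mp (by omega)
  have hp := pq_mem hD.nonneg L
  have hcard : ∀ y ∈ Yg, ((rel η X (yp y)).card : ℝ) ≤ θ := fun y hy => level2_card_le (hG y hy)
  have hup : ∀ y, ∀ x ∈ rel η X (yp y), ‖yp y - x‖ ≤ 1 + η := fun y x hx =>
    (Finset.mem_filter.mp hx).2
  have hQ : 0 < Qt L := 
    (mul_pos_iff_of_pos_left (Real.exp_pos _)).mp (lt_of_lt_of_le (by positivity) herr)
  have ha₀ : 0 < a₀ := (mul_pos_iff_of_pos_left (by linarith)).mp (lt_of_lt_of_le one_pos hLa)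
  have ha1 : a₀ ≤ 1 / 4 :=
    le_trans (le_mul_of_one_le_left ha₀.le (one_le_pow₀ (by norm_num))) haJ
  have hη1 : η ≤ 1 := by nlinarith
  have hs0 : 0 < s := lt_of_lt_of_le (by positivity) hs
  have key := fun y (hy : y ∈ Yg) => level_one (T := T) hD (rel η X (yp y)) (fun x => yp y - x)
    (fun x hx => ⟨(hG y hy).1 x hx, hup y x hx⟩) hL hη hησ hσ hJ haJ ht0 ht hLa
    (le_trans (by have := hcard y hy; gcongr) hR) hh herr (by
      refine le_trans ?_ ((mul_le_mul_of_nonneg_left (hG y hy).2 (by positivity)).trans hT)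
      rw [Finset.mul_sum]
      refine Finset.sum_le_sum fun x _ => ?_
      have h0 : 0 ≤ max 0 (1 - ‖yp y - x‖) := le_max_left _ _
      have e : (4 * L ^ 2 / n + 7) * (1 + n * max 0 (1 - ‖yp y - x‖)) =
          4 * L ^ 2 * max 0 (1 - ‖yp y - x‖) + 7 +
            (4 * L ^ 2 / n + 7 * n * max 0 (1 - ‖yp y - x‖)) := by field_simp; ring
      rw [e]
      exact le_add_of_nonneg_right (by positivity))
  choose! C C' k1 k2 k3 k4 k5 using key
  rw [← hB] at k3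
  have hB1 : 1 ≤ B := by
    have := Real.one_le_exp (x := 16 * L ^ 2 * (24 ^ J * a₀) ^ 2) (by positivity)
    linarith
  set F := Real.exp (T / J) with hF
  have hov : ∀ δ, s ≤ δ → ∀ y ∈ Yg, ∀ y' ∈ Yg, ¬level2_cl η X δ (yp y) (yp y') →
      B ^ 2 * ∑ q ∈ (rel η X (yp y)).biUnion (C y) ∩ (rel η X (yp y')).biUnion (C y'), pq L ν q ≤
        B ^ 2 * θ ^ 2 * Real.exp (-(L ^ 2 * δ ^ 2 / 16)) := fun δ hδ y hy y' hy' hcl => by
    rw [mul_assoc]
    refine mul_le_mul_of_nonneg_left (level2_overlap hD hL hh hQ hη hη1 (hs0.le.trans hδ)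
      (hηs.trans (by gcongr)) _ _ (fun x => yp y - x) (fun x => yp y' - x) _ _ (hcard y hy)
      (hcard y' hy') (hup y) (hup y') (fun x hx q hq => k2 y hy x hx q (k1 y hy x hx hq))
      (fun x hx q hq => k2 y' hy' x hx q (k1 y' hy' x hx hq)) fun x hx x' hx' => ?_) (by positivity)
    by_contra hlt
    exact hcl ⟨x, hx, x', hx', (not_le.mp hlt).le⟩
  refine le_trans (Pb_mono hp fun ω hω y hy hA => hω y hy fun x hx => ?_)
    (janson hp Yg hne (fun y => rel η X (yp y)) C C' (F := F)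
      (fun y y' => (if level2_cl η X s (yp y) (yp y') then Real.exp T else 0) +
        (if level2_cl η X α (yp y) (yp y') then 3 * F ^ 2 else 0) +
        2 * F ^ 2 * (B ^ 2 * θ ^ 2 * Real.exp (-(L ^ 2 * α ^ 2 / 16)))) hB1 hκ₀ k1 k3 k4
      (fun y hy => (Real.exp_pos _).trans_le (k5 y hy)) (fun y hy y' hy' => ?_) fun y' hy' => ?_)
  · obtain ⟨q, hq, hq'⟩ := hA x hx
    exact ⟨q, hq', k2 y hy x hx q (k1 y hy x hx hq)⟩
  · have e0 : 0 ≤ 2 * F ^ 2 * (B ^ 2 * θ ^ 2 * Real.exp (-(L ^ 2 * α ^ 2 / 16))) := by positivity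
    have e1 : 0 ≤ if level2_cl η X α (yp y) (yp y') then 3 * F ^ 2 else 0 := by
      split_ifs <;> positivity
    by_cases c1 : level2_cl η X s (yp y) (yp y')
    · left
      rw [if_pos c1]
      calc (1 : ℝ) = Real.exp T * Real.exp (-T) := by rw [← Real.exp_add]; simp
        _ ≤ _ := mul_le_mul (by linarith) (k5 y' hy') (Real.exp_pos _).le
          (by have := Real.exp_pos T; linarith)
    · right
      have e2 := (hov s le_rfl y hy y' hy' c1).trans h1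
      have e3 := level2_exp_le (mul_nonneg (sq_nonneg B) (Finset.sum_nonneg fun q _ => (hp q).1)) e2
      have e4 := mul_le_mul_of_nonneg_left e3 (sq_nonneg F)
      rw [if_neg c1, zero_add]
      split_ifs with c2
      · have e5 := mul_le_mul_of_nonneg_left e2 (sq_nonneg F)
        have := sq_nonneg F
        linarith
      · have e5 := mul_le_mul_of_nonneg_left (hov α hsα y hy y' hy' c2) (sq_nonneg F)
        linarith
  · simp only [Finset.sum_add_distrib, ← Finset.sum_filter, Finset.sum_const, nsmul_eq_mul]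
    have e1 := mul_le_mul_of_nonneg_right (level2_count hY X Yg hYg hs (yp y') (hcard y' hy'))
      (Real.exp_pos T).le
    have e2 := mul_le_mul_of_nonneg_right
      (level2_count hY X Yg hYg (hs.trans hsα) (yp y') (hcard y' hy'))
      (show 0 ≤ 3 * F ^ 2 by positivity)
    have e3 := mul_le_mul_of_nonneg_right h2 (Nat.cast_nonneg (α := ℝ) Yg.card)
    linarith

end Crest.Agent.R225
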