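import Crest.Agent.R225.Defs

/-!
# Row 225: Window
Averaging over windows.

`window`: for `n = 0` or in general: let `Q R = {x | ∀ i, |x i| ≤ R}` (volume `(2R)^n`: preimage of a box under the volume preserving `WithLp.ofLp`,
`PiLp.volume_preserving_ofLp`, `Real.volume_Icc_pi`).  Take `R` large with `count (R+3) ≤ ρ (2(R+3))^n ≤ 2 ρ (2R)^n`.  With `T₀ = X ∩ Q (R+3)` (finite),
`∫ w in Q R, ∑ x ∈ T₀, F (x - w) ≤ |T₀| ∫ F` (`integral_sub_left_eq_self`); `exists_le_setAverage`.  For `w ∈ Q R` and `x ∈ X \ T₀` one has `3 < ‖x - w‖`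
(`PiLp.norm_apply_le`).

`conf`.  Let `η = 1/n³`, `σ = 3 log n/n`, `b = vol (closedBall 0 1) > 0`, `vol (closedBall c r) = r^n b` (`Measure.addHaar_real_closedBall` or `addHaar_closedBall`).
`F₁ v = 1[‖v‖ ≤ 2]`, `F₂ v = avg_y 1[‖yp y - v‖ ≤ 1 - σ + η]`, `F₃ v = avg_y (1[‖yp y - v‖ ≤ 1 + 2η] + ∑ k < n + 1, 1[‖yp y - v‖ ≤ 1 + η - k/n])`,
with `∫ F₁ = 2^n b`, `∫ F₂ ≤ exp (n (η - σ)) b ≤ 2 b / n³`, `∫ F₃ ≤ exp (2 n η) (1 + ∑ k, e^(-k)) b ≤ 3 b`.  Apply `window` to `F₁/(2^n b) + F₂ n³/(2b) + F₃/(3b)`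
and `T = X ∩ closedBall w 2`; `X'` is the image of `T` under `x ↦` (the net point near `x - w`).  So `|X'| ≤ 6 θ 2^n`, at most a quarter of the `y` have a deep centre
(`12 θ/n³ ≤ 1/4`), and (Markov) at most a quarter have cost `> 72 θ`: for `x'` within `η` of `v = x - w` and `‖yp y - x'‖ ≤ 1 + η` the cost
`1 + n max 0 (1 - ‖yp y - x'‖)` is at most the `y`-th term of `F₃ v` (`n (1 + η - r) ≤ #{k ≤ n | r ≤ 1 + η - k/n}` for `r ≥ 0`).
-/

set_option autoImplicit false

open MeasureTheory ProbabilityTheory Matrix Filter Topology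
open scoped ENNReal RealInnerProductSpace

noncomputable section

namespace Crest.Agent.R225

lemma window_vol (n : ℕ) {R : ℝ} (hR : 0 ≤ R) :
    volume {x : Eu n | ∀ i, |x i| ≤ R} = ENNReal.ofReal ((2 * R) ^ n) := by
  have h : {x : Eu n | ∀ i, |x i| ≤ R} =
      (WithLp.ofLp : Eu n → Fin n → ℝ) ⁻¹' Set.Icc (fun _ => -R) (fun _ => R) := by
    ext x
    simp only [Set.mem_ofPred_eq, Set.mem_preimage, Set.mem_Icc, Pi.le_def, abs_le, forall_and]
  rw [h, (PiLp.volume_preserving_ofLp (Fin n)).measure_preimage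
    measurableSet_Icc.nullMeasurableSet, Real.volume_Icc_pi]
  simp only [sub_neg_eq_add, Finset.prod_const, Finset.card_univ, Fintype.card_fin]
  rw [← ENNReal.ofReal_pow (by linarith), two_mul]

lemma window_ev (n : ℕ) : ∀ᶠ R : ℝ in atTop, (2 * (R + 3)) ^ n ≤ 2 * (2 * R) ^ n := by
  have h : Tendsto (fun R : ℝ => (1 + 3 * R⁻¹) ^ n) atTop (𝓝 ((1 + 3 * 0) ^ n)) :=
    ((tendsto_inv_atTop_zero.const_mul 3).const_add 1).pow n
  have h2 := h.eventually (eventually_le_nhds (show ((1 : ℝ) + 3 * 0) ^ n < 2 by simp))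
  filter_upwards [h2, eventually_gt_atTop 0] with R hR hR0
  have : 2 * (R + 3) = (1 + 3 * R⁻¹) * (2 * R) := by field_simp
  rw [this, mul_pow]
  gcongr

theorem window {n : ℕ} (X : Set (Eu n)) (hfin : ∀ R : ℝ, (X ∩ {x | ∀ i, |x i| ≤ R}).Finite) {ρ : ℝ}
    (hρ : 0 ≤ ρ)
    (hX : ∀ᶠ R : ℝ in atTop, ((X ∩ {x | ∀ i, |x i| ≤ R}).ncard : ℝ) ≤ ρ * (2 * R) ^ n)
    (F : Eu n → ℝ) (hF : Integrable F) (hF0 : ∀ v, 0 ≤ F v) (hs : ∀ v, 3 < ‖v‖ → F v = 0) :
    ∃ w : Eu n, ∀ T : Finset (Eu n), (T : Set (Eu n)) ⊆ X →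
      ∑ x ∈ T, F (x - w) ≤ 2 * ρ * ∫ v, F v := by
  classical
  obtain ⟨R, hR1, hR2, hR0⟩ := (((tendsto_atTop_add_const_right atTop (3 : ℝ)
    tendsto_id).eventually hX).and ((window_ev n).and (eventually_gt_atTop 0))).exists
  simp only [id] at hR1
  set Q : Set (Eu n) := {x | ∀ i, |x i| ≤ R} with hQ
  have hv : volume Q = ENNReal.ofReal ((2 * R) ^ n) := window_vol n hR0.le
  have hp : 0 < (2 * R) ^ n := by positivity
  set T₀ := (hfin (R + 3)).toFinset with hT₀
  have hc : (T₀.card : ℝ) ≤ 2 * ρ * (2 * R) ^ n := by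
    rw [hT₀, ← Set.ncard_eq_toFinset_card _ (hfin (R + 3))]
    calc _ ≤ ρ * (2 * (R + 3)) ^ n := hR1
      _ ≤ ρ * (2 * (2 * R) ^ n) := by gcongr
      _ = _ := by ring
  have hI0 : 0 ≤ ∫ v, F v := integral_nonneg hF0
  have hi : ∀ x : Eu n, Integrable fun w => F (x - w) := fun x => hF.comp_sub_left x
  have hG : Integrable fun w => ∑ x ∈ T₀, F (x - w) := integrable_finsetSum _ fun x _ => hi x
  obtain ⟨w, hw, hle⟩ := exists_le_setAverage (μ := volume) (s := Q)
    (by rw [hv]; simpa using hp) (by rw [hv]; exact ENNReal.ofReal_ne_top) hG.integrableOn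
  refine ⟨w, fun T hT => ?_⟩
  have h1 : ∑ x ∈ T, F (x - w) ≤ ∑ x ∈ T₀, F (x - w) := by
    rw [← Finset.sum_filter_ne_zero T]
    refine Finset.sum_le_sum_of_subset_of_nonneg (fun x hx => ?_) fun x _ _ => hF0 _
    rw [Finset.mem_filter] at hx
    rw [hT₀, Set.Finite.mem_toFinset]
    refine ⟨hT hx.1, fun i => ?_⟩
    have h3 : ‖x - w‖ ≤ 3 := not_lt.1 fun h => hx.2 (hs _ h)
    have h4 : |x i - w i| ≤ 3 := by
      have := PiLp.norm_apply_le (x - w) i
      rw [PiLp.sub_apply, Real.norm_eq_abs] at this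
      exact this.trans h3
    have h5 := hw i
    calc |x i| = |(x i - w i) + w i| := by ring_nf
      _ ≤ |x i - w i| + |w i| := abs_add_le _ _
      _ ≤ R + 3 := by linarith
  refine h1.trans (hle.trans ?_)
  rw [setAverage_eq, Measure.real, hv, ENNReal.toReal_ofReal hp.le, smul_eq_mul,
    inv_mul_le_iff₀ hp]
  calc ∫ w in Q, ∑ x ∈ T₀, F (x - w) ≤ ∫ w, ∑ x ∈ T₀, F (x - w) :=
        setIntegral_le_integral hG
          (Eventually.of_forall fun w => Finset.sum_nonneg fun x _ => hF0 _)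
    _ = T₀.card * ∫ v, F v := by
        rw [integral_finsetSum _ fun x _ => hi x]
        simp only [integral_sub_left_eq_self, Finset.sum_const, nsmul_eq_mul]
    _ ≤ (2 * ρ * (2 * R) ^ n) * ∫ v, F v := by gcongr
    _ = _ := by ring

/-- indicator of a closed ball -/
def windowInd {n : ℕ} (c : Eu n) (r : ℝ) (v : Eu n) : ℝ := if ‖c - v‖ ≤ r then 1 else 0

lemma windowInd_eq {n : ℕ} (c : Eu n) (r : ℝ) :
    windowInd c r = (Metric.closedBall c r).indicator 1 := by
  classical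
  funext v
  simp only [windowInd, Set.indicator_apply, Metric.mem_closedBall, dist_eq_norm, Pi.one_apply,
    norm_sub_rev c v]

lemma windowInd_nonneg {n : ℕ} (c : Eu n) (r : ℝ) (v : Eu n) : 0 ≤ windowInd c r v := by
  unfold windowInd; split_ifs <;> norm_num

lemma windowInd_one {n : ℕ} {c : Eu n} {r : ℝ} {v : Eu n} (h : ‖c - v‖ ≤ r) :
    windowInd c r v = 1 := if_pos h

lemma windowInd_zero {n : ℕ} {c : Eu n} {r : ℝ} {v : Eu n} (hc : ‖c‖ + r ≤ 3) (h : 3 < ‖v‖) :
    windowInd c r v = 0 := by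
  refine if_neg fun h' => ?_
  have := norm_sub_norm_le v c
  rw [norm_sub_rev] at this
  linarith

lemma windowInd_int {n : ℕ} (c : Eu n) (r : ℝ) : Integrable (windowInd c r) := by
  rw [windowInd_eq, integrable_indicator_iff Metric.isClosed_closedBall.measurableSet]
  exact integrableOn_const (isCompact_closedBall c r).measure_lt_top.ne

lemma windowInd_integral {n : ℕ} (c : Eu n) {r : ℝ} (hr : 0 ≤ r) :
    ∫ v, windowInd c r v = r ^ n * volume.real (Metric.closedBall (0 : Eu n) 1) := by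
  rw [windowInd_eq, integral_indicator_one Metric.isClosed_closedBall.measurableSet,
    Measure.addHaar_real_closedBall' _ _ hr]
  simp

lemma windowInd_integral_le {n : ℕ} (c : Eu n) (r : ℝ) :
    ∫ v, windowInd c r v ≤
      Real.exp (n * (r - 1)) * volume.real (Metric.closedBall (0 : Eu n) 1) := by
  rcases le_or_gt 0 r with hr | hr
  · rw [windowInd_integral c hr, Real.exp_nat_mul]
    gcongr
    linarith [Real.add_one_le_exp (r - 1)]
  · rw [windowInd_eq, Metric.closedBall_eq_empty.2 hr]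
    simp only [Set.indicator_empty, integral_zero]
    positivity

lemma window_count {n : ℕ} {t : ℝ} (ht : t ≤ n + 1) :
    max 0 t ≤ ∑ k ∈ Finset.range (n + 1), if (k : ℝ) ≤ t then (1 : ℝ) else 0 := by
  have h0 : ∀ m : ℕ, min (max 0 t) m ≤
      ∑ k ∈ Finset.range m, if (k : ℝ) ≤ t then (1 : ℝ) else 0 := by
    intro m
    induction m with
    | zero => simp
    | succ m ih =>
      rw [Finset.sum_range_succ]
      split_ifs with h
      · push_cast
        rcases le_total (max 0 t) m with h' | h'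
        · rw [min_eq_left h'] at ih
          linarith [min_le_left (max 0 t) ((m : ℝ) + 1)]
        · rw [min_eq_right h'] at ih
          linarith [min_le_right (max 0 t) ((m : ℝ) + 1)]
      · have h' : max 0 t ≤ m := max_le (Nat.cast_nonneg _) (not_le.1 h).le
        rw [min_eq_left h'] at ih
        linarith [min_le_left (max 0 t) ((m + 1 : ℕ) : ℝ)]
  have := h0 (n + 1)
  rwa [min_eq_left (max_le (Nat.cast_nonneg _) (by push_cast; exact ht))] at this

lemma window_geom (m : ℕ) : ∑ k ∈ Finset.range m, Real.exp (-(k : ℝ)) ≤ 8 / 5 := by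
  have he : Real.exp (-1) ≤ 3 / 8 := by
    rw [Real.exp_neg, inv_le_comm₀ (Real.exp_pos _) (by norm_num)]
    linarith [Real.exp_one_gt_d9]
  have h : ∀ m : ℕ, ∑ k ∈ Finset.range m, Real.exp (-(k : ℝ)) ≤ 8 / 5 - 8 / 5 * Real.exp (-(m : ℝ)) := by
    intro m
    induction m with
    | zero => simp
    | succ m ih =>
      rw [Finset.sum_range_succ]
      have : Real.exp (-((m + 1 : ℕ) : ℝ)) = Real.exp (-(m : ℝ)) * Real.exp (-1) := by
        rw [← Real.exp_add]; push_cast; ring_nf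
      rw [this]
      nlinarith [Real.exp_pos (-(m : ℝ))]
  linarith [h m, Real.exp_pos (-(m : ℝ))]

/-- the cost majorant -/
def windowCost {n : ℕ} (η : ℝ) (c v : Eu n) : ℝ :=
  windowInd c (1 + 2 * η) v + ∑ k ∈ Finset.range (n + 1), windowInd c (1 + η - k / n) v

lemma windowCost_nonneg {n : ℕ} (η : ℝ) (c v : Eu n) : 0 ≤ windowCost η c v :=
  add_nonneg (windowInd_nonneg _ _ _) (Finset.sum_nonneg fun _ _ => windowInd_nonneg _ _ _)

lemma windowCost_int {n : ℕ} (η : ℝ) (c : Eu n) : Integrable (windowCost η c) :=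
  (windowInd_int _ _).add (integrable_finsetSum _ fun _ _ => windowInd_int _ _)

lemma windowCost_zero {n : ℕ} {η : ℝ} (hη0 : 0 ≤ η) (hη : η ≤ 1 / 2) {c v : Eu n} (hc : ‖c‖ ≤ 1)
    (h : 3 < ‖v‖) : windowCost η c v = 0 := by
  unfold windowCost
  rw [windowInd_zero (by linarith) h, Finset.sum_eq_zero, add_zero]
  intro k _
  have : 0 ≤ (k : ℝ) / n := by positivity
  exact windowInd_zero (by linarith) h

lemma windowCost_integral {n : ℕ} (hn : 0 < n) {η : ℝ} (hη0 : 0 ≤ η) (hη : n * η ≤ 1 / 100)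
    (c : Eu n) :
    ∫ v, windowCost η c v ≤ 3 * volume.real (Metric.closedBall (0 : Eu n) 1) := by
  set b := volume.real (Metric.closedBall (0 : Eu n) 1) with hb
  have hb0 : 0 ≤ b := measureReal_nonneg
  have hn' : (0 : ℝ) < n := by exact_mod_cast hn
  have he : Real.exp (1 / 50) ≤ 9 / 8 := by
    have := Real.exp_bound' (x := 1 / 50) (by norm_num) (by norm_num) (n := 1) (by norm_num)
    norm_num at this ⊢
    linarith
  unfold windowCost
  rw [integral_add (windowInd_int _ _) (integrable_finsetSum _ fun _ _ => windowInd_int _ _),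
    integral_finsetSum _ fun _ _ => windowInd_int _ _]
  have h1 : ∫ v, windowInd c (1 + 2 * η) v ≤ 9 / 8 * b := by
    refine (windowInd_integral_le _ _).trans ?_
    gcongr
    exact (Real.exp_le_exp.2 (by nlinarith)).trans he
  have h2 : ∀ k ∈ Finset.range (n + 1), ∫ v, windowInd c (1 + η - k / n) v ≤
      Real.exp (-(k : ℝ)) * (9 / 8 * b) := by
    intro k _
    refine (windowInd_integral_le _ _).trans ?_
    have : (n : ℝ) * (1 + η - k / n - 1) = -(k : ℝ) + n * η := by field_simp; ring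
    rw [this, Real.exp_add, mul_assoc]
    gcongr
    exact (Real.exp_le_exp.2 (by linarith)).trans he
  have h3 := Finset.sum_le_sum h2
  rw [← Finset.sum_mul] at h3
  nlinarith [window_geom (n + 1)]

lemma windowCost_ge {n : ℕ} (hn : 0 < n) {η : ℝ} (hη : n * η ≤ 1) {c v v' : Eu n}
    (hv : ‖v - v'‖ ≤ η) (hc : ‖c - v'‖ ≤ 1 + η) :
    1 + n * max 0 (1 - ‖c - v'‖) ≤ windowCost η c v := by
  have hn' : (0 : ℝ) < n := by exact_mod_cast hn
  have h1 : ‖c - v‖ ≤ ‖c - v'‖ + η := by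
    calc ‖c - v‖ = ‖(c - v') - (v - v')‖ := by congr 1; abel
      _ ≤ ‖c - v'‖ + ‖v - v'‖ := norm_sub_le _ _
      _ ≤ _ := by linarith
  unfold windowCost
  rw [windowInd_one (by linarith)]
  have h2 := window_count (n := n) (t := n * (1 + η - ‖c - v‖))
    (by nlinarith [norm_nonneg (c - v)])
  have h3 : ∀ k : ℕ, windowInd c (1 + η - k / n) v =
      if (k : ℝ) ≤ n * (1 + η - ‖c - v‖) then (1 : ℝ) else 0 := by
    intro k
    unfold windowInd
    congr 1
    rw [← div_le_iff₀' hn', eq_iff_iff]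
    constructor <;> intro h <;> linarith
  simp only [h3]
  have h4 : n * max 0 (1 - ‖c - v'‖) ≤ max 0 (n * (1 + η - ‖c - v‖)) := by
    rcases le_total 0 (1 - ‖c - v'‖) with h | h
    · rw [max_eq_right h]
      exact le_trans (by nlinarith) (le_max_right _ _)
    · rw [max_eq_left h, mul_zero]
      exact le_max_left _ _
  linarith

lemma window_avg {Y : Type} [Fintype Y] {E : Type} [MeasurableSpace E] {μ : Measure E}
    {f : Y → E → ℝ} (hf : ∀ y, Integrable (f y) μ) {c : ℝ} (hc : 0 ≤ c)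
    (h : ∀ y, ∫ v, f y v ∂μ ≤ c) :
    ∫ v, (∑ y, f y v) / Fintype.card Y ∂μ ≤ c := by
  rw [integral_div, integral_finsetSum _ fun y _ => hf y]
  refine div_le_of_le_mul₀ (Nat.cast_nonneg _) hc ?_
  calc ∑ y, ∫ v, f y v ∂μ ≤ ∑ _y : Y, c := Finset.sum_le_sum fun y _ => h y
    _ = _ := by simp [mul_comm]

open Classical in
lemma window_markov {Y : Type} [Fintype Y] (g : Y → ℝ) (hg : ∀ y, 0 ≤ g y) {a : ℝ} (ha : 0 < a)
    (P : Y → Prop) (hP : ∀ y, ¬ P y → a ≤ g y) (h : ∑ y, g y ≤ a / 2 * Fintype.card Y) :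
    Fintype.card Y ≤ 2 * (Finset.univ.filter P).card := by
  have h1 : ((Finset.univ.filter fun y => ¬ P y).card : ℝ) * a ≤ ∑ y, g y := by
    calc _ = ∑ y ∈ Finset.univ.filter fun y => ¬ P y, a := by simp
      _ ≤ ∑ y ∈ Finset.univ.filter fun y => ¬ P y, g y :=
          Finset.sum_le_sum fun y hy => hP y (Finset.mem_filter.1 hy).2
      _ ≤ _ := Finset.sum_le_sum_of_subset_of_nonneg (Finset.filter_subset _ _) fun y _ _ => hg y
  have h2 : ((Finset.univ.filter P).card : ℝ) + (Finset.univ.filter fun y => ¬ P y).card =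
      Fintype.card Y := by
    exact_mod_cast Finset.card_filter_add_card_filter_not (s := Finset.univ) P
  have h3 : ((Finset.univ.filter fun y => ¬ P y).card : ℝ) ≤ Fintype.card Y / 2 := by
    refine le_of_mul_le_mul_right (h1.trans (h.trans (le_of_eq (by ring)))) ha
  have : (Fintype.card Y : ℝ) ≤ 2 * (Finset.univ.filter P).card := by linarith
  exact_mod_cast this

open Classical in
theorem conf {n : ℕ} (hn : 10 ≤ n) (X : Set (Eu n))
    (hfin : ∀ R : ℝ, (X ∩ {x | ∀ i, |x i| ≤ R}).Finite) {ρ θ : ℝ} (hρ : 0 ≤ ρ)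
    (hX : ∀ᶠ R : ℝ in atTop, ((X ∩ {x | ∀ i, |x i| ≤ R}).ncard : ℝ) ≤ ρ * (2 * R) ^ n)
    (hθ0 : 0 < θ) (hθ : ρ * volume.real (Metric.closedBall (0 : Eu n) 1) ≤ θ)
    (hθn : 48 * θ ≤ (n : ℝ) ^ 3) {Y : Type} [Fintype Y] (yp : Y → Eu n) (hy : ∀ y, ‖yp y‖ ≤ 1)
    (N : Finset (Eu n)) (hN : ∀ v : Eu n, ‖v‖ ≤ 2 → ∃ v' ∈ N, ‖v - v'‖ ≤ 1 / (n : ℝ) ^ 3) :
    ∃ (w : Eu n) (X' : Finset (Eu n)), X' ⊆ N ∧ (X'.card : ℝ) ≤ Real.exp (2 * n) ∧
      Fintype.card Y ≤ 2 * (Finset.univ.filter fun y =>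
        Good (1 / (n : ℝ) ^ 3) (3 * Real.log n / n) (72 * θ) X' (yp y)).card ∧
      ∀ x ∈ X, ‖x - w‖ ≤ 2 → ∃ x' ∈ X', ‖x - w - x'‖ ≤ 1 / (n : ℝ) ^ 3 := by
  have hn0 : 0 < n := by omega
  have hn' : (10 : ℝ) ≤ n := by exact_mod_cast hn
  have hnp : (0 : ℝ) < n := by linarith
  set η : ℝ := 1 / (n : ℝ) ^ 3 with hη
  set σ : ℝ := 3 * Real.log n / n with hσ
  set b := volume.real (Metric.closedBall (0 : Eu n) 1) with hb
  have hb0 : 0 ≤ b := measureReal_nonneg
  have hη0 : 0 ≤ η := by positivity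
  have hσ0 : 0 ≤ σ := div_nonneg (mul_nonneg (by norm_num) (Real.log_natCast_nonneg n)) hnp.le
  have hnη : n * η ≤ 1 / 100 := by
    have : n * η = 1 / (n : ℝ) ^ 2 := by rw [hη]; field_simp
    rw [this]
    exact one_div_le_one_div_of_le (by norm_num) (by nlinarith)
  have hη1 : η ≤ 1 / 2 := by nlinarith
  set F₂ : Eu n → ℝ := fun v => (∑ y, windowInd (yp y) (1 - σ + η) v) / Fintype.card Y with hF₂
  set F₃ : Eu n → ℝ := fun v => (∑ y, windowCost η (yp y) v) / Fintype.card Y with hF₃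
  have i₁ : Integrable fun v : Eu n => windowInd 0 2 v / 2 ^ n := (windowInd_int _ _).div_const _
  have i₂ : Integrable fun v => F₂ v * (n ^ 3 / 2) :=
    ((integrable_finsetSum _ fun y _ => windowInd_int _ _).div_const _).mul_const _
  have i₃ : Integrable fun v => F₃ v / 3 :=
    ((integrable_finsetSum _ fun y _ => windowCost_int _ _).div_const _).div_const _
  have p₁ : ∀ v : Eu n, 0 ≤ windowInd 0 2 v / 2 ^ n := fun v =>
    div_nonneg (windowInd_nonneg _ _ _) (by positivity)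
  have p₂ : ∀ v, 0 ≤ F₂ v * (n ^ 3 / 2) := fun v =>
    mul_nonneg (div_nonneg (Finset.sum_nonneg fun y _ => windowInd_nonneg _ _ _)
      (Nat.cast_nonneg _)) (by positivity)
  have p₃ : ∀ v, 0 ≤ F₃ v / 3 := fun v =>
    div_nonneg (div_nonneg (Finset.sum_nonneg fun y _ => windowCost_nonneg _ _ _)
      (Nat.cast_nonneg _)) (by positivity)
  have j₁ : ∫ v : Eu n, windowInd 0 2 v / 2 ^ n = b := by
    rw [integral_div, windowInd_integral _ (by norm_num)]
    field_simp
    rfl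
  have j₂ : ∫ v, F₂ v * (n ^ 3 / 2) ≤ b := by
    rw [integral_mul_const]
    have h1 : ∫ v, F₂ v ≤ 2 / (n : ℝ) ^ 3 * b := by
      refine window_avg (fun y => windowInd_int _ _) (by positivity) fun y => ?_
      refine (windowInd_integral_le _ _).trans ?_
      gcongr
      have h2 : (n : ℝ) * (1 - σ + η - 1) = n * η - Real.log ((n : ℝ) ^ 3) := by
        rw [Real.log_pow, hσ]; field_simp; push_cast; ring
      rw [h2, Real.exp_sub, Real.exp_log (by positivity)]
      gcongr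
      have := Real.exp_bound' (x := 1 / 100) (by norm_num) (by norm_num) (n := 1) (by norm_num)
      refine (Real.exp_le_exp.2 hnη).trans (this.trans ?_)
      norm_num
    calc _ ≤ 2 / (n : ℝ) ^ 3 * b * (n ^ 3 / 2) := by gcongr
      _ = b := by field_simp
  have j₃ : ∫ v, F₃ v / 3 ≤ b := by
    rw [integral_div]
    have h1 : ∫ v, F₃ v ≤ 3 * b :=
      window_avg (fun y => windowCost_int _ _) (by positivity) fun y =>
        windowCost_integral hn0 hη0 hnη _
    linarith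
  obtain ⟨w, hw⟩ := window X hfin hρ hX
    (fun v => windowInd 0 2 v / 2 ^ n + F₂ v * (n ^ 3 / 2) + F₃ v / 3) ((i₁.add i₂).add i₃)
    (fun v => add_nonneg (add_nonneg (p₁ v) (p₂ v)) (p₃ v)) (fun v hv => by
      have e₁ : windowInd 0 2 v = 0 := windowInd_zero (by norm_num) hv
      have e₂ : F₂ v = 0 := by
        simp only [hF₂]
        rw [Finset.sum_eq_zero fun y _ => windowInd_zero (by linarith [hy y]) hv, zero_div]
      have e₃ : F₃ v = 0 := by
        simp only [hF₃]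
        rw [Finset.sum_eq_zero fun y _ => windowCost_zero hη0 hη1 (hy y) hv, zero_div]
      simp only [e₁, e₂, e₃, zero_div, zero_mul, add_zero])
  have hTf : (X ∩ {x | ‖x - w‖ ≤ 2}).Finite := by
    refine (hfin (‖w‖ + 2)).subset fun x hx => ⟨hx.1, fun i => ?_⟩
    have h1 := PiLp.norm_apply_le x i
    rw [Real.norm_eq_abs] at h1
    have h2 : ‖x - w‖ ≤ 2 := hx.2
    linarith [norm_sub_norm_le x w]
  set T := hTf.toFinset with hT
  have hTm : ∀ x, x ∈ T ↔ x ∈ X ∧ ‖x - w‖ ≤ 2 := fun x => by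
    rw [hT, Set.Finite.mem_toFinset]; rfl
  have hsum := hw T fun x hx => ((hTm x).1 hx).1
  have i₁₂ : Integrable fun v : Eu n => windowInd 0 2 v / 2 ^ n + F₂ v * (n ^ 3 / 2) := i₁.add i₂
  rw [integral_add i₁₂ i₃, integral_add i₁ i₂, Finset.sum_add_distrib,
    Finset.sum_add_distrib] at hsum
  have h6 : 2 * ρ * ((∫ v : Eu n, windowInd 0 2 v / 2 ^ n) + (∫ v, F₂ v * (n ^ 3 / 2)) +
      ∫ v, F₃ v / 3) ≤ 6 * θ := by
    calc _ ≤ 2 * ρ * (b + b + b) := by rw [j₁]; gcongr
      _ ≤ _ := by linarith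
  have s₁ : 0 ≤ ∑ x ∈ T, windowInd 0 2 (x - w) / 2 ^ n := Finset.sum_nonneg fun x _ => p₁ _
  have s₂ : 0 ≤ ∑ x ∈ T, F₂ (x - w) * (n ^ 3 / 2) := Finset.sum_nonneg fun x _ => p₂ _
  have s₃ : 0 ≤ ∑ x ∈ T, F₃ (x - w) / 3 := Finset.sum_nonneg fun x _ => p₃ _
  choose! f hfN hf using hN
  refine ⟨w, T.image fun x => f (x - w), ?_, ?_, ?_, ?_⟩
  · intro x' hx'
    obtain ⟨x, hx, rfl⟩ := Finset.mem_image.1 hx'
    exact hfN _ ((hTm x).1 hx).2
  · have h1 : ∑ x ∈ T, windowInd 0 2 (x - w) / 2 ^ n = T.card / 2 ^ n := by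
      rw [Finset.sum_congr rfl fun x hx => by
        rw [windowInd_one (by rw [zero_sub, norm_neg]; exact ((hTm x).1 hx).2)]]
      simp [div_eq_mul_inv]
    have h2 : (T.card : ℝ) ≤ 6 * θ * 2 ^ n := by
      rw [← div_le_iff₀ (by positivity), ← h1]; linarith
    have h3 : (n : ℝ) ^ 3 / (Nat.factorial 3) ≤ Real.exp n :=
      Real.pow_div_factorial_le_exp _ hnp.le 3
    have h4 : (2 : ℝ) ^ n ≤ Real.exp n := by
      rw [← mul_one (n : ℝ), Real.exp_nat_mul]
      gcongr
      linarith [Real.add_one_le_exp 1]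
    norm_num [Nat.factorial] at h3
    calc _ ≤ (T.card : ℝ) := by exact_mod_cast Finset.card_image_le
      _ ≤ 6 * θ * 2 ^ n := h2
      _ ≤ Real.exp n * Real.exp n := by gcongr; nlinarith
      _ = _ := by rw [← Real.exp_add, two_mul]
  · rcases Nat.eq_zero_or_pos (Fintype.card Y) with hY | hY
    · omega
    have hY' : (0 : ℝ) < Fintype.card Y := by exact_mod_cast hY
    refine window_markov (fun y => 72 * θ * ∑ x ∈ T, windowInd (yp y) (1 - σ + η) (x - w) +
      ∑ x ∈ T, windowCost η (yp y) (x - w)) (fun y => ?_) (a := 72 * θ) (by positivity) _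
      (fun y hy => ?_) ?_
    · exact add_nonneg (mul_nonneg (by positivity)
        (Finset.sum_nonneg fun x _ => windowInd_nonneg _ _ _))
        (Finset.sum_nonneg fun x _ => windowCost_nonneg _ _ _)
    · have q₁ : 0 ≤ ∑ x ∈ T, windowInd (yp y) (1 - σ + η) (x - w) :=
        Finset.sum_nonneg fun x _ => windowInd_nonneg _ _ _
      have q₂ : 0 ≤ ∑ x ∈ T, windowCost η (yp y) (x - w) :=
        Finset.sum_nonneg fun x _ => windowCost_nonneg _ _ _
      rcases not_and_or.1 hy with h | h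
      · push Not at h
        obtain ⟨x', hx', hlt⟩ := h
        obtain ⟨x, hx, rfl⟩ := Finset.mem_image.1 (Finset.mem_filter.1 hx').1
        have h1 : ‖yp y - (x - w)‖ ≤ 1 - σ + η := by
          calc ‖yp y - (x - w)‖ = ‖(yp y - f (x - w)) - (x - w - f (x - w))‖ := by
                congr 1; abel
            _ ≤ ‖yp y - f (x - w)‖ + ‖x - w - f (x - w)‖ := norm_sub_le _ _
            _ ≤ _ := by linarith [hf _ ((hTm x).1 hx).2]
        have h2 : 1 ≤ ∑ x ∈ T, windowInd (yp y) (1 - σ + η) (x - w) := by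
          exact (windowInd_one h1).ge.trans
            (Finset.single_le_sum (f := fun x => windowInd (yp y) (1 - σ + η) (x - w))
              (fun x _ => windowInd_nonneg _ _ _) hx)
        nlinarith
      · have h1 : ∑ x ∈ rel η (T.image fun x => f (x - w)) (yp y),
            (1 + n * max 0 (1 - ‖yp y - x‖)) ≤ ∑ x ∈ T, windowCost η (yp y) (x - w) := by
          unfold rel
          rw [Finset.sum_filter]
          refine (Finset.sum_image_le_of_nonneg fun x _ => ?_).trans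
            (Finset.sum_le_sum fun x hx => ?_)
          · split_ifs
            · positivity
            · exact le_rfl
          · split_ifs with h'
            · exact windowCost_ge hn0 (by linarith) (hf _ ((hTm x).1 hx).2) h'
            · exact windowCost_nonneg _ _ _
        have h2 := not_le.1 h
        nlinarith
    · have e₂ : ∑ y, ∑ x ∈ T, windowInd (yp y) (1 - σ + η) (x - w) =
          (∑ x ∈ T, F₂ (x - w)) * Fintype.card Y := by
        rw [Finset.sum_comm, Finset.sum_mul]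
        exact Finset.sum_congr rfl fun x _ => (div_mul_cancel₀ _ hY'.ne').symm
      have e₃ : ∑ y, ∑ x ∈ T, windowCost η (yp y) (x - w) =
          (∑ x ∈ T, F₃ (x - w)) * Fintype.card Y := by
        rw [Finset.sum_comm, Finset.sum_mul]
        exact Finset.sum_congr rfl fun x _ => (div_mul_cancel₀ _ hY'.ne').symm
      rw [Finset.sum_add_distrib, ← Finset.mul_sum, e₂, e₃]
      rw [← Finset.sum_mul] at hsum s₂
      simp only [← Finset.sum_div] at hsum s₃ s₁
      have t₂ : ∑ x ∈ T, F₂ (x - w) ≤ 1 / 4 := by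
        have h1 : (∑ x ∈ T, F₂ (x - w)) * (n ^ 3 / 2) ≤ 1 / 4 * (n ^ 3 / 2) := by linarith
        exact le_of_mul_le_mul_right h1 (by positivity)
      have t₃ : ∑ x ∈ T, F₃ (x - w) ≤ 18 * θ := by linarith
      calc _ ≤ 72 * θ * (1 / 4 * Fintype.card Y) + 18 * θ * Fintype.card Y := by gcongr
        _ = _ := by ring
  · intro x hx h2
    exact ⟨_, Finset.mem_image.2 ⟨x, (hTm x).2 ⟨hx, h2⟩, rfl⟩, hf _ h2⟩

end Crest.Agent.R225
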