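import Crest.Agent.R225.Level
import Crest.Agent.R225.Window
import Crest.Agent.R225.BodyVol
import Crest.Agent.R225.Grid

/-!
# Row 225: Main348
Assembly of S0348 (helper31).
-/

set_option autoImplicit false

open MeasureTheory ProbabilityTheory Matrix Filter Topology
open scoped ENNReal RealInnerProductSpace

noncomputable section

namespace Crest.Agent.R225

theorem main348_card_small {α : Type} (N : Finset α) (m : ℕ) (C : Finset (Finset α))
    (hC : ∀ X ∈ C, X ⊆ N ∧ X.card ≤ m) : C.card ≤ (m + 1) * (N.card + 1) ^ m := by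
  classical
  have hsub : C ⊆ (Finset.range (m + 1)).biUnion fun k => N.powersetCard k := by
    intro X hX
    rw [Finset.mem_biUnion]
    exact ⟨X.card, Finset.mem_range.2 (Nat.lt_succ_of_le (hC X hX).2),
      Finset.mem_powersetCard.2 ⟨(hC X hX).1, rfl⟩⟩
  refine (Finset.card_le_card hsub).trans (Finset.card_biUnion_le.trans ?_)
  have : ∀ k ∈ Finset.range (m + 1), (N.powersetCard k).card ≤ (N.card + 1) ^ m := by
    intro k hk
    rw [Finset.card_powersetCard]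
    calc N.card.choose k ≤ N.card ^ k := Nat.choose_le_pow _ _
      _ ≤ (N.card + 1) ^ k := Nat.pow_le_pow_left (Nat.le_succ _) _
      _ ≤ (N.card + 1) ^ m :=
        Nat.pow_le_pow_right (Nat.succ_pos _) (Nat.lt_succ_iff.1 (Finset.mem_range.1 hk))
  simpa using Finset.sum_le_card_nsmul _ _ _ this

theorem main348_num {n : ℕ} (hn : 2 ≤ n) {N m : ℕ} (hN : (N : ℝ) ≤ (n : ℝ) ^ (5 * n))
    (hm : (m : ℝ) ≤ Real.exp (2 * n)) :
    (((m + 1) * (N + 1) ^ m : ℕ) : ℝ) * Real.exp (-Real.exp (15 * n) / 4) < Real.exp (-40) / 2 := by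
  have hn' : (2 : ℝ) ≤ n := by exact_mod_cast hn
  have h1 : (n : ℝ) ≤ Real.exp n := by linarith [Real.add_one_le_exp (n : ℝ)]
  have h2 : (n : ℝ) ^ (5 * n) ≤ Real.exp (5 * n ^ 2) := by
    calc (n : ℝ) ^ (5 * n) ≤ Real.exp n ^ (5 * n) := pow_le_pow_left₀ (by positivity) h1 _
      _ = Real.exp (5 * n ^ 2) := by rw [← Real.exp_nat_mul]; congr 1; push_cast; ring
  have h3 : (N : ℝ) + 1 ≤ Real.exp (6 * n ^ 2) := by
    have e1 : (1 : ℝ) ≤ Real.exp (5 * n ^ 2) := Real.one_le_exp (by positivity)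
    have e2 : (2 : ℝ) ≤ Real.exp (n ^ 2) := by
      nlinarith [Real.add_one_le_exp ((n : ℝ) ^ 2)]
    have e3 : Real.exp (6 * n ^ 2) = Real.exp (5 * n ^ 2) * Real.exp (n ^ 2) := by
      rw [← Real.exp_add]; congr 1; ring
    rw [e3]; nlinarith
  have h4 : (m : ℝ) + 1 ≤ Real.exp m := Real.add_one_le_exp _
  have h5 : (((m + 1) * (N + 1) ^ m : ℕ) : ℝ) ≤ Real.exp (7 * n ^ 2 * Real.exp (2 * n)) := by
    push_cast
    calc ((m : ℝ) + 1) * ((N : ℝ) + 1) ^ m ≤ Real.exp m * Real.exp (6 * n ^ 2) ^ m := by gcongr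
      _ = Real.exp (m * (6 * n ^ 2 + 1)) := by
        rw [← Real.exp_nat_mul, ← Real.exp_add]; congr 1; ring
      _ ≤ _ := by
        apply Real.exp_le_exp.2
        have : 6 * (n : ℝ) ^ 2 + 1 ≤ 7 * n ^ 2 := by nlinarith
        calc (m : ℝ) * (6 * n ^ 2 + 1) ≤ Real.exp (2 * n) * (7 * n ^ 2) := by gcongr
          _ = _ := by ring
  have h6 : 84 * (n : ℝ) ^ 2 ≤ Real.exp (13 * n) := by
    have := Real.quadratic_le_exp_of_nonneg (show (0 : ℝ) ≤ 13 * n by positivity)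
    nlinarith
  have h7 : Real.exp (15 * n) = Real.exp (2 * n) * Real.exp (13 * n) := by
    rw [← Real.exp_add]; congr 1; ring
  have h8 : (1 : ℝ) ≤ Real.exp (2 * n) := Real.one_le_exp (by positivity)
  have h9 : 7 * n ^ 2 * Real.exp (2 * n) + -Real.exp (15 * n) / 4 ≤ -41 := by
    rw [h7]
    have : Real.exp (2 * n) * (84 * n ^ 2) ≤ Real.exp (2 * n) * Real.exp (13 * n) := by gcongr
    have h4n : (4 : ℝ) ≤ n ^ 2 := by nlinarith
    nlinarith [mul_le_mul h8 h4n (by norm_num) (by positivity : (0 : ℝ) ≤ Real.exp (2 * n))]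
  calc _ ≤ Real.exp (7 * n ^ 2 * Real.exp (2 * n)) * Real.exp (-Real.exp (15 * n) / 4) := by gcongr
    _ ≤ Real.exp (-41) := by rw [← Real.exp_add]; exact Real.exp_le_exp.2 h9
    _ < Real.exp (-40) / 2 := by
      have : Real.exp (-40) = Real.exp (-41) * Real.exp 1 := by rw [← Real.exp_add]; norm_num
      rw [this]
      nlinarith [Real.exp_pos (-41 : ℝ), Real.exp_one_gt_d9]

theorem exists_body : ∃ c : ℝ, 0 < c ∧ ∀ᶠ n : ℕ in atTop, ∃ K : Set (Eu n), IsCompact K ∧ Convex ℝ K ∧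
    0 < volume.real K ∧ (∀ x ∈ K, -x ∈ K) ∧ ∀ X : Set (Eu n),
      (∀ R : ℝ, (X ∩ {x | ∀ i, |x i| ≤ R}).Finite) → (∀ y, ∃ x ∈ X, y - x ∈ K) → ∀ ρ : ℝ, 0 ≤ ρ →
      (∀ᶠ R : ℝ in atTop, ((X ∩ {x | ∀ i, |x i| ≤ R}).ncard : ℝ) ≤ ρ * (2 * R) ^ n) →
      c * n * Real.log n ≤ volume.real K * ρ := by
  classical
  obtain ⟨β, c, hβ, hc, hc1, hlev⟩ := level
  refine ⟨c / (144 * Real.exp 40), by positivity, ?_⟩
  have hsq : Tendsto (fun n : ℕ => √(n : ℝ)) atTop atTop :=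
    Real.tendsto_sqrt_atTop.comp tendsto_natCast_atTop_atTop
  filter_upwards [hlev, eventually_ge_atTop 10, hsq.eventually_gt_atTop (2 * β)] with n hlev hn hβn
  have hn' : (10 : ℝ) ≤ n := by exact_mod_cast hn
  have hn0 : (0 : ℝ) < n := by linarith
  obtain ⟨I, _, _, pts, ν, hD⟩ := exists_disc (n := n) (by omega) (h := 1 / (n : ℝ) ^ 2) (by positivity)
  obtain ⟨Y, _, _, yp, hY⟩ := exists_test (n := n) (by omega)
  obtain ⟨N, hNc, hN⟩ := exists_net hn
  set L := β * √(n : ℝ) with hLdef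
  have hss : √(n : ℝ) * √(n : ℝ) = n := Real.mul_self_sqrt hn0.le
  have hs2 : (2 : ℝ) ≤ √(n : ℝ) := by linarith
  have hL2 : 2 ≤ L := by rw [hLdef]; nlinarith
  have hLn : 2 * L < n := by rw [hLdef]; nlinarith
  have hLh : L * (1 / (n : ℝ) ^ 2) ≤ 1 := by
    rw [mul_one_div, div_le_one (by positivity)]; nlinarith
  have hp := pq_mem hD.nonneg L
  set η : ℝ := 1 / (n : ℝ) ^ 3 with hη
  let Yg : Finset (Eu n) → Finset Y := fun X' =>
    Finset.univ.filter fun y => Good η (3 * Real.log n / n) (c * n * Real.log n) X' (yp y)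
  let C : Finset (Finset (Eu n)) := N.powerset.filter fun X' =>
    (X'.card : ℝ) ≤ Real.exp (2 * n) ∧ Fintype.card Y ≤ 2 * (Yg X').card
  have hbad : Pb (pq L ν) (fun ω => ∃ X' ∈ C, ∀ y ∈ Yg X', ¬Cut pts L η X' (yp y) ω) <
      Real.exp (-40) / 2 := by
    refine (Pb_exists_le hp C _).trans_lt ?_
    have h1 : ∀ X' ∈ C, Pb (pq L ν) (fun ω => ∀ y ∈ Yg X', ¬Cut pts L η X' (yp y) ω) ≤
        Real.exp (-Real.exp (15 * n) / 4) := by
      intro X' hX'
      have := (Finset.mem_filter.1 hX').2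
      exact hlev I pts ν hD Y yp hY X' (Yg X') this.1 this.2 fun y hy => (Finset.mem_filter.1 hy).2
    refine (Finset.sum_le_card_nsmul _ _ _ h1).trans_lt ?_
    rw [nsmul_eq_mul]
    have h2 := main348_card_small N ⌊Real.exp (2 * n)⌋₊ C fun X' hX' =>
      ⟨Finset.mem_powerset.1 (Finset.mem_filter.1 hX').1,
        Nat.le_floor (Finset.mem_filter.1 hX').2.1⟩
    refine lt_of_le_of_lt ?_ (main348_num (n := n) (by omega) hNc
      (Nat.floor_le (Real.exp_pos (2 * n)).le))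
    gcongr
  obtain ⟨ω, hvol, hgood⟩ := exists_of_Pb_lt hp (hbad.trans_le (body_vol hD hL2 hLh))
  set b := volume.real (Metric.closedBall (0 : Eu n) 1) with hb
  have hb0 : 0 < b := ENNReal.toReal_pos (Metric.measure_closedBall_pos _ _ one_pos).ne'
    measure_closedBall_lt_top.ne
  refine ⟨body pts L ω, isCompact_body _ _ _, convex_body _ _ _,
    lt_of_lt_of_le (by positivity) hvol, fun x hx => neg_mem_body hx, ?_⟩
  intro X hfin hcov ρ hρ hX
  by_contra hcon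
  push Not at hcon
  have hlog : 0 < Real.log n := Real.log_pos (by linarith)
  have hlogn : Real.log n ≤ n := by linarith [Real.log_le_sub_one_of_pos hn0]
  have hθ : ρ * b ≤ c * n * Real.log n / 72 := by
    have e1 : Real.exp (-40) * b / 2 * ρ ≤ c / (144 * Real.exp 40) * n * Real.log n :=
      (mul_le_mul_of_nonneg_right hvol hρ).trans hcon.le
    have e2 : Real.exp (-40) = (Real.exp 40)⁻¹ := Real.exp_neg _
    have e3 := Real.exp_pos 40
    rw [e2] at e1
    have e4 := mul_le_mul_of_nonneg_left e1 (show (0 : ℝ) ≤ 2 * Real.exp 40 by positivity)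
    calc ρ * b = 2 * Real.exp 40 * ((Real.exp 40)⁻¹ * b / 2 * ρ) := by field_simp
      _ ≤ _ := e4
      _ = _ := by field_simp; norm_num
  have hθn : 48 * (c * n * Real.log n / 72) ≤ (n : ℝ) ^ 3 := by
    have : c * n * Real.log n ≤ 1 * n * n := by gcongr
    nlinarith [mul_pos hn0 hn0]
  obtain ⟨w, X', hX'N, hX'c, hX'Y, hnear⟩ :=
    conf hn X hfin hρ hX (by positivity) hθ hθn yp hY.norm_le N hN
  have e72 : 72 * (c * n * Real.log n / 72) = c * n * Real.log n := by ring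
  rw [e72] at hX'Y
  apply hgood
  refine ⟨X', Finset.mem_filter.2 ⟨Finset.mem_powerset.2 hX'N, hX'c, hX'Y⟩, ?_⟩
  intro y _ hcut
  obtain ⟨x, hx, hxK⟩ := hcov (w + yp y)
  have hxw : ‖x - w‖ ≤ 2 := by
    have : x - w = yp y - (w + yp y - x) := by abel
    rw [this]
    linarith [norm_sub_le (yp y) (w + yp y - x), hY.norm_le y, hxK.1]
  obtain ⟨x', hx', hxx'⟩ := hnear x hx hxw
  have hdec : yp y - x' = (w + yp y - x) + (x - w - x') := by abel
  have hrel : x' ∈ rel η X' (yp y) := by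
    refine Finset.mem_filter.2 ⟨hx', ?_⟩
    rw [hdec]
    linarith [norm_add_le (w + yp y - x) (x - w - x'), hxK.1]
  obtain ⟨q, hq, hle⟩ := hcut x' hrel
  rw [hdec, inner_add_right] at hle
  have e1 := (abs_le.1 (hxK.2 q hq)).2
  have e2 : ⟪pts q, x - w - x'⟫ ≤ (n : ℝ) ^ 2 * (1 / (n : ℝ) ^ 3) :=
    (real_inner_le_norm _ _).trans (mul_le_mul (hD.norm_le q) hxx' (norm_nonneg _) (by positivity))
  have e3 : (n : ℝ) ^ 2 * (1 / (n : ℝ) ^ 3) = 1 / n := by field_simp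
  have e4 : 1 / (n : ℝ) < 1 / (2 * L) := one_div_lt_one_div_of_lt (by linarith) hLn
  linarith

end Crest.Agent.R225
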