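import Crest.Agent.R225.Iso

/-!
# Row 225: Proj
Random projections of an isotropic body are close to Gaussian mixtures after smoothing.

Let `Γ` have independent `N(0, 1/n)` entries, `ξ ~ N(0, a⁻¹ I)` on `κ → ℝ`, `μ = volume[|K]`.  Characteristic function of the Gaussian:
`gv a v = (2πa)^(-d/2) E_ξ exp (i ξ ⬝ v)` and `gv (r + a) y = (2πa)^(-d/2) E_ξ exp (i ξ ⬝ y) exp (-r ξ ⬝ ξ / 2)` (coordinatewise
`integral_cexp_quadratic`, or `charFun_gaussianReal` plus Gaussian convolution).  So for all `y` the difference is at most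
`(2πa)^(-d/2) E_ξ |F_Γ ξ - G ξ|`, `F_Γ ξ = ∫ exp (-i ξ ⬝ Γ x) dμ`, `G ξ = ∫ exp (- ξ ⬝ ξ (x ⬝ x) / (2n)) dμ = E_Γ F_Γ ξ`.
`E_Γ |F_Γ ξ - G ξ|² = ∫∫ (exp (-|ξ|²|x-x'|²/(2n)) - exp (-|ξ|²(|x|²+|x'|²)/(2n))) ≤ |ξ|² ∫∫ |x ⬝ x'| / n ≤ |ξ|²/√n`
(`|e^(-s) - e^(-t)| ≤ |s - t|` on `[0,∞)`, `Iso.abs_dot`), `E |ξ|² = d / a`.  Pick `Γ` with `E_ξ |F_Γ - G|² ≤ d/(a √n)`; Jensen.
All integrands are bounded on probability spaces.

`smooth_logconcave`: `Lib.PL.hasPL_pi` applied to `x ↦ 1_K x * gv a (y - Γ x)`.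
-/

set_option autoImplicit false

open MeasureTheory ProbabilityTheory Matrix Filter Topology
open scoped ENNReal NNReal RealInnerProductSpace

noncomputable section

namespace Crest.Agent.R225

theorem gv_pos {κ : Type} [Fintype κ] {a : ℝ} (ha : 0 < a) (v : κ → ℝ) : 0 < gv a v :=
  Finset.prod_pos fun i _ => by have := Real.pi_pos; positivity

theorem gv_eq {κ : Type} [Fintype κ] (a : ℝ) (v : κ → ℝ) :
    gv a v = (√(2 * Real.pi * a))⁻¹ ^ Fintype.card κ * Real.exp (-(v ⬝ᵥ v) / (2 * a)) := by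
  rw [gv, Finset.prod_mul_distrib, Finset.prod_const, Finset.card_univ, ← Real.exp_sum]
  congr 2
  simp only [dotProduct, ← Finset.sum_div, Finset.sum_neg_distrib, sq]

theorem continuous_gv {κ : Type} [Fintype κ] (a : ℝ) : Continuous (gv a : (κ → ℝ) → ℝ) := by
  unfold gv
  fun_prop

theorem proj_gv_pdf {κ : Type} [Fintype κ] {a : ℝ} (ha : 0 < a) :
    (gv a : (κ → ℝ) → ℝ) = fun v => ∏ i, gaussianPDFReal 0 a.toNNReal (v i) := by
  funext v
  simp only [gv, gaussianPDFReal, Real.coe_toNNReal _ ha.le, sub_zero]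

theorem integrable_gv {κ : Type} [Fintype κ] {a : ℝ} (ha : 0 < a) :
    Integrable (gv a : (κ → ℝ) → ℝ) := by
  rw [proj_gv_pdf ha]
  exact Integrable.fintype_prod fun _ => integrable_gaussianPDFReal _ _

theorem integral_gv {κ : Type} [Fintype κ] {a : ℝ} (ha : 0 < a) : ∫ v : κ → ℝ, gv a v = 1 := by
  rw [proj_gv_pdf ha, integral_fintype_prod_volume_eq_prod (fun _ => gaussianPDFReal 0 a.toNNReal)]
  exact Finset.prod_eq_one fun _ _ => integral_gaussianPDFReal_eq_one _ (by simpa using ha)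

/-- centred Gaussian measure with covariance `v I` -/
def projG (ι : Type) [Fintype ι] (v : ℝ) : Measure (ι → ℝ) :=
  Measure.pi fun _ => gaussianReal 0 v.toNNReal

instance (ι : Type) [Fintype ι] (v : ℝ) : IsProbabilityMeasure (projG ι v) := by
  unfold projG
  infer_instance

/-- the additive character -/
def projE (t : ℝ) : ℂ := Complex.exp (t * Complex.I)

theorem norm_projE (t : ℝ) : ‖projE t‖ = 1 := Complex.norm_exp_ofReal_mul_I t

@[fun_prop] theorem continuous_projE : Continuous projE := by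
  unfold projE
  fun_prop

theorem projE_add (s t : ℝ) : projE (s + t) = projE s * projE t := by
  simp only [projE, ← Complex.exp_add]
  push_cast
  ring_nf

theorem conj_projE (t : ℝ) : (starRingEnd ℂ) (projE t) = projE (-t) := by
  simp [projE, ← Complex.exp_conj]

theorem projE_dot {ι : Type} [Fintype ι] (ξ t : ι → ℝ) :
    projE (ξ ⬝ᵥ t) = ∏ i, projE (ξ i * t i) := by
  simp only [projE, dotProduct, ← Complex.exp_sum, Complex.ofReal_sum, Finset.sum_mul]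

theorem proj_char_one {v : ℝ} (hv : 0 ≤ v) (t : ℝ) :
    ∫ ξ, projE (ξ * t) ∂gaussianReal 0 v.toNNReal = (Real.exp (-(v * t ^ 2) / 2) : ℝ) := by
  have := charFun_gaussianReal (μ := 0) (v := v.toNNReal) t
  rw [charFun_apply_real, Real.coe_toNNReal _ hv] at this
  simp only [projE, mul_comm _ t]
  push_cast at this ⊢
  rw [this]
  congr 1
  ring

theorem proj_char {ι : Type} [Fintype ι] {v : ℝ} (hv : 0 ≤ v) (t : ι → ℝ) :
    ∫ ξ, projE (ξ ⬝ᵥ t) ∂projG ι v = (Real.exp (-(v * (t ⬝ᵥ t)) / 2) : ℝ) := by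
  simp only [projE_dot, projG]
  rw [integral_fintype_prod_eq_prod (fun i x => projE (x * t i))]
  simp only [proj_char_one hv, ← Complex.ofReal_prod, ← Real.exp_sum]
  congr 2
  simp only [dotProduct, ← Finset.sum_div, Finset.sum_neg_distrib, sq, Finset.mul_sum]

theorem proj_sq_one (v : ℝ≥0) : Integrable (fun x : ℝ => x * x) (gaussianReal 0 v) ∧
    ∫ x, x * x ∂gaussianReal 0 v = v := by
  refine ⟨?_, ?_⟩
  · simpa [sq] using (memLp_id_gaussianReal' (μ := 0) (v := v) 2 (by simp)).integrable_sq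
  · have := variance_fun_id_gaussianReal (μ := 0) (v := v)
    rw [variance_eq_integral measurable_id'.aemeasurable] at this
    simpa [sq] using this

theorem proj_sq {ι : Type} [Fintype ι] {v : ℝ} (hv : 0 ≤ v) :
    Integrable (fun ξ : ι → ℝ => ξ ⬝ᵥ ξ) (projG ι v) ∧
      ∫ ξ, ξ ⬝ᵥ ξ ∂projG ι v = Fintype.card ι * v := by
  have h1 : ∀ i ∈ (Finset.univ : Finset ι),
      Integrable (fun ξ : ι → ℝ => ξ i * ξ i) (projG ι v) := fun i _ =>
    integrable_comp_eval (μ := fun _ => gaussianReal 0 v.toNNReal) (f := fun x : ℝ => x * x)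
      (proj_sq_one _).1
  refine ⟨integrable_finsetSum _ h1, ?_⟩
  simp only [dotProduct]
  rw [integral_finsetSum _ h1]
  have h2 : ∀ i, ∫ ξ : ι → ℝ, ξ i * ξ i ∂projG ι v = v := fun i => by
    rw [projG, integral_comp_eval (μ := fun _ => gaussianReal 0 v.toNNReal)
      (f := fun x : ℝ => x * x) (proj_sq_one _).1.aestronglyMeasurable, (proj_sq_one _).2,
      Real.coe_toNNReal _ hv]
  simp [h2]

theorem proj_sqrt {a : ℝ} (ha : 0 < a) :
    (√(2 * Real.pi * a))⁻¹ * (√(2 * Real.pi * a⁻¹))⁻¹ = (2 * Real.pi)⁻¹ := by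
  have := Real.pi_pos
  rw [← mul_inv, ← Real.sqrt_mul (by positivity)]
  congr 1
  rw [Real.sqrt_eq_iff_mul_self_eq (by positivity) (by positivity)]
  field_simp

theorem proj_four_one {a r : ℝ} (ha : 0 < a) (hr : 0 ≤ r) (y : ℝ) :
    ((√(2 * Real.pi * a))⁻¹ : ℝ) * ∫ ξ, projE (ξ * y) * (Real.exp (-(r * (ξ * ξ)) / 2) : ℝ)
      ∂gaussianReal 0 a⁻¹.toNNReal =
      (((√(2 * Real.pi * (r + a)))⁻¹ * Real.exp (-y ^ 2 / (2 * (r + a))) : ℝ) : ℂ) := by
  have hs : 0 < r + a := by linarith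
  have h1 := proj_char_one (inv_pos.2 hs).le y
  rw [integral_gaussianReal_eq_integral_smul (by simpa using hs)] at h1
  have e : -y ^ 2 / (2 * (r + a)) = -((r + a)⁻¹ * y ^ 2) / 2 := by field_simp
  rw [integral_gaussianReal_eq_integral_smul (by simpa using ha), e, Complex.ofReal_mul, ← h1,
    ← integral_const_mul, ← integral_const_mul]
  refine integral_congr_ae (ae_of_all _ fun ξ => ?_)
  have key : (√(2 * Real.pi * a))⁻¹ * gaussianPDFReal 0 a⁻¹.toNNReal ξ *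
      Real.exp (-(r * (ξ * ξ)) / 2) =
      (√(2 * Real.pi * (r + a)))⁻¹ * gaussianPDFReal 0 (r + a)⁻¹.toNNReal ξ := by
    simp only [gaussianPDFReal, Real.coe_toNNReal _ (inv_pos.2 ha).le,
      Real.coe_toNNReal _ (inv_pos.2 hs).le, ← mul_assoc, proj_sqrt ha, proj_sqrt hs]
    rw [mul_assoc, ← Real.exp_add]
    congr 2
    field_simp
    ring
  simp only [Complex.real_smul]
  rw [← mul_assoc (((√(2 * Real.pi * (r + a)))⁻¹ : ℝ) : ℂ), ← Complex.ofReal_mul, ← key]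
  push_cast
  ring

theorem proj_four {ι : Type} [Fintype ι] {a r : ℝ} (ha : 0 < a) (hr : 0 ≤ r) (y : ι → ℝ) :
    (((√(2 * Real.pi * a))⁻¹ ^ Fintype.card ι : ℝ) : ℂ) *
      ∫ ξ, projE (ξ ⬝ᵥ y) * (Real.exp (-(r * (ξ ⬝ᵥ ξ)) / 2) : ℝ) ∂projG ι a⁻¹ =
      (gv (r + a) y : ℝ) := by
  have e : ∀ ξ : ι → ℝ, projE (ξ ⬝ᵥ y) * (Real.exp (-(r * (ξ ⬝ᵥ ξ)) / 2) : ℝ) =
      ∏ i, projE (ξ i * y i) * (Real.exp (-(r * (ξ i * ξ i)) / 2) : ℝ) := fun ξ => by
    rw [Finset.prod_mul_distrib, ← projE_dot, ← Complex.ofReal_prod, ← Real.exp_sum]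
    congr 3
    simp only [dotProduct, ← Finset.sum_div, Finset.sum_neg_distrib, Finset.mul_sum]
  simp only [e, projG]
  rw [integral_fintype_prod_eq_prod
    (fun i x => projE (x * y i) * (Real.exp (-(r * (x * x)) / 2) : ℝ)), gv, Complex.ofReal_prod,
    ← Finset.card_univ, ← Finset.prod_const, Complex.ofReal_prod, ← Finset.prod_mul_distrib]
  exact Finset.prod_congr rfl fun i _ => proj_four_one ha hr (y i)

/-- second moment of an average -/
theorem proj_second {Ω X : Type} [MeasurableSpace Ω] [MeasurableSpace X] (P : Measure Ω)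
    (μ : Measure X) [IsProbabilityMeasure P] [IsProbabilityMeasure μ] {h : Ω → X → ℂ}
    (hm : Measurable fun p : Ω × X => h p.1 p.2) (hb : ∀ ω x, ‖h ω x‖ ≤ 2) {B : X × X → ℝ}
    (hB : Integrable B (μ.prod μ))
    (hle : ∀ x x', ‖∫ ω, h ω x * (starRingEnd ℂ) (h ω x') ∂P‖ ≤ B (x, x')) :
    ∫ ω, ‖∫ x, h ω x ∂μ‖ ^ 2 ∂P ≤ ∫ x, ∫ x', B (x, x') ∂μ ∂μ := by
  have e : ∀ ω, ((‖∫ x, h ω x ∂μ‖ ^ 2 : ℝ) : ℂ) =
      ∫ z, h ω z.1 * (starRingEnd ℂ) (h ω z.2) ∂μ.prod μ := fun ω => by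
    rw [integral_prod_mul (h ω) (fun x => (starRingEnd ℂ) (h ω x)), integral_conj,
      Complex.mul_conj, Complex.normSq_eq_norm_sq]
  have hi : Integrable (Function.uncurry fun ω (z : X × X) =>
      h ω z.1 * (starRingEnd ℂ) (h ω z.2)) (P.prod (μ.prod μ)) := by
    refine Integrable.of_bound (C := 2 * 2) (Measurable.aestronglyMeasurable ?_)
      (ae_of_all _ fun p => ?_)
    · exact (hm.comp (measurable_fst.prodMk measurable_snd.fst)).mul
        (Complex.continuous_conj.measurable.comp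
          (hm.comp (measurable_fst.prodMk measurable_snd.snd)))
    · simp only [Function.uncurry, norm_mul, RCLike.norm_conj]
      exact mul_le_mul (hb _ _) (hb _ _) (norm_nonneg _) (by norm_num)
  calc ∫ ω, ‖∫ x, h ω x ∂μ‖ ^ 2 ∂P ≤ ‖((∫ ω, ‖∫ x, h ω x ∂μ‖ ^ 2 ∂P : ℝ) : ℂ)‖ := by
        rw [Complex.norm_real]
        exact le_abs_self _
    _ = ‖∫ z, ∫ ω, h ω z.1 * (starRingEnd ℂ) (h ω z.2) ∂P ∂μ.prod μ‖ := by
        rw [← integral_complex_ofReal, ← integral_integral_swap hi]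
        simp only [e]
    _ ≤ ∫ z, B z ∂μ.prod μ := norm_integral_le_of_norm_le hB (ae_of_all _ fun z => hle z.1 z.2)
    _ = _ := integral_prod _ hB

theorem proj_abs_exp_sub {s t : ℝ} (hs : 0 ≤ s) (ht : 0 ≤ t) :
    |Real.exp (-s) - Real.exp (-t)| ≤ |s - t| := by
  wlog h : s ≤ t generalizing s t
  · rw [abs_sub_comm, abs_sub_comm s]
    exact this ht hs (le_of_not_ge h)
  have h1 : Real.exp (-t) ≤ Real.exp (-s) := Real.exp_le_exp.2 (by linarith)
  have h2 : Real.exp (-s) ≤ 1 := Real.exp_le_one_iff.2 (by linarith)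
  have h3 : Real.exp (-t) = Real.exp (-s) * Real.exp (s - t) := by
    rw [← Real.exp_add]
    congr 1
    ring
  have h4 := Real.add_one_le_exp (s - t)
  have h5 := Real.exp_pos (-s)
  rw [abs_of_nonneg (by linarith), abs_of_nonpos (by linarith), h3]
  nlinarith

theorem proj_dot_nonneg {ι : Type} [Fintype ι] (x : ι → ℝ) : 0 ≤ x ⬝ᵥ x :=
  Finset.sum_nonneg fun _ _ => mul_self_nonneg _

/-- the matrix of a family indexed by pairs -/
def projM {κ ι : Type} (g : κ × ι → ℝ) : Matrix κ ι ℝ := Matrix.of fun i j => g (i, j)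

/-- the fluctuation -/
def projH {κ : Type} [Fintype κ] {n : ℕ} (g : κ × Fin n → ℝ) (ξ : κ → ℝ) (x : Fin n → ℝ) : ℂ :=
  projE (-(ξ ⬝ᵥ projM g *ᵥ x)) - (Real.exp (-(x ⬝ᵥ x / n * (ξ ⬝ᵥ ξ)) / 2) : ℝ)

theorem continuous_projH {κ : Type} [Fintype κ] {n : ℕ} :
    Continuous fun p : ((κ × Fin n → ℝ) × (κ → ℝ)) × (Fin n → ℝ) => projH p.1.1 p.1.2 p.2 := by
  simp only [projH, projM, dotProduct, Matrix.mulVec, Matrix.of_apply]
  fun_prop

theorem norm_projH_le {κ : Type} [Fintype κ] {n : ℕ} (g : κ × Fin n → ℝ) (ξ : κ → ℝ)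
    (x : Fin n → ℝ) : ‖projH g ξ x‖ ≤ 2 := by
  refine (norm_sub_le _ _).trans ?_
  rw [norm_projE, Complex.norm_real, Real.norm_of_nonneg (Real.exp_pos _).le]
  have h1 := proj_dot_nonneg x
  have h2 := proj_dot_nonneg ξ
  have h3 : 0 ≤ x ⬝ᵥ x / n * (ξ ⬝ᵥ ξ) := by positivity
  have := Real.exp_le_one_iff.2 (by linarith : -(x ⬝ᵥ x / n * (ξ ⬝ᵥ ξ)) / 2 ≤ 0)
  linarith

theorem proj_char_mat {κ : Type} [Fintype κ] {n : ℕ} (ξ : κ → ℝ) (x : Fin n → ℝ) :
    ∫ g, projE (ξ ⬝ᵥ projM g *ᵥ x) ∂projG (κ × Fin n) (n : ℝ)⁻¹ =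
      (Real.exp (-(x ⬝ᵥ x / n * (ξ ⬝ᵥ ξ)) / 2) : ℝ) := by
  have e : ∀ g : κ × Fin n → ℝ, ξ ⬝ᵥ projM g *ᵥ x = g ⬝ᵥ fun p => ξ p.1 * x p.2 := fun g => by
    simp only [projM, dotProduct, Matrix.mulVec, Matrix.of_apply, Fintype.sum_prod_type,
      Finset.mul_sum]
    exact Finset.sum_congr rfl fun i _ => Finset.sum_congr rfl fun j _ => by ring
  have e' : ((fun p : κ × Fin n => ξ p.1 * x p.2) ⬝ᵥ fun p => ξ p.1 * x p.2) =
      (ξ ⬝ᵥ ξ) * (x ⬝ᵥ x) := by
    simp only [dotProduct, Fintype.sum_prod_type, Finset.sum_mul_sum]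
    exact Finset.sum_congr rfl fun i _ => Finset.sum_congr rfl fun j _ => by ring
  simp only [e]
  rw [proj_char (by positivity), e']
  congr 2
  ring

theorem proj_cov {κ : Type} [Fintype κ] {n : ℕ} (ξ : κ → ℝ) (x x' : Fin n → ℝ) :
    ‖∫ g, projH g ξ x * (starRingEnd ℂ) (projH g ξ x') ∂projG (κ × Fin n) (n : ℝ)⁻¹‖ ≤
      ξ ⬝ᵥ ξ / n * |x ⬝ᵥ x'| := by
  let G : (Fin n → ℝ) → ℝ := fun x => Real.exp (-(x ⬝ᵥ x / n * (ξ ⬝ᵥ ξ)) / 2)
  have hi : ∀ z : Fin n → ℝ, Integrable (fun g : κ × Fin n → ℝ => projE (ξ ⬝ᵥ projM g *ᵥ z))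
      (projG (κ × Fin n) (n : ℝ)⁻¹) := fun z => by
    refine Integrable.of_bound (C := 1) (Continuous.aestronglyMeasurable ?_)
      (ae_of_all _ fun g => (norm_projE _).le)
    simp only [projM, dotProduct, Matrix.mulVec, Matrix.of_apply]
    fun_prop
  have e : ∀ g, projH g ξ x * (starRingEnd ℂ) (projH g ξ x') =
      projE (ξ ⬝ᵥ projM g *ᵥ (x' - x)) - G x' * projE (ξ ⬝ᵥ projM g *ᵥ (-x)) -
        G x * projE (ξ ⬝ᵥ projM g *ᵥ x') + G x * G x' := fun g => by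
    simp only [projH, G, map_sub, conj_projE, Complex.conj_ofReal, neg_neg, sub_eq_add_neg x',
      Matrix.mulVec_add, Matrix.mulVec_neg, dotProduct_add, dotProduct_neg, projE_add]
    ring
  simp only [e]
  rw [integral_add (by exact ((hi _).sub ((hi _).const_mul _)).sub ((hi _).const_mul _))
    (integrable_const _),
    integral_sub (by exact (hi _).sub ((hi _).const_mul _)) ((hi _).const_mul _),
    integral_sub (hi _) ((hi _).const_mul _), integral_const_mul, integral_const_mul,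
    proj_char_mat, proj_char_mat, proj_char_mat, integral_const, probReal_univ, one_smul,
    neg_dotProduct_neg]
  have h1 := proj_dot_nonneg x
  have h2 := proj_dot_nonneg x'
  have h3 := proj_dot_nonneg (x' - x)
  have h4 := proj_dot_nonneg ξ
  have h5 := proj_abs_exp_sub (s := (x' - x) ⬝ᵥ (x' - x) / n * (ξ ⬝ᵥ ξ) / 2)
    (t := x ⬝ᵥ x / n * (ξ ⬝ᵥ ξ) / 2 + x' ⬝ᵥ x' / n * (ξ ⬝ᵥ ξ) / 2) (by positivity) (by positivity)
  have e1 : (x' - x) ⬝ᵥ (x' - x) / n * (ξ ⬝ᵥ ξ) / 2 -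
      (x ⬝ᵥ x / n * (ξ ⬝ᵥ ξ) / 2 + x' ⬝ᵥ x' / n * (ξ ⬝ᵥ ξ) / 2) = -(ξ ⬝ᵥ ξ / n * (x ⬝ᵥ x')) := by
    simp only [sub_dotProduct, dotProduct_sub, dotProduct_comm x' x]
    ring
  rw [e1, abs_neg, abs_mul, abs_of_nonneg (by positivity : 0 ≤ ξ ⬝ᵥ ξ / n), neg_add,
    Real.exp_add] at h5
  refine le_trans (le_of_eq ?_) h5
  rw [← Real.norm_eq_abs, ← Complex.norm_real]
  congr 1
  simp only [G, neg_div]
  push_cast
  ring

theorem exists_proj (κ : Type) [Fintype κ] {n : ℕ} (hn : 1 ≤ n) {K : Set (Fin n → ℝ)} (h : Body K)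
    (hI : Iso K) {a : ℝ} (ha : 0 < a) :
    ∃ Γ : Matrix κ (Fin n) ℝ, ∀ y : κ → ℝ,
      (∫ x, gv a (y - Γ *ᵥ x) ∂(volume[|K]) - ∫ x, gv (x ⬝ᵥ x / n + a) y ∂(volume[|K])) ^ 2 ≤
        Fintype.card κ * a⁻¹ ^ (Fintype.card κ + 1) / √n := by
  have := h.isProb
  set μ := volume[|K] with hμ
  set P := projG (κ × Fin n) (n : ℝ)⁻¹ with hP
  set Q := projG κ a⁻¹ with hQ
  have hn0 : (0 : ℝ) < n := by exact_mod_cast hn
  have hdot : Integrable (fun z : (Fin n → ℝ) × (Fin n → ℝ) => |z.1 ⬝ᵥ z.2|) (μ.prod μ) :=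
    (integrable_finsetSum _ fun i _ =>
      (h.integrable (continuous_apply i)).mul_prod (h.integrable (continuous_apply i))).abs
  let H : (κ × Fin n → ℝ) → (κ → ℝ) → ℂ := fun g ξ => ∫ x, projH g ξ x ∂μ
  have hHm : StronglyMeasurable fun p : (κ × Fin n → ℝ) × (κ → ℝ) => H p.1 p.2 :=
    continuous_projH.stronglyMeasurable.integral_prod_right'
  have hHb : ∀ g ξ, ‖H g ξ‖ ≤ 2 := fun g ξ => by
    simpa using norm_integral_le_of_norm_le_const (μ := μ) (ae_of_all _ (norm_projH_le g ξ))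
  have hHi : Integrable (Function.uncurry fun g ξ => ‖H g ξ‖ ^ 2) (P.prod Q) :=
    Integrable.of_bound (C := 2 ^ 2) (hHm.norm.pow 2).aestronglyMeasurable
      (ae_of_all _ fun p => by
        simp only [Function.uncurry, norm_pow, norm_norm]
        exact pow_le_pow_left₀ (norm_nonneg _) (hHb _ _) 2)
  have h1 : ∀ ξ : κ → ℝ, ∫ g, ‖H g ξ‖ ^ 2 ∂P ≤ (√n)⁻¹ * (ξ ⬝ᵥ ξ) := fun ξ => by
    refine (proj_second P μ (h := fun g x => projH g ξ x)
      (continuous_projH.comp (f := fun p : (κ × Fin n → ℝ) × (Fin n → ℝ) => ((p.1, ξ), p.2))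
        (by fun_prop)).measurable (fun g x => norm_projH_le g ξ x)
      (hdot.const_mul (ξ ⬝ᵥ ξ / n)) (fun x x' => proj_cov ξ x x')).trans ?_
    simp only [integral_const_mul]
    have h2 := Iso.abs_dot h hI
    rw [Fintype.card_fin] at h2
    have h3 := proj_dot_nonneg ξ
    refine (mul_le_mul_of_nonneg_left h2 (by positivity)).trans (le_of_eq ?_)
    have h4 : √(n : ℝ) ≠ 0 := by positivity
    nth_rewrite 1 [← Real.mul_self_sqrt hn0.le]
    field_simp
  obtain ⟨hs1, hs2⟩ := proj_sq (ι := κ) (inv_pos.2 ha).le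
  have h2 : ∫ g, ∫ ξ, ‖H g ξ‖ ^ 2 ∂Q ∂P ≤ (√n)⁻¹ * (Fintype.card κ * a⁻¹) := by
    rw [integral_integral_swap hHi, ← hs2, ← integral_const_mul]
    exact integral_mono hHi.integral_prod_right (hs1.const_mul _) h1
  obtain ⟨g, hg⟩ := exists_le_integral hHi.integral_prod_left
  replace hg : ∫ ξ, ‖H g ξ‖ ^ 2 ∂Q ≤ (√n)⁻¹ * (Fintype.card κ * a⁻¹) := hg.trans h2
  refine ⟨projM g, fun y => ?_⟩
  obtain ⟨c, hc⟩ : ∃ c : ℝ, c = (√(2 * Real.pi * a))⁻¹ ^ Fintype.card κ := ⟨_, rfl⟩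
  have hc0 : 0 ≤ c := by rw [hc]; positivity
  have hcont : Continuous fun p : (Fin n → ℝ) × (κ → ℝ) => projE (p.2 ⬝ᵥ y) * projH g p.2 p.1 :=
    (by simp only [dotProduct]; fun_prop : Continuous fun p : (Fin n → ℝ) × (κ → ℝ) =>
      projE (p.2 ⬝ᵥ y)).mul (continuous_projH.comp
        (f := fun p : (Fin n → ℝ) × (κ → ℝ) => ((g, p.2), p.1)) (by fun_prop))
  have hpt : ∀ x : Fin n → ℝ, ((gv a (y - projM g *ᵥ x) - gv (x ⬝ᵥ x / n + a) y : ℝ) : ℂ) =
      c * ∫ ξ, projE (ξ ⬝ᵥ y) * projH g ξ x ∂Q := fun x => by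
    have h3 := proj_four ha le_rfl (y - projM g *ᵥ x)
    have h4 := proj_four ha (div_nonneg (proj_dot_nonneg x) hn0.le) y
    simp only [zero_mul, neg_zero, zero_div, Real.exp_zero, Complex.ofReal_one, mul_one,
      zero_add] at h3
    rw [Complex.ofReal_sub, ← h3, ← h4, ← hc, ← mul_sub, ← integral_sub]
    · congr 2
      funext ξ
      simp only [projH, sub_eq_add_neg y, dotProduct_add, dotProduct_neg, projE_add]
      ring
    · refine Integrable.of_bound (C := 1) (Continuous.aestronglyMeasurable ?_)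
        (ae_of_all _ fun ξ => (norm_projE _).le)
      simp only [dotProduct]
      fun_prop
    · refine Integrable.of_bound (C := 1) (Continuous.aestronglyMeasurable ?_)
        (ae_of_all _ fun ξ => ?_)
      · simp only [dotProduct]
        fun_prop
      · have h5 := proj_dot_nonneg x
        have h6 := proj_dot_nonneg ξ
        have h7 : 0 ≤ x ⬝ᵥ x / n * (ξ ⬝ᵥ ξ) := by positivity
        rw [norm_mul, norm_projE, one_mul, Complex.norm_real,
          Real.norm_of_nonneg (Real.exp_pos _).le]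
        exact Real.exp_le_one_iff.2 (by linarith)
  have hi1 : Integrable (fun x => gv a (y - projM g *ᵥ x)) μ :=
    h.integrable ((continuous_gv a).comp (by fun_prop))
  have hi2 : Integrable (fun x : Fin n → ℝ => gv (x ⬝ᵥ x / n + a) y) μ := by
    have hp : ∀ x : Fin n → ℝ, 0 < x ⬝ᵥ x / n + a := fun x => by
      have := proj_dot_nonneg x
      positivity
    have hc : Continuous fun x : Fin n → ℝ => x ⬝ᵥ x / n + a := by
      simp only [dotProduct]
      fun_prop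
    refine h.integrable (continuous_finsetProd _ fun i _ => Continuous.mul ?_ ?_)
    · exact (continuous_const.mul hc).sqrt.inv₀ fun x =>
        (Real.sqrt_pos.2 (mul_pos Real.two_pi_pos (hp x))).ne'
    · exact (continuous_const.div (continuous_const.mul hc) fun x =>
        (mul_pos two_pos (hp x)).ne').rexp
  have hD : ((∫ x, gv a (y - projM g *ᵥ x) ∂μ - ∫ x, gv (x ⬝ᵥ x / n + a) y ∂μ : ℝ) : ℂ) =
      c * ∫ ξ, projE (ξ ⬝ᵥ y) * H g ξ ∂Q := by
    rw [← integral_sub hi1 hi2, ← integral_complex_ofReal]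
    simp only [hpt]
    rw [integral_const_mul, integral_integral_swap
      (Integrable.of_bound (C := 2) hcont.aestronglyMeasurable (ae_of_all _ fun p => by
        simp only [Function.uncurry, norm_mul, norm_projE, one_mul]
        exact norm_projH_le _ _ _))]
    simp only [integral_const_mul, H]
  have hHg : AEStronglyMeasurable (fun ξ => ‖H g ξ‖) Q :=
    (hHm.comp_measurable measurable_prodMk_left).norm.aestronglyMeasurable
  have hJ : (∫ ξ, ‖H g ξ‖ ∂Q) ^ 2 ≤ ∫ ξ, ‖H g ξ‖ ^ 2 ∂Q := by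
    have hL : MemLp (fun ξ => ‖H g ξ‖) 2 Q :=
      MemLp.of_bound hHg 2 (ae_of_all _ fun ξ => by simpa using hHb g ξ)
    have h3 := variance_nonneg (fun ξ => ‖H g ξ‖) Q
    rw [variance_eq_sub hL] at h3
    exact sub_nonneg.1 h3
  have h3 : |∫ x, gv a (y - projM g *ᵥ x) ∂μ - ∫ x, gv (x ⬝ᵥ x / n + a) y ∂μ| ≤
      c * ∫ ξ, ‖H g ξ‖ ∂Q := by
    rw [← Real.norm_eq_abs, ← Complex.norm_real, hD, norm_mul, Complex.norm_real,
      Real.norm_of_nonneg hc0]
    refine mul_le_mul_of_nonneg_left ((norm_integral_le_integral_norm _).trans (le_of_eq ?_)) hc0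
    simp only [norm_mul, norm_projE, one_mul]
  have hc2 : c ^ 2 ≤ a⁻¹ ^ Fintype.card κ := by
    have hpi := Real.pi_gt_three
    rw [hc, ← pow_mul, mul_comm _ 2, pow_mul, inv_pow, Real.sq_sqrt (by positivity)]
    exact pow_le_pow_left₀ (by positivity) (inv_anti₀ ha (by nlinarith)) _
  calc _ ≤ (c * ∫ ξ, ‖H g ξ‖ ∂Q) ^ 2 := by
        rw [← sq_abs]
        exact pow_le_pow_left₀ (abs_nonneg _) h3 2
    _ ≤ a⁻¹ ^ Fintype.card κ * ((√n)⁻¹ * (Fintype.card κ * a⁻¹)) := by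
        rw [mul_pow]
        exact mul_le_mul hc2 (hJ.trans hg) (sq_nonneg _) (by positivity)
    _ = _ := by ring

theorem proj_gv_mid {κ : Type} [Fintype κ] {a : ℝ} (ha : 0 < a) (u u' : κ → ℝ) :
    gv a u * gv a u' ≤ gv a ((1 / 2 : ℝ) • (u + u')) ^ 2 := by
  rw [gv_eq, gv_eq, gv_eq, mul_mul_mul_comm, mul_pow, ← sq, ← Real.exp_add, sq (Real.exp _),
    ← Real.exp_add]
  refine mul_le_mul_of_nonneg_left (Real.exp_le_exp.2 ?_) (sq_nonneg _)
  rw [← add_div, ← add_div]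
  refine div_le_div_of_nonneg_right ?_ (by positivity)
  have := proj_dot_nonneg (u - u')
  simp only [smul_dotProduct, dotProduct_smul, add_dotProduct, dotProduct_add, sub_dotProduct,
    dotProduct_sub, smul_eq_mul] at this ⊢
  linarith

theorem smooth_logconcave {κ : Type} [Fintype κ] {n : ℕ} {K : Set (Fin n → ℝ)} (h : Body K) {a : ℝ}
    (ha : 0 < a) (Γ : Matrix κ (Fin n) ℝ) (y y' : κ → ℝ) :
    (∫ x, gv a (y - Γ *ᵥ x) ∂(volume[|K])) * ∫ x, gv a (y' - Γ *ᵥ x) ∂(volume[|K]) ≤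
      (∫ x, gv a ((1 / 2 : ℝ) • (y + y') - Γ *ᵥ x) ∂(volume[|K])) ^ 2 := by
  have hK : MeasurableSet K := h.1.measurableSet
  have hc : ∀ z : κ → ℝ, Continuous fun x : Fin n → ℝ => gv a (z - Γ *ᵥ x) := fun z =>
    (continuous_gv a).comp (by fun_prop)
  let F : (κ → ℝ) → (Fin n → ℝ) → ℝ≥0∞ := fun z =>
    K.indicator fun x => ENNReal.ofReal (gv a (z - Γ *ᵥ x))
  have hF : ∀ z, Measurable (F z) := fun z => (hc z).measurable.ennreal_ofReal.indicator hK
  have key := Crest.Agent.Lib.PL.hasPL_pi n (F y) (F y') (F ((1 / 2 : ℝ) • (y + y'))) (hF _) (hF _)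
    (hF _) (fun x x' => by
      by_cases hx : x ∈ K
      swap
      · simp [F, hx]
      by_cases hx' : x' ∈ K
      swap
      · simp [F, hx']
      have hm : (1 / 2 : ℝ) • (x + x') ∈ K := by
        rw [smul_add]
        exact h.2.1 hx hx' (by norm_num) (by norm_num) (by norm_num)
      have e : (1 / 2 : ℝ) • (y + y') - Γ *ᵥ ((1 / 2 : ℝ) • (x + x')) =
          (1 / 2 : ℝ) • ((y - Γ *ᵥ x) + (y' - Γ *ᵥ x')) := by
        rw [Matrix.mulVec_smul, Matrix.mulVec_add]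
        module
      simp only [F, Set.indicator_of_mem hx, Set.indicator_of_mem hx', Set.indicator_of_mem hm, e]
      rw [← ENNReal.ofReal_mul (gv_pos ha _).le, ← ENNReal.ofReal_pow (gv_pos ha _).le]
      exact ENNReal.ofReal_le_ofReal (proj_gv_mid ha _ _))
  have e : ∀ z : κ → ℝ, ENNReal.ofReal (∫ x, gv a (z - Γ *ᵥ x) ∂(volume[|K])) =
      (volume K)⁻¹ * ∫⁻ x, F z x := fun z => by
    rw [ofReal_integral_eq_lintegral_ofReal (h.integrable (hc z))
      (ae_of_all _ fun x => (gv_pos ha _).le), ProbabilityTheory.cond, lintegral_smul_measure,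
      lintegral_indicator hK, smul_eq_mul]
  have h0 : ∀ z : κ → ℝ, 0 ≤ ∫ x, gv a (z - Γ *ᵥ x) ∂(volume[|K]) := fun z =>
    integral_nonneg fun x => (gv_pos ha _).le
  rw [← ENNReal.ofReal_le_ofReal_iff (sq_nonneg _), ENNReal.ofReal_mul (h0 _),
    ENNReal.ofReal_pow (h0 _), e, e, e, mul_mul_mul_comm, mul_pow, sq]
  exact mul_le_mul_right key _

end Crest.Agent.R225
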