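import Crest.Agent.R225.Psi

/-!
# Row 225: ThinCore
A thin shell of constant mass (Klartag's argument).

`thin_core`.  Put `b s t = exp (-(d/2)(u² - 1 - 2 log u))`, `u = t/√s`; then `exp (-(5d/2)(u-1)²) ≤ b` for `u ≥ 1/2` and `b ≤ exp (-(d/2)(u-1)²)`.
`M t = (2π e t²)^(d/2) G (t √d) = ∫ b s t dν`, `H t = (2π e t²)^(d/2) h (t √d)`, `|H - M| ≤ δ' = exp (-E d) (8π e B²)^(d/2)` on `[A, 2B]`.
Log-concavity: `H t₁ H t₂ ≤ H(m)² (t₁t₂/m²)^d ≤ H(m)² exp (-d (t₁-t₂)²/(16 B²))`.  Let `H* = sup H` on `[A,2B]` and `H t₀ ≥ H*/2`: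
`H t ≤ 2 H* exp (-d (t-t₀)²/(16B²))`.  Integrate in `t ∈ [A,2B]`: `∫ M ≥ (1/8) e^(-5/8) A/(2√d)` (Fubini; for `√s = r ∈ [A,B]` use
`t ∈ [r, r + A/(2√d)]`) and `∫ M ≤ 2 H* √(16π B²/d) + 2B δ'` (`integral_gaussian`), so `H* ≥ c`.  Then
`c/2 - δ' ≤ M t₀ ≤ ν {|t₀/√s - 1| ≤ C₁/√d} + exp (-C₁²/2)`; `τ = t₀²`.  If `C₁/√d > 1/2` use instead the trivial window containing `[A²,B²]`.
-/

set_option autoImplicit false

open MeasureTheory ProbabilityTheory Matrix Filter Topology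
open scoped ENNReal RealInnerProductSpace

noncomputable section

namespace Crest.Agent.R225

/-- the normalised Gaussian kernel -/
def ThinCore_b (d : ℕ) (t s : ℝ) : ℝ := (t / √s * Real.exp ((1 - (t / √s) ^ 2) / 2)) ^ d

theorem ThinCore_b_nonneg (d : ℕ) {t : ℝ} (ht : 0 ≤ t) (s : ℝ) : 0 ≤ ThinCore_b d t s := by
  unfold ThinCore_b; positivity

theorem ThinCore_b_le (d : ℕ) {t : ℝ} (ht : 0 ≤ t) (s : ℝ) :
    ThinCore_b d t s ≤ Real.exp (-(d * (t / √s - 1) ^ 2 / 2)) := by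
  unfold ThinCore_b
  have hu : 0 ≤ t / √s := by positivity
  generalize t / √s = u at hu ⊢
  have h1 : u ≤ Real.exp (u - 1) := by linarith [Real.add_one_le_exp (u - 1)]
  have h2 : u * Real.exp ((1 - u ^ 2) / 2) ≤ Real.exp (-((u - 1) ^ 2 / 2)) := by
    calc u * Real.exp ((1 - u ^ 2) / 2) ≤ Real.exp (u - 1) * Real.exp ((1 - u ^ 2) / 2) := by gcongr
      _ = _ := by rw [← Real.exp_add]; congr 1; ring
  calc _ ≤ Real.exp (-((u - 1) ^ 2 / 2)) ^ d := by gcongr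
    _ = _ := by rw [← Real.exp_nat_mul]; congr 1; ring

theorem ThinCore_b_le_one (d : ℕ) {t : ℝ} (ht : 0 ≤ t) (s : ℝ) : ThinCore_b d t s ≤ 1 :=
  (ThinCore_b_le d ht s).trans (Real.exp_le_one_iff.2 (neg_nonpos.2 (by positivity)))

theorem ThinCore_b_ge (d : ℕ) {t s : ℝ} (hu : 1 ≤ t / √s) :
    Real.exp (-(3 * d * (t / √s - 1) ^ 2 / 2)) ≤ ThinCore_b d t s := by
  unfold ThinCore_b
  generalize t / √s = u at hu ⊢
  have hu0 : 0 < u := by linarith
  have h1 : Real.exp (1 - u⁻¹) ≤ u := by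
    have h := Real.add_one_le_exp (u⁻¹ - 1)
    have h' : u⁻¹ ≤ Real.exp (u⁻¹ - 1) := by linarith
    have e : Real.exp (1 - u⁻¹) = (Real.exp (u⁻¹ - 1))⁻¹ := by
      rw [← Real.exp_neg]; congr 1; ring
    rw [e]
    exact inv_le_of_inv_le₀ hu0 h'
  have h3 : -(3 * (u - 1) ^ 2 / 2) ≤ 1 - u⁻¹ + (1 - u ^ 2) / 2 := by
    have e : 1 - u⁻¹ + (1 - u ^ 2) / 2 + 3 * (u - 1) ^ 2 / 2 = (u - 1) ^ 3 / u := by
      field_simp; ring
    have : 0 ≤ (u - 1) ^ 3 / u := by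
      have : 0 ≤ u - 1 := by linarith
      positivity
    linarith
  have h2 : Real.exp (-(3 * (u - 1) ^ 2 / 2)) ≤ u * Real.exp ((1 - u ^ 2) / 2) := by
    calc _ ≤ Real.exp (1 - u⁻¹ + (1 - u ^ 2) / 2) := Real.exp_le_exp.2 h3
      _ = Real.exp (1 - u⁻¹) * Real.exp ((1 - u ^ 2) / 2) := Real.exp_add _ _
      _ ≤ _ := by gcongr
  calc _ = Real.exp (-(3 * (u - 1) ^ 2 / 2)) ^ d := by
        rw [← Real.exp_nat_mul]; congr 1; ring
    _ ≤ _ := by gcongr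

theorem ThinCore_b_meas (d : ℕ) (t : ℝ) : Measurable (ThinCore_b d t) := by
  unfold ThinCore_b; fun_prop

theorem ThinCore_b_int (d : ℕ) {t : ℝ} (ht : 0 ≤ t) (ν : Measure ℝ) [IsProbabilityMeasure ν] :
    Integrable (ThinCore_b d t) ν := by
  refine Integrable.of_bound (ThinCore_b_meas d t).aestronglyMeasurable 1 (ae_of_all _ fun s => ?_)
  rw [Real.norm_eq_abs, abs_of_nonneg (ThinCore_b_nonneg d ht s)]
  exact ThinCore_b_le_one d ht s

theorem ThinCore_b_eq (d : ℕ) (t : ℝ) {s : ℝ} (hs : 0 < s) :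
    (√(2 * Real.pi) * Real.exp (1 / 2) * t) ^ d *
      ((√(2 * Real.pi * s))⁻¹ ^ d * Real.exp (-(t * √d) ^ 2 / (2 * s))) = ThinCore_b d t s := by
  unfold ThinCore_b
  have h1 : Real.exp (-(t * √d) ^ 2 / (2 * s)) = Real.exp (-(t / √s) ^ 2 / 2) ^ d := by
    rw [← Real.exp_nat_mul, mul_pow, div_pow, Real.sq_sqrt (Nat.cast_nonneg d), Real.sq_sqrt hs.le]
    congr 1; field_simp
  rw [h1, ← mul_pow, ← mul_pow]
  congr 1
  have h2 : Real.exp ((1 - (t / √s) ^ 2) / 2) = Real.exp (1 / 2) * Real.exp (-(t / √s) ^ 2 / 2) := by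
    rw [← Real.exp_add]; congr 1; ring
  rw [h2, Real.sqrt_mul (by positivity : (0 : ℝ) ≤ 2 * Real.pi) s]
  have : 0 < √(2 * Real.pi) := Real.sqrt_pos.2 (by positivity)
  have : 0 < √s := Real.sqrt_pos.2 hs
  field_simp

theorem ThinCore_max {H : ℝ → ℝ} {I : Set ℝ} (hI : I.Nonempty) (h0 : ∀ t ∈ I, 0 ≤ H t) {K : ℝ}
    (hK : ∀ t ∈ I, H t ≤ K) : ∃ t₀ ∈ I, ∀ t ∈ I, H t ≤ 2 * H t₀ := by
  have hb : BddAbove (H '' I) := ⟨K, by rintro _ ⟨t, ht, rfl⟩; exact hK t ht⟩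
  have hle : ∀ t ∈ I, H t ≤ sSup (H '' I) := fun t ht => le_csSup hb ⟨t, ht, rfl⟩
  by_cases h : sSup (H '' I) ≤ 0
  · obtain ⟨t₀, ht₀⟩ := hI
    exact ⟨t₀, ht₀, fun t ht => by linarith [hle t ht, h0 t₀ ht₀]⟩
  · push Not at h
    obtain ⟨_, ⟨t₀, ht₀, rfl⟩, hlt⟩ := exists_lt_of_lt_csSup (hI.image H)
      (show sSup (H '' I) / 2 < sSup (H '' I) by linarith)
    exact ⟨t₀, ht₀, fun t ht => by linarith [hle t ht]⟩

/-- Gaussian decay away from a near-maximum -/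
theorem ThinCore_decay {A B a K : ℝ} (hA : 0 < A) (hAB : A ≤ B) (ha : 0 ≤ a) (d : ℕ) {h : ℝ → ℝ}
    (h0 : ∀ t, 0 ≤ h t) (hlc : ∀ t t', h t * h t' ≤ h ((t + t') / 2) ^ 2)
    (hK : ∀ t ∈ Set.Icc A (2 * B), (a * t) ^ d * h (t * √d) ≤ K) :
    ∃ t₀ ∈ Set.Icc A (2 * B), ∀ t ∈ Set.Icc A (2 * B), (a * t) ^ d * h (t * √d) ≤
      4 * ((a * t₀) ^ d * h (t₀ * √d)) * Real.exp (-(d * (t - t₀) ^ 2 / (16 * B ^ 2))) := by
  set H : ℝ → ℝ := fun t => (a * t) ^ d * h (t * √d) with hH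
  have hH0 : ∀ t ∈ Set.Icc A (2 * B), 0 ≤ H t := fun t ht => by
    have : 0 ≤ t := by linarith [ht.1]
    have := h0 (t * √d)
    simp only [hH]; positivity
  obtain ⟨t₀, ht₀, hm⟩ := ThinCore_max (H := H) (Set.nonempty_Icc.2 (by linarith)) hH0 hK
  refine ⟨t₀, ht₀, fun t ht => ?_⟩
  show H t ≤ 4 * H t₀ * _
  set e := Real.exp (-(d * (t - t₀) ^ 2 / (16 * B ^ 2))) with he
  have he0 : 0 < e := Real.exp_pos _
  rcases (hH0 t₀ ht₀).eq_or_lt with hz | hp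
  · have := hm t ht
    rw [← hz] at this ⊢
    simpa using this
  · set m := (t + t₀) / 2 with hmd
    have hmI : m ∈ Set.Icc A (2 * B) := ⟨by linarith [ht.1, ht₀.1], by linarith [ht.2, ht₀.2]⟩
    have hm0 : 0 < m := by linarith [hmI.1]
    have ht0 : 0 < t := by linarith [ht.1]
    have ht00 : 0 < t₀ := by linarith [ht₀.1]
    have hB : 0 < B := by linarith
    have k1 : t * t₀ ≤ m ^ 2 * Real.exp (-((t - t₀) ^ 2 / (16 * B ^ 2))) := by
      have e1 := Real.add_one_le_exp (-((t - t₀) ^ 2 / (16 * B ^ 2)))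
      have e2 : t * t₀ = m ^ 2 - (t - t₀) ^ 2 / 4 := by rw [hmd]; ring
      have e3 : m ^ 2 ≤ 4 * B ^ 2 := by nlinarith [hmI.2]
      have e4 : m ^ 2 * ((t - t₀) ^ 2 / (16 * B ^ 2)) ≤ (t - t₀) ^ 2 / 4 := by
        calc _ ≤ 4 * B ^ 2 * ((t - t₀) ^ 2 / (16 * B ^ 2)) := by gcongr
          _ = _ := by field_simp; ring
      have e5 := mul_le_mul_of_nonneg_left e1 (sq_nonneg m)
      nlinarith
    have k2 : (t * t₀) ^ d ≤ (m ^ 2) ^ d * e := by
      calc _ ≤ (m ^ 2 * Real.exp (-((t - t₀) ^ 2 / (16 * B ^ 2)))) ^ d := by gcongr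
        _ = _ := by
          rw [mul_pow, ← Real.exp_nat_mul, he]; congr 2; ring
    have k3 : h (t * √d) * h (t₀ * √d) ≤ h (m * √d) ^ 2 := by
      have := hlc (t * √d) (t₀ * √d)
      rwa [show (t * √d + t₀ * √d) / 2 = m * √d by rw [hmd]; ring] at this
    have k4 : H t * H t₀ ≤ H m ^ 2 * e := by
      have := h0 (t * √d)
      have := h0 (t₀ * √d)
      calc H t * H t₀ = (a ^ 2) ^ d * ((t * t₀) ^ d * (h (t * √d) * h (t₀ * √d))) := by
            simp only [hH]; ring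
        _ ≤ (a ^ 2) ^ d * (((m ^ 2) ^ d * e) * h (m * √d) ^ 2) := by gcongr
        _ = _ := by simp only [hH]; ring
    have k5 : H m ^ 2 ≤ (2 * H t₀) ^ 2 := by
      have := hH0 m hmI
      gcongr
      exact hm m hmI
    have k6 : H t * H t₀ ≤ (4 * H t₀ * e) * H t₀ := by
      calc _ ≤ H m ^ 2 * e := k4
        _ ≤ (2 * H t₀) ^ 2 * e := by gcongr
        _ = _ := by ring
    exact le_of_mul_le_mul_right k6 hp

theorem ThinCore_summable {c : ℝ} (hc : 0 < c) :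
    Summable fun k : ℤ => Real.exp (-(c * (k : ℝ) ^ 2)) := by
  have h : Summable fun n : ℕ => Real.exp (-(c * (n : ℝ) ^ 2)) := by
    refine Summable.of_nonneg_of_le (fun n => (Real.exp_pos _).le) (fun n => ?_)
      (Real.summable_exp_nat_mul_iff.2 (neg_lt_zero.2 hc))
    apply Real.exp_le_exp.2
    have : (n : ℝ) ≤ (n : ℝ) ^ 2 := by exact_mod_cast Nat.le_self_pow two_ne_zero n
    nlinarith
  apply Summable.of_nat_of_neg
  · simpa using h
  · simpa using h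

/-- the grid sum is at least the mass of `[A², B²]` -/
theorem ThinCore_lower {A B : ℝ} (hA : 0 < A) (hAB : A ≤ B) {d : ℕ} (hd : 1 ≤ d)
    (ν : Measure ℝ) [IsProbabilityMeasure ν] {t₀ : ℝ} (ht₀ : t₀ ∈ Set.Icc A (2 * B)) :
    ∃ F : Finset ℤ, (F.card : ℝ) ≤ (8 * B / A + 3) * d ∧
      (∀ k ∈ F, t₀ + k * (A / (2 * √d)) ∈ Set.Icc A (2 * B)) ∧
      Real.exp (-1) * ν.real (Set.Icc (A ^ 2) (B ^ 2)) ≤
        ∑ k ∈ F, ∫ s, ThinCore_b d (t₀ + k * (A / (2 * √d))) s ∂ν := by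
  classical
  have hd1 : (1 : ℝ) ≤ d := by exact_mod_cast hd
  have hs1 : 1 ≤ √(d : ℝ) := Real.one_le_sqrt.2 hd1
  have hsd : √(d : ℝ) ≤ d := by
    have := Real.mul_self_sqrt (Nat.cast_nonneg d : (0 : ℝ) ≤ d)
    nlinarith
  set w := A / (2 * √d) with hw
  have hw0 : 0 < w := by positivity
  have hwA : w ≤ A / 2 := by
    rw [hw]; gcongr; linarith
  have hB : 0 < B := by linarith
  set N : ℕ := ⌈2 * B / w⌉₊ with hN
  have hN1 : 2 * B / w ≤ N := Nat.le_ceil _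
  have hN2 : (N : ℝ) ≤ 2 * B / w + 1 := (Nat.ceil_lt_add_one (by positivity)).le
  refine ⟨(Finset.Icc (-(N : ℤ)) N).filter fun k : ℤ => t₀ + k * w ∈ Set.Icc A (2 * B), ?_,
    fun k hk => (Finset.mem_filter.1 hk).2, ?_⟩
  · have h1 : (((Finset.Icc (-(N : ℤ)) N).filter fun k : ℤ =>
        t₀ + k * w ∈ Set.Icc A (2 * B)).card : ℝ) ≤ 2 * N + 1 := by
      have := Finset.card_filter_le (Finset.Icc (-(N : ℤ)) N)
        fun k : ℤ => t₀ + k * w ∈ Set.Icc A (2 * B)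
      rw [Int.card_Icc] at this
      have e : ((N : ℤ) + 1 - -(N : ℤ)).toNat = 2 * N + 1 := by omega
      rw [e] at this
      exact_mod_cast this
    have h2 : 2 * B / w = 4 * B / A * √d := by rw [hw]; field_simp; ring
    have h3 : 4 * B / A * √d ≤ 4 * B / A * d := by gcongr
    have h4 : (8 * B / A + 3) * d = 2 * (4 * B / A * d) + 3 * d := by ring
    linarith
  · rw [← integral_finsetSum _ fun k hk => ThinCore_b_int d
      (by linarith [(Finset.mem_filter.1 hk).2.1]) ν]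
    have e : Real.exp (-1) * ν.real (Set.Icc (A ^ 2) (B ^ 2))
        = ∫ s, (Set.Icc (A ^ 2) (B ^ 2)).indicator (fun _ => Real.exp (-1)) s ∂ν := by
      rw [integral_indicator_const _ measurableSet_Icc, smul_eq_mul, mul_comm]
    rw [e]
    refine integral_mono ((integrable_const _).indicator measurableSet_Icc)
      (integrable_finsetSum _ fun k hk => ThinCore_b_int d
        (by linarith [(Finset.mem_filter.1 hk).2.1]) ν) fun s => ?_
    have hnn : ∀ k ∈ (Finset.Icc (-(N : ℤ)) N).filter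
        fun k : ℤ => t₀ + k * w ∈ Set.Icc A (2 * B),
        0 ≤ ThinCore_b d (t₀ + k * w) s := fun k hk =>
      ThinCore_b_nonneg d (by linarith [(Finset.mem_filter.1 hk).2.1]) s
    by_cases hs : s ∈ Set.Icc (A ^ 2) (B ^ 2)
    swap
    · simp only [Set.indicator_of_notMem hs]
      exact Finset.sum_nonneg hnn
    simp only [Set.indicator_of_mem hs]
    have r1 : A ≤ √s := Real.le_sqrt_of_sq_le hs.1
    have r2 : √s ≤ B := Real.sqrt_le_iff.2 ⟨hB.le, hs.2⟩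
    have r0 : 0 < √s := by linarith
    set k : ℤ := ⌈(√s - t₀) / w⌉ with hk
    have k1 : √s ≤ t₀ + k * w := by
      have := Int.le_ceil ((√s - t₀) / w)
      rw [div_le_iff₀ hw0] at this
      linarith
    have k2 : t₀ + k * w ≤ √s + w := by
      have := (Int.ceil_lt_add_one ((√s - t₀) / w)).le
      rw [← sub_le_iff_le_add, le_div_iff₀ hw0] at this
      linarith
    have kI : t₀ + k * w ∈ Set.Icc A (2 * B) := ⟨by linarith, by linarith⟩
    have kN : k ∈ Finset.Icc (-(N : ℤ)) N := by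
      rw [div_le_iff₀ hw0] at hN1
      rw [Finset.mem_Icc]
      constructor
      · have : -(N : ℝ) * w ≤ k * w := by linarith [ht₀.2, kI.1]
        have := le_of_mul_le_mul_right this hw0
        exact_mod_cast this
      · have : k * w ≤ (N : ℝ) * w := by linarith [ht₀.1, kI.2]
        have := le_of_mul_le_mul_right this hw0
        exact_mod_cast this
    refine le_trans ?_ (Finset.single_le_sum hnn (Finset.mem_filter.2 ⟨kN, kI⟩))
    have u1 : 1 ≤ (t₀ + k * w) / √s := by rwa [le_div_iff₀ r0, one_mul]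
    refine le_trans (Real.exp_le_exp.2 ?_) (ThinCore_b_ge d u1)
    have u2 : (t₀ + k * w) / √s - 1 ≤ 1 / (2 * √d) := by
      rw [sub_le_iff_le_add, div_le_iff₀ r0]
      have : w ≤ 1 / (2 * √d) * √s := by
        rw [hw, div_mul_eq_mul_div, one_mul]; gcongr
      linarith
    have u3 : ((t₀ + k * w) / √s - 1) ^ 2 ≤ (1 / (2 * √d)) ^ 2 := by
      have : 0 ≤ (t₀ + k * w) / √s - 1 := by linarith
      gcongr
    have u4 : (d : ℝ) * (1 / (2 * √d)) ^ 2 = 1 / 4 := by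
      rw [div_pow, mul_pow, Real.sq_sqrt (Nat.cast_nonneg d)]; field_simp; norm_num
    have u5 := mul_le_mul_of_nonneg_left u3 (Nat.cast_nonneg d : (0 : ℝ) ≤ d)
    linarith

/-- the kernel is concentrated in a window -/
theorem ThinCore_upper {B C₁ t₀ s₀ : ℝ} (ht0 : 0 < t₀) (htB : t₀ ≤ 2 * B) {d : ℕ} (hd : 1 ≤ d)
    (hC : 0 ≤ C₁) (hCd : C₁ / √d ≤ 1 / 2) (ν : Measure ℝ) [IsProbabilityMeasure ν] (hs₀ : 0 < s₀)
    (hν : ∀ᵐ s ∂ν, s₀ ≤ s) :
    ∫ s, ThinCore_b d t₀ s ∂ν ≤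
      ν.real {s | |s - t₀ ^ 2| ≤ 24 * B ^ 2 * C₁ / √d} + Real.exp (-(C₁ ^ 2 / 2)) := by
  have hd1 : (1 : ℝ) ≤ d := by exact_mod_cast hd
  have hs1 : 1 ≤ √(d : ℝ) := Real.one_le_sqrt.2 hd1
  set W : Set ℝ := {s | |s - t₀ ^ 2| ≤ 24 * B ^ 2 * C₁ / √d} with hW
  have hWm : MeasurableSet W := measurableSet_le (by fun_prop) measurable_const
  have e : ν.real W + Real.exp (-(C₁ ^ 2 / 2))
      = ∫ s, (W.indicator (fun _ => (1 : ℝ)) s + Real.exp (-(C₁ ^ 2 / 2))) ∂ν := by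
    rw [integral_add ((integrable_const _).indicator hWm) (integrable_const _),
      integral_indicator_const _ hWm]
    simp
  rw [e]
  refine integral_mono_ae (ThinCore_b_int d ht0.le ν)
    (((integrable_const _).indicator hWm).add (integrable_const _)) ?_
  filter_upwards [hν] with s hs
  have hs0 : 0 < s := by linarith
  have r0 : 0 < √s := Real.sqrt_pos.2 hs0
  by_cases hsW : s ∈ W
  · rw [Set.indicator_of_mem hsW]
    linarith [ThinCore_b_le_one d ht0.le s, Real.exp_pos (-(C₁ ^ 2 / 2))]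
  · rw [Set.indicator_of_notMem hsW, zero_add]
    refine (ThinCore_b_le d ht0.le s).trans (Real.exp_le_exp.2 ?_)
    have hη0 : 0 ≤ C₁ / √d := by positivity
    have hη : C₁ / √d ≤ |t₀ / √s - 1| := by
      by_contra hlt
      push Not at hlt
      apply hsW
      show |s - t₀ ^ 2| ≤ 24 * B ^ 2 * C₁ / √d
      rw [mul_div_assoc]
      generalize C₁ / √d = η at hlt hCd hη0
      obtain ⟨h1, h2⟩ := abs_lt.1 hlt
      have h1' : (1 - η) * √s < t₀ := by rw [← lt_div_iff₀ r0]; linarith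
      have h2' : t₀ < (1 + η) * √s := by rw [← div_lt_iff₀ r0]; linarith
      have e2 : s - t₀ ^ 2 = (√s - t₀) * (√s + t₀) := by
        have := Real.sq_sqrt hs0.le
        nlinarith
      have h3 : √s ≤ 4 * B := by nlinarith
      have h4 : |√s - t₀| ≤ η * (4 * B) := by
        have : η * √s ≤ η * (4 * B) := by gcongr
        rw [abs_le]; constructor <;> linarith
      rw [e2, abs_mul, abs_of_pos (by linarith : 0 < √s + t₀)]
      have hB : 0 < B := by linarith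
      calc _ ≤ η * (4 * B) * (6 * B) := by
            gcongr
            linarith
        _ = _ := by ring
    have h5 : (C₁ / √d) ^ 2 ≤ (t₀ / √s - 1) ^ 2 := by
      rw [← sq_abs (t₀ / √s - 1)]; gcongr
    rw [div_pow, Real.sq_sqrt (Nat.cast_nonneg d), div_le_iff₀ (by linarith)] at h5
    linarith

theorem thin_core {A B : ℝ} (hA : 0 < A) (hAB : A ≤ B) : ∃ C c E : ℝ, 0 < C ∧ 0 < c ∧ 0 < E ∧
    ∀ (d : ℕ), 1 ≤ d → ∀ (ν : Measure ℝ) [IsProbabilityMeasure ν] (s₀ : ℝ), 0 < s₀ →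
      (∀ᵐ s ∂ν, s₀ ≤ s) → ∀ h : ℝ → ℝ, (∀ t, 0 ≤ h t) → (∀ t t', h t * h t' ≤ h ((t + t') / 2) ^ 2) →
      (∀ t, |h t - ∫ s, (√(2 * Real.pi * s))⁻¹ ^ d * Real.exp (-t ^ 2 / (2 * s)) ∂ν| ≤
        Real.exp (-(E * d))) →
      1 / 8 ≤ ν.real (Set.Icc (A ^ 2) (B ^ 2)) →
      ∃ τ ∈ Set.Icc (A ^ 2) (4 * B ^ 2), c ≤ ν.real {s | |s - τ| ≤ C / √d} := by
  have hB : 0 < B := by linarith
  set a : ℝ := √(2 * Real.pi) * Real.exp (1 / 2) with ha
  have ha0 : 0 < a := by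
    have := Real.pi_pos
    positivity
  set c₀ : ℝ := A ^ 2 / (64 * B ^ 2) with hc₀
  have hc₀0 : 0 < c₀ := by positivity
  have hsum := ThinCore_summable hc₀0
  set S : ℝ := ∑' k : ℤ, Real.exp (-(c₀ * (k : ℝ) ^ 2)) with hS
  have hS0 : 0 < S := hsum.tsum_pos (fun k => (Real.exp_pos _).le) 0 (Real.exp_pos _)
  set m₀ : ℝ := Real.exp (-1) / 8 with hm₀
  have hm0 : 0 < m₀ := by positivity
  set c₁ : ℝ := m₀ / (8 * S) with hc₁
  have hc₁0 : 0 < c₁ := by positivity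
  set L : ℝ := 8 * B / A + 3 with hL
  have hL0 : 0 < L := by positivity
  set q : ℝ := min (min (1 / 2) (c₁ / 2)) (m₀ / (4 * L)) with hq
  have hq0 : 0 < q := by positivity
  have hq1 : q ≤ 1 / 2 := (min_le_left _ _).trans (min_le_left _ _)
  have hq2 : q ≤ c₁ / 2 := (min_le_left _ _).trans (min_le_right _ _)
  have hq3 : q ≤ m₀ / (4 * L) := min_le_right _ _
  set C₁ : ℝ := 8 / c₁ + 1 with hC₁
  have hC₁1 : 1 ≤ C₁ := by
    have : 0 < 8 / c₁ := by positivity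
    linarith
  have hC₁e : Real.exp (-(C₁ ^ 2 / 2)) ≤ c₁ / 4 := by
    have h1 := Real.add_one_le_exp (C₁ ^ 2 / 2)
    have h2 : 4 / c₁ ≤ Real.exp (C₁ ^ 2 / 2) := by
      have : 8 / c₁ = 2 * (4 / c₁) := by ring
      nlinarith
    rw [Real.exp_neg]
    calc _ ≤ (4 / c₁)⁻¹ := inv_anti₀ (by positivity) h2
      _ = _ := by rw [inv_div]
  refine ⟨24 * B ^ 2 * C₁, min (c₁ / 4) (1 / 8), a * (2 * B) / q, by positivity, by positivity,
    by positivity, ?_⟩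
  intro d hd ν _ s₀ hs₀ hν h h0 hlc happ hmass
  have hd1 : (1 : ℝ) ≤ d := by exact_mod_cast hd
  have hs1 : 1 ≤ √(d : ℝ) := Real.one_le_sqrt.2 hd1
  by_cases hCd : C₁ / √d ≤ 1 / 2
  swap
  · push Not at hCd
    refine ⟨A ^ 2, ⟨le_rfl, by nlinarith⟩, (min_le_right _ _).trans (hmass.trans ?_)⟩
    refine measureReal_mono fun s hs => ?_
    show |s - A ^ 2| ≤ 24 * B ^ 2 * C₁ / √d
    rw [mul_div_assoc, abs_of_nonneg (by linarith [hs.1])]
    have := hs.2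
    have h1 : 24 * B ^ 2 * (1 / 2) ≤ 24 * B ^ 2 * (C₁ / √d) := by gcongr
    nlinarith
  -- approximation
  have hδ : ∀ t ∈ Set.Icc A (2 * B),
      |(a * t) ^ d * h (t * √d) - ∫ s, ThinCore_b d t s ∂ν| ≤ q ^ d := by
    intro t ht
    have ht0 : 0 < t := by linarith [ht.1]
    have e1 : ∫ s, ThinCore_b d t s ∂ν = (a * t) ^ d *
        ∫ s, (√(2 * Real.pi * s))⁻¹ ^ d * Real.exp (-(t * √d) ^ 2 / (2 * s)) ∂ν := by
      rw [← integral_const_mul]
      refine integral_congr_ae ?_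
      filter_upwards [hν] with s hs
      exact (ThinCore_b_eq d t (by linarith)).symm
    rw [e1, ← mul_sub, abs_mul, abs_of_nonneg (by positivity : 0 ≤ (a * t) ^ d)]
    have e2 : Real.exp (-(a * (2 * B) / q)) ≤ q / (a * (2 * B)) := by
      have h1 := Real.add_one_le_exp (a * (2 * B) / q)
      rw [Real.exp_neg]
      calc _ ≤ (a * (2 * B) / q)⁻¹ := inv_anti₀ (by positivity) (by linarith)
        _ = _ := by rw [inv_div]
    have e3 : Real.exp (-(a * (2 * B) / q * d)) = Real.exp (-(a * (2 * B) / q)) ^ d := by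
      rw [← Real.exp_nat_mul]; congr 1; ring
    calc _ ≤ (a * (2 * B)) ^ d * Real.exp (-(a * (2 * B) / q * d)) := by
          gcongr
          · exact ht.2
          · exact happ _
      _ ≤ (a * (2 * B)) ^ d * (q / (a * (2 * B))) ^ d := by rw [e3]; gcongr
      _ = q ^ d := by rw [← mul_pow]; congr 1; field_simp
  have hqd : q ^ d ≤ q := pow_le_of_le_one hq0.le (by linarith) (by omega)
  have hqd2 : d * q ^ d ≤ 2 * q := by
    have h1 : (d : ℝ) ≤ 2 ^ d := by exact_mod_cast (Nat.lt_two_pow_self).le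
    calc (d : ℝ) * q ^ d ≤ 2 ^ d * q ^ d := by gcongr
      _ = (2 * q) ^ d := (mul_pow _ _ _).symm
      _ ≤ 2 * q := pow_le_of_le_one (by positivity) (by linarith) (by omega)
  have hM1 : ∀ t ∈ Set.Icc A (2 * B), ∫ s, ThinCore_b d t s ∂ν ≤ 1 := by
    intro t ht
    have ht0 : 0 ≤ t := by linarith [ht.1]
    calc _ ≤ ∫ _, (1 : ℝ) ∂ν := integral_mono (ThinCore_b_int d ht0 ν) (integrable_const _)
          (ThinCore_b_le_one d ht0)
      _ = 1 := by simp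
  obtain ⟨t₀, ht₀, hdec⟩ := ThinCore_decay (K := 2) hA hAB ha0.le d h0 hlc fun t ht => by
    linarith [(abs_le.1 (hδ t ht)).2, hM1 t ht]
  obtain ⟨F, hF1, hF2, hF3⟩ := ThinCore_lower hA hAB hd ν ht₀
  set H₀ := (a * t₀) ^ d * h (t₀ * √d) with hH₀
  have ht00 : 0 < t₀ := by linarith [ht₀.1]
  have hH0 : 0 ≤ H₀ := by
    have := h0 (t₀ * √d)
    positivity
  have hup : ∑ k ∈ F, ∫ s, ThinCore_b d (t₀ + k * (A / (2 * √d))) s ∂ν
      ≤ ∑ k ∈ F, (4 * H₀ * Real.exp (-(c₀ * (k : ℝ) ^ 2)) + q ^ d) := by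
    refine Finset.sum_le_sum fun k hk => ?_
    have h1 := (abs_le.1 (hδ _ (hF2 k hk))).1
    have h2 := hdec _ (hF2 k hk)
    have e : (d : ℝ) * (t₀ + k * (A / (2 * √d)) - t₀) ^ 2 / (16 * B ^ 2) = c₀ * (k : ℝ) ^ 2 := by
      rw [add_sub_cancel_left, mul_pow, div_pow, mul_pow, Real.sq_sqrt (Nat.cast_nonneg d), hc₀]
      field_simp
      ring
    rw [e] at h2
    linarith
  rw [Finset.sum_add_distrib, ← Finset.mul_sum, Finset.sum_const, nsmul_eq_mul] at hup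
  have hFS : ∑ k ∈ F, Real.exp (-(c₀ * (k : ℝ) ^ 2)) ≤ S :=
    hsum.sum_le_tsum F fun k _ => (Real.exp_pos _).le
  have h1 : m₀ ≤ Real.exp (-1) * ν.real (Set.Icc (A ^ 2) (B ^ 2)) := by
    calc m₀ = Real.exp (-1) * (1 / 8) := by rw [hm₀]; ring
      _ ≤ _ := by gcongr
  have h2 : 4 * H₀ * ∑ k ∈ F, Real.exp (-(c₀ * (k : ℝ) ^ 2)) ≤ 4 * H₀ * S := by gcongr
  have h3 : (F.card : ℝ) * q ^ d ≤ m₀ / 2 := by
    calc (F.card : ℝ) * q ^ d ≤ L * d * q ^ d := by gcongr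
      _ = L * (d * q ^ d) := by ring
      _ ≤ L * (2 * (m₀ / (4 * L))) := mul_le_mul_of_nonneg_left (by linarith) hL0.le
      _ = m₀ / 2 := by field_simp; ring
  have h4 : c₁ ≤ H₀ := by
    rw [hc₁, div_le_iff₀ (by positivity)]
    linarith
  have h5 := (abs_le.1 (hδ t₀ ht₀)).2
  have h6 := ThinCore_upper ht00 ht₀.2 hd (by linarith) hCd ν hs₀ hν
  refine ⟨t₀ ^ 2, ⟨by nlinarith [ht₀.1], by nlinarith [ht₀.2]⟩, (min_le_left _ _).trans ?_⟩
  linarith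

end Crest.Agent.R225
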