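import Crest.Agent.R225.Proj
import Crest.Agent.R225.Borell
import Crest.Agent.R225.ThinCore

/-!
# Row 225: Thin
A thin shell of constant mass.

`thin`: `κ = Fin d`, `a` from `borell`, `exists_proj` with smoothing variance `a`, `ν` the law of `x ⬝ x / n + a`, `h t = ∫ gv a (t e₀ - Γ x)`,
`A² = 2a`, `B² = 9`.
-/

set_option autoImplicit false

open MeasureTheory ProbabilityTheory Matrix Filter Topology
open scoped ENNReal RealInnerProductSpace

noncomputable section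

namespace Crest.Agent.R225

theorem Thin_num {a E₀ : ℝ} (ha : 0 < a) (ha1 : a ≤ 1) {d n : ℕ} (hd : 1 ≤ d)
    (hn : Real.exp ((2 + 4 * Real.log a⁻¹ + 4 * E₀) * d) ≤ n) :
    (d : ℝ) * a⁻¹ ^ (d + 1) / √n ≤ Real.exp (-(E₀ * d)) ^ 2 := by
  have hd1 : (1 : ℝ) ≤ d := by exact_mod_cast hd
  have hl : 0 ≤ Real.log a⁻¹ := Real.log_nonneg ((one_le_inv₀ ha).2 ha1)
  have h1 : Real.exp ((1 + 2 * Real.log a⁻¹ + 2 * E₀) * d) ≤ √n := by
    refine Real.le_sqrt_of_sq_le ?_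
    rw [← Real.exp_nat_mul]
    refine le_trans (le_of_eq ?_) hn
    congr 1; push_cast; ring
  have h2 : (d : ℝ) ≤ Real.exp d := by linarith [Real.add_one_le_exp (d : ℝ)]
  have h3 : a⁻¹ ^ (d + 1) ≤ Real.exp (2 * Real.log a⁻¹ * d) := by
    rw [← Real.exp_log (inv_pos.2 ha), ← Real.exp_nat_mul, Real.exp_log (inv_pos.2 ha),
      Real.exp_le_exp]
    push_cast
    nlinarith
  have h4 : 0 < √(n : ℝ) := (Real.exp_pos _).trans_le h1
  rw [div_le_iff₀ h4]
  calc (d : ℝ) * a⁻¹ ^ (d + 1) ≤ Real.exp d * Real.exp (2 * Real.log a⁻¹ * d) := by gcongr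
    _ = Real.exp (-(E₀ * d)) ^ 2 * Real.exp ((1 + 2 * Real.log a⁻¹ + 2 * E₀) * d) := by
      rw [← Real.exp_nat_mul, ← Real.exp_add, ← Real.exp_add]
      congr 1; push_cast; ring
    _ ≤ _ := by gcongr

theorem thin : ∃ a b C c E : ℝ, 0 < a ∧ 0 < C ∧ 0 < c ∧ 0 < E ∧ ∀ (d n : ℕ), 1 ≤ d →
    Real.exp (E * d) ≤ n → ∀ K : Set (Fin n → ℝ), Body K → Iso K →
      ∃ τ ∈ Set.Icc a b, c ≤ (volume[|K]).real {x | |x ⬝ᵥ x / n - τ| ≤ C / √d} := by
  obtain ⟨a, ha, ha1, hbor⟩ := borell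
  have hA : 0 < √(2 * a) := Real.sqrt_pos.2 (by positivity)
  have hA2 : √(2 * a) ^ 2 = 2 * a := Real.sq_sqrt (by positivity)
  have hAB : √(2 * a) ≤ 3 := by
    rw [Real.sqrt_le_left (by norm_num)]; linarith
  obtain ⟨C, c, E₀, hC, hc, hE₀, hcore⟩ := thin_core hA hAB
  have hl : 0 ≤ Real.log a⁻¹ := Real.log_nonneg ((one_le_inv₀ ha).2 ha1)
  refine ⟨a, 36, C, c, 2 + 4 * Real.log a⁻¹ + 4 * E₀, ha, hC, hc, by positivity,
    fun d n hd hn K hK hI => ?_⟩
  have hn1 : 1 ≤ n := by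
    have : (0 : ℝ) < n := (Real.exp_pos _).trans_le hn
    exact_mod_cast this
  have hn0 : (0 : ℝ) < n := by exact_mod_cast hn1
  have := hK.isProb
  obtain ⟨Γ, hΓ⟩ := exists_proj (Fin d) hn1 hK hI ha
  set φ : (Fin n → ℝ) → ℝ := fun x => x ⬝ᵥ x / n + a with hφ
  have hφc : Continuous φ := by fun_prop
  have hφm : Measurable φ := hφc.measurable
  have : IsProbabilityMeasure ((volume[|K]).map φ) :=
    Measure.isProbabilityMeasure_map hφm.aemeasurable
  set e₀ : Fin d → ℝ := Pi.single ⟨0, hd⟩ 1 with he₀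
  have hee : e₀ ⬝ᵥ e₀ = 1 := by simp [he₀]
  obtain ⟨τ, hτ, hmass⟩ := hcore d hd ((volume[|K]).map φ) a ha
    ((ae_map_iff hφm.aemeasurable (measurableSet_Ici (a := a))).2 (ae_of_all _ fun x => by
      have h0 : 0 ≤ x ⬝ᵥ x := Finset.sum_nonneg fun i _ => mul_self_nonneg _
      have : 0 ≤ x ⬝ᵥ x / n := by positivity
      change a ≤ x ⬝ᵥ x / n + a
      linarith))
    (fun t => ∫ x, gv a (t • e₀ - Γ *ᵥ x) ∂(volume[|K]))
    (fun t => integral_nonneg fun x => (gv_pos ha _).le)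
    (fun t t' => by
      have h := smooth_logconcave hK ha Γ (t • e₀) (t' • e₀)
      have e : (1 / 2 : ℝ) • (t • e₀ + t' • e₀) = ((t + t') / 2) • e₀ := by module
      rwa [e] at h)
    (fun t => by
      have h := hΓ (t • e₀)
      rw [Fintype.card_fin] at h
      replace h := h.trans (Thin_num ha ha1 hd hn)
      rw [integral_map hφm.aemeasurable (Measurable.aestronglyMeasurable (by fun_prop))]
      have e : ∀ x, (√(2 * Real.pi * φ x))⁻¹ ^ d * Real.exp (-t ^ 2 / (2 * φ x)) =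
          gv (x ⬝ᵥ x / n + a) (t • e₀) := fun x => by
        rw [gv_eq, Fintype.card_fin, smul_dotProduct, dotProduct_smul, hee]
        simp only [hφ, smul_eq_mul, mul_one, sq]
      simp only [e]
      exact abs_le_of_sq_le_sq' h (Real.exp_pos _).le |> abs_le.2)
    (by
      rw [map_measureReal_apply hφm measurableSet_Icc]
      refine (hbor n K hn1 hK hI).trans (measureReal_mono fun x hx => ?_)
      have h1 : a ≤ x ⬝ᵥ x / n := by rw [le_div_iff₀ hn0]; exact hx.1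
      have h2 : x ⬝ᵥ x / n ≤ 8 := by rw [div_le_iff₀ hn0]; exact hx.2
      change φ x ∈ Set.Icc _ _
      simp only [hφ, hA2]
      constructor <;> linarith)
  rw [hA2] at hτ
  refine ⟨τ - a, ⟨by linarith [hτ.1], by linarith [hτ.2]⟩, hmass.trans (le_of_eq ?_)⟩
  rw [map_measureReal_apply hφm (measurableSet_le (by fun_prop) measurable_const)]
  congr 1
  ext x
  simp only [hφ, Set.mem_preimage, Set.mem_ofPred_eq]
  rw [show x ⬝ᵥ x / n + a - τ = x ⬝ᵥ x / n - (τ - a) by ring]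

end Crest.Agent.R225
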