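import Crest.Agent.R225.Psi

/-!
# Row 225: TwoLevel
Closure properties of `TwoLevel` and `Str`.
-/

set_option autoImplicit false

open MeasureTheory ProbabilityTheory Matrix Filter Topology
open scoped ENNReal RealInnerProductSpace

noncomputable section

namespace Crest.Agent.R225

variable {ι κ G : Type} [Fintype ι] [DecidableEq ι] [Fintype κ] [DecidableEq κ]

theorem TwoLevel.translate {S : Finset (ι → ℤ)} (h : TwoLevel S) (b : ι → ℤ) :
    TwoLevel (S.image fun z => z + b) := by
  induction h with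
  | empty => simpa using TwoLevel.empty
  | single z => simpa using TwoLevel.single (z + b)
  | union A B lam a c hac hA hB _ _ ihA ihB =>
    rw [Finset.image_union]
    refine TwoLevel.union _ _ lam (a + lam ⬝ᵥ b) (c + lam ⬝ᵥ b) (by simpa using hac) ?_ ?_ ihA ihB
    · intro z hz
      obtain ⟨z', hz', rfl⟩ := Finset.mem_image.1 hz
      rw [dotProduct_add, hA z' hz']
    · intro z hz
      obtain ⟨z', hz', rfl⟩ := Finset.mem_image.1 hz
      rw [dotProduct_add, hB z' hz']

theorem TwoLevel_of_cube (b : ι → ℤ) (s : Finset ι) : ∀ (c : ι → ℤ) (S : Finset (ι → ℤ)),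
    (∀ z ∈ S, ∀ i, z i = b i ∨ z i = b i + 1) → (∀ z ∈ S, ∀ i, i ∉ s → z i = c i) →
      TwoLevel S := by
  induction s using Finset.induction_on with
  | empty =>
    intro c S _ h2
    have : S ⊆ {c} := fun z hz => Finset.mem_singleton.2 (funext fun i => h2 z hz i (by simp))
    rcases Finset.subset_singleton_iff.1 this with rfl | rfl
    · exact TwoLevel.empty
    · exact TwoLevel.single c
  | insert i s _ ih =>
    intro c S h1 h2
    have key : ∀ v : ℤ, TwoLevel (S.filter fun z => z i = v) := fun v => by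
      refine ih (Function.update c i v) _ (fun z hz => h1 z (Finset.mem_filter.1 hz).1) ?_
      intro z hz k hk
      obtain ⟨hz1, hz2⟩ := Finset.mem_filter.1 hz
      by_cases hki : k = i
      · subst hki
        simpa using hz2
      · rw [Function.update_of_ne hki]
        exact h2 z hz1 k (by simp [hki, hk])
    have e : S = (S.filter fun z => z i = b i) ∪ S.filter fun z => z i = b i + 1 := by
      ext z
      simp only [Finset.mem_union, Finset.mem_filter]
      constructor
      · intro hz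
        rcases h1 z hz i with h | h
        · exact Or.inl ⟨hz, h⟩
        · exact Or.inr ⟨hz, h⟩
      · rintro (h | h) <;> exact h.1
    rw [e]
    refine TwoLevel.union _ _ (Pi.single i 1) (b i) (b i + 1) (by omega) ?_ ?_ (key _) (key _)
    · intro z hz
      simpa using (Finset.mem_filter.1 hz).2
    · intro z hz
      simpa using (Finset.mem_filter.1 hz).2

/-- the Boolean cube with corner `b` -/
theorem twoLevel_cube (b : ι → ℤ) :
    TwoLevel (Finset.univ.image fun e : ι → Bool => fun i => b i + if e i then 1 else 0) := by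
  refine TwoLevel_of_cube b Finset.univ b _ (fun z hz i => ?_) (fun z _ i hi => by simp at hi)
  obtain ⟨e, -, rfl⟩ := Finset.mem_image.1 hz
  cases h : e i <;> simp [h]

theorem TwoLevel_elim (z : ι → ℤ) {T : Finset (κ → ℤ)} (h : TwoLevel T) :
    TwoLevel (T.image fun b => Sum.elim z b) := by
  induction h with
  | empty => simpa using TwoLevel.empty
  | single w => simpa using TwoLevel.single (Sum.elim z w)
  | union A B lam a c hac hA hB _ _ ihA ihB =>
    rw [Finset.image_union]
    refine TwoLevel.union _ _ (Sum.elim 0 lam) a c hac ?_ ?_ ihA ihB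
    · intro u hu
      obtain ⟨v, hv, rfl⟩ := Finset.mem_image.1 hu
      rw [sumElim_dotProduct_sumElim, zero_dotProduct, zero_add, hA v hv]
    · intro u hu
      obtain ⟨v, hv, rfl⟩ := Finset.mem_image.1 hu
      rw [sumElim_dotProduct_sumElim, zero_dotProduct, zero_add, hB v hv]

/-- a two-level family of two-level fibres -/
theorem TwoLevel.sigma {S : Finset (ι → ℤ)} (h : TwoLevel S) (T : (ι → ℤ) → Finset (κ → ℤ))
    (hT : ∀ z ∈ S, TwoLevel (T z)) :
    TwoLevel (S.biUnion fun z => (T z).image fun b => Sum.elim z b) := by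
  induction h with
  | empty => simpa using TwoLevel.empty
  | single z => simpa using TwoLevel_elim z (hT z (by simp))
  | union A B lam a c hac hA hB _ _ ihA ihB =>
    rw [Finset.union_biUnion]
    refine TwoLevel.union _ _ (Sum.elim lam 0) a c hac ?_ ?_
      (ihA fun z hz => hT z (Finset.mem_union_left _ hz))
      (ihB fun z hz => hT z (Finset.mem_union_right _ hz))
    · intro z hz
      obtain ⟨u, hu, hz⟩ := Finset.mem_biUnion.1 hz
      obtain ⟨v, -, rfl⟩ := Finset.mem_image.1 hz
      rw [sumElim_dotProduct_sumElim, zero_dotProduct, add_zero, hA u hu]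
    · intro z hz
      obtain ⟨u, hu, hz⟩ := Finset.mem_biUnion.1 hz
      obtain ⟨v, -, rfl⟩ := Finset.mem_image.1 hz
      rw [sumElim_dotProduct_sumElim, zero_dotProduct, add_zero, hB u hu]

section str
variable [AddCommGroup G] [Fintype G] [DecidableEq G] {A : Matrix ι ι ℝ} {h : (ι → ℤ) →+ G}
  {R R' wm wm' m m' : ℝ} {y : ι → ℝ}

theorem Str.mono (H : Str A h R wm m y) (hR : R ≤ R') (hw : wm ≤ wm') (hm : m' ≤ m) :
    Str A h R' wm' m' y := by
  obtain ⟨S, w, h1, h2, h3, h4⟩ := H
  refine ⟨S, w, h1, h2, fun z hz => ?_, fun s => hm.trans (h4 s)⟩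
  obtain ⟨a1, a2, a3, a4⟩ := h3 z hz
  exact ⟨a1, a2.trans hw, a3, fun i => (a4 i).trans hR⟩

theorem Str.zero (hm : m ≤ 0) : Str A h R wm m y := ⟨∅, fun _ => 0, TwoLevel.empty, by simp, by simp, fun s => by simpa using hm⟩

theorem Str.translate (H : Str A h R wm m y) (b : ι → ℤ) : Str A h R wm m (y + A *ᵥ ci b) := by
  obtain ⟨S, w, h1, h2, h3, h4⟩ := H
  have hci : ∀ z : ι → ℤ, y + A *ᵥ ci b - A *ᵥ ci (z + b) = y - A *ᵥ ci z := fun z => by
    have : ci (z + b) = ci z + ci b := by
      funext i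
      simp [ci]
    rw [this, mulVec_add]
    abel
  refine ⟨S.image fun z => z + b, fun z => w (z - b), h1.translate b,
    Finset.card_image_le.trans h2, fun z hz => ?_, fun s => ?_⟩
  · obtain ⟨z', hz', rfl⟩ := Finset.mem_image.1 hz
    simpa only [add_sub_cancel_right, hci] using h3 z' hz'
  · refine (h4 (s - h b)).trans_eq ?_
    congr 1
    rw [Finset.filter_image, Finset.sum_image fun u _ v _ huv => add_right_cancel huv]
    simp only [add_sub_cancel_right, map_add, eq_sub_iff_add_eq]

/-- scale the weights by `exp (-e)` (`gz_perturb`) -/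
theorem Str.perturb (H : Str A h R wm m y) {y' : ι → ℝ} {δ e : ℝ} (hd : ∀ i, |y' i - y i| ≤ δ)
    (he : Fintype.card ι * (R * δ + δ ^ 2 / 2) ≤ e) (he0 : 0 ≤ e) :
    Str A h (R + δ) wm (Real.exp (-e) * m) y' := by
  obtain ⟨S, w, h1, h2, h3, h4⟩ := H
  have hx := Real.exp_pos (-e)
  have hx1 : Real.exp (-e) ≤ 1 := Real.exp_le_one_iff.2 (by linarith)
  refine ⟨S, fun z => Real.exp (-e) * w z, h1, h2, fun z hz => ?_, fun s => ?_⟩
  · obtain ⟨a1, a2, a3, a4⟩ := h3 z hz
    have hd' : ∀ i, |(y' - A *ᵥ ci z) i - (y - A *ᵥ ci z) i| ≤ δ := fun i => by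
      simpa using hd i
    refine ⟨mul_nonneg hx.le a1, (mul_le_of_le_one_left a1 hx1).trans a2, ?_, fun i => ?_⟩
    · have g1 := gz_perturb a4 hd'
      have g2 : Real.exp (-e) * gz (y - A *ᵥ ci z) ≤ gz (y' - A *ᵥ ci z) :=
        (mul_le_mul_of_nonneg_right (Real.exp_le_exp.2 (by linarith)) (gz_pos _).le).trans g1
      calc Real.exp (-e) * w z ≤ Real.exp (-e) * (|A.det| * gz (y - A *ᵥ ci z)) :=
            mul_le_mul_of_nonneg_left a3 hx.le
        _ = |A.det| * (Real.exp (-e) * gz (y - A *ᵥ ci z)) := by ring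
        _ ≤ _ := mul_le_mul_of_nonneg_left g2 (abs_nonneg _)
    · have := abs_sub_abs_le_abs_sub ((y' - A *ᵥ ci z) i) ((y - A *ᵥ ci z) i)
      linarith [a4 i, hd' i]
  · rw [← Finset.mul_sum, mul_left_comm]
    exact mul_le_mul_of_nonneg_left (h4 s) hx.le

theorem Str.forget (H : Str A h R wm m y) : Str A (0 : (ι → ℤ) →+ Unit) R wm m y := by
  obtain ⟨S, w, h1, h2, h3, h4⟩ := H
  refine ⟨S, w, h1, h2, h3, fun s => ?_⟩
  have hs : ∑ _s : G, m ≤ ∑ s : G, Fintype.card G * ∑ z ∈ S.filter (fun z => h z = s), w z :=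
    Finset.sum_le_sum fun s _ => h4 s
  rw [← Finset.mul_sum, Finset.sum_fiberwise, Finset.sum_const, Finset.card_univ, nsmul_eq_mul] at hs
  have hG : (0 : ℝ) < Fintype.card G := Nat.cast_pos.2 Fintype.card_pos
  have := le_of_mul_le_mul_left hs hG
  simpa using this

end str

end Crest.Agent.R225
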