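import Crest.Agent.R225.BlockEv

/-!
# Row 225: Vert
The tower.

`Vert.comp`: `A'' = fromBlocks A 0 Bm A'`, column `i` of `Bm` is `- sh (h (Pi.single i 1))`; then
`Bm z + sh (h z) ∈ A' ℤ^κ` for all `z` (additive induction), so by `Str.translate` the fibre over `z` at the point
`y' - Bm z` has a structure of mass `ζ (h z)`.  Use `TwoLevel.sigma`, product weights, `gz_sum`, `det_fromBlocks_zero₁₂`.

`vert_base`: `A = 1`, `h z = ∑ i, z i • i`, the cube at `⌊y⌋` with constant weights `ph 1 ^ |G|`.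

`vert`: induction from `x₀` to `x₀ + k`; masses `m (1 - 9/x²)`, `∏ (1 - 9/x²) ≥ 1/2` for `x₀ ≥ 20`
(carry the invariant `m₀ (1/2 + 10/x)`-like), finally `Str.forget`.
-/

set_option autoImplicit false

open MeasureTheory ProbabilityTheory Matrix Filter Topology
open scoped ENNReal RealInnerProductSpace

noncomputable section

namespace Crest.Agent.R225

theorem vert_ci_add {ι : Type} (z z' : ι → ℤ) : ci (z + z') = ci z + ci z' := by
  funext i
  simp [ci]

theorem vert_ci_neg {ι : Type} (z : ι → ℤ) : ci (-z) = -ci z := by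
  funext i
  simp [ci]

theorem vert_ci_zero {ι : Type} : ci (0 : ι → ℤ) = 0 := by
  funext i
  simp [ci]

theorem vert_ci_elim {ι κ : Type} (z : ι → ℤ) (b : κ → ℤ) :
    ci (Sum.elim z b) = Sum.elim (ci z) (ci b) := by
  funext i
  rcases i with i | i <;> rfl

/-- the shifts are linear modulo the lattice -/
theorem vert_shift {ι κ G : Type} [Fintype ι] [DecidableEq ι] [Fintype κ] [AddCommGroup G]
    (h : (ι → ℤ) →+ G) {A' : Matrix κ κ ℝ} {sh : G → κ → ℝ}
    (hs : ∀ s s', ∃ b : κ → ℤ, sh (s + s') = sh s + sh s' + A' *ᵥ ci b) (z : ι → ℤ) :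
    ∃ b : κ → ℤ, (Matrix.of fun k i => -sh (h (Pi.single i 1)) k) *ᵥ ci z + sh (h z) =
      A' *ᵥ ci b := by
  obtain ⟨b₀, hb₀⟩ := hs 0 0
  rw [add_zero] at hb₀
  have h0 : sh 0 = -(A' *ᵥ ci b₀) := by linear_combination -hb₀
  let S : AddSubgroup (ι → ℤ) :=
    { carrier := {z | ∃ b : κ → ℤ, (Matrix.of fun k i => -sh (h (Pi.single i 1)) k) *ᵥ ci z +
        sh (h z) = A' *ᵥ ci b}
      zero_mem' := ⟨-b₀, by simp [vert_ci_zero, vert_ci_neg, h0, Matrix.mulVec_neg]⟩
      add_mem' := by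
        rintro z z' ⟨b, hb⟩ ⟨b', hb'⟩
        obtain ⟨b'', hb''⟩ := hs (h z) (h z')
        refine ⟨b + b' + b'', ?_⟩
        simp only [vert_ci_add, Matrix.mulVec_add, map_add]
        linear_combination hb + hb' + hb''
      neg_mem' := by
        rintro z ⟨b, hb⟩
        obtain ⟨b'', hb''⟩ := hs (h z) (-h z)
        rw [add_neg_cancel] at hb''
        refine ⟨-b + -b₀ + -b'', ?_⟩
        simp only [vert_ci_add, vert_ci_neg, Matrix.mulVec_add, Matrix.mulVec_neg, map_neg]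
        linear_combination -hb - hb'' + h0 }
  have hz : z = ∑ i, z i • Pi.single i (1 : ℤ) := by
    funext j
    simp [Finset.sum_apply, Pi.single_apply]
  change z ∈ S
  rw [hz]
  refine S.sum_mem fun i _ => S.zsmul_mem ⟨0, ?_⟩ _
  funext k
  simp [ci, Matrix.mulVec, dotProduct, Pi.single_apply]

theorem Vert.mono {ι G : Type} [Fintype ι] [DecidableEq ι] [AddCommGroup G] [Fintype G]
    [DecidableEq G] {A : Matrix ι ι ℝ} {h : (ι → ℤ) →+ G} {R R' w w' m m' : ℝ}
    (H : Vert A h R w m) (hR : R ≤ R') (hw : w ≤ w') (hm : m' ≤ m) : Vert A h R' w' m' :=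
  ⟨H.1, fun i j => (H.2.1 i j).trans hR, fun y => (H.2.2 y).mono hR hw hm⟩

theorem Vert.comp {ι κ G G' : Type} [Fintype ι] [DecidableEq ι] [Fintype κ] [DecidableEq κ]
    [AddCommGroup G] [Fintype G] [DecidableEq G] [AddCommGroup G'] [Fintype G'] [DecidableEq G']
    {A : Matrix ι ι ℝ} {h : (ι → ℤ) →+ G} {A' : Matrix κ κ ℝ} {sh : G → κ → ℝ}
    {h' : (κ → ℤ) →+ G'} {R R' w w' m ε : ℝ} (H : Vert A h R w m) (H' : Blk A' sh h' R' w' ε)
    (hR0 : 0 ≤ R) (hR : R ≤ R') (hm : 0 ≤ m) :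
    ∃ (A'' : Matrix (ι ⊕ κ) (ι ⊕ κ) ℝ) (h'' : (ι ⊕ κ → ℤ) →+ G'),
      Vert A'' h'' R' (w * w') (m * (1 - ε)) := by
  obtain ⟨hA, hAR, hS⟩ := H
  obtain ⟨hA', hAR', hsh, hadd, hB⟩ := H'
  obtain ⟨Bm, hBm⟩ : ∃ Bm : Matrix κ ι ℝ, Bm = Matrix.of fun k i => -sh (h (Pi.single i 1)) k :=
    ⟨_, rfl⟩
  let h'' : (ι ⊕ κ → ℤ) →+ G' :=
    { toFun := fun u => h' fun k => u (Sum.inr k)
      map_zero' := h'.map_zero
      map_add' := fun u v => h'.map_add _ _ }
  refine ⟨Matrix.fromBlocks A 0 Bm A', h'', ?_, ?_, fun y => ?_⟩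
  · rw [Matrix.det_fromBlocks_zero₁₂]
    exact mul_ne_zero hA hA'
  · rintro (i | i) (j | j)
    · exact (hAR i j).trans hR
    · simpa using hR0.trans hR
    · simpa [hBm] using hsh _ i
    · exact hAR' i j
  obtain ⟨S, u, hS1, hS2, hS3, hS4⟩ := hS fun i => y (Sum.inl i)
  obtain ⟨ζ, hζ, hζs⟩ := hB fun k => y (Sum.inr k)
  have hfib : ∀ z : ι → ℤ, Str A' h' R' w' (ζ (h z)) ((fun k => y (Sum.inr k)) - Bm *ᵥ ci z) :=
    fun z => by
      obtain ⟨b, hb⟩ := vert_shift h hadd z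
      have := (hζ (h z)).2.translate (-b)
      rw [vert_ci_neg, Matrix.mulVec_neg, ← hb, ← hBm] at this
      convert this using 1
      abel
  choose T v hT1 hT2 hT3 hT4 using hfib
  have hinj : ∀ z : ι → ℤ, Function.Injective fun b : κ → ℤ => Sum.elim z b := fun z b b' e =>
    funext fun k => congrFun e (Sum.inr k)
  refine ⟨S.biUnion fun z => (T z).image fun b => Sum.elim z b,
    fun x => u (fun i => x (Sum.inl i)) * v (fun i => x (Sum.inl i)) fun k => x (Sum.inr k),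
    hS1.sigma T fun z _ => hT1 z, ?_, ?_, fun s => ?_⟩
  · rw [Fintype.card_sum, pow_add]
    refine (Finset.card_biUnion_le_card_mul _ _ _ fun z _ =>
      Finset.card_image_le.trans (hT2 z)).trans (Nat.mul_le_mul_right _ hS2)
  · intro x hx
    obtain ⟨z, hz, hx⟩ := Finset.mem_biUnion.1 hx
    obtain ⟨b, hb, rfl⟩ := Finset.mem_image.1 hx
    obtain ⟨h1, h2, h3, h4⟩ := hS3 z hz
    obtain ⟨h5, h6, h7, h8⟩ := hT3 z b hb
    have e : y - Matrix.fromBlocks A 0 Bm A' *ᵥ ci (Sum.elim z b) =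
        Sum.elim ((fun i => y (Sum.inl i)) - A *ᵥ ci z)
          ((fun k => y (Sum.inr k)) - Bm *ᵥ ci z - A' *ᵥ ci b) := by
      rw [vert_ci_elim, Matrix.fromBlocks_mulVec]
      funext i
      rcases i with i | i <;> simp [sub_sub]
    simp only [Sum.elim_inl, Sum.elim_inr]
    rw [e]
    refine ⟨mul_nonneg h1 h5, mul_le_mul h2 h6 h5 (h1.trans h2), ?_, ?_⟩
    · rw [Matrix.det_fromBlocks_zero₁₂, abs_mul, gz_sum, mul_mul_mul_comm]
      exact mul_le_mul h3 h7 h5 (h1.trans h3)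
    · rintro (i | i)
      · exact (h4 i).trans hR
      · exact h8 i
  · have hG : (0 : ℝ) < Fintype.card G := by exact_mod_cast Fintype.card_pos
    have e : ∑ x ∈ (S.biUnion fun z => (T z).image fun b => Sum.elim z b).filter
        (fun x => h'' x = s),
        u (fun i => x (Sum.inl i)) * v (fun i => x (Sum.inl i)) (fun k => x (Sum.inr k)) =
        ∑ z ∈ S, u z * ∑ b ∈ (T z).filter (fun b => h' b = s), v z b := by
      rw [Finset.sum_filter, Finset.sum_biUnion]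
      · refine Finset.sum_congr rfl fun z _ => ?_
        rw [Finset.sum_image fun b _ b' _ e => hinj z e, Finset.mul_sum, Finset.sum_filter]
        rfl
      · intro z _ z' _ hne
        refine Finset.disjoint_left.2 fun x hx hx' => hne ?_
        obtain ⟨b, -, rfl⟩ := Finset.mem_image.1 hx
        obtain ⟨b', -, e⟩ := Finset.mem_image.1 hx'
        exact funext fun i => (congrFun e (Sum.inl i)).symm
    rw [e, Finset.mul_sum]
    refine le_trans ?_ (Finset.sum_le_sum (f := fun z => u z * ζ (h z)) fun z hz => ?_)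
    · refine le_of_mul_le_mul_left ?_ hG
      calc Fintype.card G * (m * (1 - ε)) = m * ((1 - ε) * Fintype.card G) := by ring
        _ ≤ m * ∑ s, ζ s := mul_le_mul_of_nonneg_left hζs hm
        _ ≤ ∑ s, (Fintype.card G * ∑ z ∈ S.filter (fun z => h z = s), u z) * ζ s := by
            rw [Finset.mul_sum]
            exact Finset.sum_le_sum fun s _ => mul_le_mul_of_nonneg_right (hS4 s) (hζ s).1
        _ = _ := by
            rw [← Finset.sum_fiberwise S h (fun z => u z * ζ (h z)), Finset.mul_sum]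
            refine Finset.sum_congr rfl fun s _ => ?_
            rw [mul_assoc, Finset.sum_mul]
            congr 1
            exact Finset.sum_congr rfl fun z hz => by rw [(Finset.mem_filter.1 hz).2]
    · rw [mul_left_comm]
      exact mul_le_mul_of_nonneg_left (hT4 z s) (hS3 z hz).1

theorem vert_base (G : Type) [AddCommGroup G] [Fintype G] [DecidableEq G] :
    ∃ (h : (G → ℤ) →+ G), Vert (1 : Matrix G G ℝ) h 1 1 (ph 1 ^ Fintype.card G) := by
  let h : (G → ℤ) →+ G :=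
    { toFun := fun z => ∑ i, z i • i
      map_zero' := by simp
      map_add' := fun x y => by simp [add_smul, Finset.sum_add_distrib] }
  have hc0 : 0 < ph 1 ^ Fintype.card G := pow_pos (ph_pos 1) _
  refine ⟨h, by simp, fun i j => ?_, fun y => ?_⟩
  · rw [Matrix.one_apply]
    split_ifs <;> simp
  refine ⟨_, fun _ => ph 1 ^ Fintype.card G, twoLevel_cube fun i => ⌊y i⌋,
    Finset.card_image_le.trans (by simp), fun z hz => ?_, fun s => ?_⟩
  · obtain ⟨e, -, rfl⟩ := Finset.mem_image.1 hz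
    have h1 : ∀ i, |(y - (1 : Matrix G G ℝ) *ᵥ ci fun i => ⌊y i⌋ + if e i then 1 else 0) i| ≤ 1 :=
      fun i => by
        have h2 := Int.floor_le (y i)
        have h3 := Int.lt_floor_add_one (y i)
        simp only [Matrix.one_mulVec, Pi.sub_apply, ci, abs_le]
        split_ifs <;> push_cast <;> constructor <;> linarith
    refine ⟨hc0.le, pow_le_one₀ (ph_pos 1).le ((ph_le_half 1).trans (by norm_num)), ?_, h1⟩
    rw [Matrix.det_one, abs_one, one_mul, gz, ← Finset.card_univ, ← Finset.prod_const]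
    exact Finset.prod_le_prod (fun _ _ => (ph_pos 1).le) fun i _ => ph_anti (by simpa using h1 i)
  · have hG : (1 : ℝ) ≤ Fintype.card G := by exact_mod_cast Fintype.card_pos
    refine le_trans ?_ (le_mul_of_one_le_left (Finset.sum_nonneg fun _ _ => hc0.le) hG)
    refine Finset.single_le_sum (f := fun _ => ph 1 ^ Fintype.card G) (fun _ _ => hc0.le)
      (a := fun i => ⌊y i⌋ + if decide (i = s - h fun i => ⌊y i⌋) then 1 else 0)
      (Finset.mem_filter.2 ⟨Finset.mem_image.2 ⟨_, Finset.mem_univ _, rfl⟩, ?_⟩)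
    simp [h, add_smul, Finset.sum_add_distrib]

theorem vert_card {c M x x₀ k : ℕ} (h0 : 1 ≤ x₀) (hx : x = x₀ + k)
    (h4 : c ≤ (M + 2 * x₀ ^ 16) * (k + 1) ^ 17) :
    c + (1 + x ^ 16) ≤ (M + 2 * x₀ ^ 16) * (k + 1 + 1) ^ 17 := by
  have h5 : x ^ 16 ≤ x₀ ^ 16 * (k + 1) ^ 16 := by
    rw [← mul_pow]
    exact Nat.pow_le_pow_left (by nlinarith) _
  have h6 : 1 ≤ x ^ 16 := Nat.one_le_pow _ _ (by omega)
  have h7 : (k + 1) ^ 16 * (k + 1 + 1) ≤ (k + 1 + 1) ^ 17 := by
    rw [pow_succ _ 16]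
    exact Nat.mul_le_mul_right _ (Nat.pow_le_pow_left (by omega) _)
  calc _ ≤ (M + 2 * x₀ ^ 16) * (k + 1) ^ 17 + (M + 2 * x₀ ^ 16) * (k + 1) ^ 16 := by
        refine add_le_add h4 ?_
        rw [add_mul, mul_assoc]
        omega
    _ = (M + 2 * x₀ ^ 16) * ((k + 1) ^ 16 * (k + 1 + 1)) := by ring
    _ ≤ _ := Nat.mul_le_mul_left _ h7

theorem vert_mass {x : ℝ} (hx : 20 ≤ x) :
    1 / 2 + 10 / (x + 1) ≤ (1 / 2 + 10 / x) * (1 - 9 / x ^ 2) := by
  have h0 : 0 < x := by linarith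
  have e : (1 / 2 + 10 / x) * (1 - 9 / x ^ 2) - (1 / 2 + 10 / (x + 1)) =
      (11 * x ^ 2 - 189 * x - 180) / (2 * x ^ 3 * (x + 1)) := by
    field_simp
    ring
  rw [← sub_nonneg, e]
  exact div_nonneg (by nlinarith) (by positivity)

theorem vert : ∃ c₀ : ℝ, 0 < c₀ ∧ ∃ C : ℕ, ∀ k : ℕ,
    ∃ (ι : Type) (_ : Fintype ι) (_ : DecidableEq ι) (A : Matrix ι ι ℝ),
      1 ≤ Fintype.card ι ∧ Fintype.card ι ≤ C * (k + 1) ^ 17 ∧
      Vert A (0 : (ι → ℤ) →+ Unit) (Fintype.card ι) (Real.exp (-k)) c₀ := by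
  obtain ⟨N, hN⟩ := block_ev
  obtain ⟨x₀, hx₀⟩ := eventually_atTop.1 (hN.and (eventually_ge_atTop 20))
  have h20 : 20 ≤ x₀ := (hx₀ x₀ le_rfl).2
  have hm0 : 0 < ph 1 ^ N x₀ := pow_pos (ph_pos 1) _
  have key : ∀ k : ℕ, ∀ (G : Type) [AddCommGroup G] [Fintype G] [DecidableEq G],
      Fintype.card G = N (x₀ + k) →
      ∃ (ι : Type) (_ : Fintype ι) (_ : DecidableEq ι) (A : Matrix ι ι ℝ) (h : (ι → ℤ) →+ G)
        (R : ℕ), 1 ≤ R ∧ R ≤ x₀ + k ∧ R ≤ Fintype.card ι ∧
        Fintype.card ι ≤ (N x₀ + 2 * x₀ ^ 16) * (k + 1) ^ 17 ∧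
        Vert A h R (Real.exp (-k)) (ph 1 ^ N x₀ * (1 / 2 + 10 / ((x₀ + k : ℕ) : ℝ))) := by
    intro k
    induction k with
    | zero =>
      intro G _ _ _ hG
      obtain ⟨h, H⟩ := vert_base G
      rw [add_zero] at hG
      refine ⟨G, inferInstance, inferInstance, 1, h, 1, le_rfl, by omega, Fintype.card_pos,
        by simp [hG], H.mono (by simp) (by simp) ?_⟩
      rw [hG]
      refine mul_le_of_le_one_right hm0.le ?_
      have h1 : (20 : ℝ) ≤ ((x₀ + 0 : ℕ) : ℝ) := by exact_mod_cast h20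
      have : 10 / ((x₀ + 0 : ℕ) : ℝ) ≤ 1 / 2 := by
        rw [div_le_div_iff₀ (by linarith) two_pos]
        linarith
      linarith
    | succ k ih =>
      intro G' _ _ _ hG'
      obtain ⟨x, hx⟩ : ∃ x, x = x₀ + k := ⟨_, rfl⟩
      obtain ⟨G, _, _, _, hG, hb⟩ := (hx₀ x (by omega)).1
      obtain ⟨ι, _, _, A, h, R, h1, h2, h3, h4, H⟩ := ih G (hx ▸ hG)
      obtain ⟨A', sh, h', H'⟩ := hb G' (hx ▸ hG')
      rw [← hx] at h2 H
      have hx20 : (20 : ℝ) ≤ x := by exact_mod_cast (by omega : 20 ≤ x)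
      have hRx : (R : ℝ) ≤ x := Nat.cast_le.2 h2
      have hmm : 0 ≤ ph 1 ^ N x₀ * (1 / 2 + 10 / (x : ℝ)) :=
        mul_nonneg hm0.le (add_nonneg (by norm_num) (div_nonneg (by norm_num) (by linarith)))
      obtain ⟨A'', h'', H''⟩ := Vert.comp H H' (Nat.cast_nonneg _) hRx hmm
      refine ⟨_, inferInstance, inferInstance, A'', h'', x, by omega, by omega, ?_, ?_,
        H''.mono le_rfl ?_ ?_⟩
      · have := Nat.le_self_pow (by norm_num : 16 ≠ 0) x
        simp only [Fintype.card_sum, Fintype.card_fin]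
        omega
      · simp only [Fintype.card_sum, Fintype.card_fin, Fintype.card_unique]
        exact vert_card (by omega) hx h4
      · rw [← Real.exp_add]
        refine Real.exp_le_exp.2 ?_
        push_cast
        linarith
      · rw [mul_assoc]
        refine mul_le_mul_of_nonneg_left ?_ hm0.le
        have e : ((x₀ + (k + 1) : ℕ) : ℝ) = x + 1 := by rw [hx]; push_cast; ring
        rw [e]
        exact vert_mass hx20
  refine ⟨ph 1 ^ N x₀ * (1 / 2), by positivity, N x₀ + 2 * x₀ ^ 16, fun k => ?_⟩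
  obtain ⟨G, _, _, _, hG, -⟩ := (hx₀ (x₀ + k) (by omega)).1
  obtain ⟨ι, _, _, A, h, R, h1, -, h3, h4, H⟩ := key k G hG
  refine ⟨ι, inferInstance, inferInstance, A, h1.trans h3, h4, ?_⟩
  have H' := H.mono (R' := Fintype.card ι) (m' := ph 1 ^ N x₀ * (1 / 2)) (Nat.cast_le.2 h3)
    le_rfl (mul_le_mul_of_nonneg_left
      (le_add_of_nonneg_right (div_nonneg (by norm_num) (Nat.cast_nonneg _))) hm0.le)
  exact ⟨H'.1, H'.2.1, fun y => (H'.2.2 y).forget⟩

end Crest.Agent.R225
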